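import Vale.Agent.P190.Defs

/-!
The line arrangement: 31 lines `1 + a y + a ^ 3 z`, with 64 triple points and 273 double points,
and the relations of the ring.
-/

noncomputable section

namespace Vale.Agent.P190

open Module

/-- The lines. -/
def Ln : Type := Fin 31

instance : Fintype Ln := inferInstanceAs (Fintype (Fin 31))
instance : DecidableEq Ln := inferInstanceAs (DecidableEq (Fin 31))
instance : LinearOrder Ln := inferInstanceAs (LinearOrder (Fin 31))

/-- The parameter of a line. -/
def cf (i : Ln) : ℤ :=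
  let j : Fin 31 := i
  if j.val < 8 then 3 * (j.val : ℤ) + 1
  else if j.val < 16 then 3 * (j.val : ℤ) + 19 else 4 - 3 * (j.val : ℤ)

/-- The triple points. -/
def Tr : Type := Fin 8 × Fin 8

instance : Fintype Tr := inferInstanceAs (Fintype (Fin 8 × Fin 8))
instance : DecidableEq Tr := inferInstanceAs (DecidableEq (Fin 8 × Fin 8))

/-- First line through a triple point. -/
def ta (T : Tr) : Ln := (⟨T.1.val, by have := T.1.2; omega⟩ : Fin 31)
/-- Second line through a triple point. -/
def tb (T : Tr) : Ln := (⟨8 + T.2.val, by have := T.2.2; omega⟩ : Fin 31)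
/-- Third line through a triple point. -/
def tc (T : Tr) : Ln := (⟨16 + T.1.val + T.2.val, by have := T.1.2; have := T.2.2; omega⟩ : Fin 31)

/-- The lines through a triple point. -/
def tlines (T : Tr) : Finset Ln := {ta T, tb T, tc T}

/-- The double points. -/
def Db : Type := {q : Ln × Ln // q.1 < q.2 ∧ ∀ T : Tr, ¬ (q.1 ∈ tlines T ∧ q.2 ∈ tlines T)}

instance : Fintype Db := by unfold Db; infer_instance
instance : DecidableEq Db := by unfold Db; infer_instance

/-- All the points of the arrangement. -/
abbrev Pt : Type := Db ⊕ Tr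

/-- First line through a point. -/
def pa : Pt → Ln
  | .inl q => q.1.1
  | .inr T => ta T

/-- Second line through a point. -/
def pb : Pt → Ln
  | .inl q => q.1.2
  | .inr T => tb T

/-- The lines through a point. -/
def plines : Pt → Finset Ln
  | .inl q => {q.1.1, q.1.2}
  | .inr T => tlines T

/-- Generators of the ring over the power series ring. -/
inductive Gen : Type
  | u (i : Ln)
  | s (T : Tr)
  | t (T : Tr)
  deriving DecidableEq, Fintype

/-- Degrees of the generators. -/
def wt : Gen → ℕ
  | .u _ => 2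
  | .s _ => 1
  | .t _ => 1

/-- The equation of a line. -/
def ell (R : Type) [CommRing R] (i : Ln) : Bp R :=
  1 + MvPolynomial.C (cf i : R) * MvPolynomial.X 0 + MvPolynomial.C ((cf i : R) ^ 3) * MvPolynomial.X 1

/-- The equation of a line as a fraction. -/
def ellK (k : Type) [Field k] (i : Ln) : Kf k := toK k (ell k i)

/-- Squares of the constants in the parametrisation of the conics. -/
def musq (T : Tr) : Fin 3 → ℤ := ![cf (tb T) - cf (tc T), cf (ta T) - cf (tc T), cf (tb T) - cf (ta T)]

/-- The relations between the generators, in any ring. -/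
structure Rel {E : Type} [Ring E] (L : Ln → E) (μ : Tr → Fin 3 → E) (op : Gen → E) : Prop where
  comm : ∀ j j', Commute (op j) (op j')
  uu : ∀ i, op (.u i) * op (.u i) = L i
  add : ∀ T, op (.s T) * op (.s T) + op (.t T) * op (.t T) = μ T 0 * op (.u (ta T))
  sub : ∀ T, op (.s T) * op (.s T) - op (.t T) * op (.t T) = μ T 1 * op (.u (tb T))
  st : ∀ T, 2 * (op (.s T) * op (.t T)) = μ T 2 * op (.u (tc T))

theorem Rel.map {E E' : Type} [Ring E] [Ring E'] {L : Ln → E} {μ : Tr → Fin 3 → E} {op : Gen → E}
    (h : Rel L μ op) (f : E →+* E') :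
    Rel (fun i => f (L i)) (fun T r => f (μ T r)) (fun j => f (op j)) where
  comm j j' := (h.comm j j').map f
  uu i := by rw [← map_mul, h.uu]
  add T := by rw [← map_mul, ← map_mul, ← map_add, h.add, map_mul]
  sub T := by rw [← map_mul, ← map_mul, ← map_sub, h.sub, map_mul]
  st T := by rw [← map_mul, ← map_mul, ← h.st, map_mul f 2, map_ofNat]

theorem Rel.of_injective {E E' : Type} [Ring E] [Ring E'] {L : Ln → E} {μ : Tr → Fin 3 → E}
    {op : Gen → E} (f : E →+* E') (hf : Function.Injective f)
    (h : Rel (fun i => f (L i)) (fun T r => f (μ T r)) (fun j => f (op j))) : Rel L μ op where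
  comm j j' := hf (by rw [map_mul, map_mul]; exact (h.comm j j').eq)
  uu i := hf (by rw [map_mul]; exact h.uu i)
  add T := hf (by rw [map_add, map_mul, map_mul, map_mul]; exact h.add T)
  sub T := hf (by rw [map_sub, map_mul, map_mul, map_mul]; exact h.sub T)
  st T := hf (by rw [map_mul, map_mul, map_mul, map_ofNat]; exact h.st T)

/-- The relations are homogeneous. -/
theorem Rel.scale {E S : Type} [Ring E] [CommRing S] [Algebra S E] {L : Ln → E}
    {μ : Tr → Fin 3 → E} {op : Gen → E} (h : Rel L μ op) (c : S) :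
    Rel (fun i => c ^ 4 • L i) μ (fun j => c ^ wt j • op j) where
  comm j j' := ((h.comm j j').smul_left _).smul_right _
  uu i := by
    simp only [wt, smul_mul_smul_comm, h.uu]; congr 1; ring
  add T := by
    simp only [wt, smul_mul_assoc, pow_one, mul_smul_comm, ← h.add, smul_add, sq, smul_smul]
  sub T := by
    simp only [wt, smul_mul_assoc, pow_one, mul_smul_comm, ← h.sub, smul_sub, sq, smul_smul]
  st T := by
    simp only [wt, smul_mul_assoc, pow_one, mul_smul_comm, ← h.st, sq, smul_smul]

/-- Small nonzero integers are nonzero in `k`. -/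
def BigChar (k : Type) [Field k] : Prop := ∀ n : ℤ, n ≠ 0 → |n| ≤ 1000 → (n : k) ≠ 0

section Dat

variable {k : Type} [Field k]
variable {V : Type} [AddCommGroup V] [Module k V] [Module (Kf k) V] [IsScalarTower k (Kf k) V]

/-- A graded module over the ring, torsion free and finitely generated. -/
structure Dat (μ : Tr → Fin 3 → k) (op : Gen → Module.End (Kf k) V) (E : Fam k V) : Prop where
  rel : Rel (fun i => algebraMap (Kf k) (Module.End (Kf k) V) (ellK k i))
    (fun T r => algebraMap (Kf k) (Module.End (Kf k) V) (algebraMap k (Kf k) (μ T r))) op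
  bdd : E.Bdd
  full : E.Full
  stab : ∀ j, Maps E E (op j) (wt j)

/-- A subspace stable under the operators. -/
def Stab (op : Gen → Module.End (Kf k) V) (U : Submodule (Kf k) V) : Prop :=
  ∀ j, ∀ v ∈ U, op j v ∈ U

/-- Slope semistability. -/
def SS (op : Gen → Module.End (Kf k) V) (E : Fam k V) : Prop :=
  ∀ U, Stab op U → (finrank (Kf k) U : ℤ) * E.m 1 ≤ (finrank (Kf k) V : ℤ) * E.deg U

/-- The Bogomolov type inequality. -/
def BogIneq (E : Fam k V) : Prop :=
  4 * ((finrank (Kf k) V : ℤ) * E.m 2 - E.m 1 ^ 2) < -(finrank (Kf k) V : ℤ) ^ 2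

end Dat

/-- The Bogomolov type inequality holds for all semistable modules of rank `ρ`. -/
def BogRk (k : Type) [Field k] (μ : Tr → Fin 3 → k) (ρ : ℕ) : Prop :=
  ∀ (V : Type) [AddCommGroup V] [Module k V] [Module (Kf k) V] [IsScalarTower k (Kf k) V]
    [FiniteDimensional (Kf k) V] (op : Gen → Module.End (Kf k) V) (E : Fam k V),
    finrank (Kf k) V = ρ → Dat μ op E → SS op E → BogIneq E

/-- The Bogomolov type inequality holds for all nonzero semistable modules. -/
def Bog (k : Type) [Field k] (μ : Tr → Fin 3 → k) : Prop := ∀ ρ, 0 < ρ → BogRk k μ ρ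

/-! Integer facts about the arrangement. -/

theorem card_Ln : Fintype.card Ln = 31 := Fintype.card_fin 31

theorem card_Tr : Fintype.card Tr = 64 := by
  rw [show Fintype.card Tr = Fintype.card (Fin 8 × Fin 8) from rfl]; simp

theorem card_Db : Fintype.card Db = 273 := by decide +kernel

theorem cf_mod (i : Ln) : cf i % 3 = 1 := by revert i; decide +kernel

theorem cf_abs (i : Ln) : |cf i| ≤ 86 := by revert i; decide +kernel

theorem cf_injective : Function.Injective cf := by
  intro i j; revert i j; decide +kernel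

theorem cf_sum (T : Tr) : cf (ta T) + cf (tb T) + cf (tc T) = 0 := by revert T; decide +kernel

theorem ta_ne_tb (T : Tr) : ta T ≠ tb T := by revert T; decide +kernel
theorem ta_ne_tc (T : Tr) : ta T ≠ tc T := by revert T; decide +kernel
theorem tb_ne_tc (T : Tr) : tb T ≠ tc T := by revert T; decide +kernel

theorem pa_ne_pb (P : Pt) : pa P ≠ pb P := by
  rcases P with q | T
  · exact q.2.1.ne
  · exact ta_ne_tb T

theorem pa_mem (P : Pt) : pa P ∈ plines P := by
  rcases P with q | T <;> simp [pa, plines, tlines]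

theorem pb_mem (P : Pt) : pb P ∈ plines P := by
  rcases P with q | T <;> simp [pb, plines, tlines]

theorem sum_zero_aux : ∀ a b d : Ln, a ≠ b → a ≠ d → b ≠ d → cf a + cf b + cf d = 0 →
    ∃ T : Tr, a ∈ tlines T ∧ b ∈ tlines T ∧ d ∈ tlines T := by decide +kernel

theorem tlines_unique : ∀ T T' : Tr, ∀ a b : Ln, a ≠ b → a ∈ tlines T → b ∈ tlines T →
    a ∈ tlines T' → b ∈ tlines T' → T = T' := by
  have : ∀ T T' : Tr, T ≠ T' → ((tlines T).filter (· ∈ tlines T')).card ≤ 1 := by decide +kernel
  intro T T' a b hab h1 h2 h3 h4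
  by_contra hne
  have h := Finset.card_le_one.1 (this T T' hne) a (by simp [h1, h3]) b (by simp [h2, h4])
  exact hab h

/-- A line not through `P` does not vanish at `P`. -/
theorem sum_ne_zero (P : Pt) {d : Ln} (hd : d ∉ plines P) :
    cf (pa P) + cf (pb P) + cf d ≠ 0 := by
  intro h
  obtain ⟨T, h1, h2, h3⟩ := sum_zero_aux (pa P) (pb P) d (pa_ne_pb P)
    (fun e => hd (e ▸ pa_mem P)) (fun e => hd (e ▸ pb_mem P)) h
  rcases P with q | T'
  · exact q.2.2 T ⟨h1, h2⟩
  · have := tlines_unique T T' _ _ (pa_ne_pb (.inr T')) h1 h2 (pa_mem (.inr T'))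
      (pb_mem (.inr T'))
    subst this
    exact hd h3

theorem exists_line_not_mem {P P' : Pt} (h : P ≠ P') : ∃ d ∈ plines P', d ∉ plines P := by
  by_contra hcon
  push Not at hcon
  have ha := hcon _ (pa_mem P')
  have hb := hcon _ (pb_mem P')
  have hab := pa_ne_pb P'
  rcases P with q | T <;> rcases P' with q' | T'
  · apply h
    obtain ⟨⟨a, b⟩, h1, h2⟩ := q
    obtain ⟨⟨a', b'⟩, h3, h4⟩ := q'
    simp only [pa, pb, plines, Finset.mem_insert, Finset.mem_singleton] at ha hb hab h1 h3
    congr 2
    rcases ha with rfl | rfl <;> rcases hb with rfl | rfl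
    · exact absurd rfl hab
    · rfl
    · exact absurd (h1.trans h3) (lt_irrefl _)
    · exact absurd rfl hab
  · have hc := hcon (tc T') (by simp [plines, tlines])
    have h1 := ta_ne_tc T'
    have h2 := tb_ne_tc T'
    simp only [pa, pb, plines, Finset.mem_insert, Finset.mem_singleton] at ha hb hab hc
    rcases ha with ha | ha <;> rcases hb with hb | hb <;> rcases hc with hc | hc <;>
      simp_all
  · exact q'.2.2 T ⟨ha, hb⟩
  · apply h
    rw [tlines_unique T T' _ _ hab ha hb (pa_mem (.inr T')) (pb_mem (.inr T'))]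

theorem exists_double {a b : Ln} (h : a < b) : ∃ P : Pt, a ∈ plines P ∧ b ∈ plines P := by
  by_cases hT : ∃ T : Tr, a ∈ tlines T ∧ b ∈ tlines T
  · obtain ⟨T, h1, h2⟩ := hT
    exact ⟨.inr T, h1, h2⟩
  · exact ⟨.inl ⟨(a, b), h, fun T hT' => hT ⟨T, hT'⟩⟩, by simp [plines], by simp [plines]⟩

theorem cf_ne_zero (i : Ln) : cf i ≠ 0 := by have := cf_mod i; omega

theorem cf_add_ne_zero (i j : Ln) : cf i + cf j ≠ 0 := by
  have := cf_mod i; have := cf_mod j; omega

theorem cf_sub_ne_zero {i j : Ln} (h : i ≠ j) : cf i - cf j ≠ 0 := fun e =>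
  h (cf_injective (by omega))

end Vale.Agent.P190
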