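import Vale.Agent.P190.LM

/-!
Numerical properties of bounded families.
-/

noncomputable section

namespace Vale.Agent.P190

open Module Filter

variable {k : Type} [Field k]
variable {V : Type} [AddCommGroup V] [Module k V] [Module (Kf k) V] [IsScalarTower k (Kf k) V]
variable {V' : Type} [AddCommGroup V'] [Module k V'] [Module (Kf k) V'] [IsScalarTower k (Kf k) V']

namespace Fam

theorem Bdd.mono {G G' : Fam k V} (hb : G'.Bdd) (h : G ≤ G') : G.Bdd := by
  obtain ⟨N, v, d, hle⟩ := hb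
  exact ⟨N, v, d, h.trans hle⟩

theorem bdd_gen {ι : Type} [Fintype ι] (v : ι → V) (d : ι → ℤ) : (gen v d : Fam k V).Bdd := by
  let e := (Fintype.equivFin ι).symm
  refine ⟨_, v ∘ e, d ∘ e, gen_le fun j => ?_⟩
  have := self_mem_gen (k := k) (v ∘ e) (d ∘ e) (e.symm j)
  simpa using this

theorem free_le_gen {ι : Type} [Fintype ι] [DecidableEq ι] (d : ι → ℤ) :
    free k d ≤ gen (fun j => (Pi.single j 1 : ι → Kf k)) d := by
  intro n x hx
  refine mem_gen.2 ⟨x, mem_free.1 hx, ?_⟩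
  ext i
  simp [Pi.single_apply]

theorem bdd_free {ι : Type} [Fintype ι] (d : ι → ℤ) : (free k d).Bdd := by
  classical
  exact (bdd_gen _ d).mono (free_le_gen d)

theorem Bdd.inf {G : Fam k V} (hb : G.Bdd) (U : Submodule (Kf k) V) : (G.inf U).Bdd :=
  hb.mono fun _ _ hv => hv.1

theorem Bdd.map {G : Fam k V} (hb : G.Bdd) (π : V →ₗ[Kf k] V') : (G.map π).Bdd := by
  obtain ⟨N, v, d, hle⟩ := hb
  refine ⟨N, fun j => π (v j), d, ?_⟩
  rintro n _ ⟨w, hw, rfl⟩
  obtain ⟨c, hc, rfl⟩ := mem_gen.1 (hle n hw)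
  exact mem_gen.2 ⟨c, hc, by simp⟩

theorem Bdd.comap {G : Fam k V'} (hb : G.Bdd) (π : V →ₗ[Kf k] V') (hπ : Function.Injective π) :
    (G.comap π).Bdd := by
  obtain ⟨r, hr⟩ := π.exists_leftInverse_of_injective (LinearMap.ker_eq_bot.2 hπ)
  refine (hb.map r).mono fun n v hv => ⟨π v, hv, ?_⟩
  exact LinearMap.congr_fun hr v

theorem Bdd.shift {G : Fam k V} (hb : G.Bdd) (d : ℤ) : (G.shift d).Bdd := by
  obtain ⟨N, v, e, hle⟩ := hb
  refine ⟨N, v, fun j => e j + d, fun n w hw => ?_⟩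
  obtain ⟨c, hc, rfl⟩ := mem_gen.1 (hle _ hw)
  exact mem_gen.2 ⟨c, fun j => A_mono (by omega) (hc j), rfl⟩

theorem Bdd.sup {G G' : Fam k V} (hb : G.Bdd) (hb' : G'.Bdd) : (G.sup G').Bdd := by
  obtain ⟨N, v, d, hle⟩ := hb
  obtain ⟨N', v', d', hle'⟩ := hb'
  refine (bdd_gen (Sum.elim v v') (Sum.elim d d')).mono (sup_le (hle.trans ?_) (hle'.trans ?_))
  · exact gen_le fun j => self_mem_gen (Sum.elim v v') (Sum.elim d d') (Sum.inl j)
  · exact gen_le fun j => self_mem_gen (Sum.elim v v') (Sum.elim d d') (Sum.inr j)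

theorem bdd_of_eq_zero {G : Fam k V} (h : ∀ n, ∀ v ∈ G n, v = 0) : G.Bdd :=
  ⟨0, Fin.elim0, Fin.elim0, fun n v hv => by rw [h n v hv]; exact zero_mem _⟩

theorem Bdd.bsup {ι : Type} {s : Finset ι} {G : ι → Fam k V} (hb : ∀ i ∈ s, (G i).Bdd) :
    (bsup s G).Bdd := by
  classical
  induction s using Finset.induction_on with
  | empty =>
    refine bdd_of_eq_zero fun n v hv => ?_
    obtain ⟨x, -, rfl⟩ := mem_bsup.1 hv
    simp
  | insert a s ha ih =>
    refine ((hb a (by simp)).sup (ih fun i hi => hb i (by simp [hi]))).mono (bsup_le ?_)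
    intro i hi
    rcases Finset.mem_insert.1 hi with rfl | hi
    · exact le_sup_left _ _
    · exact (le_bsup G hi).trans (le_sup_right _ _)

theorem Bdd.adj {G : Fam k V} (hb : G.Bdd) (θ : V →ₗ[Kf k] V) (d : ℤ) : (G.adj θ d).Bdd :=
  hb.sup ((hb.map θ).shift d)

/-- An extension of bounded families is bounded. -/
theorem Bdd.of_ext [FiniteDimensional (Kf k) V'] {G : Fam k V} (π : V →ₗ[Kf k] V')
    (h1 : (G.inf (LinearMap.ker π)).Bdd) (h2 : (G.map π).Bdd) : G.Bdd := by
  obtain ⟨N, w, d, hw⟩ := h2.fg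
  have hmem : ∀ j, w j ∈ G.map π (d j) := fun j => hw ▸ self_mem_gen w d j
  choose v hv hπv using fun j => mem_map.1 (hmem j)
  refine (h1.sup (bdd_gen v d)).mono fun n x hx => ?_
  have : π x ∈ (gen w d : Fam k V') n := hw ▸ (mem_map.2 ⟨x, hx, rfl⟩)
  obtain ⟨c, hc, e⟩ := mem_gen.1 this
  have hg : ∑ j, c j • v j ∈ (gen v d : Fam k V) n := mem_gen.2 ⟨c, hc, rfl⟩
  refine mem_sup.2 ⟨x - ∑ j, c j • v j, ⟨sub_mem hx (gen_le hv n hg), ?_⟩, _, hg, by simp⟩
  change _ ∈ LinearMap.ker π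
  rw [LinearMap.mem_ker, map_sub, ← e]
  simp [hπv]

/-- A bounded family in coordinates lies in a free family after clearing denominators. -/
theorem Bdd.exists_le_free {σ : Type} [Fintype σ] {G : Fam k (σ → Kf k)} (hb : G.Bdd) :
    ∃ (g : Kf k) (e b : ℤ), g ≠ 0 ∧ g ∈ A k e ∧
      ∀ n, ∀ v ∈ G n, g • v ∈ free k (fun _ : σ => b) n := by
  obtain ⟨N, v, d, hle⟩ := hb
  obtain ⟨g, e, hg, he, hge, hv⟩ := exists_common_den (fun x : Fin N × σ => v x.1 x.2)
  refine ⟨g, e, -(∑ j, |d j|) - e, hg, hge, fun n w hw => ?_⟩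
  obtain ⟨c, hc, rfl⟩ := mem_gen.1 (hle n hw)
  refine mem_free.2 fun s => ?_
  simp only [Pi.smul_apply, Finset.sum_apply, smul_eq_mul, Finset.mul_sum]
  refine Submodule.sum_mem _ fun j _ => ?_
  rw [mul_left_comm]
  refine A_mul' (hc j) (hv (j, s)) ?_
  have h2 : |d j| ≤ ∑ j, |d j| :=
    Finset.single_le_sum (f := fun j => |d j|) (fun _ _ => abs_nonneg _) (Finset.mem_univ j)
  have := neg_abs_le (d j)
  linarith

omit [IsScalarTower k (Kf k) V] in
theorem Full.mono {G G' : Fam k V} (hf : G.Full) (h : G ≤ G') : G'.Full := fun v => by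
  obtain ⟨c, hc, n, hn⟩ := hf v
  exact ⟨c, hc, n, h n hn⟩

theorem Full.map {G : Fam k V} (hf : G.Full) (π : V →ₗ[Kf k] V') (hπ : Function.Surjective π) :
    (G.map π).Full := fun w => by
  obtain ⟨v, rfl⟩ := hπ w
  obtain ⟨c, hc, n, hn⟩ := hf v
  exact ⟨c, hc, n, c • v, hn, by simp⟩

theorem Full.comap {G : Fam k V'} (hf : G.Full) (π : V →ₗ[Kf k] V') : (G.comap π).Full :=
  fun v => by
  obtain ⟨c, hc, n, hn⟩ := hf (π v)
  exact ⟨c, hc, n, mem_comap.2 (by simpa using hn)⟩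

theorem full_free {ι : Type} [Fintype ι] (d : ι → ℤ) : (free k d).Full := fun v => by
  obtain ⟨g, e, hg, -, -, hv⟩ := exists_common_den v
  refine ⟨g, hg, e + ∑ j, |d j|, mem_free.2 fun j => A_mono ?_ (hv j)⟩
  have h2 : |d j| ≤ ∑ j, |d j| :=
    Finset.single_le_sum (f := fun j => |d j|) (fun _ _ => abs_nonneg _) (Finset.mem_univ j)
  have := le_abs_self (d j)
  linarith

omit [IsScalarTower k (Kf k) V] in
theorem exists_common_degree {ι : Type} [Fintype ι] (G : Fam k V) (v : ι → V) (n : ι → ℤ)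
    (h : ∀ i, v i ∈ G (n i)) : ∃ b, ∀ i, v i ∈ G b := by
  refine ⟨∑ j, |n j|, fun i => G.mono ?_ (h i)⟩
  have h2 : |n i| ≤ ∑ j, |n j| :=
    Finset.single_le_sum (f := fun j => |n j|) (fun _ _ => abs_nonneg _) (Finset.mem_univ i)
  exact (le_abs_self _).trans h2

omit [IsScalarTower k (Kf k) V] in
/-- A full family contains a basis in a single degree. -/
theorem Full.exists_basis [FiniteDimensional (Kf k) V] {G : Fam k V} (hf : G.Full) :
    ∃ (b : Basis (Fin (finrank (Kf k) V)) (Kf k) V) (n : ℤ), ∀ i, b i ∈ G n := by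
  let b0 := Module.finBasis (Kf k) V
  choose c hc n hn using fun i => hf (b0 i)
  obtain ⟨b, hb⟩ := exists_common_degree G _ n hn
  refine ⟨b0.isUnitSMul fun i => (hc i).isUnit, b, fun i => ?_⟩
  rw [Basis.isUnitSMul_apply]; exact hb i

theorem h_le {G G' : Fam k V} (hb : G'.Bdd) {n n' : ℤ} (h : G n ≤ G' n') : G.h n ≤ G'.h n' := by
  have := hb.finite n'
  unfold Fam.h
  exact_mod_cast Submodule.finrank_mono h

omit [IsScalarTower k (Kf k) V] in
theorem h_nonneg (G : Fam k V) (n : ℤ) : 0 ≤ G.h n := Int.natCast_nonneg _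

omit [IsScalarTower k (Kf k) V] in
theorem h_shift (G : Fam k V) (d : ℤ) : (G.shift d).h = fun n => G.h (n - d) := rfl

theorem finrank_inf_ker_add {W W' : Type} [AddCommGroup W] [Module k W] [AddCommGroup W']
    [Module k W'] (S : Submodule k W) [Module.Finite k S] (f : W →ₗ[k] W') :
    finrank k S = finrank k (S ⊓ LinearMap.ker f : Submodule k W) + finrank k (S.map f) := by
  have h := LinearMap.finrank_range_add_finrank_ker (f.domRestrict S)
  rw [LinearMap.range_domRestrict, LinearMap.ker_domRestrict,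
    ← Submodule.finrank_map_subtype_eq S, Submodule.map_comap_subtype] at h
  omega

theorem h_inf_ker_add {G : Fam k V} (hb : G.Bdd) (π : V →ₗ[Kf k] V') (n : ℤ) :
    G.h n = (G.inf (LinearMap.ker π)).h n + (G.map π).h n := by
  have := hb.finite n
  have h := finrank_inf_ker_add (G n) (π.restrictScalars k)
  unfold Fam.h
  exact_mod_cast h

theorem h_map_of_injective (G : Fam k V) (π : V →ₗ[Kf k] V') (hπ : Function.Injective π) :
    (G.map π).h = G.h := by
  ext n
  unfold Fam.h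
  congr 1
  exact (LinearEquiv.finrank_eq (Submodule.equivMapOfInjective (π.restrictScalars k) hπ (G n))).symm

theorem h_comap_of_injective (G : Fam k V') (π : V →ₗ[Kf k] V') (hπ : Function.Injective π) :
    (G.comap π).h = (G.inf (LinearMap.range π)).h := by
  rw [← h_map_of_injective (G.comap π) π hπ]
  congr 1
  ext n w
  constructor
  · rintro ⟨v, hv, rfl⟩
    exact ⟨hv, v, rfl⟩
  · rintro ⟨hw, v, rfl⟩
    exact ⟨v, hw, rfl⟩

omit [IsScalarTower k (Kf k) V] in
theorem h_le_of_maps {G : Fam k V} {G' : Fam k V'} (hb' : G'.Bdd) (θ : V →ₗ[k] V') {n n' : ℤ}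
    (hθ : ∀ v ∈ G n, θ v ∈ G' n') (hinj : ∀ v ∈ G n, θ v = 0 → v = 0) : G.h n ≤ G'.h n' := by
  have := hb'.finite n'
  unfold Fam.h
  have hi : Function.Injective (θ.restrict hθ) := by
    rw [← LinearMap.ker_eq_bot, eq_bot_iff]
    rintro ⟨v, hv⟩ h
    have : θ v = 0 := congrArg Subtype.val h
    simpa using hinj v hv this
  exact_mod_cast LinearMap.finrank_le_finrank_of_injective hi

theorem h_one : (one k).h = aa := funext fun n => finrank_A n

theorem finrank_pi_submodule {ι : Type} [Fintype ι] {W : Type} [AddCommGroup W] [Module k W]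
    (S : ι → Submodule k W) [∀ i, Module.Finite k (S i)] :
    finrank k (Submodule.pi Set.univ S) = ∑ i, finrank k (S i) := by
  rw [← Module.finrank_pi_fintype]
  refine LinearEquiv.finrank_eq
    { toFun := fun x i => ⟨x.1 i, x.2 i trivial⟩
      map_add' := fun _ _ => rfl
      map_smul' := fun _ _ => rfl
      invFun := fun x => ⟨fun i => x i, fun i _ => (x i).2⟩
      left_inv := fun _ => rfl
      right_inv := fun _ => rfl }

theorem h_free {ι : Type} [Fintype ι] (d : ι → ℤ) (n : ℤ) :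
    (free k d).h n = ∑ j, aa (n - d j) := by
  have := finrank_pi_submodule (k := k) fun j => A k (n - d j)
  unfold Fam.h
  simp only [← finrank_A (k := k)]
  exact_mod_cast this

theorem pair_free {ι : Type} [Fintype ι] (d : ι → ℤ) (w : ℤ → ℤ) :
    pair w (free k d).h = ∑ i, w (d i) := by
  rw [show (free k d).h = fun n => ∑ j, aa (n - d j) from funext (h_free d),
    pair_sum w Finset.univ fun j _ => good_aa.shift (d j)]
  simp only [pair_aa_shift]

theorem m_free {ι : Type} [Fintype ι] (d : ι → ℤ) (j : ℕ) : (free k d).m j = ∑ i, d i ^ j :=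
  pair_free d _

variable [FiniteDimensional (Kf k) V] [FiniteDimensional (Kf k) V']

theorem m_inf_ker_add {G : Fam k V} (hb : G.Bdd) (π : V →ₗ[Kf k] V') (j : ℕ) :
    G.m j = (G.inf (LinearMap.ker π)).m j + (G.map π).m j := by
  unfold Fam.m
  rw [← mom_add j (hb.inf _).good (hb.map π).good]
  congr 1
  exact funext (h_inf_ker_add hb π)

omit [IsScalarTower k (Kf k) V] [FiniteDimensional (Kf k) V] in
theorem m0_shift (G : Fam k V) (d : ℤ) : (G.shift d).m 0 = G.m 0 := mom0_shift G.h d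

theorem m1_shift {G : Fam k V} (hb : G.Bdd) (d : ℤ) : (G.shift d).m 1 = G.m 1 + d * G.m 0 :=
  mom1_shift hb.good d

theorem m2_shift {G : Fam k V} (hb : G.Bdd) (d : ℤ) :
    (G.shift d).m 2 = G.m 2 + 2 * d * G.m 1 + d ^ 2 * G.m 0 := mom2_shift hb.good d

theorem m0_le_of_le {G G' : Fam k V} (hb : G'.Bdd) (h : G ≤ G') : G.m 0 ≤ G'.m 0 :=
  mom0_le (hb.mono h).good hb.good (Eventually.of_forall fun n => h_le hb (h n))

theorem m1_le_of_le {G G' : Fam k V} (hb : G'.Bdd) (h : G ≤ G') (e0 : G.m 0 = G'.m 0) :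
    G'.m 1 ≤ G.m 1 :=
  mom1_le (hb.mono h).good hb.good (Eventually.of_forall fun n => h_le hb (h n)) e0

theorem m2_le_of_le {G G' : Fam k V} (hb : G'.Bdd) (h : G ≤ G') (e0 : G.m 0 = G'.m 0)
    (e1 : G.m 1 = G'.m 1) : G.m 2 ≤ G'.m 2 :=
  mom2_le (hb.mono h).good hb.good (Eventually.of_forall fun n => h_le hb (h n)) e0 e1

theorem m0_le_of_maps {G : Fam k V} {G' : Fam k V'} (hb : G.Bdd) (hb' : G'.Bdd) (θ : V →ₗ[k] V')
    {c : ℤ} (hθ : Maps G G' θ c) (hinj : ∀ n, ∀ v ∈ G n, θ v = 0 → v = 0) : G.m 0 ≤ G'.m 0 := by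
  rw [← m0_shift G c]
  refine mom0_le (hb.shift c).good hb'.good (Eventually.of_forall fun n => ?_)
  refine h_le_of_maps hb' θ (fun v hv => ?_) (fun v hv => hinj _ v hv)
  have := hθ _ v hv
  rwa [sub_add_cancel] at this

theorem m1_le_of_maps {G : Fam k V} {G' : Fam k V'} (hb : G.Bdd) (hb' : G'.Bdd) (θ : V →ₗ[k] V')
    {c : ℤ} (hθ : Maps G G' θ c) (hinj : ∀ n, ∀ v ∈ G n, θ v = 0 → v = 0)
    (e0 : G.m 0 = G'.m 0) : G'.m 1 ≤ G.m 1 + c * G.m 0 := by
  rw [← m1_shift hb c]
  refine mom1_le (hb.shift c).good hb'.good (Eventually.of_forall fun n => ?_)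
    ((m0_shift G c).trans e0)
  refine h_le_of_maps hb' θ (fun v hv => ?_) (fun v hv => hinj _ v hv)
  have := hθ _ v hv
  rwa [sub_add_cancel] at this

theorem m0_full {G : Fam k V} (hb : G.Bdd) (hf : G.Full) : G.m 0 = finrank (Kf k) V := by
  obtain ⟨b, n0, hn0⟩ := hf.exists_basis
  apply le_antisymm
  · obtain ⟨g, e, b0, hg, -, hle⟩ := (hb.map b.equivFun.toLinearMap).exists_le_free
    have h := m0_le_of_maps hb (bdd_free fun _ : Fin (finrank (Kf k) V) => b0)
      ((g • b.equivFun.toLinearMap).restrictScalars k) (c := 0)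
      (fun n v hv => by
        rw [add_zero]
        exact hle n _ ⟨v, hv, rfl⟩)
      (fun n v _ h0 => by
        have : g • b.equivFun v = 0 := h0
        rw [smul_eq_zero] at this
        exact b.equivFun.map_eq_zero_iff.1 (this.resolve_left hg))
    rw [m_free] at h
    simpa using h
  · have h := m0_le_of_maps (bdd_free fun _ : Fin (finrank (Kf k) V) => n0) hb
      (b.equivFun.symm.toLinearMap.restrictScalars k) (c := 0)
      (fun n x hx => by
        rw [add_zero]
        change b.equivFun.symm x ∈ G n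
        rw [Basis.equivFun_symm_apply]
        exact Submodule.sum_mem _ fun i _ => G.smul_mem (mem_free.1 hx i) (hn0 i) (by omega))
      (fun n v _ h0 => b.equivFun.symm.map_eq_zero_iff.1 h0)
    rw [m_free] at h
    simpa using h

/-- The zeroth moment is the rank. -/
theorem m0_eq {G : Fam k V} (hb : G.Bdd) (U : Submodule (Kf k) V) (hle : ∀ n, ∀ v ∈ G n, v ∈ U)
    (hfull : ∀ v ∈ U, ∃ c : Kf k, c ≠ 0 ∧ ∃ n, c • v ∈ G n) : G.m 0 = finrank (Kf k) U := by
  rw [← m0_full (hb.comap U.subtype U.injective_subtype) fun v => hfull v v.2]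
  unfold Fam.m
  rw [h_comap_of_injective G U.subtype U.injective_subtype, U.range_subtype]
  congr 2
  ext n v
  exact ⟨fun h => ⟨h, hle n v h⟩, fun h => h.1⟩

theorem m0_inf {G : Fam k V} (hb : G.Bdd) (hf : G.Full) (U : Submodule (Kf k) V) :
    (G.inf U).m 0 = finrank (Kf k) U := by
  refine m0_eq (hb.inf U) U (fun n v hv => hv.2) fun v hv => ?_
  obtain ⟨c, hc, n, hn⟩ := hf v
  exact ⟨c, hc, n, hn, U.smul_mem c hv⟩

omit [FiniteDimensional (Kf k) V] in
theorem inf_top (G : Fam k V) : G.inf ⊤ = G := by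
  ext n v; exact ⟨fun h => h.1, fun h => ⟨h, trivial⟩⟩

omit [FiniteDimensional (Kf k) V] in
theorem deg_top (G : Fam k V) : G.deg ⊤ = G.m 1 := by
  unfold deg; rw [inf_top]

omit [FiniteDimensional (Kf k) V] in
theorem deg_bot (G : Fam k V) : G.deg ⊥ = 0 := by
  unfold deg Fam.m
  rw [← mom_zero 1]
  congr 1
  ext n
  have : G.inf ⊥ n = ⊥ := by
    rw [eq_bot_iff]; intro v hv; exact hv.2
  unfold Fam.h
  rw [this]; simp

omit [FiniteDimensional (Kf k) V] in
theorem h_sup_add {G G' : Fam k V} (hb : G.Bdd) (hb' : G'.Bdd) (n : ℤ) :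
    (G.sup G').h n + (finrank k (G n ⊓ G' n : Submodule k V) : ℤ) = G.h n + G'.h n := by
  have := hb.finite n
  have := hb'.finite n
  unfold Fam.h
  exact_mod_cast Submodule.finrank_sup_add_finrank_inf_eq (G n) (G' n)

theorem deg_submod {G : Fam k V} (hb : G.Bdd) (hf : G.Full) (U U' : Submodule (Kf k) V) :
    G.deg (U ⊔ U') + G.deg (U ⊓ U') ≤ G.deg U + G.deg U' := by
  have hS := (hb.inf U).sup (hb.inf U')
  have e : ∀ j, ((G.inf U).sup (G.inf U')).m j + (G.inf (U ⊓ U')).m j =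
      (G.inf U).m j + (G.inf U').m j := by
    intro j
    unfold Fam.m
    rw [← mom_add j hS.good (hb.inf _).good, ← mom_add j (hb.inf _).good (hb.inf _).good]
    congr 1
    ext n
    rw [← h_sup_add (hb.inf U) (hb.inf U') n]
    congr 1
    have : G.inf (U ⊓ U') n = G.inf U n ⊓ G.inf U' n := by
      ext v
      exact ⟨fun h => ⟨⟨h.1, h.2.1⟩, ⟨h.1, h.2.2⟩⟩, fun h => ⟨h.1.1, h.1.2, h.2.2⟩⟩
    unfold Fam.h
    rw [this]
  have hle : (G.inf U).sup (G.inf U') ≤ G.inf (U ⊔ U') :=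
    sup_le (fun n v hv => ⟨hv.1, Submodule.mem_sup_left hv.2⟩)
      (fun n v hv => ⟨hv.1, Submodule.mem_sup_right hv.2⟩)
  have e0 := e 0
  rw [m0_inf hb hf, m0_inf hb hf, m0_inf hb hf] at e0
  have e3 := Submodule.finrank_sup_add_finrank_inf_eq U U'
  have := m1_le_of_le (hb.inf _) hle (by rw [m0_inf hb hf]; omega)
  have e1 := e 1
  unfold deg
  omega

omit [FiniteDimensional (Kf k) V] [IsScalarTower k (Kf k) V] in
theorem Closed.symm {G : Fam k V} {f g : Kf k} {d e : ℤ} (h : G.Closed f d g e) :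
    G.Closed g e f d := fun n v h1 h2 => h n v h2 h1

omit [FiniteDimensional (Kf k) V] [IsScalarTower k (Kf k) V] in
theorem Closed.pow_left {G : Fam k V} {f g : Kf k} {d e : ℤ} (h : G.Closed f d g e)
    (hf : f ∈ A k d) (i : ℕ) : G.Closed (f ^ i) (i * d) g e := by
  induction i with
  | zero => intro n v h1 _; simpa using h1
  | succ i ih =>
    intro n v h1 h2
    refine h n v (ih (n + d) (f • v) ?_ ?_) h2
    · rw [← mul_smul, ← pow_succ]
      exact G.mono (by push_cast; linarith) h1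
    · rw [smul_comm]
      exact G.smul_mem hf h2 (by omega)

omit [FiniteDimensional (Kf k) V] [IsScalarTower k (Kf k) V] in
theorem Closed.pow {G : Fam k V} {f g : Kf k} {d e : ℤ} (h : G.Closed f d g e)
    (hf : f ∈ A k d) (hg : g ∈ A k e) (i j : ℕ) :
    G.Closed (f ^ i) (i * d) (g ^ j) (j * e) :=
  ((h.pow_left hf i).symm.pow_left hg j).symm

end Fam

theorem Cop.pow {f g : Kf k} {d e : ℤ} (h : Cop f d g e) (i j : ℕ) :
    Cop (f ^ i) (i * d) (g ^ j) (j * e) :=
  ⟨A_pow h.fmem i, A_pow h.gmem j, pow_ne_zero _ h.fne, pow_ne_zero _ h.gne,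
    h.closed.pow h.fmem h.gmem i j⟩

/-- The pair `x`, `Y`. -/
theorem cop_xy : Cop (1 : Kf k) 1 (yK k) 4 := by
  refine ⟨A_one (by norm_num), yK_mem, one_ne_zero, yK_ne_zero, fun n c h1 h2 => ?_⟩
  rw [one_smul] at h1
  obtain ⟨b, -, rfl⟩ := mem_A.1 h1
  change yK k * toK k b ∈ A k (n + 4) at h2
  rw [yK, ← map_mul, toK_mem_A, mem_Adeg_iff] at h2
  change toK k b ∈ A k n
  rw [toK_mem_A, mem_Adeg_iff]
  by_cases hb : b = 0
  · exact Or.inl hb
  · right
    rcases h2 with h2 | h2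
    · exact absurd h2 (mul_ne_zero (MvPolynomial.X_ne_zero _) hb)
    · rw [MvPolynomial.totalDegree_mul_of_isDomain (MvPolynomial.X_ne_zero _) hb,
        MvPolynomial.totalDegree_X] at h2
      push_cast at h2
      omega

/-- Hilbert function of the ideal generated by a coprime pair. -/
theorem Cop.finrank_sup {f g : Kf k} {d e : ℤ} (h : Cop f d g e) (m : ℤ) :
    (finrank k ((A k (m - d)).map (LinearMap.mulLeft k f) ⊔
      (A k (m - e)).map (LinearMap.mulLeft k g) : Submodule k (Kf k)) : ℤ) =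
      aa (m - d) + aa (m - e) - aa (m - d - e) := by
  have hinj : ∀ c : Kf k, c ≠ 0 → ∀ n,
      (finrank k ((A k n).map (LinearMap.mulLeft k c)) : ℤ) = aa n := by
    intro c hc n
    rw [← finrank_A (k := k), ← LinearEquiv.finrank_eq
      (Submodule.equivMapOfInjective (LinearMap.mulLeft k c) (mul_right_injective₀ hc) (A k n))]
  have e1 := Submodule.finrank_sup_add_finrank_inf_eq ((A k (m - d)).map (LinearMap.mulLeft k f))
    ((A k (m - e)).map (LinearMap.mulLeft k g))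
  have e2 : (A k (m - d)).map (LinearMap.mulLeft k f) ⊓ (A k (m - e)).map (LinearMap.mulLeft k g)
      = (A k (m - d - e)).map (LinearMap.mulLeft k (f * g)) := by
    apply le_antisymm
    · rintro x ⟨⟨a, ha, ea⟩, ⟨b, hb, eb⟩⟩
      simp only [LinearMap.mulLeft_apply] at ea eb
      have hf := h.fne
      refine ⟨b / f, h.closed (m - d - e) (b / f) ?_ ?_, ?_⟩
      · change f * (b / f) ∈ A k _
        rw [mul_div_cancel₀ _ hf]
        exact A_mono (by omega) hb
      · change g * (b / f) ∈ A k _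
        rw [← mul_div_assoc, eb, ← ea, mul_div_cancel_left₀ _ hf]
        exact A_mono (by omega) ha
      · simp only [LinearMap.mulLeft_apply]
        rw [← eb]; field_simp
    · rintro x ⟨a, ha, rfl⟩
      refine ⟨⟨g * a, A_mul' h.gmem ha (by omega), ?_⟩, ⟨f * a, A_mul' h.fmem ha (by omega), ?_⟩⟩
      · simp only [LinearMap.mulLeft_apply]; ring
      · simp only [LinearMap.mulLeft_apply]; ring
  rw [e2] at e1
  have e3 := hinj f h.fne (m - d)
  have e4 := hinj g h.gne (m - e)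
  have e5 := hinj (f * g) (mul_ne_zero h.fne h.gne) (m - d - e)
  omega

namespace Fam

variable {f g : Kf k} {d e : ℤ}

theorem le_sat (G : Fam k V) (hc : Cop f d g e) : G ≤ G.sat hc := fun n v hv =>
  ⟨0, by simpa using hv, by simpa using hv⟩

theorem sat_mono {G G' : Fam k V} (h : G ≤ G') (hc : Cop f d g e) : G.sat hc ≤ G'.sat hc := by
  rintro n v ⟨M, h1, h2⟩
  exact ⟨M, h _ h1, h _ h2⟩

theorem mem_sat_of {G : Fam k V} (hc : Cop f d g e) {n : ℤ} {v : V} (M N : ℕ)
    (h1 : f ^ M • v ∈ G (n + M * d)) (h2 : g ^ N • v ∈ G (n + N * e)) : v ∈ G.sat hc n := by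
  refine ⟨M + N, ?_, ?_⟩
  · rw [pow_add, mul_comm (_ ^ M), mul_smul]
    exact G.smul_mem (A_pow hc.fmem N) h1 (by push_cast; linarith)
  · rw [pow_add, mul_smul]
    exact G.smul_mem (A_pow hc.gmem M) h2 (by push_cast; linarith)

theorem sat_closed (G : Fam k V) (hc : Cop f d g e) : (G.sat hc).Closed f d g e := by
  rintro n v ⟨M, h1, -⟩ ⟨N, -, h2⟩
  refine mem_sat_of hc (M + 1) (N + 1) ?_ ?_
  · rw [pow_succ, mul_smul]; exact G.mono (by push_cast; linarith) h1
  · rw [pow_succ, mul_smul]; exact G.mono (by push_cast; linarith) h2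

theorem Closed.sat_le {G : Fam k V} (hc : Cop f d g e) (h : G.Closed f d g e) : G.sat hc ≤ G := by
  rintro n v ⟨M, h1, h2⟩
  exact h.pow hc.fmem hc.gmem M M n v h1 h2

theorem sat_inf (G : Fam k V) (hc : Cop f d g e) (U : Submodule (Kf k) V) :
    (G.sat hc).inf U = (G.inf U).sat hc := by
  ext n v
  constructor
  · rintro ⟨⟨M, h1, h2⟩, hv⟩
    exact ⟨M, ⟨h1, U.smul_mem _ hv⟩, ⟨h2, U.smul_mem _ hv⟩⟩
  · rintro ⟨M, h1, h2⟩
    exact ⟨⟨M, h1.1, h2.1⟩, (U.smul_mem_iff (pow_ne_zero M hc.fne)).1 h1.2⟩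

theorem closed_free {ι : Type} (b : ι → ℤ) (hc : Cop f d g e) : (free k b).Closed f d g e := by
  intro n v h1 h2
  refine mem_free.2 fun j => hc.closed (n - b j) (v j) ?_ ?_
  · exact A_mono (by omega) (mem_free.1 h1 j)
  · exact A_mono (by omega) (mem_free.1 h2 j)

variable [FiniteDimensional (Kf k) V]

theorem Bdd.sat {G : Fam k V} (hb : G.Bdd) (hc : Cop f d g e) : (G.sat hc).Bdd := by
  let b := Module.finBasis (Kf k) V
  obtain ⟨g0, e0, b0, hg, -, hle⟩ := (hb.map b.equivFun.toLinearMap).exists_le_free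
  let π : V →ₗ[Kf k] (Fin (finrank (Kf k) V) → Kf k) := g0 • b.equivFun.toLinearMap
  have hπ : Function.Injective π := by
    rw [← LinearMap.ker_eq_bot, eq_bot_iff]
    intro v h0
    have : g0 • b.equivFun v = 0 := h0
    rw [smul_eq_zero] at this
    exact b.equivFun.map_eq_zero_iff.1 (this.resolve_left hg)
  have hH : G ≤ (free k fun _ => b0).comap π := fun n v hv => hle n _ ⟨v, hv, rfl⟩
  have hcl : ((free k fun _ => b0).comap π).Closed f d g e := fun n v h1 h2 =>
    closed_free _ hc n (π v) (by simpa [mem_comap] using h1) (by simpa [mem_comap] using h2)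
  exact ((bdd_free _).comap π hπ).mono ((sat_mono hH hc).trans (hcl.sat_le hc))

/-- A quotient killed by a coprime pair does not change the first two moments. -/
theorem m01_eq_of_cop {G G' : Fam k V} (hb : G'.Bdd) (hle : G ≤ G') (hc : Cop f d g e)
    (hf : Maps G' G (f • ·) d) (hg : Maps G' G (g • ·) e) : G.m 0 = G'.m 0 ∧ G.m 1 = G'.m 1 := by
  obtain ⟨N, v, n0, hv⟩ := hb.fg
  have hvm : ∀ j, v j ∈ G' (n0 j) := fun j => hv ▸ self_mem_gen v n0 j
  let κ : ℤ → ℤ := fun m => aa m - (aa (m - d) + aa (m - e) - aa (m - d - e))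
  have hκ : Good κ := good_aa.sub (((good_aa.shift d).add (good_aa.shift e)).sub
    ((good_aa.shift e).shift d))
  have hκ0 : mom 0 κ = 0 := by
    have := mom_aa_shift 0 0
    simp only [sub_zero] at this
    simp only [κ, sub_sub _ d e]
    rw [mom_sub 0 good_aa (((good_aa.shift d).add (good_aa.shift e)).sub (good_aa.shift _)),
      mom_sub 0 ((good_aa.shift d).add (good_aa.shift e)) (good_aa.shift _),
      mom_add 0 (good_aa.shift d) (good_aa.shift e), mom_aa_shift, mom_aa_shift, mom_aa_shift, this]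
    simp
  have hκ1 : mom 1 κ = 0 := by
    have := mom_aa_shift 1 0
    simp only [sub_zero] at this
    simp only [κ, sub_sub _ d e]
    rw [mom_sub 1 good_aa (((good_aa.shift d).add (good_aa.shift e)).sub (good_aa.shift _)),
      mom_sub 1 ((good_aa.shift d).add (good_aa.shift e)) (good_aa.shift _),
      mom_add 1 (good_aa.shift d) (good_aa.shift e), mom_aa_shift, mom_aa_shift, mom_aa_shift, this]
    simp
  have key : ∀ n, G'.h n ≤ G.h n + ∑ j, κ (n - n0 j) := by
    intro n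
    let I : Fin N → Submodule k (Kf k) := fun j =>
      (A k (n - n0 j - d)).map (LinearMap.mulLeft k f) ⊔
        (A k (n - n0 j - e)).map (LinearMap.mulLeft k g)
    have hI : ∀ j, I j ≤ A k (n - n0 j) := by
      intro j
      refine _root_.sup_le ?_ ?_
      · rintro _ ⟨a, ha, rfl⟩; exact A_mul' hc.fmem ha (by omega)
      · rintro _ ⟨a, ha, rfl⟩; exact A_mul' hc.gmem ha (by omega)
    have hIf : ∀ j, Module.Finite k (I j) := fun j => Submodule.finiteDimensional_of_le (hI j)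
    let π : (Fin N → Kf k) →ₗ[k] V ⧸ G n :=
      (G n).mkQ ∘ₗ (Fintype.linearCombination (Kf k) v).restrictScalars k
    have := (bdd_free (k := k) n0).finite n
    have := hb.finite n
    have e1 := finrank_inf_ker_add (free k n0 n) π
    have e2 := finrank_inf_ker_add (G' n) (G n).mkQ
    have e3 : (free k n0 n).map π = (G' n).map (G n).mkQ := by
      rw [Submodule.map_comp, hv]; rfl
    have e4 : G' n ⊓ LinearMap.ker (G n).mkQ = G n := by
      rw [Submodule.ker_mkQ]; exact inf_eq_right.2 (hle n)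
    have e5 : Submodule.pi Set.univ I ≤ free k n0 n ⊓ LinearMap.ker π := by
      intro x hx
      refine ⟨mem_free.2 fun j => hI j (hx j trivial), ?_⟩
      change (G n).mkQ (Fintype.linearCombination (Kf k) v x) = 0
      rw [Submodule.mkQ_apply, Submodule.Quotient.mk_eq_zero, Fintype.linearCombination_apply]
      refine Submodule.sum_mem _ fun j _ => ?_
      obtain ⟨_, ⟨a, ha, rfl⟩, _, ⟨b, hb, rfl⟩, ex⟩ := Submodule.mem_sup.1 (hx j trivial)
      rw [← ex, add_smul]
      simp only [LinearMap.mulLeft_apply]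
      refine add_mem ?_ ?_
      · rw [mul_comm, mul_smul]
        exact G.smul_mem ha (hf _ _ (hvm j)) (by omega)
      · rw [mul_comm, mul_smul]
        exact G.smul_mem hb (hg _ _ (hvm j)) (by omega)
    have e6 := Submodule.finrank_mono e5
    rw [finrank_pi_submodule] at e6
    have e7 := h_free (k := k) n0 n
    have e8 : ∑ j, κ (n - n0 j) = ∑ j, aa (n - n0 j) - ((∑ j, finrank k (I j) : ℕ) : ℤ) := by
      push_cast
      rw [← Finset.sum_sub_distrib]
      refine Finset.sum_congr rfl fun j _ => ?_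
      rw [hc.finrank_sup]
    rw [e3] at e1
    rw [e4] at e2
    unfold Fam.h at *
    omega
  have hG := (hb.mono hle).good
  have hS : Good fun n => ∑ j, κ (n - n0 j) := Good.sum _ fun j _ => hκ.shift _
  have s0 : mom 0 (fun n => ∑ j, κ (n - n0 j)) = 0 := by
    rw [mom_sum 0 _ fun j _ => hκ.shift _]
    simp [mom0_shift, hκ0]
  have s1 : mom 1 (fun n => ∑ j, κ (n - n0 j)) = 0 := by
    rw [mom_sum 1 _ fun j _ => hκ.shift _]
    simp [mom1_shift hκ, hκ0, hκ1]
  have a0 := mom0_le hb.good (hG.add hS) (Eventually.of_forall key)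
  rw [mom_add 0 hG hS, s0] at a0
  have b0 := m0_le_of_le hb hle
  have c0 : G.m 0 = G'.m 0 := by unfold Fam.m at *; omega
  have a1 := mom1_le hb.good (hG.add hS) (Eventually.of_forall key)
    (by rw [mom_add 0 hG hS, s0]; unfold Fam.m at c0; omega)
  rw [mom_add 1 hG hS, s1] at a1
  have b1 := m1_le_of_le hb hle c0
  exact ⟨c0, by unfold Fam.m at *; omega⟩

theorem Bdd.sat_uniform {G : Fam k V} (hb : G.Bdd) (hc : Cop f d g e) :
    ∃ M : ℕ, Maps (G.sat hc) G (f ^ M • ·) (M * d) ∧ Maps (G.sat hc) G (g ^ M • ·) (M * e) := by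
  obtain ⟨N, v, n0, hv⟩ := (hb.sat hc).fg
  have hvm : ∀ j, v j ∈ G.sat hc (n0 j) := fun j => hv ▸ self_mem_gen v n0 j
  choose M hM1 hM2 using fun j => mem_sat.1 (hvm j)
  have hle : ∀ j, M j ≤ ∑ i, M i := fun j =>
    Finset.single_le_sum (f := M) (fun _ _ => Nat.zero_le _) (Finset.mem_univ j)
  have aux : ∀ {f : Kf k} {d : ℤ}, f ∈ A k d → (∀ j, f ^ M j • v j ∈ G (n0 j + M j * d)) →
      Maps (G.sat hc) G (f ^ (∑ i, M i) • ·) ((∑ i, M i : ℕ) * d) := by
    intro f d hf hM n x hx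
    rw [hv] at hx
    obtain ⟨c, hc', rfl⟩ := mem_gen.1 hx
    simp only [Finset.smul_sum]
    refine Submodule.sum_mem _ fun j _ => ?_
    obtain ⟨r, hr⟩ := Nat.exists_eq_add_of_le (hle j)
    rw [hr, smul_comm, pow_add, mul_comm (_ ^ M j), mul_smul, ← mul_smul]
    exact G.smul_mem (A_mul (hc' j) (A_pow hf r)) (hM j) (by push_cast; linarith)
  exact ⟨_, aux hc.fmem hM1, aux hc.gmem hM2⟩

theorem m01_sat {G : Fam k V} (hb : G.Bdd) (hc : Cop f d g e) :
    G.m 0 = (G.sat hc).m 0 ∧ G.m 1 = (G.sat hc).m 1 := by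
  obtain ⟨M, h1, h2⟩ := hb.sat_uniform hc
  exact m01_eq_of_cop (hb.sat hc) (le_sat G hc) (hc.pow M M) h1 h2

theorem m0_sat {G : Fam k V} (hb : G.Bdd) (hc : Cop f d g e) : (G.sat hc).m 0 = G.m 0 :=
  (m01_sat hb hc).1.symm

theorem m1_sat {G : Fam k V} (hb : G.Bdd) (hc : Cop f d g e) : (G.sat hc).m 1 = G.m 1 :=
  (m01_sat hb hc).2.symm

theorem m2_sat {G : Fam k V} (hb : G.Bdd) (hc : Cop f d g e) : G.m 2 ≤ (G.sat hc).m 2 :=
  m2_le_of_le (hb.sat hc) (le_sat G hc) (m01_sat hb hc).1 (m01_sat hb hc).2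

theorem deg_sat {G : Fam k V} (hb : G.Bdd) (hc : Cop f d g e) (U : Submodule (Kf k) V) :
    (G.sat hc).deg U = G.deg U := by
  unfold deg
  rw [sat_inf, m1_sat (hb.inf U)]

end Fam

end Vale.Agent.P190
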