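import Vale.Agent.P190.Arr
import Vale.Agent.P190.FamNum

/-!
The arrangement over a field of large characteristic.
-/

noncomputable section

namespace Vale.Agent.P190

open MvPolynomial

section Poly

variable {R : Type} [CommRing R]

theorem ell_mem (i : Ln) : ell R i ∈ Adeg R 4 := by
  unfold ell
  refine add_mem (add_mem (Adeg_one (by norm_num)) ?_) ?_
  · exact Adeg_mono (by norm_num) (Adeg_mul (Adeg_C _ le_rfl) (Adeg_X 0))
  · exact Adeg_mono (by norm_num) (Adeg_mul (Adeg_C _ le_rfl) (Adeg_X 1))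

theorem ell_coeff_zero (i : Ln) : coeff 0 (ell R i) = 1 := by
  have h1 : ∀ j : Fin 2, ¬ Finsupp.single j 1 = (0 : Fin 2 →₀ ℕ) := fun j h => by
    simpa using DFunLike.congr_fun h j
  simp only [ell, coeff_add, coeff_C_mul, coeff_one, coeff_X, h1, if_false, if_true]
  ring

theorem ell_coeff_y (i : Ln) : coeff (Finsupp.single 0 1) (ell R i) = (cf i : R) := by
  have h1 : ¬ (0 : Fin 2 →₀ ℕ) = Finsupp.single 0 1 := fun h => by
    simpa using DFunLike.congr_fun h 0
  have h2 : ¬ (Finsupp.single 1 1 : Fin 2 →₀ ℕ) = Finsupp.single 0 1 := fun h => by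
    simpa using DFunLike.congr_fun h 0
  simp only [ell, coeff_add, coeff_C_mul, coeff_one, coeff_X, h1, h2, if_false, if_true]
  ring

theorem ell_identity (a b d : Ln) :
    C ((cf a : R) * cf b * (cf b - cf a) * (cf a + cf b)) * ell R d =
      C (((cf b : R) - cf a) * (cf d - cf a) * (cf d - cf b) * (cf a + cf b + cf d)) +
      C ((cf d : R) * cf b ^ 3 - cf d ^ 3 * cf b) * ell R a +
      C ((cf d : R) ^ 3 * cf a - cf d * cf a ^ 3) * ell R b := by
  simp only [ell, map_mul, map_sub, map_add, map_pow]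
  ring

theorem y_identity (a b : Ln) :
    C ((cf a : R) * cf b * (cf b - cf a) * (cf a + cf b)) * (X 0 : Bp R) =
      C ((cf a : R) ^ 3 - cf b ^ 3) + C ((cf b : R) ^ 3) * ell R a +
        C (-(cf a : R) ^ 3) * ell R b := by
  simp only [ell, map_mul, map_sub, map_add, map_pow, map_neg]
  ring

theorem z_identity (a b : Ln) :
    C ((cf a : R) * cf b * (cf b - cf a) * (cf a + cf b)) * (X 1 : Bp R) =
      C ((cf b : R) - cf a) + C (-(cf b : R)) * ell R a + C (cf a : R) * ell R b := by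
  simp only [ell, map_mul, map_sub, map_add, map_pow, map_neg]
  ring

theorem y_line_identity (a : Ln) :
    C (cf a : R) * (X 0 : Bp R) = C (-1) + C 1 * ell R a + C (-(cf a : R) ^ 3) * X 1 := by
  simp only [ell, map_pow, map_neg, map_one]
  ring

theorem triple_identity {a b c : Ln} (h : cf a + cf b + cf c = 0) :
    C ((cf b : R) - cf c) * ell R a =
      C ((cf a : R) - cf c) * ell R b + C ((cf b : R) - cf a) * ell R c := by
  have e : (cf c : R) = -cf a - cf b := by
    have : cf c = -cf a - cf b := by omega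
    rw [this]; push_cast; ring
  simp only [ell, e, map_pow, map_neg, map_sub]
  ring

end Poly

variable {k : Type} [Field k]

theorem ellK_mem (i : Ln) : ellK k i ∈ A k 4 := toK_mem_A.2 (ell_mem i)

theorem ell_ne_zero (i : Ln) : ell k i ≠ 0 := fun h => by
  have := ell_coeff_zero (R := k) i
  rw [h] at this; simp at this

theorem ellK_ne_zero (i : Ln) : ellK k i ≠ 0 := toK_ne_zero (ell_ne_zero i)

theorem BigChar.cf_ne (hk : BigChar k) (i : Ln) : (cf i : k) ≠ 0 :=
  hk _ (cf_ne_zero i) ((cf_abs i).trans (by norm_num))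

theorem BigChar.two_ne (hk : BigChar k) : (2 : k) ≠ 0 := by
  simpa using hk 2 (by norm_num) (by norm_num)

theorem BigChar.sub_ne (hk : BigChar k) {i j : Ln} (h : i ≠ j) : (cf i : k) - cf j ≠ 0 := by
  have h1 := abs_le.1 (cf_abs i)
  have h2 := abs_le.1 (cf_abs j)
  simpa using hk _ (cf_sub_ne_zero h) (abs_le.2 ⟨by omega, by omega⟩)

theorem BigChar.add_ne (hk : BigChar k) (i j : Ln) : (cf i : k) + cf j ≠ 0 := by
  have h1 := abs_le.1 (cf_abs i)
  have h2 := abs_le.1 (cf_abs j)
  simpa using hk _ (cf_add_ne_zero i j) (abs_le.2 ⟨by omega, by omega⟩)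

theorem BigChar.add3_ne (hk : BigChar k) {i j l : Ln} (h : cf i + cf j + cf l ≠ 0) :
    (cf i : k) + cf j + cf l ≠ 0 := by
  have h1 := abs_le.1 (cf_abs i)
  have h2 := abs_le.1 (cf_abs j)
  have h3 := abs_le.1 (cf_abs l)
  simpa using hk _ h (abs_le.2 ⟨by omega, by omega⟩)

theorem BigChar.det_ne (hk : BigChar k) {a b : Ln} (h : a ≠ b) :
    (cf a : k) * cf b * (cf b - cf a) * (cf a + cf b) ≠ 0 :=
  mul_ne_zero (mul_ne_zero (mul_ne_zero (hk.cf_ne a) (hk.cf_ne b)) (hk.sub_ne h.symm))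
    (hk.add_ne a b)

theorem ell_totalDegree (hk : BigChar k) (i : Ln) : (ell k i).totalDegree = 1 := by
  apply le_antisymm
  · rcases mem_Adeg_iff.1 (ell_mem (R := k) i) with h | h
    · exact absurd h (ell_ne_zero i)
    · omega
  · have : Finsupp.single 0 1 ∈ (ell k i).support := by
      rw [mem_support_iff, ell_coeff_y]; exact hk.cf_ne i
    simpa using le_totalDegree this

theorem ell_prime (hk : BigChar k) (i : Ln) : Prime (ell k i) := by
  refine (irreducible_of_totalDegree_eq_one (ell_totalDegree hk i) fun x hx => ?_).prime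
  have := hx 0
  rw [ell_coeff_zero] at this
  exact isUnit_of_dvd_one this

theorem ell_not_dvd (hk : BigChar k) {i j : Ln} (h : i ≠ j) : ¬ ell k i ∣ ell k j := by
  rintro ⟨c, hc⟩
  have hc0 : c ≠ 0 := fun h0 => ell_ne_zero (k := k) j (by rw [hc, h0, mul_zero])
  have hd := totalDegree_mul_of_isDomain (ell_ne_zero (k := k) i) hc0
  rw [← hc, ell_totalDegree hk, ell_totalDegree hk] at hd
  have h0 : c.totalDegree = 0 := by omega
  rw [totalDegree_eq_zero_iff_eq_C] at h0
  rw [h0, mul_comm] at hc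
  have e0 := congrArg (coeff 0) hc
  have e1 := congrArg (coeff (Finsupp.single 0 1)) hc
  rw [coeff_C_mul, ell_coeff_zero, ell_coeff_zero, mul_one] at e0
  rw [coeff_C_mul, ell_coeff_y, ell_coeff_y, ← e0, one_mul] at e1
  exact hk.sub_ne h (by rw [e1, sub_self])

theorem cop_of_isRelPrime {f g : Bp k} {e : ℤ} (hf : f ≠ 0) (hg : g ≠ 0) (hge : g ∈ Adeg k e)
    (h : IsRelPrime f g) : Cop (toK k f) (4 * f.totalDegree) (toK k g) e := by
  refine ⟨toK_mem_A.2 (self_mem_Adeg f), toK_mem_A.2 hge, toK_ne_zero hf, toK_ne_zero hg,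
    fun n c h1 h2 => ?_⟩
  obtain ⟨α, hα, e1⟩ := mem_A.1 h1
  obtain ⟨β, -, e2⟩ := mem_A.1 h2
  rw [smul_eq_mul] at e1 e2
  have e3 : g * α = f * β := toK_injective (by rw [map_mul, map_mul, e1, e2]; ring)
  obtain ⟨γ, rfl⟩ : f ∣ α := h.dvd_of_dvd_mul_left ⟨β, e3⟩
  rw [map_mul] at e1
  have e4 := mul_left_cancel₀ (toK_ne_zero hf) e1
  rw [← e4]
  change toK k γ ∈ A k n
  rw [toK_mem_A, mem_Adeg_iff]
  by_cases hγ : γ = 0
  · exact Or.inl hγ
  · right
    rcases mem_Adeg_iff.1 hα with h0 | h0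
    · exact absurd h0 (mul_ne_zero hf hγ)
    · rw [totalDegree_mul_of_isDomain hf hγ] at h0
      push_cast at h0; omega

/-- The product of all lines. -/
def Lam (k : Type) [Field k] : Kf k := ∏ i, ellK k i

/-- The product of all lines but one. -/
def piK (k : Type) [Field k] (c : Ln) : Kf k := ∏ i ∈ Finset.univ.erase c, ellK k i

/-- The sum of these products. -/
def Spi (k : Type) [Field k] : Kf k := ∑ c, piK k c

theorem prod_ellK_mem (s : Finset Ln) : ∏ i ∈ s, ellK k i ∈ A k (4 * s.card) := by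
  have := A_prod s (c := ellK k) (d := fun _ => 4) fun i _ => ellK_mem i
  simpa [mul_comm] using this

theorem piK_mem (c : Ln) : piK k c ∈ A k 120 := by
  have := prod_ellK_mem (k := k) (Finset.univ.erase c)
  rw [Finset.card_erase_of_mem (Finset.mem_univ c), Finset.card_univ, card_Ln] at this
  exact this

theorem Lam_eq (c : Ln) : Lam k = ellK k c * piK k c :=
  (Finset.mul_prod_erase _ _ (Finset.mem_univ c)).symm

theorem piK_eq {a c : Ln} (h : a ≠ c) : ∃ g ∈ A k 116, piK k c = g * ellK k a := by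
  have ha : a ∈ Finset.univ.erase c := by simp [h]
  refine ⟨∏ i ∈ (Finset.univ.erase c).erase a, ellK k i, ?_, ?_⟩
  · have := prod_ellK_mem (k := k) ((Finset.univ.erase c).erase a)
    rw [Finset.card_erase_of_mem ha, Finset.card_erase_of_mem (Finset.mem_univ c),
      Finset.card_univ, card_Ln] at this
    exact this
  · rw [mul_comm]; exact (Finset.mul_prod_erase _ _ ha).symm

theorem totalDegree_prod_ell (hk : BigChar k) (s : Finset Ln) :
    (∏ i ∈ s, ell k i).totalDegree = s.card := by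
  induction s using Finset.induction_on with
  | empty => simp
  | insert a s ha ih =>
    rw [Finset.prod_insert ha, totalDegree_mul_of_isDomain (ell_ne_zero a)
      (Finset.prod_ne_zero_iff.2 fun i _ => ell_ne_zero i), ih, ell_totalDegree hk,
      Finset.card_insert_of_notMem ha, add_comm]

theorem cop_arr (hk : BigChar k) : Cop (Lam k) 124 (Spi k) 120 := by
  have hnd : ∀ a, ¬ ell k a ∣ ∑ c, ∏ i ∈ Finset.univ.erase c, ell k i := by
    intro a hd
    rw [← Finset.add_sum_erase _ _ (Finset.mem_univ a)] at hd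
    have h1 : ell k a ∣ ∑ c ∈ Finset.univ.erase a, ∏ i ∈ Finset.univ.erase c, ell k i :=
      Finset.dvd_sum fun c hc => Finset.dvd_prod_of_mem _ (by
        simp only [Finset.mem_erase, Finset.mem_univ, and_true] at hc ⊢
        exact hc.symm)
    have h2 := (dvd_add_left h1).1 hd
    obtain ⟨b, hb, h3⟩ := ((ell_prime hk a).dvd_finsetProd_iff _).1 h2
    exact ell_not_dvd hk (Finset.ne_of_mem_erase hb).symm h3
  have hS : Spi k = toK k (∑ c, ∏ i ∈ Finset.univ.erase c, ell k i) := by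
    simp [Spi, piK, ellK, map_sum, map_prod]
  have hL : Lam k = toK k (∏ i, ell k i) := by simp [Lam, ellK, map_prod]
  have h := cop_of_isRelPrime (f := ∏ i, ell k i) (g := ∑ c, ∏ i ∈ Finset.univ.erase c, ell k i)
    (e := 120) (Finset.prod_ne_zero_iff.2 fun i _ => ell_ne_zero i)
    (fun h0 => hnd (ta (0, 0)) (by rw [h0]; exact dvd_zero _))
    (by rw [← toK_mem_A, ← hS]; exact Submodule.sum_mem _ fun c _ => piK_mem c)
    (IsRelPrime.prod_left fun i _ => (ell_prime hk i).irreducible.isRelPrime_iff_not_dvd.2 (hnd i))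
  rw [totalDegree_prod_ell hk, Finset.card_univ, card_Ln, ← hS, ← hL] at h
  exact h

theorem toK_C (r : k) : toK k (C r) = algebraMap k (Kf k) r := (toK k).commutes r

theorem solve3 {δ α β γ : k} (hδ : δ ≠ 0) {x f g : Bp k}
    (h : C δ * x = C α + C β * f + C γ * g) :
    ∃ a b c : k, toK k x = a • (1 : Kf k) + b • toK k f + c • toK k g := by
  refine ⟨δ⁻¹ * α, δ⁻¹ * β, δ⁻¹ * γ, ?_⟩
  have h1 := congrArg (toK k) h
  simp only [map_mul, map_add, toK_C] at h1
  have h2 : algebraMap k (Kf k) δ ≠ 0 := by simpa using hδ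
  simp only [Algebra.smul_def, map_mul, map_inv₀]
  field_simp
  linear_combination h1

theorem y_pair (hk : BigChar k) {a b : Ln} (h : a ≠ b) :
    ∃ α β γ : k, yK k = α • (1 : Kf k) + β • ellK k a + γ • ellK k b :=
  solve3 (hk.det_ne h) (y_identity a b)

theorem z_pair (hk : BigChar k) {a b : Ln} (h : a ≠ b) :
    ∃ α β γ : k, zK k = α • (1 : Kf k) + β • ellK k a + γ • ellK k b :=
  solve3 (hk.det_ne h) (z_identity a b)

theorem y_line (hk : BigChar k) (a : Ln) :
    ∃ α β γ : k, yK k = α • (1 : Kf k) + β • ellK k a + γ • zK k :=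
  solve3 (hk.cf_ne a) (y_line_identity a)

theorem ell_triple (hk : BigChar k) {a b c : Ln} (h : cf a + cf b + cf c = 0) (hbc : b ≠ c) :
    ∃ β γ : k, ellK k a = β • ellK k b + γ • ellK k c := by
  refine ⟨((cf b : k) - cf c)⁻¹ * (cf a - cf c), ((cf b : k) - cf c)⁻¹ * (cf b - cf a), ?_⟩
  have h1 := congrArg (toK k) (triple_identity (R := k) h)
  simp only [map_mul, map_add, toK_C] at h1
  have h2 : algebraMap k (Kf k) ((cf b : k) - cf c) ≠ 0 :=
    (_root_.map_ne_zero _).2 (hk.sub_ne hbc)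
  simp only [Algebra.smul_def, map_mul, map_inv₀, ellK]
  field_simp
  linear_combination h1

theorem mu_relation {μ : Tr → Fin 3 → k} (hμ : ∀ T r, μ T r ^ 2 = (musq T r : k)) (T : Tr) :
    algebraMap k (Kf k) (μ T 0) ^ 2 * ellK k (ta T) =
      algebraMap k (Kf k) (μ T 1) ^ 2 * ellK k (tb T) +
        algebraMap k (Kf k) (μ T 2) ^ 2 * ellK k (tc T) := by
  have h1 := congrArg (toK k) (triple_identity (R := k) (cf_sum T))
  simp only [map_mul, map_add, toK_C] at h1
  simp only [← map_pow, hμ, musq, ellK]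
  simpa using h1

theorem mu_ne_zero (hk : BigChar k) {μ : Tr → Fin 3 → k} (hμ : ∀ T r, μ T r ^ 2 = (musq T r : k))
    (T : Tr) (r : Fin 3) : μ T r ≠ 0 := by
  intro h0
  have h := hμ T r
  rw [h0] at h
  fin_cases r
  · exact hk.sub_ne (tb_ne_tc T) (by simpa [musq] using h.symm)
  · exact hk.sub_ne (ta_ne_tc T) (by simpa [musq] using h.symm)
  · exact hk.sub_ne (ta_ne_tb T).symm (by simpa [musq] using h.symm)

/-- The lines not through `P` do not vanish at `P`. -/
theorem ideal_eq_top (hk : BigChar k) (P : Pt) (J : Ideal (Bp k)) {N1 N2 N3 : ℕ}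
    (h1 : ell k (pa P) ^ N1 ∈ J) (h2 : ell k (pb P) ^ N2 ∈ J)
    (h3 : (∏ d ∈ (plines P)ᶜ, ell k d) ^ N3 ∈ J) : J = ⊤ := by
  by_contra hne
  obtain ⟨M, hM, hle⟩ := Ideal.exists_le_maximal J hne
  have hp := hM.isPrime
  have a1 := hp.mem_of_pow_mem _ (hle h1)
  have a2 := hp.mem_of_pow_mem _ (hle h2)
  have a3 := hp.mem_of_pow_mem _ (hle h3)
  obtain ⟨d, hd, a4⟩ := (Ideal.IsPrime.prod_mem_iff (hp := hp)).1 a3
  rw [Finset.mem_compl] at hd
  have e := ell_identity (R := k) (pa P) (pb P) d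
  have a5 : (C (((cf (pb P) : k) - cf (pa P)) * (cf d - cf (pa P)) * (cf d - cf (pb P)) *
      (cf (pa P) + cf (pb P) + cf d)) : Bp k) ∈ M := by
    rw [← sub_eq_iff_eq_add, ← sub_eq_iff_eq_add] at e
    rw [← e]
    exact sub_mem (sub_mem (M.mul_mem_left _ a4) (M.mul_mem_left _ a2)) (M.mul_mem_left _ a1)
  refine hM.ne_top (M.eq_top_of_isUnit_mem a5 (IsUnit.map C (Ne.isUnit ?_)))
  refine mul_ne_zero (mul_ne_zero (mul_ne_zero (hk.sub_ne (pa_ne_pb P).symm) (hk.sub_ne ?_))
    (hk.sub_ne ?_)) (hk.add3_ne (sum_ne_zero P hd))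
  · exact fun e => hd (e ▸ pa_mem P)
  · exact fun e => hd (e ▸ pb_mem P)

theorem bigChar_of_charP {p : ℕ} [CharP k p] (hp : 1000 < p) : BigChar k := by
  intro n hn hb h0
  rw [CharP.intCast_eq_zero_iff k p] at h0
  have := Int.le_of_dvd (abs_pos.2 hn) ((dvd_abs _ _).2 h0)
  omega

end Vale.Agent.P190
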