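import Vale.Agent.P190.ArrField

/-!
Construction of the Frobenius pullback with its operators.
-/

noncomputable section

namespace Vale.Agent.P190

open Module

variable {k : Type} [Field k]

theorem charP_Kf (p : ℕ) [CharP k p] : CharP (Kf k) p :=
  charP_of_injective_algebraMap (R := k) (algebraMap k (Kf k)).injective p

theorem pbasis_surjective (p : ℕ) [Fact p.Prime] [CharP k p] [PerfectRing k p] (c : Kf k) :
    ∃ f : Fin p × Fin p → Kf k, ∑ ij, (yK k ^ ij.1.val * zK k ^ ij.2.val) * f ij ^ p = c := by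
  classical
  have := charP_Kf (k := k) p
  have hp : 0 < p := (Fact.out : p.Prime).pos
  have hpoly : ∀ a : Bp k, ∃ f : Fin p × Fin p → Kf k,
      ∑ ij, (yK k ^ ij.1.val * zK k ^ ij.2.val) * f ij ^ p = toK k a := by
    intro a
    induction a using MvPolynomial.induction_on' with
    | monomial m r =>
      obtain ⟨s, hs⟩ := (frobeniusEquiv k p).surjective r
      rw [frobeniusEquiv_def] at hs
      let i0 : Fin p × Fin p := (⟨m 0 % p, Nat.mod_lt _ hp⟩, ⟨m 1 % p, Nat.mod_lt _ hp⟩)
      refine ⟨Pi.single i0 (algebraMap k (Kf k) s * yK k ^ (m 0 / p) * zK k ^ (m 1 / p)), ?_⟩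
      rw [Finset.sum_eq_single i0]
      · rw [Pi.single_eq_same, toK_monomial, Algebra.smul_def, ← hs, map_pow]
        conv_rhs => rw [← Nat.mod_add_div (m 0) p, ← Nat.mod_add_div (m 1) p]
        simp only [i0]
        ring
      · intro j _ hj
        rw [Pi.single_eq_of_ne hj, zero_pow hp.ne', mul_zero]
      · simp
    | add a b ha hb =>
      obtain ⟨f, hf⟩ := ha
      obtain ⟨g, hg⟩ := hb
      refine ⟨f + g, ?_⟩
      rw [map_add, ← hf, ← hg, ← Finset.sum_add_distrib]
      refine Finset.sum_congr rfl fun ij _ => ?_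
      rw [Pi.add_apply, add_pow_char, mul_add]
  obtain ⟨a, b, hb, rfl⟩ := IsFractionRing.div_surjective (A := Bp k) c
  have hb0 : toK k b ≠ 0 := toK_ne_zero (nonZeroDivisors.ne_zero hb)
  obtain ⟨f, hf⟩ := hpoly (a * b ^ (p - 1))
  refine ⟨fun ij => f ij * (toK k b)⁻¹, ?_⟩
  have e : ∑ ij : Fin p × Fin p, (yK k ^ ij.1.val * zK k ^ ij.2.val) * (f ij * (toK k b)⁻¹) ^ p =
      (∑ ij : Fin p × Fin p, (yK k ^ ij.1.val * zK k ^ ij.2.val) * f ij ^ p) *
        (toK k b)⁻¹ ^ p := by
    rw [Finset.sum_mul]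
    refine Finset.sum_congr rfl fun ij _ => ?_
    rw [mul_pow]; ring
  rw [e, hf, map_mul, map_pow, ← toK_apply, ← toK_apply]
  obtain ⟨q, rfl⟩ : ∃ q, p = q + 1 := ⟨p - 1, by omega⟩
  rw [Nat.add_sub_cancel, inv_pow, pow_succ]
  field_simp

theorem pbasis_poly (p : ℕ) [Fact p.Prime] [CharP k p] (b : Fin p × Fin p → Bp k)
    (h : ∑ ij : Fin p × Fin p,
      (MvPolynomial.X 0 ^ ij.1.val * MvPolynomial.X 1 ^ ij.2.val) * b ij ^ p = 0)
    (ij : Fin p × Fin p) : b ij = 0 := by
  classical
  have hp : 0 < p := (Fact.out : p.Prime).pos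
  have hmon : ∀ ij : Fin p × Fin p,
      (MvPolynomial.X 0 ^ ij.1.val * MvPolynomial.X 1 ^ ij.2.val : Bp k) =
        MvPolynomial.monomial (Finsupp.single 0 ij.1.val + Finsupp.single 1 ij.2.val) 1 := by
    intro ij
    rw [MvPolynomial.X_pow_eq_monomial, MvPolynomial.X_pow_eq_monomial, MvPolynomial.monomial_mul,
      mul_one]
  ext m
  have h1 := congrArg (MvPolynomial.coeff
    ((Finsupp.single 0 ij.1.val + Finsupp.single 1 ij.2.val) + p • m)) h
  rw [MvPolynomial.coeff_sum, Finset.sum_eq_single ij] at h1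
  · rw [hmon, MvPolynomial.coeff_monomial_mul, one_mul, ← MvPolynomial.map_frobenius_expand,
      MvPolynomial.coeff_map, MvPolynomial.coeff_expand_smul _ hp.ne', MvPolynomial.coeff_zero,
      frobenius_def] at h1
    rw [MvPolynomial.coeff_zero]
    exact pow_eq_zero_iff hp.ne' |>.1 h1
  · intro j _ hj
    rw [hmon, MvPolynomial.coeff_monomial_mul']
    split_ifs with hle
    · rw [one_mul, ← MvPolynomial.map_frobenius_expand, MvPolynomial.coeff_map]
      have h0 := hle 0
      have h1 := hle 1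
      have key : ∀ a b c : ℕ, a < p → b < p → b ≤ a + p * c → p ∣ a + p * c - b → a = b := by
        intro a b c ha hb hle hd
        have h3 : b ≡ a + p * c [MOD p] := (Nat.modEq_iff_dvd' hle).2 hd
        have h4 : b ≡ a [MOD p] := by
          simpa [Nat.ModEq] using h3
        exact (Nat.ModEq.eq_of_lt_of_lt h4 hb ha).symm
      by_cases e0 : ij.1.val = j.1.val
      · have e1 : ij.2.val ≠ j.2.val := fun e1 => hj (Prod.ext (Fin.ext e0.symm) (Fin.ext e1.symm))
        rw [MvPolynomial.coeff_expand_of_not_dvd _ (i := 1), map_zero]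
        intro hd
        apply e1
        refine key _ _ (m 1) ij.2.2 j.2.2 ?_ ?_
        · simpa using h1
        · simpa using hd
      · rw [MvPolynomial.coeff_expand_of_not_dvd _ (i := 0), map_zero]
        intro hd
        apply e0
        refine key _ _ (m 0) ij.1.2 j.1.2 ?_ ?_
        · simpa using h0
        · simpa using hd
    · rfl
  · simp

theorem pbasis_injective (p : ℕ) [Fact p.Prime] [CharP k p] (f : Fin p × Fin p → Kf k)
    (h : ∑ ij, (yK k ^ ij.1.val * zK k ^ ij.2.val) * f ij ^ p = 0) (ij : Fin p × Fin p) :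
    f ij = 0 := by
  obtain ⟨g, d, hg, -, -, hc⟩ := exists_common_den f
  choose b _ hb using fun i => mem_A.1 (hc i)
  have h1 : ∑ ij : Fin p × Fin p,
      (MvPolynomial.X 0 ^ ij.1.val * MvPolynomial.X 1 ^ ij.2.val) * b ij ^ p = 0 := by
    apply toK_injective
    rw [map_zero, map_sum, ← mul_zero (g ^ p), ← h, Finset.mul_sum]
    refine Finset.sum_congr rfl fun ij _ => ?_
    rw [map_mul, map_mul, map_pow, map_pow, map_pow, hb, mul_pow, yK, zK]
    ring
  have h2 := hb ij
  rw [pbasis_poly p b h1 ij, map_zero] at h2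
  exact (mul_eq_zero.1 h2.symm).resolve_left hg

/-- Extraction of `p`-th roots of the generators in a commutative ring. -/
theorem exists_roots {C : Type} [CommRing C] (p q : ℕ) [Fact p.Prime] [CharP C p]
    (hq : p = 2 * q + 1) {h : C} (hh : 2 * h = 1) {L L' : Ln → C} (hL : ∀ i, L i * L' i = 1)
    {μ : Tr → Fin 3 → C} {ν : Tr → C} (hν : ∀ T, μ T 2 * ν T = 1)
    (hμ : ∀ T, μ T 0 ^ 2 * L (ta T) = μ T 1 ^ 2 * L (tb T) + μ T 2 ^ 2 * L (tc T))
    {P : Gen → C} (hP : Rel (fun i => L i ^ p) (fun T r => μ T r ^ p) P) :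
    ∃ op' : Gen → C, Rel L μ op' ∧ ∀ j, op' j ^ p = P j := by
  have h2 : (2 : C) ^ p = 2 := by
    rw [← one_add_one_eq_two, add_pow_char, one_pow]
  have hhp : h ^ p = h := by
    have e : (2 * h) ^ p = 1 := by rw [hh, one_pow]
    rw [mul_pow, h2] at e
    linear_combination h * e - h ^ p * hh
  have h4 : (4 : C) ^ q = 1 := by
    have e : (2 : C) ^ p = 2 * 4 ^ q := by
      rw [hq, pow_succ, pow_mul]; norm_num [mul_comm]
    rw [h2] at e
    linear_combination -h * e - (4 ^ q - 1) * hh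
  -- square roots of the lines
  obtain ⟨u, huu, hup⟩ : ∃ u : Ln → C, (∀ i, u i * u i = L i) ∧ ∀ i, u i ^ p = P (.u i) := by
    have e : ∀ i, (L' i ^ q * P (.u i)) * (L' i ^ q * P (.u i)) = L i := by
      intro i
      have e1 := hP.uu i
      have e2 : (L i * L' i) ^ (2 * q) = 1 := by rw [hL, one_pow]
      simp only [hq] at e1
      calc (L' i ^ q * P (.u i)) * (L' i ^ q * P (.u i))
          = L' i ^ (2 * q) * (P (.u i) * P (.u i)) := by ring
        _ = (L i * L' i) ^ (2 * q) * L i := by rw [e1]; ring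
        _ = L i := by rw [e2, one_mul]
    refine ⟨fun i => L' i ^ q * P (.u i), e, fun i => ?_⟩
    have e2 : (L i * L' i) ^ q = 1 := by rw [hL, one_pow]
    calc (L' i ^ q * P (.u i)) ^ p
        = ((L' i ^ q * P (.u i)) * (L' i ^ q * P (.u i))) ^ q * (L' i ^ q * P (.u i)) := by
          rw [hq]; ring
      _ = (L i * L' i) ^ q * P (.u i) := by rw [e]; ring
      _ = P (.u i) := by rw [e2, one_mul]
  have key : ∀ T : Tr, ∃ s t : C, s * s + t * t = μ T 0 * u (ta T) ∧
      s * s - t * t = μ T 1 * u (tb T) ∧ 2 * (s * t) = μ T 2 * u (tc T) ∧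
      s ^ p = P (.s T) ∧ t ^ p = P (.t T) := by
    intro T
    obtain ⟨a, ha⟩ : ∃ a, a = h * (μ T 0 * u (ta T) + μ T 1 * u (tb T)) := ⟨_, rfl⟩
    obtain ⟨b, hb⟩ : ∃ b, b = h * (μ T 0 * u (ta T) - μ T 1 * u (tb T)) := ⟨_, rfl⟩
    obtain ⟨κ, hκ⟩ : ∃ κ, κ = 4 * ν T ^ 2 * L' (tc T) := ⟨_, rfl⟩
    have e1 := hP.add T
    have e2 := hP.sub T
    have e3 := hP.st T
    have hab0 : a * b = h ^ 2 * (μ T 2 ^ 2 * L (tc T)) := by
      rw [ha, hb]
      linear_combination h ^ 2 * hμ T + h ^ 2 * μ T 0 ^ 2 * huu (ta T) -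
        h ^ 2 * μ T 1 ^ 2 * huu (tb T)
    have hab : a * b * κ = 1 := by
      calc a * b * κ = (2 * h) ^ 2 * (μ T 2 * ν T) ^ 2 * (L (tc T) * L' (tc T)) := by
            rw [hab0, hκ]; ring
        _ = 1 := by rw [hh, hν, hL]; ring
    have hap : a ^ p = P (.s T) * P (.s T) := by
      rw [ha, mul_pow, add_pow_char, mul_pow, mul_pow, hhp, hup, hup, ← e1, ← e2]
      linear_combination (P (.s T) * P (.s T)) * hh
    have hbp : b ^ p = P (.t T) * P (.t T) := by
      rw [hb, mul_pow, sub_pow_char, mul_pow, mul_pow, hhp, hup, hup, ← e1, ← e2]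
      linear_combination (P (.t T) * P (.t T)) * hh
    have hq1 : (a * b * κ) ^ q = 1 := by rw [hab, one_pow]
    have hq2 : (a * b * κ) ^ (2 * q) = 1 := by rw [hab, one_pow]
    have hss : (P (.s T) * b ^ q * κ ^ q) * (P (.s T) * b ^ q * κ ^ q) = a := by
      calc (P (.s T) * b ^ q * κ ^ q) * (P (.s T) * b ^ q * κ ^ q)
          = (P (.s T) * P (.s T)) * (b * κ) ^ (2 * q) := by ring
        _ = (a * b * κ) ^ (2 * q) * a := by rw [← hap, hq]; ring
        _ = a := by rw [hq2, one_mul]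
    have htt : (P (.t T) * a ^ q * κ ^ q) * (P (.t T) * a ^ q * κ ^ q) = b := by
      calc (P (.t T) * a ^ q * κ ^ q) * (P (.t T) * a ^ q * κ ^ q)
          = (P (.t T) * P (.t T)) * (a * κ) ^ (2 * q) := by ring
        _ = (a * b * κ) ^ (2 * q) * b := by rw [← hbp, hq]; ring
        _ = b := by rw [hq2, one_mul]
    refine ⟨P (.s T) * b ^ q * κ ^ q, P (.t T) * a ^ q * κ ^ q, ?_, ?_, ?_, ?_, ?_⟩
    · rw [hss, htt, ha, hb]; linear_combination (μ T 0 * u (ta T)) * hh
    · rw [hss, htt, ha, hb]; linear_combination (μ T 1 * u (tb T)) * hh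
    · have e4 : (μ T 2 * ν T) ^ (2 * q) = 1 := by rw [hν, one_pow]
      have e5 : (L (tc T) * L' (tc T)) ^ q = 1 := by rw [hL, one_pow]
      calc 2 * ((P (.s T) * b ^ q * κ ^ q) * (P (.t T) * a ^ q * κ ^ q))
          = (2 * (P (.s T) * P (.t T))) * (a * b * κ) ^ q * κ ^ q := by ring
        _ = μ T 2 ^ p * u (tc T) ^ p * κ ^ q := by rw [e3, hq1, hup, mul_one]
        _ = 4 ^ q * (μ T 2 * ν T) ^ (2 * q) * ((u (tc T) * u (tc T)) * L' (tc T)) ^ q *
              (μ T 2 * u (tc T)) := by rw [hκ, hq]; ring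
        _ = μ T 2 * u (tc T) := by rw [h4, e4, huu, e5]; ring
    · calc (P (.s T) * b ^ q * κ ^ q) ^ p
          = ((P (.s T) * b ^ q * κ ^ q) * (P (.s T) * b ^ q * κ ^ q)) ^ q *
              (P (.s T) * b ^ q * κ ^ q) := by rw [hq]; ring
        _ = (a * b * κ) ^ q * P (.s T) := by rw [hss]; ring
        _ = P (.s T) := by rw [hq1, one_mul]
    · calc (P (.t T) * a ^ q * κ ^ q) ^ p
          = ((P (.t T) * a ^ q * κ ^ q) * (P (.t T) * a ^ q * κ ^ q)) ^ q *
              (P (.t T) * a ^ q * κ ^ q) := by rw [hq]; ring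
        _ = (a * b * κ) ^ q * P (.t T) := by rw [htt]; ring
        _ = P (.t T) := by rw [hq1, one_mul]
  choose s t h1 h2 h3 h4 h5 using key
  refine ⟨fun j => match j with | .u i => u i | .s T => s T | .t T => t T,
    ⟨fun j j' => Commute.all _ _, huu, h1, h2, h3⟩, fun j => ?_⟩
  cases j with
  | u i => exact hup i
  | s T => exact h4 T
  | t T => exact h5 T

section Frob

variable {K : Type} [Field K] {W : Type} [AddCommGroup W] [Module K W] [FiniteDimensional K W]

/-- The Frobenius pullback of a vector space, in coordinates. -/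
theorem exists_frob_coords (p : ℕ) [Fact p.Prime] [CharP K p] :
    ∃ (φ : W →+ W) (Φ : Module.End K W →+* Module.End K W),
      (∀ v i, (Module.finBasis K W).repr (φ v) i = (Module.finBasis K W).repr v i ^ p) ∧
      (∀ T v, Φ T (φ v) = φ (T v)) ∧
      ∀ c : K, Φ (algebraMap K _ c) = algebraMap K _ (c ^ p) := by
  classical
  set b := Module.finBasis K W
  let φ : W →+ W := b.equivFun.symm.toLinearMap.toAddMonoidHom.comp
    (((frobenius K p).toAddMonoidHom.compLeft _).comp b.equivFun.toLinearMap.toAddMonoidHom)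
  let Φ : Module.End K W →+* Module.End K W :=
    (LinearMap.toMatrixAlgEquiv b).symm.toRingEquiv.toRingHom.comp
      ((frobenius K p).mapMatrix.comp (LinearMap.toMatrixAlgEquiv b).toRingEquiv.toRingHom)
  have hφ : ∀ v i, b.repr (φ v) i = b.repr v i ^ p := by
    intro v i
    have : b.equivFun (φ v) = fun i => b.repr v i ^ p := b.equivFun.apply_symm_apply _
    exact congrFun this i
  have hΦ : ∀ T, LinearMap.toMatrix b b (Φ T) = (LinearMap.toMatrix b b T).map (frobenius K p) :=
    fun T => (LinearMap.toMatrixAlgEquiv b).apply_symm_apply _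
  refine ⟨φ, Φ, hφ, fun T v => ?_, fun c => ?_⟩
  · apply b.repr.injective
    ext i
    have e1 := congrFun (LinearMap.toMatrix_mulVec_repr b b (Φ T) (φ v)) i
    have e2 := congrFun (LinearMap.toMatrix_mulVec_repr b b T v) i
    rw [hφ, ← e1, ← e2, ← frobenius_def, RingHom.map_mulVec, hΦ]
    congr 1
    funext j
    exact hφ v j
  · apply (LinearMap.toMatrix b b).injective
    rw [hΦ, LinearMap.toMatrix_algebraMap, LinearMap.toMatrix_algebraMap]
    ext i j
    by_cases hij : i = j
    · subst hij; simp [frobenius_def]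
    · simp [Matrix.diagonal_apply_ne _ hij]

end Frob

variable {V : Type} [AddCommGroup V] [Module k V] [Module (Kf k) V] [IsScalarTower k (Kf k) V]
  [FiniteDimensional (Kf k) V]

open scoped IsMulCommutative in
theorem exists_frob (p : ℕ) [Fact p.Prime] [CharP k p] [PerfectRing k p] (hk : BigChar k)
    {μ : Tr → Fin 3 → k} (hμ : ∀ T r, μ T r ^ 2 = (musq T r : k)) [Nontrivial V]
    {op : Gen → Module.End (Kf k) V}
    (hrel : Rel (fun i => algebraMap (Kf k) (Module.End (Kf k) V) (ellK k i))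
      (fun T r => algebraMap (Kf k) (Module.End (Kf k) V) (algebraMap k (Kf k) (μ T r))) op) :
    ∃ (φ : V →+ V) (C : Type) (_ : CommRing C) (_ : Algebra (Kf k) C) (_ : CharP C p)
      (r : C →ₐ[Kf k] Module.End (Kf k) V) (op' : Gen → C),
      (∀ (c : Kf k) v, φ (c • v) = c ^ p • φ v) ∧
      Function.Bijective (fun f : Fin p × Fin p → V =>
        ∑ ij, (yK k ^ ij.1.val * zK k ^ ij.2.val) • φ (f ij)) ∧
      Rel (fun i => algebraMap (Kf k) C (ellK k i))
        (fun T j => algebraMap (Kf k) C (algebraMap k (Kf k) (μ T j))) op' ∧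
      ∀ j v, r (op' j ^ p) (φ v) = φ (op j v) := by
  classical
  have := charP_Kf (k := k) p
  obtain ⟨φ, Φ, hφ, hΦ, hΦc⟩ := exists_frob_coords (K := Kf k) (W := V) p
  set b := Module.finBasis (Kf k) V
  have hrel' := hrel.map Φ
  simp only [hΦc] at hrel'
  let C := Algebra.adjoin (Kf k) (Set.range fun j => Φ (op j))
  have : IsMulCommutative C := Algebra.isMulCommutative_adjoin (Kf k) (by
    rintro _ ⟨j, rfl⟩ _ ⟨j', rfl⟩
    exact (hrel'.comm j j').eq)
  have : Nontrivial C := inferInstance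
  have hC : CharP C p := charP_of_injective_algebraMap (algebraMap (Kf k) C).injective p
  let P : Gen → C := fun j => ⟨Φ (op j), Algebra.subset_adjoin ⟨j, rfl⟩⟩
  have hP : Rel (fun i => algebraMap (Kf k) C (ellK k i) ^ p)
      (fun T r => algebraMap (Kf k) C (algebraMap k (Kf k) (μ T r)) ^ p) P := by
    refine Rel.of_injective C.val.toRingHom Subtype.val_injective ?_
    simp only [← map_pow] at hrel' ⊢
    exact hrel'
  have hodd : Odd p := (Fact.out : p.Prime).odd_of_ne_two (by
    rintro rfl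
    exact hk.two_ne (by simpa using CharP.cast_eq_zero k 2))
  obtain ⟨q, hq⟩ := hodd
  have h2 : (2 : Kf k) ≠ 0 := by
    rw [← map_ofNat (algebraMap k (Kf k)) 2]
    exact (_root_.map_ne_zero _).2 hk.two_ne
  obtain ⟨op', hop', hp'⟩ := exists_roots (C := C) p q hq (h := algebraMap (Kf k) C 2⁻¹)
    (by rw [← map_ofNat (algebraMap (Kf k) C) 2, ← map_mul, mul_inv_cancel₀ h2, map_one])
    (L' := fun i => algebraMap (Kf k) C (ellK k i)⁻¹)
    (fun i => by rw [← map_mul, mul_inv_cancel₀ (ellK_ne_zero i), map_one])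
    (ν := fun T => algebraMap (Kf k) C (algebraMap k (Kf k) (μ T 2))⁻¹)
    (fun T => by
      rw [← map_mul, mul_inv_cancel₀ ((_root_.map_ne_zero _).2 (mu_ne_zero hk hμ T 2)), map_one])
    (fun T => by
      simpa only [map_mul, map_add, map_pow] using
        congrArg (algebraMap (Kf k) C) (mu_relation hμ T)) hP
  have hcoord : ∀ (f : Fin p × Fin p → V) i,
      b.repr (∑ ij, (yK k ^ ij.1.val * zK k ^ ij.2.val) • φ (f ij)) i =
        ∑ ij : Fin p × Fin p, (yK k ^ ij.1.val * zK k ^ ij.2.val) * b.repr (f ij) i ^ p := by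
    intro f i
    rw [map_sum, Finsupp.finsetSum_apply]
    refine Finset.sum_congr rfl fun ij _ => ?_
    rw [map_smul, Finsupp.smul_apply, hφ, smul_eq_mul]
  refine ⟨φ, C, inferInstance, inferInstance, hC, C.val, op', fun c v => ?_, ⟨?_, ?_⟩, hop',
    fun j v => ?_⟩
  · apply b.repr.injective
    ext i
    rw [hφ, map_smul, map_smul, Finsupp.smul_apply, Finsupp.smul_apply, hφ, smul_eq_mul,
      smul_eq_mul, mul_pow]
  · intro f g hfg
    have h0 : ∑ ij : Fin p × Fin p, (yK k ^ ij.1.val * zK k ^ ij.2.val) • φ ((f - g) ij) = 0 := by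
      rw [← sub_eq_zero, ← Finset.sum_sub_distrib] at hfg
      rw [← hfg]
      refine Finset.sum_congr rfl fun ij _ => ?_
      rw [Pi.sub_apply, map_sub, smul_sub]
    rw [← sub_eq_zero]
    funext ij
    apply b.repr.injective
    ext i
    have h1 := hcoord (f - g) i
    rw [h0, map_zero, Finsupp.zero_apply] at h1
    simpa using pbasis_injective p (fun ij => b.repr ((f - g) ij) i) h1.symm ij
  · intro v
    choose f hf using fun i => pbasis_surjective (k := k) p (b.repr v i)
    refine ⟨fun ij => b.equivFun.symm fun i => f i ij, ?_⟩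
    apply b.repr.injective
    ext i
    rw [hcoord, ← hf i]
    refine Finset.sum_congr rfl fun ij _ => ?_
    have : b.equivFun (b.equivFun.symm fun i => f i ij) = fun i => f i ij :=
      b.equivFun.apply_symm_apply _
    rw [← congrFun this i]
    rfl
  · rw [hp', ← hΦ]
    rfl

end Vale.Agent.P190
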