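import Vale.Agent.P190.FamNum
import Vale.Agent.P190.Arr

/-!
Slope arguments: closure under a connection, and the Harder Narasimhan induction.
-/

noncomputable section

namespace Vale.Agent.P190

open Module

variable {k : Type} [Field k]
variable {V : Type} [AddCommGroup V] [Module k V] [Module (Kf k) V] [IsScalarTower k (Kf k) V]
  [FiniteDimensional (Kf k) V]

omit [FiniteDimensional (Kf k) V] in
theorem slope_m_sub (G : Fam k V) (U : Submodule (Kf k) V) (U' : Submodule (Kf k) U) (j : ℕ) :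
    ((G.comap U.subtype).inf U').m j = (G.inf (U'.map U.subtype)).m j := by
  have e1 : (G.comap U.subtype).inf U' = (G.inf (U'.map U.subtype)).comap U.subtype := by
    ext n v
    simp only [Fam.mem_inf, Fam.mem_comap]
    refine and_congr_right fun _ => ⟨fun h => ⟨v, h, rfl⟩, ?_⟩
    rintro ⟨w, hw, e⟩
    exact U.subtype_injective e ▸ hw
  have e2 : (G.inf (U'.map U.subtype)).inf (LinearMap.range U.subtype)
      = G.inf (U'.map U.subtype) := by
    ext n v
    simp only [Fam.mem_inf]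
    exact ⟨fun h => h.1, fun h => ⟨h, LinearMap.map_le_range h.2⟩⟩
  rw [e1, Fam.m, Fam.h_comap_of_injective _ _ U.subtype_injective, e2, Fam.m]

omit [FiniteDimensional (Kf k) V] in
theorem slope_m_comap (G : Fam k V) (U : Submodule (Kf k) V) (j : ℕ) :
    (G.comap U.subtype).m j = (G.inf U).m j := by
  rw [Fam.m, Fam.h_comap_of_injective _ _ U.subtype_injective, Submodule.range_subtype, Fam.m]

theorem slope_m_quot {G : Fam k V} (hb : G.Bdd) (U : Submodule (Kf k) V)
    (W : Submodule (Kf k) (V ⧸ U)) (j : ℕ) :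
    (G.inf (W.comap U.mkQ)).m j = (G.inf U).m j + ((G.map U.mkQ).inf W).m j := by
  have e1 : (G.inf (W.comap U.mkQ)).inf (LinearMap.ker U.mkQ) = G.inf U := by
    ext n v
    simp only [Fam.mem_inf, Submodule.ker_mkQ]
    exact ⟨fun h => ⟨h.1.1, h.2⟩, fun h => ⟨⟨h.1, Submodule.le_comap_mkQ U W h.2⟩, h.2⟩⟩
  have e2 : (G.inf (W.comap U.mkQ)).map U.mkQ = (G.map U.mkQ).inf W := by
    ext n v
    simp only [Fam.mem_inf, Fam.mem_map]
    constructor
    · rintro ⟨w, ⟨h1, h2⟩, rfl⟩
      exact ⟨⟨w, h1, rfl⟩, h2⟩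
    · rintro ⟨⟨w, h1, rfl⟩, h2⟩
      exact ⟨w, ⟨h1, h2⟩, rfl⟩
  rw [Fam.m_inf_ker_add (hb.inf _) U.mkQ, e1, e2]

theorem slope_m_split {G : Fam k V} (hb : G.Bdd) (U : Submodule (Kf k) V) (j : ℕ) :
    G.m j = (G.comap U.subtype).m j + (G.map U.mkQ).m j := by
  rw [Fam.m_inf_ker_add hb U.mkQ, Submodule.ker_mkQ, slope_m_comap]

/-- The second fundamental form of a connection compares two subquotients. -/
theorem slope_key {G : Fam k V} (hb : G.Bdd) (hf : G.Full) (D : V →ₗ[k] V) (c : ℕ)
    (hD : Maps G G D c) (hL : ∀ f : Kf k, ∃ g : Kf k, ∀ v, D (f • v) = f • D v + g • v)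
    {P W : Submodule (Kf k) V} (hPW : P ≤ W) :
    ∃ P' W' : Submodule (Kf k) V, (∀ u, u ∈ P' ↔ u ∈ P ∧ D u ∈ W) ∧
      (∀ v, v ∈ W' ↔ ∃ u ∈ P, v - D u ∈ W) ∧
      (finrank (Kf k) W' : ℤ) - finrank (Kf k) W = (finrank (Kf k) P : ℤ) - finrank (Kf k) P' ∧
      G.deg W' - G.deg W ≤
        G.deg P - G.deg P' + c * ((finrank (Kf k) P : ℤ) - finrank (Kf k) P') := by
  let δ : P →ₗ[Kf k] V ⧸ W :=
    { toFun := fun u => W.mkQ (D u)
      map_add' := fun u v => by simp
      map_smul' := fun f u => by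
        obtain ⟨g, hg⟩ := hL f
        have : W.mkQ (g • (u : V)) = 0 := (Submodule.Quotient.mk_eq_zero _).2
          (W.smul_mem _ (hPW u.2))
        rw [Submodule.coe_smul, hg, map_add, this, add_zero, map_smul]
        rfl }
  have hbP := hb.comap P.subtype P.subtype_injective
  have hfP := hf.comap P.subtype
  have hbQ := hb.map W.mkQ
  have hfQ := hf.map W.mkQ W.mkQ_surjective
  have h1 := fun j => Fam.m_inf_ker_add hbP δ j
  have h2 := slope_m_quot hb W (LinearMap.range δ)
  simp only [slope_m_sub, slope_m_comap] at h1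
  have h3 : ((G.comap P.subtype).map δ).m 0 = finrank (Kf k) (LinearMap.range δ) := by
    refine Fam.m0_eq (hbP.map δ) _ ?_ ?_
    · rintro n _ ⟨v, -, rfl⟩
      exact ⟨v, rfl⟩
    · rintro _ ⟨v, rfl⟩
      obtain ⟨a, ha, n, h⟩ := hfP v
      exact ⟨a, ha, n, a • v, h, map_smul δ a v⟩
  have h4 := Fam.m0_inf hbQ hfQ (LinearMap.range δ)
  have h5 := Fam.m1_le_of_maps (hbP.map δ) (hbQ.inf (LinearMap.range δ)) LinearMap.id (c := c)
    (by
      rintro n _ ⟨v, hv, rfl⟩
      exact ⟨⟨D v, hD n v hv, rfl⟩, v, rfl⟩) (fun _ _ _ h => h) (h3.trans h4.symm)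
  have h6 := h1 0
  have h7 := h2 0
  rw [Fam.m0_inf hb hf, Fam.m0_inf hb hf] at h6 h7
  refine ⟨(LinearMap.ker δ).map P.subtype, (LinearMap.range δ).comap W.mkQ, fun u => ?_,
    fun v => ?_, by linarith, ?_⟩
  · constructor
    · rintro ⟨v, hv, rfl⟩
      exact ⟨v.2, (Submodule.Quotient.mk_eq_zero _).1 hv⟩
    · rintro ⟨h, h'⟩
      exact ⟨⟨u, h⟩, (Submodule.Quotient.mk_eq_zero _).2 h', rfl⟩
  · constructor
    · rintro ⟨u, hu⟩
      exact ⟨u, u.2, (Submodule.Quotient.eq _).1 hu.symm⟩
    · rintro ⟨u, hu, h⟩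
      exact ⟨⟨u, hu⟩, ((Submodule.Quotient.eq _).2 h).symm⟩
  · have h8 := h1 1
    have h9 := h2 1
    have h10 : ((G.comap P.subtype).map δ).m 0 =
        (finrank (Kf k) P : ℤ) - finrank (Kf k) ((LinearMap.ker δ).map P.subtype) := by linarith
    rw [h10] at h5
    unfold Fam.deg
    linarith

omit [Module k V] [IsScalarTower k (Kf k) V] in
theorem slope_dim_mono {U W : Submodule (Kf k) V} (h : U ≤ W) :
    (finrank (Kf k) U : ℤ) ≤ finrank (Kf k) W := by exact_mod_cast Submodule.finrank_mono h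

omit [Module k V] [IsScalarTower k (Kf k) V] in
theorem slope_dim_sup (U W : Submodule (Kf k) V) :
    (finrank (Kf k) (U ⊔ W : Submodule (Kf k) V) : ℤ) + finrank (Kf k) (U ⊓ W : Submodule (Kf k) V)
      = finrank (Kf k) U + finrank (Kf k) W := by
  exact_mod_cast Submodule.finrank_sup_add_finrank_inf_eq U W

theorem slope_up {G : Fam k V} (hb : G.Bdd) (hf : G.Full) {ι : Type} (D : ι → V →ₗ[k] V)
    (c : ℕ) (hD : ∀ i, Maps G G (D i) c)
    (hL : ∀ i (f : Kf k), ∃ g : Kf k, ∀ v, D i (f • v) = f • D i v + g • v) (r : ℤ) (hr : 0 ≤ r)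
    (n : ℕ) : ∀ (U : Submodule (Kf k) V) (b : ℤ), finrank (Kf k) V ≤ finrank (Kf k) U + n →
      (∀ U' ≤ U, r * (G.deg U - G.deg U') ≤ b * ((finrank (Kf k) U : ℤ) - finrank (Kf k) U')) →
      r * G.deg U < b * finrank (Kf k) U →
      ∃ U' : Submodule (Kf k) V, (∀ i, ∀ v ∈ U', D i v ∈ U') ∧
        r * G.deg U' < (b + n * (c * r)) * finrank (Kf k) U' := by
  induction n with
  | zero =>
    intro U b hn _ h2
    refine ⟨U, fun i v _ => ?_, by simpa using h2⟩
    rw [Submodule.eq_top_of_finrank_eq (le_antisymm U.finrank_le hn)]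
    trivial
  | succ n ih =>
    intro U b hn h1 h2
    have hcr : 0 ≤ (c : ℤ) * r := by positivity
    by_cases hs : ∀ i, ∀ v ∈ U, D i v ∈ U
    · refine ⟨U, hs, h2.trans_le (mul_le_mul_of_nonneg_right ?_ (by positivity))⟩
      have : 0 ≤ ((n + 1 : ℕ) : ℤ) * (c * r) := by positivity
      linarith
    · push Not at hs
      obtain ⟨i, v, hv, hv'⟩ := hs
      obtain ⟨-, U1, -, a2, -, -⟩ := slope_key hb hf (D i) c (hD i) (hL i) (le_refl U)
      have hU : U ≤ U1 := fun u hu => (a2 u).2 ⟨0, U.zero_mem, by simpa using hu⟩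
      have hlt : U < U1 := lt_of_le_of_ne hU fun e =>
        hv' (e ▸ (a2 _).2 ⟨v, hv, by simp⟩)
      have top : ∀ W, U ≤ W → W ≤ U1 → r * (G.deg U1 - G.deg W) ≤
          (b + c * r) * ((finrank (Kf k) U1 : ℤ) - finrank (Kf k) W) := by
        intro W hW hW'
        obtain ⟨P', W', b1, b2, b3, b4⟩ := slope_key hb hf (D i) c (hD i) (hL i) hW
        have e : W' = U1 := by
          refine le_antisymm (fun w hw => ?_) fun w hw => ?_
          · obtain ⟨u, hu, h⟩ := (b2 w).1 hw
            simpa using U1.add_mem (hW' h) ((a2 (D i u)).2 ⟨u, hu, by simp⟩)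
          · obtain ⟨u, hu, h⟩ := (a2 w).1 hw
            exact (b2 w).2 ⟨u, hu, hW h⟩
        subst e
        have := h1 P' fun u hu => ((b1 u).1 hu).1
        have := mul_le_mul_of_nonneg_left b4 hr
        rw [b3]
        linarith
      obtain ⟨U', c1, c2⟩ := ih U1 (b + c * r)
        (by have := Submodule.finrank_lt_finrank_of_lt hlt; omega) (fun U' hU' => by
          have d1 := top (U ⊔ U') le_sup_left (sup_le hU hU')
          have d2 := mul_le_mul_of_nonneg_left (Fam.deg_submod hb hf U U') hr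
          have d3 := h1 (U ⊓ U') inf_le_left
          have d4 := slope_dim_sup U U'
          have d5 := mul_le_mul_of_nonneg_left (slope_dim_mono (le_sup_right : U' ≤ U ⊔ U')) hcr
          have d6 : (finrank (Kf k) U : ℤ) - finrank (Kf k) (U ⊓ U' : Submodule (Kf k) V) =
            finrank (Kf k) (U ⊔ U' : Submodule (Kf k) V) - finrank (Kf k) U' := by linarith
          rw [d6] at d3
          linarith) (by
          have d1 := top U le_rfl hU
          have d2 : 0 ≤ c * r * (finrank (Kf k) U : ℤ) := by positivity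
          linarith)
      refine ⟨U', c1, c2.trans_eq ?_⟩
      push_cast
      ring

theorem slope_down {G : Fam k V} (hb : G.Bdd) (hf : G.Full) {ι : Type} (D : ι → V →ₗ[k] V)
    (c : ℕ) (hD : ∀ i, Maps G G (D i) c)
    (hL : ∀ i (f : Kf k), ∃ g : Kf k, ∀ v, D i (f • v) = f • D i v + g • v) (r : ℤ) (hr : 0 ≤ r)
    (n : ℕ) : ∀ (U : Submodule (Kf k) V) (a : ℤ), finrank (Kf k) U ≤ n →
      (∀ W, U ≤ W → a * ((finrank (Kf k) W : ℤ) - finrank (Kf k) U) ≤ r * (G.deg W - G.deg U)) →
      a * ((finrank (Kf k) V : ℤ) - finrank (Kf k) U) < r * (G.m 1 - G.deg U) →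
      ∃ U' : Submodule (Kf k) V, (∀ i, ∀ v ∈ U', D i v ∈ U') ∧
        (a - n * (c * r)) * ((finrank (Kf k) V : ℤ) - finrank (Kf k) U') <
          r * (G.m 1 - G.deg U') := by
  have hV : ∀ U : Submodule (Kf k) V, (finrank (Kf k) U : ℤ) ≤ finrank (Kf k) V := fun U => by
    exact_mod_cast U.finrank_le
  induction n with
  | zero =>
    intro U a hn _ h2
    refine ⟨U, fun i v hv => ?_, by simpa using h2⟩
    rw [Submodule.finrank_eq_zero.1 (Nat.le_zero.1 hn)] at hv ⊢
    rw [(Submodule.mem_bot _).1 hv, map_zero]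
    exact Submodule.zero_mem _
  | succ n ih =>
    intro U a hn h1 h2
    have hcr : 0 ≤ (c : ℤ) * r := by positivity
    by_cases hs : ∀ i, ∀ v ∈ U, D i v ∈ U
    · refine ⟨U, hs, lt_of_le_of_lt (mul_le_mul_of_nonneg_right ?_ (by linarith [hV U])) h2⟩
      have : 0 ≤ ((n + 1 : ℕ) : ℤ) * (c * r) := by positivity
      linarith
    · push Not at hs
      obtain ⟨i, v, hv, hv'⟩ := hs
      obtain ⟨U1, -, a1, -, -, -⟩ := slope_key hb hf (D i) c (hD i) (hL i) (le_refl U)
      have hU : U1 ≤ U := fun u hu => ((a1 u).1 hu).1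
      have hlt : U1 < U := lt_of_le_of_ne hU fun e => hv' ((a1 v).1 (e ▸ hv)).2
      have bot : ∀ W, U1 ≤ W → W ≤ U → (a - c * r) *
          ((finrank (Kf k) W : ℤ) - finrank (Kf k) U1) ≤ r * (G.deg W - G.deg U1) := by
        intro W hW hW'
        obtain ⟨P', W', b1, b2, b3, b4⟩ := slope_key hb hf (D i) c (hD i) (hL i) hW'
        have e : P' = U1 := by
          ext u
          rw [b1, a1]
          exact ⟨fun h => ⟨hW' h.1, h.2⟩, fun h => ⟨hW ((a1 u).2 h), h.2⟩⟩
        subst e
        have h3 := h1 W' fun u hu => (b2 u).2 ⟨0, W.zero_mem, by simpa using hu⟩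
        have := mul_le_mul_of_nonneg_left b4 hr
        rw [b3] at h3
        linarith
      obtain ⟨U', c1, c2⟩ := ih U1 (a - c * r)
        (by have := Submodule.finrank_lt_finrank_of_lt hlt; omega) (fun W hW => by
          have d1 := bot (U ⊓ W) (le_inf hU hW) inf_le_left
          have d2 := mul_le_mul_of_nonneg_left (Fam.deg_submod hb hf U W) hr
          have d3 := h1 (U ⊔ W) le_sup_left
          have d4 := slope_dim_sup U W
          have d5 := mul_le_mul_of_nonneg_left (slope_dim_mono (inf_le_right : U ⊓ W ≤ W)) hcr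
          have d6 : (finrank (Kf k) (U ⊔ W : Submodule (Kf k) V) : ℤ) - finrank (Kf k) U =
            finrank (Kf k) W - finrank (Kf k) (U ⊓ W : Submodule (Kf k) V) := by linarith
          rw [d6] at d3
          linarith) (by
          have d1 := bot U hU le_rfl
          have d2 := mul_le_mul_of_nonneg_left (hV U) hcr
          linarith)
      refine ⟨U', c1, lt_of_eq_of_lt ?_ c2⟩
      push_cast
      ring

theorem closure_lemma {G : Fam k V} (hb : G.Bdd) (hf : G.Full) {ι : Type} (D : ι → V →ₗ[k] V)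
    (c : ℕ) (hD : ∀ i, Maps G G (D i) c)
    (hL : ∀ i (f : Kf k), ∃ g : Kf k, ∀ v, D i (f • v) = f • D i v + g • v)
    (hss : ∀ U : Submodule (Kf k) V, (∀ i, ∀ v ∈ U, D i v ∈ U) →
      (finrank (Kf k) U : ℤ) * G.m 1 ≤ (finrank (Kf k) V : ℤ) * G.deg U)
    (U : Submodule (Kf k) V) :
    (finrank (Kf k) U : ℤ) * (G.m 1 - (c * finrank (Kf k) V : ℕ) * (finrank (Kf k) V : ℤ)) ≤
        (finrank (Kf k) V : ℤ) * G.deg U ∧
      (finrank (Kf k) V : ℤ) * (G.m 1 - G.deg U) ≤
        ((finrank (Kf k) V : ℤ) - finrank (Kf k) U) *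
          (G.m 1 + (c * finrank (Kf k) V : ℕ) * (finrank (Kf k) V : ℤ)) := by
  constructor
  · induction hn : finrank (Kf k) U using Nat.strong_induction_on generalizing U with
    | _ n ih =>
      subst hn
      by_contra hc
      rw [not_le] at hc
      obtain ⟨U', c1, c2⟩ := slope_up hb hf D c hD hL (finrank (Kf k) V) (by positivity)
        (finrank (Kf k) V) U (G.m 1 - (c * finrank (Kf k) V : ℕ) * (finrank (Kf k) V : ℤ))
        (by omega) (fun U' hU' => by
          rcases hU'.eq_or_lt with rfl | h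
          · simp
          · have := ih _ (Submodule.finrank_lt_finrank_of_lt h) U' rfl
            linarith) (by linarith)
      have := hss U' c1
      push_cast at c2
      linarith
  · induction hn : finrank (Kf k) V - finrank (Kf k) U using Nat.strong_induction_on
      generalizing U with
    | _ n ih =>
      subst hn
      by_contra hc
      rw [not_le] at hc
      obtain ⟨U', c1, c2⟩ := slope_down hb hf D c hD hL (finrank (Kf k) V) (by positivity)
        (finrank (Kf k) V) U (G.m 1 + (c * finrank (Kf k) V : ℕ) * (finrank (Kf k) V : ℤ))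
        U.finrank_le (fun W hW => by
          rcases hW.eq_or_lt with rfl | h
          · simp
          · have := ih _ (by
              have := Submodule.finrank_lt_finrank_of_lt h
              have := W.finrank_le
              omega) W rfl
            linarith) (by linarith)
      have := hss U' c1
      push_cast at c2
      linarith

theorem Rel.slope_transfer {E E' : Type} [Ring E] [Ring E'] {L : Ln → E} {μ : Tr → Fin 3 → E}
    {op : Gen → E} (h : Rel L μ op) {L' : Ln → E'} {μ' : Tr → Fin 3 → E'} {op' : Gen → E'}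
    (T : E → E' → Prop) (hmul : ∀ {a a' b b'}, T a a' → T b b' → T (a * b) (a' * b'))
    (hadd : ∀ {a a' b b'}, T a a' → T b b' → T (a + b) (a' + b'))
    (hsub : ∀ {a a' b b'}, T a a' → T b b' → T (a - b) (a' - b'))
    (hfun : ∀ {a a' b'}, T a a' → T a b' → a' = b') (hL : ∀ i, T (L i) (L' i))
    (hμ : ∀ i r, T (μ i r) (μ' i r)) (hop : ∀ j, T (op j) (op' j)) : Rel L' μ' op' where
  comm j j' := hfun (hmul (hop j) (hop j')) ((h.comm j j').eq ▸ hmul (hop j') (hop j))
  uu i := hfun (hmul (hop _) (hop _)) (h.uu i ▸ hL i)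
  add t := hfun (hadd (hmul (hop _) (hop _)) (hmul (hop _) (hop _)))
    (h.add t ▸ hmul (hμ _ _) (hop _))
  sub t := hfun (hsub (hmul (hop _) (hop _)) (hmul (hop _) (hop _)))
    (h.sub t ▸ hmul (hμ _ _) (hop _))
  st t := by
    have := h.st t
    rw [two_mul] at this ⊢
    exact hfun (hadd (hmul (hop _) (hop _)) (hmul (hop _) (hop _))) (this ▸ hmul (hμ _ _) (hop _))

omit [FiniteDimensional (Kf k) V] in
theorem Dat.slope_sub {μ : Tr → Fin 3 → k} {op : Gen → Module.End (Kf k) V} {E : Fam k V}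
    (hD : Dat μ op E) {U : Submodule (Kf k) V} (hU : Stab op U) :
    Dat μ (fun j => (op j).restrict (hU j)) (E.comap U.subtype) := by
  refine ⟨hD.rel.slope_transfer (fun f f' => ∀ u : U, (f' u : V) = f u) ?_ ?_ ?_ ?_
    (fun _ _ => rfl) (fun _ _ _ => rfl) (fun _ _ => rfl),
    hD.bdd.comap _ U.subtype_injective, hD.full.comap _, fun j n v hv => hD.stab j n _ hv⟩
  · intro a a' b b' h h' u
    rw [Module.End.mul_apply, Module.End.mul_apply, h, h']
  · intro a a' b b' h h' u
    rw [LinearMap.add_apply, LinearMap.add_apply, Submodule.coe_add, h, h']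
  · intro a a' b b' h h' u
    rw [LinearMap.sub_apply, LinearMap.sub_apply, Submodule.coe_sub, h, h']
  · intro a a' b' h h'
    exact LinearMap.ext fun u => Subtype.ext ((h u).trans (h' u).symm)

omit [FiniteDimensional (Kf k) V] in
theorem Dat.slope_quot {μ : Tr → Fin 3 → k} {op : Gen → Module.End (Kf k) V} {E : Fam k V}
    (hD : Dat μ op E) {U : Submodule (Kf k) V} (hU : Stab op U) :
    Dat μ (fun j => U.mapQ U (op j) (hU j)) (E.map U.mkQ) := by
  refine ⟨hD.rel.slope_transfer (fun f f' => ∀ v, f' (U.mkQ v) = U.mkQ (f v)) ?_ ?_ ?_ ?_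
    (fun _ _ => rfl) (fun _ _ _ => rfl) (fun _ _ => rfl),
    hD.bdd.map _, hD.full.map _ U.mkQ_surjective, ?_⟩
  · intro a a' b b' h h' u
    rw [Module.End.mul_apply, Module.End.mul_apply, h', h]
  · intro a a' b b' h h' u
    rw [LinearMap.add_apply, LinearMap.add_apply, map_add, h, h']
  · intro a a' b b' h h' u
    rw [LinearMap.sub_apply, LinearMap.sub_apply, map_sub, h, h']
  · intro a a' b' h h'
    refine LinearMap.ext fun u => ?_
    obtain ⟨v, rfl⟩ := U.mkQ_surjective u
    exact (h v).trans (h' v).symm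
  · rintro j n _ ⟨v, hv, rfl⟩
    exact ⟨op j v, hD.stab j n v hv, rfl⟩

theorem slope_hn {μ : Tr → Fin 3 → k} (hB : Bog k μ) (s : ℚ) (ρ : ℕ) :
    ∀ (V : Type) [AddCommGroup V] [Module k V] [Module (Kf k) V] [IsScalarTower k (Kf k) V]
      [FiniteDimensional (Kf k) V] (op : Gen → Module.End (Kf k) V) (E : Fam k V),
      finrank (Kf k) V = ρ → 0 < ρ → Dat μ op E →
      (∀ U, Stab op U → (s - 1 / 2) * finrank (Kf k) U ≤ E.deg U) →
      (∀ U, Stab op U → (E.m 1 : ℚ) - E.deg U ≤ (s + 1 / 2) * (ρ - finrank (Kf k) U)) →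
      (E.m 2 : ℚ) - 2 * s * E.m 1 + s ^ 2 * ρ < 0 := by
  induction ρ using Nat.strong_induction_on with
  | _ ρ ih =>
    intro V _ _ _ _ _ op E hρ h0 hD h1 h2
    have hρ0 : (0 : ℚ) < ρ := by exact_mod_cast h0
    have st : Stab op ⊤ := fun _ _ _ => trivial
    have sb : Stab op ⊥ := fun j v hv => by
      rw [(Submodule.mem_bot _).1 hv, map_zero]; exact Submodule.zero_mem _
    have a1 := h1 ⊤ st
    have a2 := h2 ⊥ sb
    rw [Fam.deg_top, finrank_top, hρ] at a1
    rw [Fam.deg_bot, finrank_bot] at a2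
    simp only [Int.cast_zero, sub_zero, Nat.cast_zero] at a2
    by_cases hs : SS op E
    · have h3 := hB ρ h0 V op E hρ hD hs
      rw [BogIneq, hρ] at h3
      have h4 : 4 * ((ρ : ℚ) * E.m 2 - (E.m 1 : ℚ) ^ 2) < -(ρ : ℚ) ^ 2 := by exact_mod_cast h3
      have h5 : ((E.m 1 : ℚ) - s * ρ) ^ 2 ≤ (ρ / 2) ^ 2 := sq_le_sq' (by linarith) (by linarith)
      by_contra h6
      nlinarith [mul_nonneg hρ0.le (not_lt.1 h6)]
    · obtain ⟨z, ⟨U, hU, rfl⟩, hmin⟩ := Int.exists_least_of_bdd
        (P := fun z => ∃ U, Stab op U ∧ z = ρ * E.deg U - finrank (Kf k) U * E.m 1) (by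
          refine ⟨⌊-(ρ : ℚ) * ρ⌋, ?_⟩
          rintro _ ⟨U, hU, rfl⟩
          have b1 := mul_le_mul_of_nonneg_left (h1 U hU) hρ0.le
          have b2 : (finrank (Kf k) U : ℚ) ≤ ρ := by exact_mod_cast hρ ▸ U.finrank_le
          have b3 : (0 : ℚ) ≤ finrank (Kf k) U := by positivity
          have b4 := mul_le_mul_of_nonneg_left a2 b3
          have b5 := mul_le_mul_of_nonneg_left b2 hρ0.le
          refine Int.floor_le_iff.2 ?_
          push_cast
          linarith) ⟨_, ⊥, sb, rfl⟩
      have hmin' : ∀ W, Stab op W → (ρ : ℚ) * E.deg U - finrank (Kf k) U * E.m 1 ≤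
          ρ * E.deg W - finrank (Kf k) W * E.m 1 := fun W hW => by
        exact_mod_cast hmin _ ⟨W, hW, rfl⟩
      have hneg : (ρ : ℤ) * E.deg U - finrank (Kf k) U * E.m 1 < 0 := by
        by_contra h
        refine hs fun W hW => ?_
        have := hmin _ ⟨W, hW, rfl⟩
        rw [hρ]
        linarith
      have d0 : 0 < finrank (Kf k) U := by
        by_contra h
        rw [Submodule.finrank_eq_zero.1 (Nat.le_zero.1 (not_lt.1 h)), Fam.deg_bot,
          finrank_bot] at hneg
        simp at hneg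
      have d1 : finrank (Kf k) U < ρ := by
        by_contra h
        rw [Submodule.eq_top_of_finrank_eq (le_antisymm U.finrank_le (hρ ▸ not_lt.1 h)),
          Fam.deg_top, finrank_top, hρ] at hneg
        simp at hneg
      have d2 := U.finrank_quotient_add_finrank
      rw [hρ] at d2
      have d3 : (finrank (Kf k) (V ⧸ U) : ℚ) = ρ - finrank (Kf k) U := by
        rw [← d2]; push_cast; ring
      have sp := fun j => slope_m_split hD.bdd U j
      have sU : (E.comap U.subtype).m 1 = E.deg U := slope_m_comap E U 1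
      have stabS : ∀ U' : Submodule (Kf k) U, Stab (fun j => (op j).restrict (hU j)) U' →
          Stab op (U'.map U.subtype) := by
        rintro U' h j _ ⟨v, hv, rfl⟩
        exact ⟨_, h j v hv, rfl⟩
      have degS : ∀ U' : Submodule (Kf k) U,
          (E.comap U.subtype).deg U' = E.deg (U'.map U.subtype) := fun U' => slope_m_sub E U U' 1
      have stabQ : ∀ W : Submodule (Kf k) (V ⧸ U), Stab (fun j => U.mapQ U (op j) (hU j)) W →
          Stab op (W.comap U.mkQ) := fun W h j v hv => h j _ hv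
      have degQ : ∀ W : Submodule (Kf k) (V ⧸ U),
          ((E.map U.mkQ).deg W : ℚ) = E.deg (W.comap U.mkQ) - E.deg U := fun W => by
        have := slope_m_quot hD.bdd U W 1
        unfold Fam.deg
        rw [this]; push_cast; ring
      have dimQ : ∀ W : Submodule (Kf k) (V ⧸ U),
          (finrank (Kf k) W : ℚ) = finrank (Kf k) (W.comap U.mkQ) - finrank (Kf k) U := fun W => by
        have := slope_m_quot hD.bdd U W 0
        rw [Fam.m0_inf hD.bdd hD.full, Fam.m0_inf hD.bdd hD.full,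
          Fam.m0_inf (hD.bdd.map _) (hD.full.map _ U.mkQ_surjective)] at this
        have h' : (finrank (Kf k) (W.comap U.mkQ) : ℚ) = finrank (Kf k) U + finrank (Kf k) W := by
          exact_mod_cast this
        linarith
      have r1 := ih _ d1 U _ _ rfl d0 (hD.slope_sub hU)
        (fun U' h => by
          rw [degS, ← Submodule.finrank_map_subtype_eq]
          exact h1 _ (stabS U' h))
        (fun U' h => by
          rw [degS, sU, ← Submodule.finrank_map_subtype_eq U U']
          have e1 := hmin' _ (stabS U' h)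
          have e2 : (finrank (Kf k) (U'.map U.subtype) : ℚ) ≤ finrank (Kf k) U := by
            exact_mod_cast Submodule.finrank_mono (Submodule.map_subtype_le U U')
          have e3 := mul_le_mul_of_nonneg_left a2 (sub_nonneg.2 e2)
          refine le_of_mul_le_mul_left ?_ hρ0
          linarith)
      have r2 := ih (finrank (Kf k) (V ⧸ U)) (by omega) (V ⧸ U) _ _ rfl (by omega)
        (hD.slope_quot hU)
        (fun W h => by
          rw [degQ, dimQ]
          have e1 := hmin' _ (stabQ W h)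
          have e2 : (finrank (Kf k) U : ℚ) ≤ finrank (Kf k) (W.comap U.mkQ) := by
            exact_mod_cast Submodule.finrank_mono (Submodule.le_comap_mkQ U W)
          have e3 := mul_le_mul_of_nonneg_left a1 (sub_nonneg.2 e2)
          refine le_of_mul_le_mul_left ?_ hρ0
          linarith)
        (fun W h => by
          rw [degQ, dimQ, d3]
          have e1 := h2 _ (stabQ W h)
          have e2 : (E.m 1 : ℚ) = E.deg U + (E.map U.mkQ).m 1 := by
            rw [sp 1, sU]; push_cast; ring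
          linarith)
      rw [d3] at r2
      rw [sp 1, sp 2]
      push_cast
      linarith

theorem hn {μ : Tr → Fin 3 → k} (hB : Bog k μ) {op : Gen → Module.End (Kf k) V} {E : Fam k V}
    (hD : Dat μ op E) (hρ : 0 < finrank (Kf k) V)
    (hmin : ∀ U, Stab op U → ∀ q mQ : ℤ, q = (finrank (Kf k) V : ℤ) - finrank (Kf k) U →
      mQ = E.m 1 - E.deg U →
      0 ≤ (finrank (Kf k) V : ℤ) * (q - 2 * mQ) + 2 * q * E.m 1 - q ^ 2) :
    (finrank (Kf k) V : ℤ) * E.m 2 - E.m 1 ^ 2 < 0 := by
  have hρ0 : (0 : ℚ) < finrank (Kf k) V := by exact_mod_cast hρ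
  obtain ⟨s, hs⟩ : ∃ s : ℚ, s * finrank (Kf k) V = E.m 1 := ⟨_, div_mul_cancel₀ _ hρ0.ne'⟩
  have key : ∀ U, Stab op U → (0 : ℚ) ≤ (finrank (Kf k) V : ℚ) *
      (((finrank (Kf k) V : ℚ) - finrank (Kf k) U) - 2 * (E.m 1 - E.deg U)) +
      2 * ((finrank (Kf k) V : ℚ) - finrank (Kf k) U) * E.m 1 -
      ((finrank (Kf k) V : ℚ) - finrank (Kf k) U) ^ 2 := fun U hU => by
    exact_mod_cast hmin U hU _ _ rfl rfl
  have h := slope_hn hB s _ V op E rfl hρ hD
    (fun U hU => by
      have h1 := key U hU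
      rw [← hs] at h1
      refine le_of_mul_le_mul_left ?_ hρ0
      nlinarith [sq_nonneg (finrank (Kf k) U : ℚ)])
    (fun U hU => by
      have h1 := key U hU
      rw [← hs] at h1 ⊢
      refine le_of_mul_le_mul_left ?_ hρ0
      nlinarith [sq_nonneg ((finrank (Kf k) V : ℚ) - finrank (Kf k) U)])
  have h2 : (finrank (Kf k) V : ℚ) * E.m 2 - (E.m 1 : ℚ) ^ 2 < 0 := by
    have := mul_neg_of_pos_of_neg hρ0 h
    rw [← hs] at this ⊢
    linarith
  exact_mod_cast h2

end Vale.Agent.P190
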