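import Vale.Agent.P190.FamNum

/-!
Koszul count for the number of minimal generators.
-/

noncomputable section

namespace Vale.Agent.P190

open Module

variable {k : Type} [Field k]
variable {V : Type} [AddCommGroup V] [Module k V] [Module (Kf k) V] [IsScalarTower k (Kf k) V]
variable {V' : Type} [AddCommGroup V'] [Module k V'] [Module (Kf k) V'] [IsScalarTower k (Kf k) V']

/-- The multiple of a subspace by a scalar. -/
def mulS (c : Kf k) (P : Submodule k V) : Submodule k V :=
  P.map ((LinearMap.lsmul (Kf k) V c).restrictScalars k)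

theorem mem_mulS {c : Kf k} {P : Submodule k V} {v : V} :
    v ∈ mulS c P ↔ ∃ u ∈ P, c • u = v := Iff.rfl

theorem finrank_mulS {c : Kf k} (hc : c ≠ 0) (P : Submodule k V) :
    finrank k (mulS c P) = finrank k P :=
  (LinearEquiv.finrank_eq (P.equivMapOfInjective _ (smul_right_injective V hc))).symm

instance finite_mulS (c : Kf k) (P : Submodule k V) [Module.Finite k P] :
    Module.Finite k (mulS c P) := by
  unfold mulS; infer_instance

/-- The part generated by `x` and `Y`. -/
def S2 (G : Fam k V) (n : ℤ) : Submodule k V := G (n - 1) ⊔ mulS (yK k) (G (n - 4))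

/-- The decomposable part. -/
def D3 (G : Fam k V) (n : ℤ) : Submodule k V := S2 G n ⊔ mulS (zK k) (G (n - 4))

theorem mem_S2 {G : Fam k V} {n : ℤ} {v : V} :
    v ∈ S2 G n ↔ ∃ a ∈ G (n - 1), ∃ b ∈ G (n - 4), a + yK k • b = v := by
  constructor
  · intro h
    obtain ⟨a, ha, _, ⟨b, hb, rfl⟩, rfl⟩ := Submodule.mem_sup.1 h
    exact ⟨a, ha, b, hb, rfl⟩
  · rintro ⟨a, ha, b, hb, rfl⟩
    exact Submodule.add_mem_sup ha ⟨b, hb, rfl⟩

theorem D3_le (G : Fam k V) (n : ℤ) : D3 G n ≤ G n := by
  refine sup_le (sup_le (G.mono (by omega)) ?_) ?_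
  · rintro _ ⟨u, hu, rfl⟩
    exact G.smul_mem yK_mem hu (by omega)
  · rintro _ ⟨u, hu, rfl⟩
    exact G.smul_mem zK_mem hu (by omega)

theorem finrank_S2 {G : Fam k V} (hb : G.Bdd) (hc : G.Closed 1 1 (yK k) 4) (n : ℤ) :
    (finrank k (S2 G n) : ℤ) = G.h (n - 1) + G.h (n - 4) - G.h (n - 5) := by
  have := hb.finite (n - 1)
  have := hb.finite (n - 4)
  have h1 := Submodule.finrank_sup_add_finrank_inf_eq (G (n - 1)) (mulS (yK k) (G (n - 4)))
  have h2 : G (n - 1) ⊓ mulS (yK k) (G (n - 4)) = mulS (yK k) (G (n - 5)) := by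
    apply le_antisymm
    · rintro _ ⟨h3, u, hu, rfl⟩
      refine ⟨u, hc (n - 5) u ?_ ?_, rfl⟩
      · rw [one_smul]; exact G.mono (by omega) hu
      · exact G.mono (by omega) h3
    · rintro _ ⟨u, hu, rfl⟩
      exact ⟨G.smul_mem yK_mem hu (by omega), u, G.mono (by omega) hu, rfl⟩
  rw [h2, finrank_mulS yK_ne_zero, finrank_mulS yK_ne_zero] at h1
  unfold S2 Fam.h
  omega

theorem finrank_D3 {G : Fam k V} (hb : G.Bdd) (hc : G.Closed 1 1 (yK k) 4)
    (hz : ∀ n, ∀ v ∈ G (n - 4), zK k • v ∈ S2 G n → v ∈ S2 G (n - 4)) (n : ℤ) :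
    G.h n - DQ G.h n ≤ finrank k (D3 G n) := by
  have := hb.finite (n - 1)
  have := hb.finite (n - 4)
  have := hb.finite (n - 4 - 1)
  have := hb.finite (n - 4 - 4)
  have : Module.Finite k (S2 G n) := by unfold S2; infer_instance
  have : Module.Finite k (S2 G (n - 4)) := by unfold S2; infer_instance
  have h1 := Submodule.finrank_sup_add_finrank_inf_eq (S2 G n) (mulS (zK k) (G (n - 4)))
  have h2 : S2 G n ⊓ mulS (zK k) (G (n - 4)) ≤ mulS (zK k) (S2 G (n - 4)) := by
    rintro _ ⟨h3, u, hu, rfl⟩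
    exact ⟨u, hz n u hu h3, rfl⟩
  have h3 := Submodule.finrank_mono h2
  rw [finrank_mulS zK_ne_zero] at h1 h3
  have h4 := finrank_S2 hb hc n
  have h5 := finrank_S2 hb hc (n - 4)
  rw [show n - 4 - 1 = n - 5 by ring, show n - 4 - 4 = n - 8 by ring,
    show n - 4 - 5 = n - 9 by ring] at h5
  unfold D3 DQ
  unfold Fam.h at *
  omega

theorem A_koszul {t m : ℤ} {v a b : Kf k} (hv : v ∈ A k (t - 4)) (ha : a ∈ A k (t - 1))
    (hb : b ∈ A k m) (h : a + yK k * b = zK k * v) :
    ∃ a' ∈ A k (t - 5), ∃ b' ∈ A k (t - 8), a' + yK k * b' = v := by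
  classical
  obtain ⟨v, hv', rfl⟩ := mem_A.1 hv
  obtain ⟨a, ha', rfl⟩ := mem_A.1 ha
  obtain ⟨b, -, rfl⟩ := mem_A.1 hb
  have e : a + MvPolynomial.X 0 * b = MvPolynomial.X 1 * v := by
    apply toK_injective
    rw [map_add, map_mul, map_mul]
    exact h
  refine ⟨toK k (v.modMonomial (Finsupp.single 0 1)), toK_mem_A.2 (mem_Adeg.2 fun s hs => ?_),
    toK k (v.divMonomial (Finsupp.single 0 1)), toK_mem_A.2 (mem_Adeg.2 fun s hs => ?_), ?_⟩
  · rw [MvPolynomial.mem_support_iff] at hs
    have hs0 : ¬ Finsupp.single (0 : Fin 2) 1 ≤ s := fun hle =>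
      hs (MvPolynomial.coeff_modMonomial_of_le _ hle)
    rw [MvPolynomial.coeff_modMonomial_of_not_le _ hs0] at hs
    have hs1 : s 0 = 0 := by
      rw [Finsupp.single_le_iff] at hs0; omega
    have e1 := congrArg (MvPolynomial.coeff (Finsupp.single 1 1 + s)) e
    rw [MvPolynomial.coeff_add, MvPolynomial.coeff_X_mul, MvPolynomial.coeff_X_mul',
      if_neg (by simp [hs1]), add_zero] at e1
    have := mem_Adeg.1 ha' (Finsupp.single 1 1 + s) (by
      rw [MvPolynomial.mem_support_iff, e1]; exact hs)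
    simp at this
    omega
  · rw [MvPolynomial.mem_support_iff, MvPolynomial.coeff_divMonomial] at hs
    have := mem_Adeg.1 hv' _ (MvPolynomial.mem_support_iff.2 hs)
    simp at this
    omega
  · conv_rhs => rw [← MvPolynomial.modMonomial_add_divMonomial_single v 0]
    rw [map_add, map_mul]
    rfl

/-- The syzygy family of a saturated family. -/
theorem syz_count {ι : Type} [Fintype ι] (d : ι → ℤ) (π : (ι → Kf k) →ₗ[Kf k] V)
    (hc : ((Fam.free k d).map π).Closed 1 1 (yK k) 4) (n : ℤ) :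
    ((Fam.free k d).inf (LinearMap.ker π)).h n - DQ ((Fam.free k d).inf (LinearMap.ker π)).h n ≤
      finrank k (D3 ((Fam.free k d).inf (LinearMap.ker π)) n) := by
  refine finrank_D3 ((Fam.bdd_free d).inf _) ?_ ?_ n
  · intro n v h1 h2
    refine ⟨Fam.closed_free d cop_xy n v h1.1 h2.1, ?_⟩
    have := h1.2
    rwa [one_smul] at this
  · intro n v hv hz
    obtain ⟨a, ha, b, hb, e⟩ := mem_S2.1 hz
    have hk : ∀ j, ∃ a' ∈ A k (n - d j - 5), ∃ b' ∈ A k (n - d j - 8), a' + yK k * b' = v j :=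
      fun j => A_koszul (A_mono (by omega) (Fam.mem_free.1 hv.1 j))
        (A_mono (by omega) (Fam.mem_free.1 ha.1 j)) (Fam.mem_free.1 hb.1 j) (congrFun e j)
    choose a' ha' b' hb' e' using hk
    have e1 : a' + yK k • b' = v := funext e'
    have ha'' : a' ∈ Fam.free k d (n - 5) := Fam.mem_free.2 fun j => A_mono (by omega) (ha' j)
    have hb'' : b' ∈ Fam.free k d (n - 8) := Fam.mem_free.2 fun j => A_mono (by omega) (hb' j)
    have e2 : π a' + yK k • π b' = 0 := by
      rw [← map_smul, ← map_add, e1]; exact hv.2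
    obtain ⟨b'', hb3, e3⟩ := hc (n - 9) (π b') (by
      rw [one_smul]; exact ⟨b', (Fam.free k d).mono (by omega) hb'', rfl⟩) (by
      rw [eq_neg_of_add_eq_zero_right e2]
      exact neg_mem ⟨a', (Fam.free k d).mono (by omega) ha'', rfl⟩)
    have e4 : π b'' = π b' := e3
    refine mem_S2.2 ⟨a' + yK k • b'', ⟨?_, ?_⟩, b' - b'', ⟨?_, ?_⟩, ?_⟩
    · exact add_mem ((Fam.free k d).mono (by omega) ha'')
        ((Fam.free k d).smul_mem yK_mem hb3 (by omega))
    · change π _ = 0
      rw [map_add, map_smul, e4, e2]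
    · exact sub_mem ((Fam.free k d).mono (by omega) hb'') ((Fam.free k d).mono (by omega) hb3)
    · change π _ = 0
      rw [map_sub, e4, sub_self]
    · rw [← e1, smul_sub]; abel

theorem exists_compl_family {W : Type} [AddCommGroup W] [Module k W] {P Q : Submodule k W}
    (hPQ : P ≤ Q) [Module.Finite k Q] : ∃ (β : ℕ) (e : Fin β → W),
      β + finrank k P = finrank k Q ∧ (∀ i, e i ∈ Q) ∧ Q ≤ P ⊔ Submodule.span k (Set.range e) := by
  obtain ⟨C, hC⟩ := (P.comap Q.subtype).exists_isCompl
  let b := Module.finBasis k C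
  refine ⟨finrank k C, fun i => ((b i : Q) : W), ?_, fun i => (b i : Q).2, fun v hv => ?_⟩
  · rw [← Submodule.finrank_add_eq_of_isCompl hC, (Submodule.comapSubtypeEquivOfLe hPQ).finrank_eq,
      add_comm]
  · have : (⟨v, hv⟩ : Q) ∈ P.comap Q.subtype ⊔ C := by rw [hC.sup_eq_top]; trivial
    obtain ⟨p, hp, c, hc, e⟩ := Submodule.mem_sup.1 this
    have e1 : (p : W) + (c : W) = v := congrArg Subtype.val e
    rw [← e1]
    refine Submodule.add_mem_sup hp ?_
    have e2 : (c : W) = ∑ i, b.repr ⟨c, hc⟩ i • ((b i : Q) : W) := by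
      have := congrArg (fun x : C => ((x : Q) : W)) (b.sum_repr ⟨c, hc⟩)
      simp only [Submodule.coe_sum] at this
      exact this.symm
    rw [e2]
    exact Submodule.sum_mem _ fun i _ => Submodule.smul_mem _ _ (Submodule.subset_span ⟨i, rfl⟩)

/-- A generating family whose degrees are counted by the Hilbert numerator. -/
theorem exists_gens [FiniteDimensional (Kf k) V] {G : Fam k V} (hb : G.Bdd)
    (hβ : ∀ n, G.h n - DQ G.h n ≤ finrank k (D3 G n)) :
    ∃ (J : Type) (_ : Fintype J) (e : J → V) (t : J → ℤ), (∀ j, e j ∈ G (t j)) ∧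
      (∀ U : Submodule (Kf k) V, (∀ j, e j ∈ U) → ∀ n, ∀ v ∈ G n, v ∈ U) ∧
      ∀ w : ℤ → ℤ, (∀ n, 0 ≤ w n) → ∑ j, w (t j) ≤ pair w G.h := by
  classical
  have hex := fun n => by
    have := hb.finite n
    exact exists_compl_family (D3_le G n)
  choose β e hβe he hle using hex
  have hβ' : ∀ n, (β n : ℤ) ≤ DQ G.h n := fun n => by
    have h1 := hβ n
    have h2 := hβe n
    unfold Fam.h at *
    omega
  let s := hb.good.finite.toFinset
  refine ⟨(n : s) × Fin (β n), inferInstance, fun j => e j.1 j.2, fun j => j.1,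
    fun j => he _ _, ?_, ?_⟩
  · intro U hU
    obtain ⟨n0, h0⟩ := hb.good.left
    have key : ∀ m : ℕ, ∀ n < n0 + m, G n ≤ U.restrictScalars k := by
      intro m
      induction m with
      | zero =>
        intro n hn
        have := hb.finite n
        have h1 : finrank k (G n) = 0 := by
          have := h0 n (by simpa using hn)
          unfold Fam.h at this
          exact_mod_cast this
        rw [Submodule.finrank_eq_zero.1 h1]
        exact bot_le
      | succ m ih =>
        intro n hn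
        push_cast at hn
        refine (hle n).trans (sup_le (sup_le (sup_le (ih _ (by omega)) ?_) ?_) ?_)
        · rintro _ ⟨u, hu, rfl⟩
          exact U.smul_mem _ (ih _ (by omega) hu)
        · rintro _ ⟨u, hu, rfl⟩
          exact U.smul_mem _ (ih _ (by omega) hu)
        · rw [Submodule.span_le]
          rintro _ ⟨i, rfl⟩
          have hn' : n ∈ s := by
            rw [Set.Finite.mem_toFinset, Function.mem_support]
            have := hβ' n
            have := i.pos
            omega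
          exact hU ⟨⟨n, hn'⟩, i⟩
    intro n v hv
    exact key (n - n0 + 1).toNat n (by omega) hv
  · intro w hw
    unfold pair
    rw [fs_eq_sum w (s := s) (by simp [s]), Fintype.sum_sigma]
    simp only [Finset.sum_const, Finset.card_univ, Fintype.card_fin, nsmul_eq_mul]
    rw [Finset.sum_coe_sort s (fun n => (β n : ℤ) * w n)]
    refine Finset.sum_le_sum fun n _ => ?_
    rw [mul_comm]
    exact mul_le_mul_of_nonneg_left (hβ' n) (hw n)

end Vale.Agent.P190
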