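import Vale.Agent.P190.UpperA
import Vale.Agent.P190.UpperB

/-!
Upper bound for the discriminant of a family with bounded slopes.
-/

noncomputable section

namespace Vale.Agent.P190

open Module

section

variable {k : Type} [Field k]
variable {V : Type} [AddCommGroup V] [Module k V] [Module (Kf k) V] [IsScalarTower k (Kf k) V]

/-- The Euler characteristic of the dual is at most the number of its sections. -/
theorem pair_le_dual [FiniteDimensional (Kf k) V] {G : Fam k V} (hb : G.Bdd) (hf : G.Full)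
    (hc : G.Closed 1 1 (yK k) 4) (m : ℤ) :
    ∃ L : Submodule k (V →ₗ[Kf k] Kf k), Module.Finite k L ∧
      (∀ l ∈ L, ∀ n, ∀ v ∈ G n, l v ∈ A k (n + m)) ∧
      pair (fun n => aa (n + m)) G.h ≤ finrank k L := by
  classical
  obtain ⟨N, v, d, rfl⟩ := hb.fg
  set π := Fintype.linearCombination (Kf k) v with hπ
  have hG : (Fam.gen v d : Fam k V) = (Fam.free k d).map π := rfl
  have hsurj : Function.Surjective π := by
    intro u
    obtain ⟨c, hc0, n, x, -, hx⟩ := hf u
    refine ⟨c⁻¹ • x, ?_⟩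
    have : π x = c • u := hx
    rw [map_smul, this, inv_smul_smul₀ hc0]
  obtain ⟨s, hs⟩ := π.exists_rightInverse_of_surjective (LinearMap.range_eq_top.2 hsurj)
  have hs' : ∀ u, π (s u) = u := fun u => LinearMap.congr_fun hs u
  have hFb := Fam.bdd_free (k := k) d
  have hKb := hFb.inf (LinearMap.ker π)
  obtain ⟨J, _, e, t, he, hgen, hcount⟩ := exists_gens hKb (syz_count d π hc)
  let Ψ : (Fin N → Kf k) →ₗ[Kf k] (J → Kf k) :=
    LinearMap.pi fun j => Fintype.linearCombination (Kf k) (e j)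
  have hΨ : ∀ l j, Ψ l j = ∑ i, l i * e j i := fun l j => rfl
  let T : (Fin N → Kf k) →ₗ[k] (V →ₗ[Kf k] Kf k) :=
    { toFun := fun l => (Fintype.linearCombination (Kf k) l).comp s
      map_add' := fun a b => by
        ext u
        simp [Fintype.linearCombination_apply, mul_add, Finset.sum_add_distrib]
      map_smul' := fun r a => by
        ext u
        simp [Fintype.linearCombination_apply, Finset.smul_sum] }
  have hT : ∀ l u, T l u = ∑ i, s u i * l i := fun l u => rfl
  have hDb := Fam.bdd_free (k := k) (fun i => - d i)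
  set L0 := (Fam.free k (fun i => - d i)).inf (LinearMap.ker Ψ) with hL0
  have hL0f := (hDb.inf (LinearMap.ker Ψ)).finite m
  have hkill : ∀ l, Ψ l = 0 → ∀ x, T l (π x) = ∑ i, x i * l i := by
    intro l hl x
    have h1 : ∀ x, π x = 0 → Fintype.linearCombination (Kf k) l x = 0 := by
      intro x hx
      obtain ⟨c, hc0, n, hn⟩ := Fam.full_free (k := k) d x
      have := hgen (LinearMap.ker (Fintype.linearCombination (Kf k) l)) (fun j => by
        have := congrFun hl j
        rw [hΨ] at this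
        rw [LinearMap.mem_ker, Fintype.linearCombination_apply]
        simpa [mul_comm] using this) n (c • x) ⟨hn, by
          change π _ = 0
          rw [map_smul, hx, smul_zero]⟩
      rw [LinearMap.mem_ker, map_smul] at this
      exact (smul_eq_zero.1 this).resolve_left hc0
    have h2 := h1 (s (π x) - x) (by rw [map_sub, hs', sub_self])
    rw [map_sub, sub_eq_zero] at h2
    exact h2
  refine ⟨(L0 m).map T, inferInstance, ?_, ?_⟩
  · rintro _ ⟨l, hl, rfl⟩ n _ ⟨x, hx, rfl⟩
    have := hkill l hl.2 x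
    change T l (π x) ∈ _
    rw [this]
    exact Submodule.sum_mem _ fun i _ =>
      A_mul' (Fam.mem_free.1 hx i) (Fam.mem_free.1 hl.1 i) (by omega)
  · have h1 : finrank k (L0 m) ≤ finrank k ((L0 m).map T) := by
      refine LinearMap.finrank_le_finrank_of_injective
        (f := T.restrict (p := L0 m) (q := (L0 m).map T) fun x hx => ⟨x, hx, rfl⟩) ?_
      rw [injective_iff_map_eq_zero]
      intro l hl
      have hl0 : T l = 0 := congrArg Subtype.val hl
      ext i
      have := hkill l l.2.2 (Pi.single i 1)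
      rw [hl0] at this
      simpa [Pi.single_apply] using this.symm
    have h2 := Fam.h_inf_ker_add hDb Ψ m
    have h3 : ((Fam.free k (fun i => - d i)).map Ψ).h m ≤ (Fam.free k (fun j => - t j)).h m := by
      refine Fam.h_le (Fam.bdd_free _) ?_
      rintro _ ⟨l, hl, rfl⟩
      refine Fam.mem_free.2 fun j => ?_
      change Ψ l j ∈ _
      rw [hΨ]
      exact Submodule.sum_mem _ fun i _ =>
        A_mul' (Fam.mem_free.1 hl i) (Fam.mem_free.1 (he j).1 i) (by omega)
    rw [Fam.h_free] at h2 h3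
    have h4 := hcount (fun n => aa (n + m)) fun n => aa_nonneg _
    have h5 := Fam.pair_free (k := k) d (fun n => aa (n + m))
    have h6 : (Fam.free k d).h = fun n => ((Fam.free k d).inf (LinearMap.ker π)).h n +
        ((Fam.free k d).map π).h n := funext fun n => Fam.h_inf_ker_add hFb π n
    rw [h6, pair_add _ hKb.good (hFb.map π).good] at h5
    simp only [sub_neg_eq_add, add_comm m] at h2 h3
    have h7 : ((Fam.free k (fun i => - d i)).inf (LinearMap.ker Ψ)).h m = finrank k (L0 m) := rfl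
    rw [hG]
    omega

end

theorem upper_bound (ρ c : ℕ) : ∃ C : ℤ, ∀ (k : Type) [Field k] [Infinite k] (V : Type)
    [AddCommGroup V] [Module k V] [Module (Kf k) V] [IsScalarTower k (Kf k) V]
    [FiniteDimensional (Kf k) V] (G : Fam k V), G.Bdd → G.Full → finrank (Kf k) V = ρ →
    (∀ U : Submodule (Kf k) V,
      (finrank (Kf k) U : ℤ) * (G.m 1 - (c : ℤ) * ρ) ≤ (ρ : ℤ) * G.deg U ∧
      (ρ : ℤ) * (G.m 1 - G.deg U) ≤ ((ρ : ℤ) - finrank (Kf k) U) * (G.m 1 + (c : ℤ) * ρ)) →
    (ρ : ℤ) * G.m 2 - G.m 1 ^ 2 ≤ C := by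
  refine ⟨ρ * (64 * (ρ * aa (ρ * c))) + ρ ^ 2, ?_⟩
  intro k _ _ V _ _ _ _ _ G hb hf hV hs
  rcases Nat.eq_zero_or_pos ρ with rfl | hρ
  · simp [sq_nonneg]
  have hρ' : (0 : ℤ) < ρ := by exact_mod_cast hρ
  set N := G.sat cop_xy with hN
  have hNb : N.Bdd := hb.sat _
  have hNf : N.Full := hf.mono (G.le_sat _)
  have hNc : N.Closed 1 1 (yK k) 4 := G.sat_closed _
  have e1 : N.m 1 = G.m 1 := Fam.m1_sat hb _
  have e2 : G.m 2 ≤ N.m 2 := Fam.m2_sat hb _
  have e0 : N.m 0 = ρ := by rw [Fam.m0_full hNb hNf, hV]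
  have ed : ∀ U, N.deg U = G.deg U := Fam.deg_sat hb _
  set a := G.m 1 / ρ with ha
  have ha1 : ρ * a ≤ G.m 1 := Int.mul_ediv_self_le hρ'.ne'
  have ha2 : G.m 1 < ρ * a + ρ := Int.lt_mul_ediv_self_add hρ'
  have hP := PP_dual hNb.good a
  have hsm : sm N.h a ≤ 16 * (ρ * aa (ρ * c)) := by
    unfold sm
    refine (Finset.sum_le_card_nsmul _ _ (4 * (ρ * aa (ρ * c))) fun i _ => ?_).trans
      (by simp; linarith)
    refine (Finset.sum_le_card_nsmul _ _ (ρ * aa (ρ * c)) fun j _ => ?_).trans (by simp)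
    refine h_le_of_slope hNb hρ hV (fun U => by rw [e1, ed]; exact (hs U).1) ?_
    rw [e1]
    have : (0 : ℤ) ≤ (i : ℤ) + j := by positivity
    nlinarith
  have hdual : ∑ i ∈ Finset.range 4, ∑ j ∈ Finset.range 4,
      pair (fun n => aa (n + (-a - 3 - i - j))) N.h ≤ 16 * (ρ * aa (ρ * c)) := by
    refine (Finset.sum_le_card_nsmul _ _ (4 * (ρ * aa (ρ * c))) fun i _ => ?_).trans
      (by simp; linarith)
    refine (Finset.sum_le_card_nsmul _ _ (ρ * aa (ρ * c)) fun j _ => ?_).trans (by simp)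
    obtain ⟨L, hL, h1, h2⟩ := pair_le_dual hNb hNf hNc (-a - 3 - i - j)
    refine h2.trans (dual_le_of_slope hNb hNf hρ hV (fun U => by rw [e1, ed]; exact (hs U).2)
      ?_ L h1)
    rw [e1]
    have : (0 : ℤ) ≤ (i : ℤ) + j := by positivity
    nlinarith
  have hPP : PP N.h a = ρ * (a ^ 2 + 3 * a + 2) - G.m 1 * (2 * a + 3) + N.m 2 := by
    rw [← e0, ← e1]; rfl
  have h1 : (ρ : ℤ) * PP N.h a ≤ ρ * (64 * (ρ * aa (ρ * c))) :=
    mul_le_mul_of_nonneg_left (by linarith) hρ'.le
  rw [hPP] at h1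
  nlinarith [sq_nonneg (ρ * (2 * a + 3) - 2 * G.m 1), mul_le_mul_of_nonneg_left e2 hρ'.le,
    sq_nonneg (ρ : ℤ)]

end Vale.Agent.P190
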