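import Vale.Agent.P190.FrobB
import Vale.Agent.P190.FrobCons
import Vale.Agent.P190.Slope
import Vale.Agent.P190.Upper

/-!
The Bogomolov type inequality in large characteristic.
-/

noncomputable section

namespace Vale.Agent.P190

open Module Finset Filter

variable {k : Type} [Field k]
variable {V : Type} [AddCommGroup V] [Module k V] [Module (Kf k) V] [IsScalarTower k (Kf k) V]
variable {C : Type} [CommRing C] [Algebra (Kf k) C]
variable {p q : ℕ} {φ : V →+ V} {r : C →ₐ[Kf k] Module.End (Kf k) V} {g : Gen → C}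
  {μ : Tr → Fin 3 → k} {op : Gen → Module.End (Kf k) V} {E : Fam k V}

omit [IsScalarTower k (Kf k) V] in
theorem mem_meet_of_sum {ι : Type} [Fintype ι] [DecidableEq ι] {X : ι → Fam k V} {Y : Fam k V}
    {n : ℤ} {x : ι → V} (hx : ∀ i, x i ∈ X i n) (hs : ∑ i, x i ∈ Y n) (i : ι) :
    x i ∈ (X i).meet ((Fam.bsup (univ.erase i) X).sup Y) n := by
  refine ⟨hx i, Fam.mem_sup.2 ⟨-∑ j ∈ univ.erase i, x j,
    neg_mem (Fam.mem_bsup.2 ⟨x, fun j _ => hx j, rfl⟩), _, hs, ?_⟩⟩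
  rw [← Finset.add_sum_erase _ _ (mem_univ i)]; abel

theorem card_plines_inl (Q : Db) : (plines (.inl Q)).card = 2 := Finset.card_pair Q.2.1.ne

theorem card_plines_inr (T : Tr) : (plines (.inr T)).card = 3 :=
  Finset.card_eq_three.2 ⟨_, _, _, ta_ne_tb T, ta_ne_tc T, tb_ne_tc T, rfl⟩

namespace FD

variable [Fact p.Prime] [CharP k p] [PerfectRing k p] [FiniteDimensional (Kf k) V]

theorem h_W2_ge (h : FD p q φ r g μ op) (hb : E.Bdd) (hE : ∀ j, Maps E E (op j) (wt j))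
    (hc : E.Closed (Lam k) 124 (Spi k) 120) (n : ℤ) :
    (W0 p φ E).h n + ∑ a, ((WL p φ r g E a).h n - (W0 p φ E).h n) ≤ (W2 p φ r g E).h n := by
  refine h_dirsum (X' := fun _ => W0 p φ E) (h.W2_bdd hb hE) (fun _ => h.W0_bdd hb) W0_le_W2
    WL_le_W2 fun x hx hs a => ?_
  refine (W0_closed h.frob (cop_arr h.hk) hc).sat_le (cop_arr h.hk) n
    (le_sat_of_nil_pi h.hk (fun c => ?_) n (mem_meet_of_sum hx hs a))
  by_cases hac : a = c
  · subst hac
    refine Nil.mono (Nil.sup (piK_mem a) (Nil.bsup (piK_mem a) fun b hb => ?_)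
      (nil_of_le le_rfl _ _)) (Fam.meet_le_right _ _) le_rfl
    exact (h.nil_WL hE b).pi_of_ell (Finset.ne_of_mem_erase hb)
  · exact ((h.nil_WL hE a).pi_of_ell hac).mono (Fam.meet_le_left _ _) le_rfl

variable [CharP C p]

theorem h_WW_ge (h : FD p q φ r g μ op) (hb : E.Bdd) (hE : ∀ j, Maps E E (op j) (wt j)) :
    ∀ᶠ n in atTop, (W2 p φ r g E).h n + ∑ P, ((WP p φ r g E P).h n -
      (Fam.bsup (plines P) (WL p φ r g E)).h n) ≤ (WW h.hk p φ r g E).h n := by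
  have key : ∀ P : Pt, ∀ᶠ n in atTop, (WP p φ r g E P).meet
      ((Fam.bsup (univ.erase P) (WP p φ r g E)).sup (W2 p φ r g E)) n ≤
        Fam.bsup (plines P) (WL p φ r g E) n := by
    intro P
    have hm := prod_ellK_mem (k := k) (plines P)ᶜ
    have h2 : Nil (W2 p φ r g E) (Fam.bsup (plines P) (WL p φ r g E))
        (∏ d ∈ (plines P)ᶜ, ellK k d) (4 * ((plines P)ᶜ).card) := by
      refine Nil.bsup hm fun a _ => ?_
      by_cases ha : a ∈ plines P
      · exact nil_of_le (Fam.le_bsup _ ha) _ _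
      · exact ((h.nil_WL hE a).prod_of_mem (Finset.mem_compl.2 ha)).mono le_rfl
          ((W0_le_WL (pa P)).trans (Fam.le_bsup _ (pa_mem P)))
    refine eventually_le_of_point h.hk ((h.WP_bdd hb hE P).mono (Fam.meet_le_left _ _)) P
      ((h.nil_WP hE P (pa_mem P)).mono (Fam.meet_le_left _ _) le_rfl)
      ((h.nil_WP hE P (pb_mem P)).mono (Fam.meet_le_left _ _) le_rfl)
      (Nil.mono (Nil.sup hm (Nil.bsup hm fun P' hP' => ?_) h2) (Fam.meet_le_right _ _) le_rfl)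
    obtain ⟨d, hd, hd'⟩ := exists_line_not_mem (Finset.ne_of_mem_erase hP').symm
    exact (((h.nil_WP hE P' hd).prod_of_mem (Finset.mem_compl.2 hd')).mono le_rfl
      (Fam.bsup_le fun a _ => WL_le_W2 a)).trans h2
  filter_upwards [eventually_all.2 key] with n hn
  exact h_dirsum (h.WW_bdd hb hE) (fun P => Fam.Bdd.bsup fun a _ => h.WL_bdd hb hE a)
    (W2_le_WW h.hk) (h.WP_le_WW hE) fun x hx hs P => hn P (mem_meet_of_sum hx hs P)

theorem WW_mom (h : FD p q φ r g μ op) (hb : E.Bdd) (hf : E.Full)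
    (hE : ∀ j, Maps E E (op j) (wt j)) (hc : E.Closed (Lam k) 124 (Spi k) 120) :
    (WW h.hk p φ r g E).m 1 = p * E.m 1 - 31 * ((p - 1) * E.m 0) ∧
      p ^ 2 * (E.m 0 * E.m 2 - E.m 1 ^ 2 + E.m 0 ^ 2) - E.m 0 ^ 2 ≤
        E.m 0 * (WW h.hk p φ r g E).m 2 - (WW h.hk p φ r g E).m 1 ^ 2 := by
  let L : Finset Ln → ℤ → ℤ := fun s n =>
    (W0 p φ E).h n + ∑ a ∈ s, ((WL p φ r g E a).h n - (W0 p φ E).h n)
  have hL := h.mom_lines hb hE
  have g1 : ∀ P ∈ (univ : Finset Pt), Good fun n => (WP p φ r g E P).h n - L (plines P) n :=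
    fun P _ => (h.WP_bdd hb hE P).good.sub (hL _).1
  have g2 := (hL univ).1.add (Good.sum univ g1)
  have e : ∀ j, mom j (fun n => L univ n + ∑ P, ((WP p φ r g E P).h n - L (plines P) n)) =
      mom j (L univ) + (∑ Q : Db, ((WP p φ r g E (.inl Q)).m j - mom j (L (plines (.inl Q)))) +
        ∑ T : Tr, ((WP p φ r g E (.inr T)).m j - mom j (L (plines (.inr T))))) := by
    intro j
    rw [mom_add j (hL univ).1 (Good.sum univ g1), mom_sum j univ g1,
      ← Fintype.sum_sum_type fun P => (WP p φ r g E P).m j - mom j (L (plines P))]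
    congr 1
    exact Finset.sum_congr rfl fun P _ => mom_sub j (h.WP_bdd hb hE P).good (hL _).1
  have hle : ∀ᶠ n in atTop, L univ n + ∑ P, ((WP p φ r g E P).h n - L (plines P) n) ≤
      (WW h.hk p φ r g E).h n := by
    filter_upwards [h.h_WW_ge hb hE] with n hn
    refine le_trans (add_le_add (h.h_W2_ge hb hE hc n) (Finset.sum_le_sum fun P _ => ?_)) hn
    exact sub_le_sub_left (h_bsup_le _ (h.W0_bdd hb) (h.WL_bdd hb hE) W0_le_WL n) _
  have hWb := h.WW_bdd hb hE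
  have hWf : (WW h.hk p φ r g E).Full :=
    (W0_full h.frob hf).mono (W0_le_W2.trans (W2_le_WW h.hk))
  have b0 := Fam.m0_full hb hf
  have e0 := e 0
  have e1 := e 1
  have e2 := e 2
  simp only [L, (hL _).2.1, (h.WD_mom hb hE _).1, (h.WT_mom hb hE _).1, sub_self,
    Finset.sum_const_zero, add_zero] at e0
  simp only [L, (hL _).2.2.1, (h.WD_mom hb hE _).2.1, (h.WT_mom hb hE _).2.1, card_plines_inl,
    card_plines_inr, Finset.sum_const, Finset.card_univ, card_Ln, card_Db, card_Tr,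
    nsmul_eq_mul] at e1
  have hL2 : ∀ s, mom 2 (L s) = _ := fun s => (hL s).2.2.2
  have eT : 2 * ∑ T : Tr, ((WP p φ r g E (.inr T)).m 2 - mom 2 (L (plines (.inr T)))) =
      64 * (2 * p ^ 2 * E.m 2 - 12 * p * (p - 1) * E.m 1 + (13 * p ^ 2 - 36 * p + 23) * E.m 0 -
        2 * (p ^ 2 * E.m 2 - 3 * (2 * p * (p - 1) * E.m 1 + 2 * (p - 1) * E.m 0))) := by
    rw [Finset.mul_sum]
    simp only [mul_sub (2 : ℤ), (h.WT_mom hb hE _).2.2, hL2, card_plines_inr, Finset.sum_const,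
      Finset.card_univ, card_Tr, nsmul_eq_mul]
    push_cast; ring
  have eD : ∑ Q : Db, ((WP p φ r g E (.inl Q)).m 2 - mom 2 (L (plines (.inl Q)))) =
      273 * (p ^ 2 * E.m 2 - 4 * p * (p - 1) * E.m 1 + (2 * p ^ 2 - 8 * p + 6) * E.m 0 -
        (p ^ 2 * E.m 2 - 2 * (2 * p * (p - 1) * E.m 1 + 2 * (p - 1) * E.m 0))) := by
    simp only [(h.WD_mom hb hE _).2.2, hL2, card_plines_inl, Finset.sum_const,
      Finset.card_univ, card_Db, nsmul_eq_mul]
    push_cast; ring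
  rw [eD, hL2, Finset.card_univ, card_Ln] at e2
  have c0 : mom 0 _ = mom 0 (WW h.hk p φ r g E).h :=
    e0.trans (b0.trans (Fam.m0_full hWb hWf).symm)
  have c1 : (WW h.hk p φ r g E).m 1 ≤ _ := mom1_le g2 hWb.good hle c0
  have c2 := (h.deg_bound hb hf hE (U := ⊤) (U' := ⊤) (fun _ _ _ => trivial) (fun _ _ => trivial)
    fun _ _ _ => trivial).2
  rw [Fam.deg_top, Fam.deg_top, finrank_top, ← b0] at c2
  push_cast at e1 e2
  have c3 : (WW h.hk p φ r g E).m 1 = p * E.m 1 - 31 * ((p - 1) * E.m 0) := by linarith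
  have c4 : _ ≤ (WW h.hk p φ r g E).m 2 := mom2_le g2 hWb.good hle c0
    (by change _ = (WW h.hk p φ r g E).m 1; linarith)
  refine ⟨c3, ?_⟩
  have c5 : 0 ≤ E.m 0 := by rw [b0]; positivity
  have c6 : p ^ 2 * E.m 2 - 62 * p * (p - 1) * E.m 1 + (962 * p ^ 2 - 1922 * p + 960) * E.m 0 ≤
      (WW h.hk p φ r g E).m 2 := by linarith
  have c7 := mul_le_mul_of_nonneg_left c6 c5
  rw [c3]
  linarith

theorem WW_slope (h : FD p q φ r g μ op) (hb : E.Bdd) (hf : E.Full)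
    (hE : ∀ j, Maps E E (op j) (wt j)) (hc : E.Closed (Lam k) 124 (Spi k) 120) (hss : SS op E)
    (U : Submodule (Kf k) V) :
    (finrank (Kf k) U : ℤ) * ((WW h.hk p φ r g E).m 1 -
        (124 * finrank (Kf k) V : ℕ) * (finrank (Kf k) V : ℤ)) ≤
        (finrank (Kf k) V : ℤ) * (WW h.hk p φ r g E).deg U ∧
      (finrank (Kf k) V : ℤ) * ((WW h.hk p φ r g E).m 1 - (WW h.hk p φ r g E).deg U) ≤
        ((finrank (Kf k) V : ℤ) - finrank (Kf k) U) * ((WW h.hk p φ r g E).m 1 +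
          (124 * finrank (Kf k) V : ℕ) * (finrank (Kf k) V : ℤ)) := by
  obtain ⟨θ, h0, hA, hK, hdesc⟩ := exists_euler h.frob
  have hp : 0 < p := (Fact.out : p.Prime).pos
  let D : Gen ⊕ Bool → V →ₗ[k] V := Sum.elim (fun j => (r (g j)).restrictScalars k)
    fun l => (sc (Lam k) : Module.End (Kf k) V).restrictScalars k ∘ₗ θ l
  refine closure_lemma (h.WW_bdd hb hE)
    ((W0_full h.frob hf).mono (W0_le_W2.trans (W2_le_WW h.hk))) D 124 ?_ ?_ ?_ U
  · rintro (j | l)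
    · refine Maps.mono (h.WW_st hE j) le_rfl le_rfl ?_
      rcases j with _ | _ | _ <;> simp [wt]
    · exact h.WW_conn (h0 l) (hA l)
  · rintro (j | l) f
    · exact ⟨0, fun v => by simp [D]⟩
    · obtain ⟨b, e⟩ := hK l f
      refine ⟨Lam k * b, fun v => ?_⟩
      change Lam k • θ l (f • v) = f • Lam k • θ l v + _
      rw [e, smul_add, smul_comm, mul_smul]
  · intro U' hU'
    let U0 : Submodule (Kf k) V :=
      { carrier := {v | φ v ∈ U'}
        zero_mem' := by simp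
        add_mem' := fun ha hb => by simpa using add_mem ha hb
        smul_mem' := fun c v hv => by
          change φ (c • v) ∈ U'
          rw [h.frob.smul]; exact U'.smul_mem _ hv }
    have hst : Stab op U0 := by
      intro j v hv
      change φ (op j v) ∈ U'
      rw [← h.pow, map_pow]
      exact Module.End.pow_apply_mem_of_forall_mem p (hU' (.inl j)) _ hv
    have hθ : ∀ l, ∀ v ∈ U', θ l v ∈ U' := fun l v hv =>
      (U'.smul_mem_iff (cop_arr h.hk).fne).1 (hU' (.inr l) v hv)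
    obtain ⟨e1, e2⟩ := h.deg_bound hb hf hE hst (U' := U') (fun _ hv => hv) (hdesc U' hθ)
    rw [(h.WW_mom hb hf hE hc).1, e1, Fam.m0_full hb hf]
    have e3 := mul_le_mul_of_nonneg_left (hss U0 hst) (Int.natCast_nonneg p)
    have e4 := mul_le_mul_of_nonneg_left e2 (Int.natCast_nonneg (finrank (Kf k) V))
    linarith

end FD

theorem bog_charP (ρ : ℕ) (hρ : 0 < ρ) : ∃ p0 : ℕ, ∀ p : ℕ, p0 ≤ p → p.Prime →
      ∀ (k : Type) [Field k] [CharP k p] [IsAlgClosed k] (μ : Tr → Fin 3 → k),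
        (∀ T r, μ T r ^ 2 = (musq T r : k)) → BogRk k μ ρ := by
  obtain ⟨B, hB⟩ := upper_bound ρ (124 * ρ)
  refine ⟨1001 + B.natAbs + ρ ^ 2, fun p hp0 hp k _ _ _ μ hμ V _ _ _ _ _ op E hV hD hss => ?_⟩
  have := Fact.mk hp
  have hk : BigChar k := bigChar_of_charP (p := p) (by omega)
  have : Nontrivial V := Module.nontrivial_of_finrank_pos (R := Kf k) (by omega)
  obtain ⟨φ, C, _, _, _, r, g, h1, h2, h3, h4⟩ := exists_frob p hk hμ hD.rel
  obtain ⟨q, hq⟩ := hp.odd_of_ne_two (by omega)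
  have h : FD p q φ r g μ op := ⟨hk, mu_ne_zero hk hμ, hq, ⟨h1, h2⟩, h3, h4⟩
  have hb := hD.bdd.sat (cop_arr hk)
  have hf := hD.full.mono (E.le_sat (cop_arr hk))
  have hE : ∀ j, Maps (E.sat (cop_arr hk)) (E.sat (cop_arr hk)) (op j) (wt j) := fun j =>
    sat_stab _ ((hD.stab j).mono le_rfl (E.le_sat _) le_rfl)
  have hc := E.sat_closed (cop_arr hk)
  have hss' : SS op (E.sat (cop_arr hk)) := fun U hU => by
    rw [Fam.m1_sat hD.bdd, Fam.deg_sat hD.bdd]; exact hss U hU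
  have e1 := hB k V _ (h.WW_bdd hb hE)
    ((W0_full h.frob hf).mono (W0_le_W2.trans (W2_le_WW h.hk))) hV
    (hV ▸ h.WW_slope hb hf hE hc hss')
  have e2 := (h.WW_mom hb hf hE hc).2
  rw [Fam.m0_full hb hf, hV, Fam.m1_sat hD.bdd] at e2
  have e3 := mul_le_mul_of_nonneg_left (Fam.m2_sat hD.bdd (cop_arr hk)) (Int.natCast_nonneg ρ)
  unfold BogIneq
  rw [hV]
  have e4 : (ρ : ℤ) * (E.sat (cop_arr hk)).m 2 - E.m 1 ^ 2 + (ρ : ℤ) ^ 2 ≤ 0 := by
    by_contra hcon
    have e5 : (1 : ℤ) ≤ ρ * (E.sat (cop_arr hk)).m 2 - E.m 1 ^ 2 + (ρ : ℤ) ^ 2 := by omega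
    have e6 := mul_le_mul_of_nonneg_left e5 (sq_nonneg (p : ℤ))
    have e7 : (p : ℤ) ≤ (p : ℤ) ^ 2 := Int.le_self_sq _
    have e8 : (1001 : ℤ) + B.natAbs + (ρ : ℤ) ^ 2 ≤ p := by exact_mod_cast hp0
    have e9 : B ≤ B.natAbs := Int.le_natAbs
    linarith
  have e10 : (0 : ℤ) < (ρ : ℤ) ^ 2 := by positivity
  linarith

end Vale.Agent.P190
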