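import Vale.Agent.P190.Num

/-!
Moments of Frobenius pullbacks along polynomial subrings.
-/

noncomputable section

namespace Vale.Agent.P190

open Finset Polynomial

/-- The shift operator. -/
def Sh : Module.End ℤ (ℤ → ℤ) where
  toFun f n := f (n - 1)
  map_add' _ _ := rfl
  map_smul' _ _ := rfl

/-- Action of a polynomial in the shift. -/
def act (q : ℤ[X]) (f : ℤ → ℤ) : ℤ → ℤ := aeval Sh q f

theorem act_mul (q q' : ℤ[X]) (f : ℤ → ℤ) : act (q * q') f = act q (act q' f) := by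
  simp [act]

theorem act_add (q q' : ℤ[X]) (f : ℤ → ℤ) : act (q + q') f = act q f + act q' f := by
  simp [act]

theorem act_sub (q q' : ℤ[X]) (f : ℤ → ℤ) : act (q - q') f = act q f - act q' f := by
  simp [act]

theorem act_one (f : ℤ → ℤ) : act 1 f = f := by simp [act]

theorem act_sum {ι : Type*} (s : Finset ι) (q : ι → ℤ[X]) (f : ℤ → ℤ) :
    act (∑ i ∈ s, q i) f = ∑ i ∈ s, act (q i) f := by
  simp [act, map_sum, LinearMap.sum_apply]

theorem act_X_pow (d : ℕ) (f : ℤ → ℤ) : act (X ^ d) f = fun n => f (n - d) := by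
  induction d generalizing f with
  | zero => simp [act]
  | succ d ih =>
    rw [pow_succ, act_mul, ih]
    ext n
    simp only [act, aeval_X, Sh, LinearMap.coe_mk, AddHom.coe_mk]
    congr 1; push_cast; ring

theorem act_one_sub (d : ℕ) (f : ℤ → ℤ) :
    act (1 - X ^ d) f = fun n => f n - f (n - d) := by
  rw [act_sub, act_one, act_X_pow]; rfl

theorem DQ_eq_act (h : ℤ → ℤ) : DQ h = act ((1 - X ^ 4) * (1 - X ^ 4) * (1 - X ^ 1)) h := by
  rw [act_mul, act_mul, act_one_sub, act_one_sub, act_one_sub]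
  ext n
  unfold DQ
  simp only [Nat.cast_ofNat, Nat.cast_one, sub_sub]
  norm_num
  ring

/-- Inflation by `p`. -/
def infl (p : ℕ) (f : ℤ → ℤ) (n : ℤ) : ℤ := if (p : ℤ) ∣ n then f (n / p) else 0

theorem infl_one_sub {p : ℕ} (hp : 0 < p) (d : ℕ) (f : ℤ → ℤ) :
    act (1 - X ^ (p * d)) (infl p f) = infl p (act (1 - X ^ d) f) := by
  rw [act_one_sub, act_one_sub]
  ext n
  have hp' : (p : ℤ) ≠ 0 := by omega
  unfold infl
  by_cases h : (p : ℤ) ∣ n
  · have h2 : (p : ℤ) ∣ n - (p * d : ℕ) := dvd_sub h (by push_cast; exact dvd_mul_right _ _)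
    rw [if_pos h, if_pos h, if_pos h2]
    congr 2
    push_cast
    rw [show n - (p : ℤ) * d = n + p * (-d) by ring, Int.add_mul_ediv_left _ _ hp']
    ring
  · have h2 : ¬ (p : ℤ) ∣ n - (p * d : ℕ) := fun h3 => h (by
      have := dvd_add h3 (dvd_mul_right (p : ℤ) d)
      push_cast at this
      simpa using this)
    rw [if_neg h, if_neg h, if_neg h2]; simp

theorem floor_diff {p : ℕ} (hp : 0 < p) (h : ℤ → ℤ) :
    act (1 - X ^ 1) (fun n => h (n / p)) = infl p (act (1 - X ^ 1) h) := by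
  rw [act_one_sub, act_one_sub]
  ext n
  have hp' : (0 : ℤ) < p := by omega
  unfold infl
  simp only [Nat.cast_one]
  split_ifs with hd
  · obtain ⟨c, rfl⟩ := hd
    have e1 : (p : ℤ) * c / p = c := Int.mul_ediv_cancel_left _ hp'.ne'
    have e2 : ((p : ℤ) * c - 1) / p = c - 1 := by
      rw [show (p : ℤ) * c - 1 = (p - 1) + p * (c - 1) by ring, Int.add_mul_ediv_left _ _ hp'.ne',
        Int.ediv_eq_zero_of_lt (by omega) (by omega)]
      ring
    rw [e1, e2]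
  · have e : (n - 1) / p = n / p := by
      have h1 := Int.emod_add_mul_ediv n p
      have h2 := Int.emod_nonneg n hp'.ne'
      have h3 := Int.emod_lt_of_pos n hp'
      have h4 : n % p ≠ 0 := fun h5 => hd (Int.dvd_of_emod_eq_zero h5)
      have : n - 1 = (n % p - 1) + p * (n / p) := by linarith
      rw [this, Int.add_mul_ediv_left _ _ hp'.ne', Int.ediv_eq_zero_of_lt (by omega) (by omega)]
      ring
    rw [e]; ring

theorem fs_infl {p : ℕ} (hp : 0 < p) (w Q : ℤ → ℤ) :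
    fs w (infl p Q) = fs (fun n => w (p * n)) Q := by
  have hp' : (p : ℤ) ≠ 0 := by omega
  unfold fs
  have hinj : Function.Injective fun n : ℤ => (p : ℤ) * n := mul_right_injective₀ hp'
  rw [← finsum_mem_univ, ← finsum_mem_inter_support_eq' _ (Set.range fun n : ℤ => (p : ℤ) * n),
    finsum_mem_range hinj]
  · congr 1; ext n
    unfold infl
    rw [if_pos (dvd_mul_right _ _), Int.mul_ediv_cancel_left _ hp']
  · intro x hx
    simp only [Set.mem_range, Set.mem_univ, iff_true]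
    by_contra hc
    apply hx
    unfold infl
    rw [if_neg, mul_zero]
    rintro ⟨c, rfl⟩
    exact hc ⟨c, rfl⟩

theorem infl_finite {p : ℕ} {Q : ℤ → ℤ} (hQ : (Function.support Q).Finite) :
    (Function.support (infl p Q)).Finite := by
  refine (hQ.image fun n => (p : ℤ) * n).subset fun x hx => ?_
  rw [Function.mem_support] at hx
  unfold infl at hx
  split_ifs at hx with hd
  · exact ⟨x / p, hx, Int.mul_ediv_cancel' hd⟩
  · exact absurd rfl hx

theorem shift_finite {Q : ℤ → ℤ} (hQ : (Function.support Q).Finite) (d : ℤ) :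
    (Function.support fun n => Q (n - d)).Finite :=
  (hQ.image fun n => n + d).subset fun x hx => ⟨x - d, hx, by simp⟩

theorem fs_sum (w : ℤ → ℤ) {ι : Type*} (s : Finset ι) {Q : ι → ℤ → ℤ}
    (hQ : ∀ i, (Function.support (Q i)).Finite) :
    (Function.support (∑ i ∈ s, Q i)).Finite ∧ fs w (∑ i ∈ s, Q i) = ∑ i ∈ s, fs w (Q i) := by
  classical
  induction s using Finset.induction_on with
  | empty => simp [fs]
  | insert a s ha ih =>
    rw [Finset.sum_insert ha, Finset.sum_insert ha, ← ih.2]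
    exact ⟨((hQ a).union ih.1).subset (Function.support_add _ _), fs_add w (hQ a) ih.1⟩

/-- Geometric sum. -/
def geo (r d : ℕ) : ℤ[X] := ∑ a ∈ range r, X ^ (d * a)

theorem geo_mul (r d : ℕ) : geo r d * (1 - X ^ d) = 1 - X ^ (d * r) := by
  unfold geo
  simp only [pow_mul]
  have := geom_sum_mul_neg (X ^ d : ℤ[X]) r
  exact this

theorem act_geo2 (r1 r2 d1 d2 : ℕ) (Q : ℤ → ℤ) :
    act (geo r1 d1 * geo r2 d2) Q =
      ∑ x ∈ range r1 ×ˢ range r2, fun n => Q (n - (d1 * x.1 + d2 * x.2 : ℕ)) := by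
  unfold geo
  rw [Finset.sum_mul_sum, ← Finset.sum_product', act_sum]
  refine Finset.sum_congr rfl fun x _ => ?_
  rw [← pow_add, act_X_pow]

theorem fs_geo2 (w : ℤ → ℤ) (r1 r2 d1 d2 : ℕ) {Q : ℤ → ℤ} (hQ : (Function.support Q).Finite) :
    fs w (act (geo r1 d1 * geo r2 d2) Q) =
      ∑ a ∈ range r1, ∑ b ∈ range r2, fs (fun n => w (n + (d1 * a + d2 * b : ℕ))) Q := by
  rw [act_geo2, (fs_sum w _ fun x => shift_finite hQ _).2, Finset.sum_product]
  simp only [fs_shift]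

theorem frob_pair {h h' : ℤ → ℤ} (hh : Good h) (hh' : Good h') {p : ℕ} (hp : 0 < p)
    {w1 w2 r1 r2 : ℕ} (h1 : w1 * r1 = 4) (h2 : w2 * r2 = 4)
    (e : ∀ n, h' n = ∑ i ∈ range p, ∑ j ∈ range p, h ((n - w1 * i - w2 * j) / p)) (w : ℤ → ℤ) :
    ∑ a ∈ range r1, ∑ b ∈ range r2, pair (fun n => w (n + (w1 * p * a + w2 * p * b : ℕ))) h' =
      ∑ a ∈ range r1, ∑ b ∈ range r2, pair (fun n => w (p * n + (w1 * a + w2 * b : ℕ))) h := by
  have e1 : h' = act (geo p w1 * geo p w2) fun n => h (n / p) := by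
    rw [act_geo2]
    ext n
    rw [e, Finset.sum_apply, Finset.sum_product]
    refine Finset.sum_congr rfl fun i _ => Finset.sum_congr rfl fun j _ => ?_
    congr 2; push_cast; ring
  have key : ∀ {w r : ℕ}, w * r = 4 →
      geo r (w * p) * (1 - X ^ 4) * geo p w = geo r w * (1 - X ^ (p * 4)) := by
    intro w r hw
    have a1 := geo_mul r w
    have a2 := geo_mul p w
    have a3 := geo_mul r (w * p)
    rw [hw] at a1
    rw [show w * p * r = p * 4 by rw [← hw]; ring] at a3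
    rw [← a1, ← a3, ← a2]; ring
  have e2 : act (geo r1 (w1 * p) * geo r2 (w2 * p)) (DQ h') =
      act (geo r1 w1 * geo r2 w2) (infl p (DQ h)) := by
    rw [DQ_eq_act, DQ_eq_act, e1, act_mul _ (1 - X ^ 1) h, act_mul (1 - X ^ 4), ← infl_one_sub hp,
      ← infl_one_sub hp, ← floor_diff hp]
    simp only [← act_mul]
    congr 1
    have k1 := key h1
    have k2 := key h2
    calc _ = (geo r1 (w1 * p) * (1 - X ^ 4) * geo p w1) * (geo r2 (w2 * p) * (1 - X ^ 4) * geo p w2)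
        * (1 - X ^ 1) := by ring
      _ = _ := by rw [k1, k2]; ring
  have e3 := congrArg (fs w) e2
  rw [fs_geo2 w _ _ _ _ hh'.finite, fs_geo2 w _ _ _ _ (infl_finite hh.finite)] at e3
  simp only [fs_infl hp] at e3
  exact e3

theorem pair_lin0 (h : ℤ → ℤ) (f : ℤ → ℤ) : pair (fun n => f n ^ 0) h = mom 0 h := by
  simp [mom]

theorem pair_lin1 {h : ℤ → ℤ} (hh : Good h) (a c : ℤ) :
    pair (fun n => (a * n + c) ^ 1) h = a * mom 1 h + c * mom 0 h := by
  have := pair_quad 0 a c hh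
  simpa using this

theorem pair_lin2 {h : ℤ → ℤ} (hh : Good h) (a c : ℤ) :
    pair (fun n => (a * n + c) ^ 2) h = a ^ 2 * mom 2 h + 2 * a * c * mom 1 h + c ^ 2 * mom 0 h := by
  rw [← pair_quad _ _ _ hh]
  congr 1; ext n; ring

theorem frob_mom {h h' : ℤ → ℤ} (hh : Good h) (hh' : Good h') {p : ℕ} (hp : 0 < p)
    {w1 w2 r1 r2 : ℕ} (h1 : w1 * r1 = 4) (h2 : w2 * r2 = 4)
    (e : ∀ n, h' n = ∑ i ∈ range p, ∑ j ∈ range p, h ((n - w1 * i - w2 * j) / p)) :
    (∑ _a ∈ range r1, ∑ _b ∈ range r2, mom 0 h' = ∑ _a ∈ range r1, ∑ _b ∈ range r2, mom 0 h) ∧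
    (∑ a ∈ range r1, ∑ b ∈ range r2, (mom 1 h' + (w1 * p * a + w2 * p * b : ℕ) * mom 0 h') =
      ∑ a ∈ range r1, ∑ b ∈ range r2, (p * mom 1 h + (w1 * a + w2 * b : ℕ) * mom 0 h)) ∧
    (∑ a ∈ range r1, ∑ b ∈ range r2, (mom 2 h' + 2 * (w1 * p * a + w2 * p * b : ℕ) * mom 1 h' +
        ((w1 * p * a + w2 * p * b : ℕ) : ℤ) ^ 2 * mom 0 h') =
      ∑ a ∈ range r1, ∑ b ∈ range r2, (p ^ 2 * mom 2 h + 2 * p * (w1 * a + w2 * b : ℕ) * mom 1 h +
        ((w1 * a + w2 * b : ℕ) : ℤ) ^ 2 * mom 0 h)) := by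
  refine ⟨?_, ?_, ?_⟩
  · have := frob_pair hh hh' hp h1 h2 e (fun n => n ^ 0)
    simpa only [pair_lin0] using this
  · have := frob_pair hh hh' hp h1 h2 e (fun n => n ^ 1)
    have a := fun c => pair_lin1 hh' 1 c
    simp only [one_mul] at a
    simpa only [a, pair_lin1 hh] using this
  · have := frob_pair hh hh' hp h1 h2 e (fun n => n ^ 2)
    have a := fun c => pair_lin2 hh' 1 c
    simp only [one_mul, one_pow, mul_one] at a
    simpa only [a, pair_lin2 hh] using this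

theorem frob_44 {h h' : ℤ → ℤ} (hh : Good h) (hh' : Good h') {p : ℕ} (hp : 0 < p)
    (e : ∀ n, h' n = ∑ i ∈ range p, ∑ j ∈ range p,
      h ((n - (4 : ℕ) * i - (4 : ℕ) * j) / p)) :
    mom 0 h' = mom 0 h ∧ mom 1 h' = p * mom 1 h ∧ mom 2 h' = p ^ 2 * mom 2 h := by
  have := frob_mom hh hh' hp (r1 := 1) (r2 := 1) rfl rfl e
  simpa using this

theorem frob_24 {h h' : ℤ → ℤ} (hh : Good h) (hh' : Good h') {p : ℕ} (hp : 0 < p)
    (e : ∀ n, h' n = ∑ i ∈ range p, ∑ j ∈ range p,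
      h ((n - (2 : ℕ) * i - (4 : ℕ) * j) / p)) :
    mom 0 h' = mom 0 h ∧ mom 1 h' = p * mom 1 h - (p - 1) * mom 0 h ∧
      mom 2 h' = p ^ 2 * mom 2 h - 2 * p * (p - 1) * mom 1 h - 2 * (p - 1) * mom 0 h := by
  obtain ⟨a0, a1, a2⟩ := frob_mom hh hh' hp (r1 := 2) (r2 := 1) rfl rfl e
  simp only [Finset.sum_range_succ, Finset.sum_range_zero] at a0 a1 a2
  push_cast at a0 a1 a2
  have b0 : mom 0 h' = mom 0 h := by linarith
  have b1 : mom 1 h' = p * mom 1 h - (p - 1) * mom 0 h := by rw [b0] at a1; linarith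
  refine ⟨b0, b1, ?_⟩
  rw [b0, b1] at a2
  linarith

theorem frob_22 {h h' : ℤ → ℤ} (hh : Good h) (hh' : Good h') {p : ℕ} (hp : 0 < p)
    (e : ∀ n, h' n = ∑ i ∈ range p, ∑ j ∈ range p,
      h ((n - (2 : ℕ) * i - (2 : ℕ) * j) / p)) :
    mom 0 h' = mom 0 h ∧ mom 1 h' = p * mom 1 h - 2 * (p - 1) * mom 0 h ∧
      mom 2 h' = p ^ 2 * mom 2 h - 4 * p * (p - 1) * mom 1 h +
        (2 * p ^ 2 - 8 * p + 6) * mom 0 h := by
  obtain ⟨a0, a1, a2⟩ := frob_mom hh hh' hp (r1 := 2) (r2 := 2) rfl rfl e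
  simp only [Finset.sum_range_succ, Finset.sum_range_zero] at a0 a1 a2
  push_cast at a0 a1 a2
  have b0 : mom 0 h' = mom 0 h := by linarith
  have b1 : mom 1 h' = p * mom 1 h - 2 * (p - 1) * mom 0 h := by rw [b0] at a1; linarith
  refine ⟨b0, b1, ?_⟩
  rw [b0, b1] at a2
  linarith

theorem frob_11 {h h' : ℤ → ℤ} (hh : Good h) (hh' : Good h') {p : ℕ} (hp : 0 < p)
    (e : ∀ n, h' n = ∑ i ∈ range p, ∑ j ∈ range p,
      h ((n - (1 : ℕ) * i - (1 : ℕ) * j) / p)) :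
    mom 0 h' = mom 0 h ∧ mom 1 h' = p * mom 1 h - 3 * (p - 1) * mom 0 h ∧
      2 * mom 2 h' = 2 * p ^ 2 * mom 2 h - 12 * p * (p - 1) * mom 1 h +
        (13 * p ^ 2 - 36 * p + 23) * mom 0 h := by
  obtain ⟨a0, a1, a2⟩ := frob_mom hh hh' hp (r1 := 4) (r2 := 4) rfl rfl e
  simp only [Finset.sum_range_succ, Finset.sum_range_zero] at a0 a1 a2
  push_cast at a0 a1 a2
  have b0 : mom 0 h' = mom 0 h := by linarith
  have b1 : mom 1 h' = p * mom 1 h - 3 * (p - 1) * mom 0 h := by rw [b0] at a1; linarith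
  refine ⟨b0, b1, ?_⟩
  rw [b0, b1] at a2
  linarith

end Vale.Agent.P190
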