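import Vale.Agent.P190.Nil
import Vale.Agent.P190.NumFrob

/-!
Frobenius pullbacks along polynomial subrings.
-/

noncomputable section

namespace Vale.Agent.P190

open Module Finset

variable {k : Type} [Field k]
variable {V : Type} [AddCommGroup V] [Module k V] [Module (Kf k) V] [IsScalarTower k (Kf k) V]

/-- A Frobenius semilinear map that realises the pullback along Frobenius. -/
structure IsFrob (k : Type) [Field k] {V : Type} [AddCommGroup V] [Module (Kf k) V] (p : ℕ)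
    (φ : V →+ V) : Prop where
  smul : ∀ (c : Kf k) v, φ (c • v) = c ^ p • φ v
  bij : Function.Bijective (fun f : Fin p × Fin p → V =>
    ∑ ij, (yK k ^ ij.1.val * zK k ^ ij.2.val) • φ (f ij))

/-- Scalar operator. -/
abbrev sc (c : Kf k) : Module.End (Kf k) V := algebraMap (Kf k) (Module.End (Kf k) V) c

/-- Expansion along the monomials in two operators. -/
def Psi (p : ℕ) (φ : V →+ V) (σ τ : Module.End (Kf k) V) : (Fin p × Fin p → V) →+ V where
  toFun f := ∑ ij, (σ ^ ij.1.val * τ ^ ij.2.val) (φ (f ij))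
  map_zero' := by simp
  map_add' f g := by simp [Finset.sum_add_distrib]

/-- The smallest family containing the image of `E` and stable under `σ`, `τ`. -/
def Wf (p : ℕ) (φ : V →+ V) (E : Fam k V) (σ τ : Module.End (Kf k) V) (w1 w2 : ℕ) : Fam k V where
  toFun n :=
    { carrier := {w | ∀ G : Fam k V, (∀ m v, v ∈ E m → φ v ∈ G (p * m)) → Maps G G σ w1 →
        Maps G G τ w2 → w ∈ G n}
      zero_mem' := fun G _ _ _ => zero_mem _
      add_mem' := fun ha hb G h1 h2 h3 => add_mem (ha G h1 h2 h3) (hb G h1 h2 h3)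
      smul_mem' := fun r _ ha G h1 h2 h3 => Submodule.smul_mem _ r (ha G h1 h2 h3) }
  smul_mem' := fun hc hv G h1 h2 h3 => G.smul_mem' hc (hv G h1 h2 h3)

/-- The data of a polynomial subring with generators `s`, `t` and their `p`-th roots. -/
structure Chart (p : ℕ) (φ : V →+ V) (σ τ s t : Module.End (Kf k) V) (w1 w2 : ℕ) : Prop where
  comm : Commute σ τ
  hs : ∀ v, (σ ^ p) (φ v) = φ (s v)
  ht : ∀ v, (τ ^ p) (φ v) = φ (t v)
  hyz : ∀ F : ℤ → Submodule k V, (∀ n, F n ≤ F (n + 1)) → (∀ n v, v ∈ F n → σ v ∈ F (n + w1)) →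
    (∀ n v, v ∈ F n → τ v ∈ F (n + w2)) →
    (∀ n v, v ∈ F n → yK k • v ∈ F (n + 4)) ∧ (∀ n v, v ∈ F n → zK k • v ∈ F (n + 4))

variable {p : ℕ} {φ : V →+ V} {σ τ s t : Module.End (Kf k) V} {w1 w2 : ℕ}

section

omit [IsScalarTower k (Kf k) V]

theorem Wf_phi (E : Fam k V) {m : ℤ} {v : V} (hv : v ∈ E m) : φ v ∈ Wf p φ E σ τ w1 w2 (p * m) :=
  fun _ h1 _ _ => h1 m v hv

theorem Wf_fst (E : Fam k V) : Maps (Wf p φ E σ τ w1 w2) (Wf p φ E σ τ w1 w2) σ w1 :=
  fun n v hv G h1 h2 h3 => h2 n v (hv G h1 h2 h3)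

theorem Wf_snd (E : Fam k V) : Maps (Wf p φ E σ τ w1 w2) (Wf p φ E σ τ w1 w2) τ w2 :=
  fun n v hv G h1 h2 h3 => h3 n v (hv G h1 h2 h3)

theorem Wf_le {E G : Fam k V} (h1 : ∀ m v, v ∈ E m → φ v ∈ G (p * m)) (h2 : Maps G G σ w1)
    (h3 : Maps G G τ w2) : Wf p φ E σ τ w1 w2 ≤ G := fun _ _ hv => hv G h1 h2 h3

theorem maps_pow {G : Fam k V} {θ : Module.End (Kf k) V} {d : ℤ} (h : Maps G G θ d) (i : ℕ) :
    Maps G G (θ ^ i : Module.End (Kf k) V) (i * d) := by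
  induction i with
  | zero => intro n v hv; simpa using hv
  | succ i ih =>
    intro n v hv
    rw [pow_succ', Module.End.mul_apply]
    exact G.mono (by push_cast; linarith) (h _ _ (ih n v hv))

omit [Module k V]

theorem Psi_apply (f : Fin p × Fin p → V) :
    Psi p φ σ τ f = ∑ ij, (σ ^ ij.1.val * τ ^ ij.2.val) (φ (f ij)) := rfl

theorem Psi0_apply (f : Fin p × Fin p → V) : Psi p φ (sc (yK k)) (sc (zK k)) f =
    ∑ ij, (yK k ^ ij.1.val * zK k ^ ij.2.val) • φ (f ij) := by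
  rw [Psi_apply]
  refine Finset.sum_congr rfl fun ij _ => ?_
  rw [← map_pow, ← map_pow, ← map_mul, Module.algebraMap_end_apply]

theorem IsFrob.bij0 (hφ : IsFrob k p φ) : Function.Bijective (Psi p φ (sc (yK k)) (sc (zK k))) := by
  have := hφ.bij
  rwa [← funext Psi0_apply] at this

theorem Psi_smul (hφ : IsFrob k p φ) (c : Kf k) (f : Fin p × Fin p → V) :
    Psi p φ σ τ (c • f) = c ^ p • Psi p φ σ τ f := by
  simp only [Psi_apply, Finset.smul_sum, Pi.smul_apply, hφ.smul, map_smul]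

theorem Psi_single (ij : Fin p × Fin p) (v : V) :
    Psi p φ σ τ (Pi.single ij v) = (σ ^ ij.1.val * τ ^ ij.2.val) (φ v) := by
  rw [Psi_apply, Finset.sum_eq_single ij]
  · simp
  · intro b _ hb; simp [hb]
  · simp

end

variable [Fact p.Prime] [CharP k p] [PerfectRing k p]

theorem Psi_ksmul (hφ : IsFrob k p φ) (r : k) (f : Fin p × Fin p → V) :
    Psi p φ σ τ (r • f) = r ^ p • Psi p φ σ τ f := by
  rw [← algebraMap_smul (Kf k) r f, Psi_smul hφ, ← map_pow, algebraMap_smul]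

/-- The explicit description of `Wf`. -/
def XS (hφ : IsFrob k p φ) (F : ℤ → Submodule k V) (σ τ : Module.End (Kf k) V) (w1 w2 : ℕ)
    (n : ℤ) : Submodule k V where
  carrier := {w | ∃ f : Fin p × Fin p → V,
    (∀ ij, f ij ∈ F ((n - w1 * ij.1.val - w2 * ij.2.val) / p)) ∧ Psi p φ σ τ f = w}
  zero_mem' := ⟨0, fun _ => zero_mem _, map_zero _⟩
  add_mem' := by
    rintro _ _ ⟨f, hf, rfl⟩ ⟨g, hg, rfl⟩
    exact ⟨f + g, fun ij => add_mem (hf ij) (hg ij), map_add _ _ _⟩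
  smul_mem' := by
    rintro r _ ⟨f, hf, rfl⟩
    refine ⟨(frobeniusEquiv k p).symm r • f, fun ij => Submodule.smul_mem _ _ (hf ij), ?_⟩
    rw [Psi_ksmul hφ, frobeniusEquiv_symm_pow_p]

theorem XS_single (hφ : IsFrob k p φ) {F : ℤ → Submodule k V} {n : ℤ} {i j : ℕ} (hi : i < p)
    (hj : j < p) {v : V} (hv : v ∈ F ((n - w1 * i - w2 * j) / p)) :
    (σ ^ i * τ ^ j) (φ v) ∈ XS hφ F σ τ w1 w2 n := by
  refine ⟨Pi.single (⟨i, hi⟩, ⟨j, hj⟩) v, fun ij => ?_, Psi_single _ _⟩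
  by_cases h : ij = (⟨i, hi⟩, ⟨j, hj⟩)
  · subst h; simpa using hv
  · simp [h]

theorem XS_fst (hφ : IsFrob k p φ) (hc : Chart p φ σ τ s t w1 w2) {F : ℤ → Submodule k V}
    (hF : ∀ n v, v ∈ F n → s v ∈ F (n + w1)) (n : ℤ) (w : V) (hw : w ∈ XS hφ F σ τ w1 w2 n) :
    σ w ∈ XS hφ F σ τ w1 w2 (n + w1) := by
  have hp : 0 < p := (Fact.out : p.Prime).pos
  obtain ⟨f, hf, rfl⟩ := hw
  rw [Psi_apply, map_sum]
  refine Submodule.sum_mem _ fun ⟨i, j⟩ _ => ?_
  rw [← Module.End.mul_apply, ← mul_assoc, ← pow_succ']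
  by_cases hi : i.val + 1 < p
  · refine XS_single hφ hi j.2 ?_
    have := hf (i, j)
    convert this using 3
    push_cast; ring
  · have hi' : i.val + 1 = p := by have := i.2; omega
    rw [hi', (hc.comm.pow_pow _ _).eq, Module.End.mul_apply, hc.hs]
    have := XS_single (σ := σ) (τ := τ) (w1 := w1) (w2 := w2) (n := n + w1) (F := F) hφ hp j.2
      (v := s (f (i, j))) (by
        have := hF _ _ (hf (i, j))
        convert this using 2
        have e : (i.val : ℤ) = p - 1 := by omega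
        simp only [e]
        rw [← Int.add_mul_ediv_right _ _ (show (p : ℤ) ≠ 0 by omega)]
        congr 1; push_cast; ring)
    simpa using this

theorem XS_snd (hφ : IsFrob k p φ) (hc : Chart p φ σ τ s t w1 w2) {F : ℤ → Submodule k V}
    (hF : ∀ n v, v ∈ F n → t v ∈ F (n + w2)) (n : ℤ) (w : V) (hw : w ∈ XS hφ F σ τ w1 w2 n) :
    τ w ∈ XS hφ F σ τ w1 w2 (n + w2) := by
  have hp : 0 < p := (Fact.out : p.Prime).pos
  obtain ⟨f, hf, rfl⟩ := hw
  rw [Psi_apply, map_sum]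
  refine Submodule.sum_mem _ fun ⟨i, j⟩ _ => ?_
  rw [← Module.End.mul_apply, ← mul_assoc, (hc.comm.symm.pow_right _).eq, mul_assoc, ← pow_succ']
  by_cases hj : j.val + 1 < p
  · refine XS_single hφ i.2 hj ?_
    have := hf (i, j)
    convert this using 3
    push_cast; ring
  · have hj' : j.val + 1 = p := by have := j.2; omega
    rw [hj', Module.End.mul_apply, hc.ht]
    have := XS_single (σ := σ) (τ := τ) (w1 := w1) (w2 := w2) (n := n + w2) (F := F) hφ i.2 hp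
      (v := t (f (i, j))) (by
        have := hF _ _ (hf (i, j))
        convert this using 2
        have e : (j.val : ℤ) = p - 1 := by omega
        simp only [e]
        rw [← Int.add_mul_ediv_right _ _ (show (p : ℤ) ≠ 0 by omega)]
        congr 1; push_cast; ring)
    simpa using this

theorem XS_phi (hφ : IsFrob k p φ) {F : ℤ → Submodule k V} {m : ℤ} {v : V} (hv : v ∈ F m) :
    φ v ∈ XS hφ F σ τ w1 w2 (p * m) := by
  have hp : 0 < p := (Fact.out : p.Prime).pos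
  have := XS_single (σ := σ) (τ := τ) (w1 := w1) (w2 := w2) (n := p * m) (F := F) hφ hp hp
    (v := v) (by
      simp only [Nat.cast_zero, mul_zero, sub_zero]
      rwa [Int.mul_ediv_cancel_left _ (show (p : ℤ) ≠ 0 by omega)])
  simpa using this

theorem XS_mono (hφ : IsFrob k p φ) {F : ℤ → Submodule k V} (hF : ∀ {m n}, m ≤ n → F m ≤ F n)
    (n : ℤ) : XS hφ F σ τ w1 w2 n ≤ XS hφ F σ τ w1 w2 (n + 1) := by
  have hp : 0 < p := (Fact.out : p.Prime).pos
  rintro _ ⟨f, hf, rfl⟩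
  exact ⟨f, fun ij => hF (Int.ediv_le_ediv (by omega) (by omega)) (hf ij), rfl⟩

theorem Wf_eq (hφ : IsFrob k p φ) (hc : Chart p φ σ τ s t w1 w2) {E : Fam k V}
    (hs : Maps E E s w1) (ht : Maps E E t w2) (n : ℤ) :
    Wf p φ E σ τ w1 w2 n = XS hφ E σ τ w1 w2 n := by
  have hp : 0 < p := (Fact.out : p.Prime).pos
  apply le_antisymm
  · have hm := XS_mono (σ := σ) (τ := τ) (w1 := w1) (w2 := w2) hφ (F := E) E.mono
    obtain ⟨hy, hz⟩ := hc.hyz _ hm (XS_fst hφ hc hs) (XS_snd hφ hc ht)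
    exact Wf_le (G := Fam.ofGen _ hm hy hz) (fun m v hv => XS_phi hφ hv) (XS_fst hφ hc hs)
      (XS_snd hφ hc ht) n
  · rintro _ ⟨f, hf, rfl⟩
    rw [Psi_apply]
    refine Submodule.sum_mem _ fun ij _ => ?_
    rw [Module.End.mul_apply]
    refine (Wf p φ E σ τ w1 w2).mono ?_
      (maps_pow (Wf_fst E) _ _ _ (maps_pow (Wf_snd E) _ _ _ (Wf_phi E (hf ij))))
    have := Int.mul_ediv_self_le (x := n - w1 * ij.1.val - w2 * ij.2.val)
      (show (p : ℤ) ≠ 0 by omega)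
    linarith

theorem Psi_surj (hφ : IsFrob k p φ) (hc : Chart p φ σ τ s t w1 w2) (U : Submodule (Kf k) V)
    (hs : ∀ v ∈ U, s v ∈ U) (ht : ∀ v ∈ U, t v ∈ U) (f0 : Fin p × Fin p → V)
    (h0 : ∀ ij, f0 ij ∈ U) :
    ∃ f, (∀ ij, f ij ∈ U) ∧ Psi p φ σ τ f = Psi p φ (sc (yK k)) (sc (zK k)) f0 := by
  let F : ℤ → Submodule k V := fun _ => U.restrictScalars k
  have hm := XS_mono (σ := σ) (τ := τ) (w1 := w1) (w2 := w2) hφ (F := F) fun _ => le_rfl
  obtain ⟨hy, hz⟩ := hc.hyz _ hm (XS_fst hφ hc fun _ v hv => hs v hv)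
    (XS_snd hφ hc fun _ v hv => ht v hv)
  let G := Fam.ofGen _ hm hy hz
  have : Psi p φ (sc (yK k)) (sc (zK k)) f0 ∈ G (8 * p) := by
    rw [Psi0_apply]
    refine Submodule.sum_mem _ fun ij _ => ?_
    refine G.smul_mem (monomial_mem_A le_rfl) (n := p * 0) (XS_phi hφ (h0 ij)) ?_
    have := ij.1.2
    have := ij.2.2
    omega
  obtain ⟨f, hf, e⟩ := this
  exact ⟨f, hf, e⟩

theorem Psi_inj [FiniteDimensional (Kf k) V] (hφ : IsFrob k p φ) (hc : Chart p φ σ τ s t w1 w2) :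
    Function.Injective (Psi p φ σ τ) := by
  let e := Equiv.ofBijective _ hφ.bij0
  have he : ∀ x, Psi p φ (sc (yK k)) (sc (zK k)) (e.symm x) = x := e.apply_symm_apply
  let L : (Fin p × Fin p → V) →ₗ[Kf k] (Fin p × Fin p → V) :=
    { toFun := fun f => e.symm (Psi p φ σ τ f)
      map_add' := fun f g => hφ.bij0.1 (by rw [he, map_add, map_add, he, he])
      map_smul' := fun c f => hφ.bij0.1 (by
        rw [he, RingHom.id_apply, Psi_smul hφ, Psi_smul hφ, he]) }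
  have hs : Function.Surjective L := fun f0 => by
    obtain ⟨f, -, hf⟩ := Psi_surj hφ hc ⊤ (fun _ _ => trivial) (fun _ _ => trivial) f0
      fun _ => trivial
    exact ⟨f, e.symm_apply_eq.2 hf⟩
  have hi := LinearMap.injective_iff_surjective.2 hs
  intro f g h
  exact hi (congrArg e.symm h)

theorem Wf_h [FiniteDimensional (Kf k) V] (hφ : IsFrob k p φ) (hc : Chart p φ σ τ s t w1 w2)
    {E : Fam k V} (hb : E.Bdd) (hs : Maps E E s w1) (ht : Maps E E t w2) (n : ℤ) :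
    (Wf p φ E σ τ w1 w2).h n =
      ∑ i ∈ range p, ∑ j ∈ range p, E.h ((n - w1 * i - w2 * j) / p) := by
  have := hb.finite
  let S : Fin p × Fin p → Submodule k V := fun ij => E ((n - w1 * ij.1.val - w2 * ij.2.val) / p)
  let j0 : Submodule.pi Set.univ S →+ XS hφ E σ τ w1 w2 n :=
    { toFun := fun f => ⟨Psi p φ σ τ f, f, fun ij => f.2 ij trivial, rfl⟩
      map_zero' := by ext; simp
      map_add' := fun f g => by ext; simp }
  have hj : Function.Bijective j0 := by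
    constructor
    · intro f g h
      exact Subtype.ext (Psi_inj hφ hc (congrArg Subtype.val h))
    · rintro ⟨_, f, hf, rfl⟩
      exact ⟨⟨f, fun ij _ => hf ij⟩, rfl⟩
  have e := rank_eq_of_equiv_equiv (frobenius k p) (AddEquiv.ofBijective j0 hj)
    (bijective_frobenius k p) fun r f => Subtype.ext (Psi_ksmul hφ r f)
  have e2 : finrank k (Submodule.pi Set.univ S) = finrank k (XS hφ E σ τ w1 w2 n) :=
    congrArg Cardinal.toNat e
  unfold Fam.h
  rw [Wf_eq hφ hc hs ht, ← e2, Fam.finrank_pi_submodule, Fintype.sum_prod_type]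
  push_cast
  rw [← Fin.sum_univ_eq_sum_range (fun i => ∑ j ∈ range p,
    (finrank k (E ((n - w1 * i - w2 * j) / p)) : ℤ))]
  refine Finset.sum_congr rfl fun i _ => ?_
  rw [← Fin.sum_univ_eq_sum_range (fun j => (finrank k (E ((n - w1 * i - w2 * j) / p)) : ℤ))]

theorem Wf_bdd [FiniteDimensional (Kf k) V] (hφ : IsFrob k p φ) (hc : Chart p φ σ τ s t w1 w2)
    {E : Fam k V} (hb : E.Bdd) (hs : Maps E E s w1) (ht : Maps E E t w2) :
    (Wf p φ E σ τ w1 w2).Bdd := by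
  have hp : 0 < p := (Fact.out : p.Prime).pos
  obtain ⟨N, v, d, hle⟩ := hb
  refine (Fam.bdd_gen (fun x : (Fin p × Fin p) × Fin N => (σ ^ x.1.1.val * τ ^ x.1.2.val) (φ (v x.2)))
    (fun x => p * d x.2 + w1 * x.1.1.val + w2 * x.1.2.val)).mono fun n w hw => ?_
  rw [Wf_eq hφ hc hs ht] at hw
  obtain ⟨f, hf, rfl⟩ := hw
  rw [Psi_apply]
  refine Submodule.sum_mem _ fun ij _ => ?_
  obtain ⟨c, hc', e⟩ := Fam.mem_gen.1 (hle _ (hf ij))
  rw [← e, map_sum, map_sum]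
  refine Submodule.sum_mem _ fun l _ => ?_
  rw [hφ.smul, map_smul]
  refine Fam.smul_mem _ (A_pow (hc' l) p) (Fam.self_mem_gen _ _ (ij, l)) ?_
  have := Int.mul_ediv_self_le (x := n - w1 * ij.1.val - w2 * ij.2.val)
    (show (p : ℤ) ≠ 0 by omega)
  simp only
  linarith

theorem Wf_inf [FiniteDimensional (Kf k) V] (hφ : IsFrob k p φ) (hc : Chart p φ σ τ s t w1 w2)
    {E : Fam k V} (hs : Maps E E s w1) (ht : Maps E E t w2) {U U' : Submodule (Kf k) V}
    (hsU : ∀ v ∈ U, s v ∈ U) (htU : ∀ v ∈ U, t v ∈ U)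
    (h1 : ∀ f, Psi p φ (sc (yK k)) (sc (zK k)) f ∈ U' → ∀ ij, f ij ∈ U) :
    (Wf p φ E σ τ w1 w2).inf U' ≤ Wf p φ (E.inf U) σ τ w1 w2 := by
  rintro n w ⟨hw, hwU⟩
  rw [Wf_eq hφ hc (E := E.inf U) (fun n v hv => ⟨hs n v hv.1, hsU v hv.2⟩)
    (fun n v hv => ⟨ht n v hv.1, htU v hv.2⟩)]
  have hw' : w ∈ Wf p φ E σ τ w1 w2 n := hw
  rw [Wf_eq hφ hc hs ht] at hw'
  obtain ⟨f, hf, rfl⟩ := hw'
  obtain ⟨f0, e0⟩ := hφ.bij0.2 (Psi p φ σ τ f)
  obtain ⟨f', hf', e'⟩ := Psi_surj hφ hc U hsU htU f0 (h1 f0 (e0 ▸ hwU))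
  have : f' = f := Psi_inj hφ hc (e'.trans e0)
  subst this
  exact ⟨f', fun ij => ⟨hf ij, hf' ij⟩, rfl⟩

omit [Fact p.Prime] [CharP k p] [PerfectRing k p] [IsScalarTower k (Kf k) V] in
theorem chart0 (hφ : IsFrob k p φ) :
    Chart p φ (sc (yK k)) (sc (zK k)) (sc (yK k)) (sc (zK k)) 4 4 where
  comm := (Commute.all _ _).map _
  hs v := by rw [← map_pow, Module.algebraMap_end_apply, Module.algebraMap_end_apply, hφ.smul]
  ht v := by rw [← map_pow, Module.algebraMap_end_apply, Module.algebraMap_end_apply, hφ.smul]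
  hyz _ _ h1 h2 := ⟨h1, h2⟩

omit [Fact p.Prime] [CharP k p] [PerfectRing k p] [IsScalarTower k (Kf k) V] in
theorem maps_sc (G : Fam k V) {c : Kf k} {d : ℤ} (hc : c ∈ A k d) : Maps G G (sc c : V → V) d :=
  fun _ _ hv => G.smul_mem' hc hv

/-- The pullback along the Frobenius of the base ring. -/
abbrev W0 (p : ℕ) (φ : V →+ V) (E : Fam k V) : Fam k V :=
  Wf p φ E (sc (yK k)) (sc (zK k)) 4 4

omit [Fact p.Prime] [CharP k p] [PerfectRing k p] [IsScalarTower k (Kf k) V] in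
theorem W0_le {E G : Fam k V} (h1 : ∀ m v, v ∈ E m → φ v ∈ G (p * m)) : W0 p φ E ≤ G :=
  Wf_le h1 (maps_sc G yK_mem) (maps_sc G zK_mem)

theorem W0_full (hφ : IsFrob k p φ) {E : Fam k V} (hf : E.Full) : (W0 p φ E).Full := by
  intro w
  obtain ⟨f, rfl⟩ := hφ.bij0.2 w
  obtain ⟨c, hc, n, hn⟩ := hf.exists_common f
  refine ⟨c ^ p, pow_ne_zero _ hc, p * n + 8 * p, ?_⟩
  rw [← Psi_smul hφ, Psi0_apply]
  refine Submodule.sum_mem _ fun ij _ => ?_
  refine Fam.smul_mem _ (monomial_mem_A le_rfl) (Wf_phi E (hn ij)) ?_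
  have := ij.1.2
  have := ij.2.2
  omega

theorem W0_closed (hφ : IsFrob k p φ) {E : Fam k V} {f g : Kf k} {d e : ℤ} (hc : Cop f d g e)
    (h : E.Closed f d g e) : (W0 p φ E).Closed f d g e := by
  have hp : 0 < p := (Fact.out : p.Prime).pos
  have hE := Wf_eq hφ (chart0 hφ) (maps_sc E yK_mem) (maps_sc E zK_mem)
  have aux : ∀ {f : Kf k} {d : ℤ}, f ∈ A k d → ∀ n f0,
      f • Psi p φ (sc (yK k)) (sc (zK k)) f0 ∈ W0 p φ E (n + d) →
      ∀ ij, f • f0 ij ∈ E ((n - (4 : ℕ) * ij.1.val - (4 : ℕ) * ij.2.val) / p + d) := by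
    intro f d hf n f0 h1 ij
    have h2 := (W0 p φ E).smul_mem' (A_pow hf (p - 1)) h1
    rw [← mul_smul, ← pow_succ, Nat.sub_add_cancel hp, ← Psi_smul hφ, hE] at h2
    obtain ⟨f1, hf1, e1⟩ := h2
    have := hφ.bij0.1 e1
    subst this
    have h3 : f • f0 ij ∈ _ := hf1 ij
    convert h3 using 2
    rw [← Int.add_mul_ediv_right _ _ (show (p : ℤ) ≠ 0 by omega), Nat.cast_sub hp]
    congr 1; push_cast; ring
  intro n w h1 h2
  obtain ⟨f0, rfl⟩ := hφ.bij0.2 w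
  rw [hE]
  exact ⟨f0, fun ij => h _ _ (aux hc.fmem n f0 h1 ij) (aux hc.gmem n f0 h2 ij), rfl⟩

end Vale.Agent.P190
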