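import Vale.Agent.P190.Num

/-!
Families of subspaces: torsion free graded modules over the weighted polynomial ring
`k[x, Y, Z]` (weights 1, 4, 4), dehomogenised by `x = 1`.
-/

noncomputable section

namespace Vale.Agent.P190

open Module

/-- The polynomial ring in `y`, `z`. -/
abbrev Bp (R : Type) [CommRing R] := MvPolynomial (Fin 2) R

/-- Its fraction field. -/
abbrev Kf (k : Type) [Field k] := FractionRing (Bp k)

/-- Polynomials of weighted degree at most `n`, each variable having weight 4. -/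
def Adeg (R : Type) [CommRing R] (n : ℤ) : Submodule R (Bp R) :=
  MvPolynomial.restrictSupport R {m | 4 * ((m 0 : ℤ) + (m 1 : ℤ)) ≤ n}

/-- The inclusion of polynomials in fractions. -/
def toK (k : Type) [Field k] : Bp k →ₐ[k] Kf k :=
  IsScalarTower.toAlgHom k (Bp k) (Kf k)

/-- `Adeg` inside the fraction field. -/
def A (k : Type) [Field k] (n : ℤ) : Submodule k (Kf k) :=
  (Adeg k n).map (toK k).toLinearMap

/-- The variable `y`. -/
def yK (k : Type) [Field k] : Kf k := toK k (MvPolynomial.X 0)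

/-- The variable `z`. -/
def zK (k : Type) [Field k] : Kf k := toK k (MvPolynomial.X 1)

section Adeg

variable {R : Type} [CommRing R]

theorem mem_Adeg {n : ℤ} {c : Bp R} :
    c ∈ Adeg R n ↔ ∀ m ∈ c.support, 4 * ((m 0 : ℤ) + (m 1 : ℤ)) ≤ n := Iff.rfl

theorem degree_fin2 (m : Fin 2 →₀ ℕ) : (m.sum fun _ e => e) = m 0 + m 1 := by
  rw [Finsupp.sum_fintype _ _ (by simp)]; simp [Fin.sum_univ_two]

theorem mem_Adeg_iff {n : ℤ} {c : Bp R} :
    c ∈ Adeg R n ↔ c = 0 ∨ 4 * (c.totalDegree : ℤ) ≤ n := by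
  rw [mem_Adeg]
  constructor
  · intro h
    by_cases hc : c = 0
    · exact Or.inl hc
    · right
      obtain ⟨m, hm, e⟩ := Finset.exists_mem_eq_sup c.support
        (MvPolynomial.support_nonempty.2 hc) (fun s => s.sum fun _ e => e)
      have := h m hm
      rw [MvPolynomial.totalDegree, e, degree_fin2]
      push_cast; exact this
  · rintro (rfl | h) m hm
    · simp at hm
    · have := MvPolynomial.le_totalDegree hm
      rw [degree_fin2] at this
      omega

theorem Adeg_mono {m n : ℤ} (h : m ≤ n) : Adeg R m ≤ Adeg R n := fun _ hc =>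
  mem_Adeg.2 fun x hx => (mem_Adeg.1 hc x hx).trans h

theorem Adeg_mul {m n : ℤ} {c d : Bp R} (hc : c ∈ Adeg R m) (hd : d ∈ Adeg R n) :
    c * d ∈ Adeg R (m + n) := by
  rw [mem_Adeg_iff] at *
  rcases hc with rfl | hc
  · simp
  rcases hd with rfl | hd
  · simp
  right
  have := MvPolynomial.totalDegree_mul c d
  omega

theorem Adeg_C (r : R) {n : ℤ} (hn : 0 ≤ n) : MvPolynomial.C r ∈ Adeg R n := by
  rw [mem_Adeg_iff]; right; simpa using hn

theorem Adeg_one {n : ℤ} (hn : 0 ≤ n) : (1 : Bp R) ∈ Adeg R n := by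
  simpa using Adeg_C (1 : R) hn

theorem Adeg_monomial (m : Fin 2 →₀ ℕ) (r : R) {n : ℤ} (h : 4 * ((m 0 : ℤ) + (m 1 : ℤ)) ≤ n) :
    MvPolynomial.monomial m r ∈ Adeg R n :=
  (MvPolynomial.monomial_mem_restrictSupport R).2 (Or.inl h)

theorem Adeg_X (i : Fin 2) : (MvPolynomial.X i : Bp R) ∈ Adeg R 4 := by
  apply Adeg_monomial
  fin_cases i <;> simp

theorem Adeg_neg {n : ℤ} (hn : n < 0) {c : Bp R} (hc : c ∈ Adeg R n) : c = 0 := by
  rcases mem_Adeg_iff.1 hc with h | h
  · exact h
  · omega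

theorem self_mem_Adeg (c : Bp R) : c ∈ Adeg R (4 * c.totalDegree) :=
  mem_Adeg_iff.2 (Or.inr le_rfl)

theorem Adeg_map {S : Type} [CommRing S] (f : R →+* S) {n : ℤ} {c : Bp R} (hc : c ∈ Adeg R n) :
    MvPolynomial.map f c ∈ Adeg S n :=
  mem_Adeg.2 fun m hm => mem_Adeg.1 hc m (MvPolynomial.support_map_subset f c hm)

end Adeg

section A

variable {k : Type} [Field k]

theorem toK_apply (c : Bp k) : toK k c = algebraMap (Bp k) (Kf k) c := rfl

theorem toK_injective : Function.Injective (toK k) :=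
  IsFractionRing.injective (Bp k) (Kf k)

theorem toK_ne_zero {c : Bp k} (hc : c ≠ 0) : toK k c ≠ 0 := fun h =>
  hc (toK_injective (by rw [h, map_zero]))

theorem mem_A {n : ℤ} {c : Kf k} : c ∈ A k n ↔ ∃ b ∈ Adeg k n, toK k b = c := Iff.rfl

theorem toK_mem_A {n : ℤ} {b : Bp k} : toK k b ∈ A k n ↔ b ∈ Adeg k n :=
  ⟨fun ⟨_, hb', e⟩ => toK_injective e ▸ hb', fun h => ⟨b, h, rfl⟩⟩

theorem A_mono {m n : ℤ} (h : m ≤ n) : A k m ≤ A k n := Submodule.map_mono (Adeg_mono h)

theorem A_mul {m n : ℤ} {c d : Kf k} (hc : c ∈ A k m) (hd : d ∈ A k n) : c * d ∈ A k (m + n) := by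
  obtain ⟨c, hc', rfl⟩ := mem_A.1 hc
  obtain ⟨d, hd', rfl⟩ := mem_A.1 hd
  exact mem_A.2 ⟨c * d, Adeg_mul hc' hd', map_mul _ _ _⟩

theorem A_mul' {m n l : ℤ} {c d : Kf k} (hc : c ∈ A k m) (hd : d ∈ A k n) (h : m + n ≤ l) :
    c * d ∈ A k l := A_mono h (A_mul hc hd)

theorem A_one {n : ℤ} (hn : 0 ≤ n) : (1 : Kf k) ∈ A k n := mem_A.2 ⟨1, Adeg_one hn, map_one _⟩

theorem A_algebraMap (r : k) {n : ℤ} (hn : 0 ≤ n) : algebraMap k (Kf k) r ∈ A k n := by
  rw [Algebra.algebraMap_eq_smul_one]; exact Submodule.smul_mem _ _ (A_one hn)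

theorem A_intCast (r : ℤ) {n : ℤ} (hn : 0 ≤ n) : (r : Kf k) ∈ A k n := by
  simpa using A_algebraMap (k := k) (r : k) hn

theorem A_natCast (r : ℕ) {n : ℤ} (hn : 0 ≤ n) : (r : Kf k) ∈ A k n := by
  simpa using A_algebraMap (k := k) (r : k) hn

theorem A_pow {d : ℤ} {c : Kf k} (hc : c ∈ A k d) (M : ℕ) : c ^ M ∈ A k (M * d) := by
  induction M with
  | zero => simpa using A_one le_rfl
  | succ M ih => rw [pow_succ]; exact A_mul' ih hc (by push_cast; linarith)

theorem A_prod {ι : Type*} (s : Finset ι) {c : ι → Kf k} {d : ι → ℤ} (hc : ∀ i ∈ s, c i ∈ A k (d i)) :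
    ∏ i ∈ s, c i ∈ A k (∑ i ∈ s, d i) := by
  classical
  induction s using Finset.induction_on with
  | empty => simpa using A_one le_rfl
  | insert a s ha ih =>
    rw [Finset.prod_insert ha, Finset.sum_insert ha]
    exact A_mul (hc a (by simp)) (ih fun i hi => hc i (by simp [hi]))

theorem yK_mem : yK k ∈ A k 4 := toK_mem_A.2 (Adeg_X 0)

theorem zK_mem : zK k ∈ A k 4 := toK_mem_A.2 (Adeg_X 1)

theorem yK_ne_zero : yK k ≠ 0 := toK_ne_zero (MvPolynomial.X_ne_zero _)

theorem zK_ne_zero : zK k ≠ 0 := toK_ne_zero (MvPolynomial.X_ne_zero _)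

theorem A_neg {n : ℤ} (hn : n < 0) {c : Kf k} (hc : c ∈ A k n) : c = 0 := by
  obtain ⟨c, hc', rfl⟩ := mem_A.1 hc
  rw [Adeg_neg hn hc', map_zero]

theorem toK_monomial (m : Fin 2 →₀ ℕ) (r : k) :
    toK k (MvPolynomial.monomial m r) = r • (yK k ^ m 0 * zK k ^ m 1) := by
  rw [MvPolynomial.monomial_eq, Finsupp.prod_fintype _ _ (by simp), Fin.prod_univ_two,
    ← MvPolynomial.smul_eq_C_mul, map_smul, map_mul, map_pow, map_pow]
  rfl

theorem monomial_mem_A {i j : ℕ} {n : ℤ} (h : 4 * ((i : ℤ) + j) ≤ n) :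
    yK k ^ i * zK k ^ j ∈ A k n :=
  A_mul' (A_pow yK_mem i) (A_pow zK_mem j) (by linarith)

/-- Induction principle: `A k n` is spanned by monomials. -/
theorem A_induction {n : ℤ} {P : Kf k → Prop}
    (hm : ∀ i j : ℕ, 4 * ((i : ℤ) + j) ≤ n → P (yK k ^ i * zK k ^ j))
    (h0 : P 0) (hadd : ∀ a b, P a → P b → P (a + b)) (hs : ∀ (r : k) a, P a → P (r • a))
    {c : Kf k} (hc : c ∈ A k n) : P c := by
  obtain ⟨b, hb, rfl⟩ := mem_A.1 hc
  rw [b.as_sum, map_sum]
  refine Finset.sum_induction _ P hadd h0 fun m hm' => ?_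
  rw [toK_monomial]
  exact hs _ _ (hm _ _ (mem_Adeg.1 hb m hm'))

/-- Every fraction has a nonzero polynomial multiple that is a polynomial. -/
theorem exists_den (c : Kf k) : ∃ (g : Kf k) (d n : ℤ), g ≠ 0 ∧ g ∈ A k d ∧ g * c ∈ A k n := by
  obtain ⟨a, b, hb, rfl⟩ := IsFractionRing.div_surjective (A := Bp k) c
  have hb0 : b ≠ 0 := nonZeroDivisors.ne_zero hb
  refine ⟨toK k b, _, 4 * a.totalDegree, toK_ne_zero hb0, toK_mem_A.2 (self_mem_Adeg b), ?_⟩
  · have : toK k b * (algebraMap (Bp k) (Kf k) a / algebraMap (Bp k) (Kf k) b) = toK k a := by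
      have := toK_ne_zero hb0
      rw [toK_apply] at this ⊢
      rw [toK_apply]; field_simp
    rw [this]; exact toK_mem_A.2 (self_mem_Adeg a)

/-- Common denominators for finitely many fractions. -/
theorem exists_common_den {ι : Type*} [Finite ι] (c : ι → Kf k) :
    ∃ (g : Kf k) (d : ℤ), g ≠ 0 ∧ 0 ≤ d ∧ g ∈ A k d ∧ ∀ i, g * c i ∈ A k d := by
  classical
  have := Fintype.ofFinite ι
  choose g d n hg hd hn using fun i => exists_den (c i)
  refine ⟨∏ i, g i, ∑ i, |d i| + ∑ i, |n i|, Finset.prod_ne_zero_iff.2 fun i _ => hg i, ?_, ?_, ?_⟩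
  · positivity
  · refine A_mono ?_ (A_prod Finset.univ (d := fun i => |d i|)
      fun i _ => A_mono (le_abs_self _) (hd i))
    have : 0 ≤ ∑ i, |n i| := by positivity
    linarith
  · intro i
    rw [← Finset.mul_prod_erase Finset.univ g (Finset.mem_univ i), mul_comm (g i), mul_assoc]
    refine A_mul' (A_prod (Finset.univ.erase i) (d := fun i => |d i|)
      fun i _ => A_mono (le_abs_self _) (hd i)) (hn i) ?_
    have h1 : ∑ j ∈ Finset.univ.erase i, |d j| ≤ ∑ j, |d j| :=
      Finset.sum_le_sum_of_subset_of_nonneg (Finset.erase_subset _ _) fun _ _ _ => abs_nonneg _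
    have h2 : |n i| ≤ ∑ j, |n j| :=
      Finset.single_le_sum (f := fun j => |n j|) (fun _ _ => abs_nonneg _) (Finset.mem_univ i)
    have := le_abs_self (n i)
    linarith

end A

/-- A family of `k`-subspaces of a `Kf k`-vector space, stable under the weighted ring. -/
structure Fam (k : Type) [Field k] (V : Type) [AddCommGroup V] [Module k V] [Module (Kf k) V] where
  /-- The degree `n` part. -/
  toFun : ℤ → Submodule k V
  smul_mem' : ∀ {m n : ℤ} {c : Kf k} {v : V}, c ∈ A k m → v ∈ toFun n → c • v ∈ toFun (n + m)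

variable {k : Type} [Field k]
variable {V : Type} [AddCommGroup V] [Module k V] [Module (Kf k) V] [IsScalarTower k (Kf k) V]
variable {V' : Type} [AddCommGroup V'] [Module k V'] [Module (Kf k) V'] [IsScalarTower k (Kf k) V']
variable {V'' : Type} [AddCommGroup V''] [Module k V''] [Module (Kf k) V'']
  [IsScalarTower k (Kf k) V'']

instance : CoeFun (Fam k V) (fun _ => ℤ → Submodule k V) := ⟨Fam.toFun⟩

/-- `θ` maps `G` into `G'` raising the degree by `d`. -/
def Maps (G : Fam k V) (G' : Fam k V') (θ : V → V') (d : ℤ) : Prop :=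
  ∀ n v, v ∈ G n → θ v ∈ G' (n + d)

namespace Fam

omit [IsScalarTower k (Kf k) V] in
@[ext] theorem ext {G G' : Fam k V} (h : ∀ n, G n = G' n) : G = G' := by
  cases G; cases G'; congr; exact funext h

instance : PartialOrder (Fam k V) := PartialOrder.lift Fam.toFun fun _ _ h =>
  Fam.ext (congrFun h)

omit [IsScalarTower k (Kf k) V] in
theorem le_def {G G' : Fam k V} : G ≤ G' ↔ ∀ n, G n ≤ G' n := Iff.rfl

omit [IsScalarTower k (Kf k) V] in
theorem smul_mem (G : Fam k V) {m n l : ℤ} {c : Kf k} {v : V} (hc : c ∈ A k m) (hv : v ∈ G n)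
    (h : n + m ≤ l) : c • v ∈ G l := by
  have := G.smul_mem' (A_mono (show m ≤ l - n by omega) hc) hv
  rwa [add_sub_cancel] at this

omit [IsScalarTower k (Kf k) V] in
theorem mono (G : Fam k V) {m n : ℤ} (h : m ≤ n) : G m ≤ G n := fun v hv => by
  have := G.smul_mem (A_one (le_refl 0)) hv (show m + 0 ≤ n by omega)
  rwa [one_smul] at this

/-- Build a family from stability under `x`, `y`, `z`. -/
def ofGen (F : ℤ → Submodule k V) (hx : ∀ n, F n ≤ F (n + 1))
    (hy : ∀ n v, v ∈ F n → yK k • v ∈ F (n + 4)) (hz : ∀ n v, v ∈ F n → zK k • v ∈ F (n + 4)) :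
    Fam k V where
  toFun := F
  smul_mem' := by
    have hmono : ∀ {m n : ℤ}, m ≤ n → F m ≤ F n := by
      intro m n h
      induction n, h using Int.leInduction with
      | base => exact le_rfl
      | succ n _ ih => exact ih.trans (hx n)
    have hyp : ∀ (i : ℕ) n v, v ∈ F n → yK k ^ i • v ∈ F (n + 4 * i) := by
      intro i
      induction i with
      | zero => intro n v hv; simpa using hv
      | succ i ih =>
        intro n v hv
        rw [pow_succ', mul_smul]
        exact hmono (by push_cast; omega) (hy _ _ (ih n v hv))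
    have hzp : ∀ (i : ℕ) n v, v ∈ F n → zK k ^ i • v ∈ F (n + 4 * i) := by
      intro i
      induction i with
      | zero => intro n v hv; simpa using hv
      | succ i ih =>
        intro n v hv
        rw [pow_succ', mul_smul]
        exact hmono (by push_cast; omega) (hz _ _ (ih n v hv))
    intro m n c v hc hv
    refine A_induction (P := fun c => c • v ∈ F (n + m)) ?_ ?_ ?_ ?_ hc
    · intro i j hij
      rw [mul_smul]
      exact hmono (by omega) (hyp i _ _ (hzp j _ _ hv))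
    · simp
    · intro a b ha hb; rw [add_smul]; exact add_mem ha hb
    · intro r a ha; rw [smul_assoc]; exact Submodule.smul_mem _ _ ha

/-- The ring itself. -/
def one (k : Type) [Field k] : Fam k (Kf k) where
  toFun := A k
  smul_mem' := fun hc hv => A_mul' hc hv (by omega)

/-- The free family with generators in degrees `d j`. -/
def free (k : Type) [Field k] {ι : Type} (d : ι → ℤ) : Fam k (ι → Kf k) where
  toFun n := Submodule.pi Set.univ fun j => A k (n - d j)
  smul_mem' := fun hc hv j hj => A_mul' hc (hv j hj) (by omega)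

theorem mem_free {ι : Type} {d : ι → ℤ} {n : ℤ} {x : ι → Kf k} :
    x ∈ free k d n ↔ ∀ j, x j ∈ A k (n - d j) := by
  simp [free, Submodule.mem_pi]

/-- Intersection with a subspace. -/
def inf (G : Fam k V) (U : Submodule (Kf k) V) : Fam k V where
  toFun n := G n ⊓ U.restrictScalars k
  smul_mem' := fun hc hv => ⟨G.smul_mem' hc hv.1, U.smul_mem _ hv.2⟩

theorem mem_inf {G : Fam k V} {U : Submodule (Kf k) V} {n : ℤ} {v : V} :
    v ∈ G.inf U n ↔ v ∈ G n ∧ v ∈ U := Iff.rfl

/-- Image under a linear map. -/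
def map (G : Fam k V) (π : V →ₗ[Kf k] V') : Fam k V' where
  toFun n := (G n).map (π.restrictScalars k)
  smul_mem' := by
    rintro m n c _ hc ⟨v, hv, rfl⟩
    exact ⟨c • v, G.smul_mem' hc hv, by simp⟩

theorem mem_map {G : Fam k V} {π : V →ₗ[Kf k] V'} {n : ℤ} {w : V'} :
    w ∈ G.map π n ↔ ∃ v ∈ G n, π v = w := Iff.rfl

/-- Preimage under a linear map. -/
def comap (G : Fam k V') (π : V →ₗ[Kf k] V') : Fam k V where
  toFun n := (G n).comap (π.restrictScalars k)
  smul_mem' := by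
    intro m n c v hc hv
    have := G.smul_mem' hc hv
    simpa using this

theorem mem_comap {G : Fam k V'} {π : V →ₗ[Kf k] V'} {n : ℤ} {v : V} :
    v ∈ G.comap π n ↔ π v ∈ G n := Iff.rfl

/-- Shift: generators move up by `d`. -/
def shift (G : Fam k V) (d : ℤ) : Fam k V where
  toFun n := G (n - d)
  smul_mem' := fun hc hv => G.smul_mem hc hv (by omega)

omit [IsScalarTower k (Kf k) V] in
theorem mem_shift {G : Fam k V} {d n : ℤ} {v : V} : v ∈ G.shift d n ↔ v ∈ G (n - d) := Iff.rfl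

/-- Sum of two families. -/
def sup (G G' : Fam k V) : Fam k V where
  toFun n := G n ⊔ G' n
  smul_mem' := by
    intro m n c v hc hv
    obtain ⟨a, ha, b, hb, rfl⟩ := Submodule.mem_sup.1 hv
    rw [smul_add]
    exact Submodule.add_mem_sup (G.smul_mem' hc ha) (G'.smul_mem' hc hb)

omit [IsScalarTower k (Kf k) V] in
theorem mem_sup {G G' : Fam k V} {n : ℤ} {v : V} :
    v ∈ G.sup G' n ↔ ∃ a ∈ G n, ∃ b ∈ G' n, a + b = v := Submodule.mem_sup

omit [IsScalarTower k (Kf k) V] in
theorem le_sup_left (G G' : Fam k V) : G ≤ G.sup G' := fun _ => _root_.le_sup_left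

omit [IsScalarTower k (Kf k) V] in
theorem le_sup_right (G G' : Fam k V) : G' ≤ G.sup G' := fun _ => _root_.le_sup_right

omit [IsScalarTower k (Kf k) V] in
theorem sup_le {G G' H : Fam k V} (h : G ≤ H) (h' : G' ≤ H) : G.sup G' ≤ H := fun n =>
  _root_.sup_le (h n) (h' n)

/-- Sum of the families indexed by a finite set. -/
def bsup {ι : Type} (s : Finset ι) (G : ι → Fam k V) : Fam k V where
  toFun n := ⨆ i ∈ s, G i n
  smul_mem' := by
    intro m n c v hc hv
    rw [Submodule.mem_iSup_finset_iff_exists_sum] at hv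
    obtain ⟨μ, rfl⟩ := hv
    rw [Finset.smul_sum]
    refine Submodule.sum_mem _ fun i hi => ?_
    exact Submodule.mem_iSup_of_mem i (Submodule.mem_iSup_of_mem hi ((G i).smul_mem' hc (μ i).2))

omit [IsScalarTower k (Kf k) V] in
theorem mem_bsup {ι : Type} {s : Finset ι} {G : ι → Fam k V} {n : ℤ} {v : V} :
    v ∈ bsup s G n ↔ ∃ x : ι → V, (∀ i ∈ s, x i ∈ G i n) ∧ ∑ i ∈ s, x i = v := by
  classical
  constructor
  · intro hv
    obtain ⟨μ, rfl⟩ := (Submodule.mem_iSup_finset_iff_exists_sum _ _).1 hv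
    exact ⟨fun i => μ i, fun i _ => (μ i).2, rfl⟩
  · rintro ⟨x, hx, rfl⟩
    exact Submodule.sum_mem _ fun i hi =>
      Submodule.mem_iSup_of_mem i (Submodule.mem_iSup_of_mem hi (hx i hi))

omit [IsScalarTower k (Kf k) V] in
theorem le_bsup {ι : Type} {s : Finset ι} (G : ι → Fam k V) {i : ι} (hi : i ∈ s) :
    G i ≤ bsup s G := fun n =>
  le_iSup₂_of_le (f := fun i (_ : i ∈ s) => G i n) i hi le_rfl

omit [IsScalarTower k (Kf k) V] in
theorem bsup_le {ι : Type} {s : Finset ι} {G : ι → Fam k V} {H : Fam k V}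
    (h : ∀ i ∈ s, G i ≤ H) : bsup s G ≤ H := fun n => iSup₂_le fun i hi => h i hi n

/-- The family generated by finitely many vectors `v j` in degrees `d j`. -/
def gen {ι : Type} [Fintype ι] (v : ι → V) (d : ι → ℤ) : Fam k V :=
  (free k d).map (Fintype.linearCombination (Kf k) v)

theorem mem_gen {ι : Type} [Fintype ι] {v : ι → V} {d : ι → ℤ} {n : ℤ} {w : V} :
    w ∈ (gen v d : Fam k V) n ↔ ∃ c : ι → Kf k, (∀ j, c j ∈ A k (n - d j)) ∧ ∑ j, c j • v j = w := by
  simp only [gen, mem_map, mem_free, Fintype.linearCombination_apply]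

theorem self_mem_gen {ι : Type} [Fintype ι] (v : ι → V) (d : ι → ℤ) (j : ι) :
    v j ∈ (gen v d : Fam k V) (d j) := by
  classical
  refine mem_gen.2 ⟨Pi.single j 1, fun i => ?_, by simp [Pi.single_apply]⟩
  by_cases h : i = j
  · subst h; simpa using A_one le_rfl
  · simp [h]

theorem gen_le {ι : Type} [Fintype ι] {v : ι → V} {d : ι → ℤ} {G : Fam k V}
    (h : ∀ j, v j ∈ G (d j)) : gen v d ≤ G := by
  intro n w hw
  obtain ⟨c, hc, rfl⟩ := mem_gen.1 hw
  exact Submodule.sum_mem _ fun j _ => G.smul_mem (hc j) (h j) (by omega)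

/-- Adjoin the image under an operator of degree `d`. -/
def adj (G : Fam k V) (θ : V →ₗ[Kf k] V) (d : ℤ) : Fam k V := G.sup ((G.map θ).shift d)

theorem mem_adj {G : Fam k V} {θ : V →ₗ[Kf k] V} {d n : ℤ} {v : V} :
    v ∈ G.adj θ d n ↔ ∃ a ∈ G n, ∃ b ∈ G (n - d), a + θ b = v := by
  constructor
  · intro h
    obtain ⟨a, ha, _, ⟨b, hb, rfl⟩, rfl⟩ := mem_sup.1 h
    exact ⟨a, ha, b, hb, rfl⟩
  · rintro ⟨a, ha, b, hb, rfl⟩
    exact mem_sup.2 ⟨a, ha, θ b, ⟨b, hb, rfl⟩, rfl⟩

/-- Hilbert function. -/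
def h (G : Fam k V) (n : ℤ) : ℤ := finrank k (G n)

/-- Moments of the Hilbert numerator. -/
def m (G : Fam k V) (j : ℕ) : ℤ := mom j G.h

/-- First moment of the intersection with a subspace (minus the first Chern class). -/
def deg (G : Fam k V) (U : Submodule (Kf k) V) : ℤ := (G.inf U).m 1

/-- Contained in a finitely generated family. -/
def Bdd (G : Fam k V) : Prop :=
  ∃ (N : ℕ) (v : Fin N → V) (d : Fin N → ℤ), G ≤ gen v d

/-- Every vector has a nonzero multiple in the family. -/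
def Full (G : Fam k V) : Prop := ∀ v : V, ∃ c : Kf k, c ≠ 0 ∧ ∃ n, c • v ∈ G n

/-- The family is saturated with respect to the pair `f` (degree `d`), `g` (degree `e`). -/
def Closed (G : Fam k V) (f : Kf k) (d : ℤ) (g : Kf k) (e : ℤ) : Prop :=
  ∀ n v, f • v ∈ G (n + d) → g • v ∈ G (n + e) → v ∈ G n

end Fam

/-- A pair of coprime homogeneous elements. -/
structure Cop (f : Kf k) (d : ℤ) (g : Kf k) (e : ℤ) : Prop where
  fmem : f ∈ A k d
  gmem : g ∈ A k e
  fne : f ≠ 0
  gne : g ≠ 0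
  closed : (Fam.one k).Closed f d g e

namespace Fam

/-- Saturation with respect to a pair of homogeneous elements. -/
def sat (G : Fam k V) {f : Kf k} {d : ℤ} {g : Kf k} {e : ℤ} (hc : Cop f d g e) : Fam k V where
  toFun n :=
    { carrier := {v | ∃ M : ℕ, f ^ M • v ∈ G (n + M * d) ∧ g ^ M • v ∈ G (n + M * e)}
      zero_mem' := ⟨0, by simp⟩
      add_mem' := by
        rintro a b ⟨M, h1, h2⟩ ⟨N, h3, h4⟩
        refine ⟨M + N, ?_, ?_⟩
        · rw [smul_add]
          refine add_mem ?_ ?_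
          · rw [pow_add, mul_comm (_ ^ M), mul_smul]
            exact G.smul_mem (A_pow hc.fmem N) h1 (by push_cast; linarith)
          · rw [pow_add, mul_smul]
            exact G.smul_mem (A_pow hc.fmem M) h3 (by push_cast; linarith)
        · rw [smul_add]
          refine add_mem ?_ ?_
          · rw [pow_add, mul_comm (_ ^ M), mul_smul]
            exact G.smul_mem (A_pow hc.gmem N) h2 (by push_cast; linarith)
          · rw [pow_add, mul_smul]
            exact G.smul_mem (A_pow hc.gmem M) h4 (by push_cast; linarith)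
      smul_mem' := by
        rintro r a ⟨M, h1, h2⟩
        refine ⟨M, ?_, ?_⟩
        · rw [smul_comm]; exact Submodule.smul_mem _ _ h1
        · rw [smul_comm]; exact Submodule.smul_mem _ _ h2 }
  smul_mem' := by
    rintro m n c v hcm ⟨M, h1, h2⟩
    refine ⟨M, ?_, ?_⟩
    · rw [smul_comm]; exact G.smul_mem hcm h1 (by omega)
    · rw [smul_comm]; exact G.smul_mem hcm h2 (by omega)

theorem mem_sat {G : Fam k V} {f : Kf k} {d : ℤ} {g : Kf k} {e : ℤ} {hc : Cop f d g e} {n : ℤ}
    {v : V} : v ∈ G.sat hc n ↔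
      ∃ M : ℕ, f ^ M • v ∈ G (n + M * d) ∧ g ^ M • v ∈ G (n + M * e) := Iff.rfl

end Fam

end Vale.Agent.P190
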