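import Vale.Agent.P190.FamNum

/-!
The denominator lemma and its numerical consequences.
-/

noncomputable section

namespace Vale.Agent.P190

open Module

variable {k : Type} [Field k]

theorem exists_avoid [Infinite k] {σ ι : Type} [Fintype σ] [Finite ι]
    (N : Submodule k (σ → Kf k)) (T : ι → Submodule k (Kf k))
    (h : ∀ i, ∃ w ∈ N, ∃ s, w s ∉ T i) :
    ∃ w ∈ N, ∃ ξ : σ → k, ∀ i, ∑ s, ξ s • w s ∉ T i := by
  classical
  obtain ⟨w, hw⟩ := Submodule.exists_forall_notMem_of_forall_ne_top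
    (fun i => (Submodule.pi Set.univ fun _ : σ => T i).comap N.subtype) (fun i hi => by
      obtain ⟨w, hw, s, hs⟩ := h i
      have : (⟨w, hw⟩ : N) ∈ (Submodule.pi Set.univ fun _ : σ => T i).comap N.subtype := by
        rw [hi]; trivial
      exact hs (this s trivial))
  obtain ⟨ξ, hξ⟩ := Submodule.exists_forall_notMem_of_forall_ne_top
    (fun i => (T i).comap (Fintype.linearCombination k (w : σ → Kf k))) (fun i hi => by
      apply hw i
      intro s _
      have : Pi.single s 1 ∈ (T i).comap (Fintype.linearCombination k (w : σ → Kf k)) := by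
        rw [hi]; trivial
      simpa using this)
  exact ⟨w, w.2, ξ, fun i => by simpa [Fintype.linearCombination_apply] using hξ i⟩

theorem exists_den_submodule {σ : Type} [Fintype σ] (N : Submodule k (σ → Kf k))
    [Module.Finite k N] : ∃ D : ℕ, ∃ g : Bp k, g ≠ 0 ∧ g ∈ Adeg k (4 * D) ∧
      ∀ w ∈ N, ∀ s, toK k g * w s ∈ A k (4 * D) := by
  classical
  let b := Module.finBasis k N
  obtain ⟨g, d, hg0, hd, hg, hgc⟩ :=
    exists_common_den (fun p : Fin (finrank k N) × σ => (b p.1 : σ → Kf k) p.2)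
  obtain ⟨g, hg', rfl⟩ := mem_A.1 hg
  have hle : d ≤ 4 * (d.toNat : ℤ) := by omega
  refine ⟨d.toNat, g, fun h => hg0 (by rw [h, map_zero]), Adeg_mono hle hg', fun w hw s => ?_⟩
  have e : w = ∑ i, b.repr ⟨w, hw⟩ i • (b i : σ → Kf k) := by
    have := congrArg Subtype.val (b.sum_repr ⟨w, hw⟩)
    rw [Submodule.coe_sum] at this
    exact this.symm
  rw [e, Finset.sum_apply, Finset.mul_sum]
  refine Submodule.sum_mem _ fun i _ => ?_
  rw [Pi.smul_apply, mul_smul_comm]
  exact Submodule.smul_mem _ _ (A_mono hle (hgc (i, s)))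

theorem Adeg_cancel {p c : Bp k} {n D : ℤ} (hp : p ≠ 0) (hD : D ≤ 4 * (p.totalDegree : ℤ))
    (h : p * c ∈ Adeg k n) : c ∈ Adeg k (n - D) := by
  by_cases hc : c = 0
  · rw [hc]; exact zero_mem _
  rw [mem_Adeg_iff] at h ⊢
  right
  rcases h with h | h
  · exact absurd h (mul_ne_zero hp hc)
  · rw [MvPolynomial.totalDegree_mul_of_isDomain hp hc] at h
    push_cast at h
    linarith

theorem totalDegree_pos_of_prime {p : Bp k} (hp : Prime p) : 1 ≤ p.totalDegree := by
  by_contra h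
  have h0 : p.totalDegree = 0 := by omega
  rw [MvPolynomial.totalDegree_eq_zero_iff_eq_C] at h0
  apply hp.not_isUnit
  rw [h0]
  refine (IsUnit.mk0 _ fun h1 => hp.ne_zero ?_).map MvPolynomial.C
  rw [h0, h1, map_zero]

theorem denom_lemma [Infinite k] {σ : Type} [Fintype σ] (N : Submodule k (σ → Kf k))
    [Module.Finite k N] :
    ∃ (g : Kf k) (D : ℕ), g ≠ 0 ∧ g ∈ A k (4 * D) ∧ (∀ w ∈ N, ∀ s, g * w s ∈ A k (4 * D)) ∧
      ∃ w ∈ N, ∃ ξ : σ → k, ∀ (n : ℤ) (c : Kf k), c ∈ A k n → c * (∑ s, ξ s • w s) ∈ A k n →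
        ∃ c' ∈ A k (n - 4 * D), c = g * c' := by
  classical
  have hex := exists_den_submodule N
  obtain ⟨g, hg0, hgD, hgN⟩ := Nat.find_spec hex
  set D := Nat.find hex with hD
  have hmin : ∀ g' : Bp k, g' ≠ 0 → g' ∈ Adeg k (4 * D - 4) →
      ¬ ∀ w ∈ N, ∀ s, toK k g' * w s ∈ A k (4 * D - 4) := by
    intro g' h0 h1 h2
    have hpos : 1 ≤ D := by
      by_contra hlt
      exact h0 (Adeg_neg (by omega) h1)
    have e : 4 * ((D - 1 : ℕ) : ℤ) = 4 * D - 4 := by omega
    exact Nat.find_min hex (show D - 1 < D by omega) ⟨g', h0, e ▸ h1, e ▸ h2⟩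
  let T : {p : Bp k // p ∈ (UniqueFactorizationMonoid.factors g).toFinset} ⊕
      PLift (g ∈ Adeg k (4 * D - 4)) → Submodule k (Kf k) := fun i =>
    match i with
    | Sum.inl p => (((Ideal.span {(p : Bp k)}).restrictScalars k).map (toK k).toLinearMap).comap
        (LinearMap.mulLeft k (toK k g))
    | Sum.inr _ => (A k (4 * D - 4)).comap (LinearMap.mulLeft k (toK k g))
  obtain ⟨w, hw, ξ, hξ⟩ := exists_avoid N T (by
    rintro (⟨p, hp⟩ | ⟨⟨hg⟩⟩)
    · rw [Multiset.mem_toFinset] at hp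
      have hpp := UniqueFactorizationMonoid.prime_of_factor p hp
      obtain ⟨g', rfl⟩ := UniqueFactorizationMonoid.dvd_of_mem_factors hp
      have hdeg : (4 : ℤ) ≤ 4 * (p.totalDegree : ℤ) := by
        have := totalDegree_pos_of_prime hpp
        omega
      by_contra hcon
      push Not at hcon
      refine hmin g' (right_ne_zero_of_mul hg0) (Adeg_cancel hpp.ne_zero hdeg hgD) fun w hw s => ?_
      obtain ⟨c, hc, e⟩ := hcon w hw s
      obtain ⟨c', rfl⟩ := Ideal.mem_span_singleton'.1 hc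
      have e1 : toK k (c' * p) = toK k (p * g') * w s := e
      have e2 : toK k g' * w s = toK k c' := by
        apply mul_left_cancel₀ (toK_ne_zero hpp.ne_zero)
        rw [← mul_assoc, ← map_mul, ← e1, map_mul, mul_comm]
      rw [e2, toK_mem_A]
      refine Adeg_cancel hpp.ne_zero hdeg ?_
      rw [mul_comm p c', ← toK_mem_A, e1]
      exact hgN w hw s
    · by_contra hcon
      push Not at hcon
      exact hmin g hg0 hg hcon)
  refine ⟨toK k g, D, toK_ne_zero hg0, toK_mem_A.2 hgD, hgN, w, hw, ξ, ?_⟩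
  intro n c hc hcw
  have hgw : toK k g * (∑ s, ξ s • w s) ∈ A k (4 * D) := by
    rw [Finset.mul_sum]
    refine Submodule.sum_mem _ fun s _ => ?_
    rw [mul_smul_comm]
    exact Submodule.smul_mem _ _ (hgN w hw s)
  obtain ⟨b, hb, rfl⟩ := mem_A.1 hc
  obtain ⟨e, he, he'⟩ := mem_A.1 hcw
  obtain ⟨h, hh, hh'⟩ := mem_A.1 hgw
  have key : b * h = g * e := by
    apply toK_injective
    rw [map_mul, map_mul, he', hh']; ring
  have hdvd : g ∣ b := by
    refine UniqueFactorizationMonoid.dvd_of_dvd_mul_left_of_no_prime_factors hg0 ?_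
      (show g ∣ b * h from ⟨e, key⟩)
    intro d hdg hdh hd
    obtain ⟨q, hq, hdq⟩ := UniqueFactorizationMonoid.exists_mem_factors_of_dvd hg0
      hd.irreducible hdg
    apply hξ (Sum.inl ⟨q, Multiset.mem_toFinset.2 hq⟩)
    exact ⟨h, Ideal.mem_span_singleton.2 (hdq.symm.dvd.trans hdh), hh'⟩
  obtain ⟨c', rfl⟩ := hdvd
  refine ⟨toK k c', toK_mem_A.2 ?_, map_mul _ _ _⟩
  by_cases hg : g ∈ Adeg k (4 * D - 4)
  · have h1 : h ∉ Adeg k (4 * D - 4) := fun h1 =>
      hξ (Sum.inr ⟨hg⟩) ⟨h, h1, hh'⟩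
    rw [mem_Adeg_iff] at h1
    push Not at h1
    have e2 : e = h * c' := by
      apply mul_left_cancel₀ hg0
      rw [← key]; ring
    exact Adeg_cancel h1.1 (by omega) (e2 ▸ he)
  · rw [mem_Adeg_iff] at hg
    push Not at hg
    exact Adeg_cancel hg0 (by omega) hb

/-- The dimension count behind both numerical consequences. -/
theorem finrank_denom {V : Type} [AddCommGroup V] [Module k V] [Module (Kf k) V]
    [IsScalarTower k (Kf k) V] {P Q : Submodule k V} [Module.Finite k Q] (hPQ : P ≤ Q) (u : V)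
    {g : Kf k} (hg : g ≠ 0) {n n' : ℤ} (hu : ∀ c ∈ A k n, c • u ∈ Q)
    (hk : ∀ c ∈ A k n, c • u ∈ P → ∃ c' ∈ A k n', c = g * c') :
    (finrank k P : ℤ) + aa n ≤ finrank k Q + aa n' := by
  have : Module.Finite k P := Submodule.finiteDimensional_of_le hPQ
  let φ : (A k n × P) →ₗ[k] V :=
    (((LinearMap.toSpanSingleton (Kf k) V u).restrictScalars k).comp (A k n).subtype).coprod
      P.subtype
  have hφ : ∀ x : A k n × P, φ x = (x.1 : Kf k) • u + (x.2 : V) := fun x => rfl
  have h1 := LinearMap.finrank_range_add_finrank_ker φ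
  have h2 : finrank k (LinearMap.range φ) ≤ finrank k Q := by
    apply Submodule.finrank_mono
    rintro _ ⟨x, rfl⟩
    rw [hφ]
    exact add_mem (hu _ x.1.2) (hPQ x.2.2)
  have h3 : finrank k (LinearMap.ker φ) ≤ finrank k (A k n') := by
    let ψ : LinearMap.ker φ →ₗ[k] Kf k :=
      (LinearMap.mulLeft k g⁻¹).comp ((A k n).subtype.comp
        ((LinearMap.fst k _ _).comp (LinearMap.ker φ).subtype))
    have hψ : ∀ x : LinearMap.ker φ, ψ x = g⁻¹ * (x.1.1 : Kf k) := fun x => rfl
    have hmem : ∀ x, ψ x ∈ A k n' := by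
      intro x
      have hx : φ x.1 = 0 := x.2
      rw [hφ] at hx
      obtain ⟨c', hc', e⟩ := hk _ x.1.1.2 (by
        rw [eq_neg_of_add_eq_zero_left hx]; exact neg_mem x.1.2.2)
      rw [hψ, e, inv_mul_cancel_left₀ hg]
      exact hc'
    refine LinearMap.finrank_le_finrank_of_injective (f := ψ.codRestrict _ hmem) ?_
    rw [injective_iff_map_eq_zero]
    intro x hx
    have hx1 : g⁻¹ * (x.1.1 : Kf k) = 0 := congrArg Subtype.val hx
    have hx2 : (x.1.1 : Kf k) = 0 := by simpa [hg] using hx1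
    have hx3 : φ x.1 = 0 := x.2
    rw [hφ, hx2, zero_smul, zero_add] at hx3
    exact Subtype.ext (Prod.ext (Subtype.ext hx2) (Subtype.ext hx3))
  rw [finrank_prod] at h1
  rw [← finrank_A (k := k) n, ← finrank_A (k := k) n']
  omega

theorem good_corr {h : ℤ → ℤ} (hh : Good h) (b D : ℤ) :
    Good (fun n => h n + (aa (n - b) - aa (n - (b + D)))) ∧
      mom 0 (fun n => h n + (aa (n - b) - aa (n - (b + D)))) = mom 0 h ∧
      mom 1 (fun n => h n + (aa (n - b) - aa (n - (b + D)))) = mom 1 h - D := by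
  have h1 := good_aa.shift b
  have h2 := good_aa.shift (b + D)
  refine ⟨hh.add (h1.sub h2), ?_, ?_⟩
  · rw [mom_add 0 hh (h1.sub h2), mom_sub 0 h1 h2, mom_aa_shift, mom_aa_shift]; ring
  · rw [mom_add 1 hh (h1.sub h2), mom_sub 1 h1 h2, mom_aa_shift, mom_aa_shift]; ring

/-- A family containing the free family and a vector with a large denominator. -/
theorem m1_le_of_denom {σ : Type} [Fintype σ] {g : Kf k} {D : ℕ} (hg : g ≠ 0) {w : σ → Kf k}
    {ξ : σ → k} (hw : ∀ (n : ℤ) (c : Kf k), c ∈ A k n → c * (∑ s, ξ s • w s) ∈ A k n →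
      ∃ c' ∈ A k (n - 4 * D), c = g * c')
    {G : Fam k (σ → Kf k)} (hb : G.Bdd) {b : ℤ} (hF : Fam.free k (fun _ : σ => b) ≤ G)
    (hwG : w ∈ G b) : G.m 1 ≤ (Fintype.card σ : ℤ) * b - 4 * D := by
  have hFb := Fam.bdd_free (k := k) (fun _ : σ => b)
  obtain ⟨g1, g2, g3⟩ := good_corr hFb.good b (4 * D)
  have e0 : (Fam.free k (fun _ : σ => b)).m 0 = G.m 0 := by
    rw [Fam.m0_full hFb (Fam.full_free _), Fam.m0_full hb ((Fam.full_free _).mono hF)]
  have := mom1_le g1 hb.good (Filter.Eventually.of_forall fun n => ?_) (g2.trans e0)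
  · rw [g3] at this
    have e1 := Fam.m_free (k := k) (fun _ : σ => b) 1
    simp only [pow_one, Finset.sum_const, Finset.card_univ, nsmul_eq_mul] at e1
    unfold Fam.m at *
    linarith
  · have := hb.finite n
    have key := finrank_denom (n := n - b) (n' := n - b - 4 * D) (hF n) w hg
      (fun c hc => G.smul_mem hc hwG (by omega)) (fun c hc hcw => hw _ c hc (by
        rw [Finset.mul_sum]
        refine Submodule.sum_mem _ fun s _ => ?_
        rw [mul_smul_comm]
        exact Submodule.smul_mem _ _ (Fam.mem_free.1 hcw s)))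
    rw [sub_sub] at key
    unfold Fam.h
    linarith

/-- The dual statement. -/
theorem le_m1_of_denom {σ : Type} [Fintype σ] {g : Kf k} {D : ℕ} (hg : g ≠ 0) {w : σ → Kf k}
    {ξ : σ → k} (hw : ∀ (n : ℤ) (c : Kf k), c ∈ A k n → c * (∑ s, ξ s • w s) ∈ A k n →
      ∃ c' ∈ A k (n - 4 * D), c = g * c')
    {G : Fam k (σ → Kf k)} (hf : G.Full) {b : ℤ} (hF : G ≤ Fam.free k (fun _ : σ => b))
    (hwG : ∀ n, ∀ x ∈ G n, ∑ s, x s * w s ∈ A k (n - b)) :
    (Fintype.card σ : ℤ) * b + 4 * D ≤ G.m 1 := by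
  have hFb := Fam.bdd_free (k := k) (fun _ : σ => b)
  have hb : G.Bdd := hFb.mono hF
  obtain ⟨g1, g2, g3⟩ := good_corr hb.good b (4 * D)
  have e0 : G.m 0 = (Fam.free k (fun _ : σ => b)).m 0 := by
    rw [Fam.m0_full hFb (Fam.full_free _), Fam.m0_full hb hf]
  have := mom1_le g1 hFb.good (Filter.Eventually.of_forall fun n => ?_) (g2.trans e0)
  · rw [g3] at this
    have e1 := Fam.m_free (k := k) (fun _ : σ => b) 1
    simp only [pow_one, Finset.sum_const, Finset.card_univ, nsmul_eq_mul] at e1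
    unfold Fam.m at *
    linarith
  · have := hFb.finite n
    have key := finrank_denom (n := n - b) (n' := n - b - 4 * D) (hF n)
      (fun s => algebraMap k (Kf k) (ξ s)) hg
      (fun c hc => Fam.mem_free.2 fun s => by
        rw [Pi.smul_apply, smul_eq_mul, mul_comm, ← Algebra.smul_def]
        exact Submodule.smul_mem _ _ hc)
      (fun c hc hcw => hw _ c hc (by
        have := hwG n _ hcw
        rw [Finset.mul_sum]
        convert this using 2 with s
        rw [Pi.smul_apply, smul_eq_mul, Algebra.smul_def, mul_assoc]))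
    rw [sub_sub] at key
    unfold Fam.h
    linarith

end Vale.Agent.P190
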