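import Vale.Agent.P190.Chart

/-!
The canonical connection on a Frobenius pullback, through the two Euler operators.
-/

noncomputable section

namespace Vale.Agent.P190

open Module Finset

variable {k : Type} [Field k]
variable {V : Type} [AddCommGroup V] [Module k V] [Module (Kf k) V] [IsScalarTower k (Kf k) V]

omit [Module (Kf k) V] [IsScalarTower k (Kf k) V] in
theorem mem_of_eigen {ι κ : Type} [Fintype ι] (U : Submodule k V) (θ : κ → V →ₗ[k] V)
    (hU : ∀ l, ∀ v ∈ U, θ l v ∈ U) (x : ι → V) (ev : κ → ι → k)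
    (hx : ∀ l i, θ l (x i) = ev l i • x i) (hsep : ∀ i j, i ≠ j → ∃ l, ev l i ≠ ev l j)
    (h : ∑ i, x i ∈ U) (i0 : ι) : x i0 ∈ U := by
  classical
  have key : ∀ t : Finset ι, i0 ∉ t → ∃ c : ι → k, c i0 ≠ 0 ∧ (∀ i ∈ t, c i = 0) ∧
      ∑ i, c i • x i ∈ U := by
    intro t
    induction t using Finset.induction_on with
    | empty => exact fun _ => ⟨1, by simp, by simp, by simpa using h⟩
    | insert a t ha ih =>
      intro hi
      rw [Finset.mem_insert, not_or] at hi
      obtain ⟨c, h1, h2, h3⟩ := ih hi.2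
      obtain ⟨l, hl⟩ := hsep i0 a hi.1
      refine ⟨fun i => c i * (ev l i - ev l a), mul_ne_zero h1 (sub_ne_zero.2 hl), ?_, ?_⟩
      · intro i hi
        rcases Finset.mem_insert.1 hi with rfl | hi
        · simp
        · simp [h2 i hi]
      · have h4 := sub_mem (hU l _ h3) (U.smul_mem (ev l a) h3)
        rw [map_sum, Finset.smul_sum, ← Finset.sum_sub_distrib] at h4
        convert h4 using 2 with i
        rw [map_smul, hx, smul_smul, smul_smul, ← sub_smul]
        congr 1; ring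
  obtain ⟨c, h1, h2, h3⟩ := key (Finset.univ.erase i0) (by simp)
  rw [Finset.sum_eq_single i0 (fun b _ hb => by rw [h2 b (by simp [hb]), zero_smul])
    (by simp)] at h3
  exact (U.smul_mem_iff h1).1 h3

variable {p : ℕ} {φ : V →+ V} [Fact p.Prime] [CharP k p] [PerfectRing k p]

theorem exists_eul (hφ : IsFrob k p φ) (α β : ℕ) : ∃ θ : V →ₗ[k] V,
    (∀ (c : Kf k) v, θ (c ^ p • v) = c ^ p • θ v) ∧
    ∀ (i j : ℕ) v, θ ((yK k ^ i * zK k ^ j) • φ v) =
      ((α * i + β * j : ℕ) : k) • (yK k ^ i * zK k ^ j) • φ v := by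
  have hp : 0 < p := (Fact.out : p.Prime).pos
  let e := Equiv.ofBijective _ hφ.bij0
  have he : ∀ f, e.symm (Psi p φ (sc (yK k)) (sc (zK k)) f) = f := e.symm_apply_apply
  let ν : Fin p × Fin p → ℕ := fun ij => α * ij.1.val + β * ij.2.val
  let θ0 : V → V := fun w => Psi p φ (sc (yK k)) (sc (zK k)) fun ij => ν ij • e.symm w ij
  have h1 : ∀ (c : Kf k) v, θ0 (c ^ p • v) = c ^ p • θ0 v := by
    intro c v
    obtain ⟨f, rfl⟩ := hφ.bij0.2 v
    simp only [θ0]
    rw [← Psi_smul hφ, ← Psi_smul hφ, he, he]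
    congr 1
    ext ij
    simp only [Pi.smul_apply]
    rw [smul_comm]
  let θ : V →ₗ[k] V :=
    { toFun := θ0
      map_add' := by
        intro v w
        obtain ⟨f, rfl⟩ := hφ.bij0.2 v
        obtain ⟨g, rfl⟩ := hφ.bij0.2 w
        simp only [θ0]
        rw [← map_add, ← map_add, he, he, he]
        congr 1
        ext ij
        simp
      map_smul' := by
        intro r v
        have := h1 (algebraMap k (Kf k) ((frobeniusEquiv k p).symm r)) v
        rwa [← map_pow, frobeniusEquiv_symm_pow_p, algebraMap_smul, algebraMap_smul] at this }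
  refine ⟨θ, h1, fun i j v => ?_⟩
  have h2 : ∀ ij : Fin p × Fin p, θ0 ((yK k ^ ij.1.val * zK k ^ ij.2.val) • φ v) =
      ν ij • (yK k ^ ij.1.val * zK k ^ ij.2.val) • φ v := by
    intro ij
    have e1 : ∀ w, Psi p φ (sc (yK k)) (sc (zK k)) (Pi.single ij w) =
        (yK k ^ ij.1.val * zK k ^ ij.2.val) • φ w := fun w => by
      rw [Psi_single, ← map_pow, ← map_pow, ← map_mul, Module.algebraMap_end_apply]
    rw [← e1]
    simp only [θ0]
    rw [he, ← map_nsmul]
    congr 1
    ext ij'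
    by_cases h : ij' = ij
    · subst h; simp
    · simp [h]
  have h3 := h2 (⟨i % p, Nat.mod_lt _ hp⟩, ⟨j % p, Nat.mod_lt _ hp⟩)
  have e2 : yK k ^ i * zK k ^ j =
      (yK k ^ (i / p) * zK k ^ (j / p)) ^ p * (yK k ^ (i % p) * zK k ^ (j % p)) := by
    conv_lhs => rw [← Nat.div_add_mod i p, ← Nat.div_add_mod j p]
    ring
  change θ0 _ = _
  rw [e2, mul_smul, h1, h3, smul_comm, ← Nat.cast_smul_eq_nsmul k]
  congr 1
  simp only [ν]
  push_cast
  rw [← CharP.cast_eq_mod k p i, ← CharP.cast_eq_mod k p j]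

theorem exists_euler (hφ : IsFrob k p φ) : ∃ θ : Bool → V →ₗ[k] V,
    (∀ l v, θ l (φ v) = 0) ∧
    (∀ l m, ∀ a ∈ A k m, ∃ b ∈ A k m, ∀ v, θ l (a • v) = a • θ l v + b • v) ∧
    (∀ l (f : Kf k), ∃ g : Kf k, ∀ v, θ l (f • v) = f • θ l v + g • v) ∧
    ∀ U : Submodule (Kf k) V, (∀ l, ∀ v ∈ U, θ l v ∈ U) →
      ∀ f, Psi p φ (sc (yK k)) (sc (zK k)) f ∈ U → ∀ ij, φ (f ij) ∈ U := by
  have hp : 0 < p := (Fact.out : p.Prime).pos
  choose θ h1 h2 using fun l : Bool => exists_eul hφ (if l then 1 else 0) (if l then 0 else 1)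
  have hA : ∀ l m, ∀ a ∈ A k m, ∃ b ∈ A k m, ∀ v, θ l (a • v) = a • θ l v + b • v := by
    intro l m a ha
    refine A_induction (P := fun a => ∃ b ∈ A k m, ∀ v, θ l (a • v) = a • θ l v + b • v)
      ?_ ⟨0, zero_mem _, by simp⟩ ?_ ?_ ha
    · intro i j hij
      refine ⟨(((if l then 1 else 0) * i + (if l then 0 else 1) * j : ℕ) : k) •
        (yK k ^ i * zK k ^ j), Submodule.smul_mem _ _ (monomial_mem_A hij), fun v => ?_⟩
      obtain ⟨f, rfl⟩ := hφ.bij0.2 v
      rw [Psi0_apply, map_sum, Finset.smul_sum, Finset.smul_sum, Finset.smul_sum, map_sum,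
        ← Finset.sum_add_distrib]
      refine Finset.sum_congr rfl fun ij _ => ?_
      have e : yK k ^ i * zK k ^ j * (yK k ^ ij.1.val * zK k ^ ij.2.val) =
          yK k ^ (i + ij.1.val) * zK k ^ (j + ij.2.val) := by ring
      rw [h2, ← mul_smul, e, h2, ← e, mul_smul, smul_comm (yK k ^ i * zK k ^ j) (_ : k),
        smul_assoc, ← add_smul]
      congr 1
      push_cast; ring
    · rintro a b ⟨a', ha', ea⟩ ⟨b', hb', eb⟩
      refine ⟨a' + b', add_mem ha' hb', fun v => ?_⟩
      rw [add_smul, map_add, ea, eb, add_smul, add_smul]; abel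
    · rintro r a ⟨a', ha', ea⟩
      refine ⟨r • a', Submodule.smul_mem _ _ ha', fun v => ?_⟩
      rw [smul_assoc, map_smul, ea, smul_add, smul_assoc, smul_assoc]
  refine ⟨θ, fun l v => by simpa using h2 l 0 0 v, hA, fun l f => ?_, fun U hU f hf ij => ?_⟩
  · obtain ⟨g, d, n, hg, hgd, hgn⟩ := exists_den f
    obtain ⟨b, -, hb⟩ := hA l _ _ (A_mul (A_pow hgd (p - 1)) hgn)
    have e : f = g⁻¹ ^ p * (g ^ (p - 1) * (g * f)) := by
      rw [← mul_assoc (g ^ (p - 1)), ← pow_succ, Nat.sub_add_cancel hp, ← mul_assoc, ← mul_pow,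
        inv_mul_cancel₀ hg, one_pow, one_mul]
    refine ⟨g⁻¹ ^ p * b, fun v => ?_⟩
    conv_lhs => rw [e, mul_smul, h1, hb, smul_add, ← mul_smul, ← e, ← mul_smul]
  · rw [Psi0_apply] at hf
    have := mem_of_eigen (U.restrictScalars k) θ hU _ _ (fun l ij => h2 l ij.1.val ij.2.val (f ij))
      (fun a b hab => by
        by_contra hcon
        push Not at hcon
        have e1 := hcon true
        have e2 := hcon false
        simp only [if_true, one_mul, zero_mul, add_zero, Bool.false_eq_true, if_false,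
          zero_add] at e1 e2
        exact hab (Prod.ext (Fin.ext (CharP.natCast_injOn_Iio k p a.1.2 b.1.2 e1))
          (Fin.ext (CharP.natCast_injOn_Iio k p a.2.2 b.2.2 e2)))) hf ij
    exact (U.smul_mem_iff (mul_ne_zero (pow_ne_zero _ yK_ne_zero) (pow_ne_zero _ zK_ne_zero))).1
      this

end Vale.Agent.P190
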