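import Vale.Agent.P190.FreeA

/-!
A module of depth three over a finite extension of the power series ring in three variables is
free over the power series ring.
-/

noncomputable section

namespace Vale.Agent.P190

universe u

open IsLocalRing in
theorem free_of_regular {k : Type} [Field k] {R : Type} [CommRing R] [IsNoetherianRing R]
    [IsLocalRing R] [Algebra (MvPowerSeries (Fin 3) k) R] [Module.Finite (MvPowerSeries (Fin 3) k) R]
    (M : Type u) [AddCommGroup M] [Module R M] [Module (MvPowerSeries (Fin 3) k) M]
    [IsScalarTower (MvPowerSeries (Fin 3) k) R M] [Module.Finite R M]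
    (rs : List R) (hlen : rs.length = 3) (hmem : ∀ r ∈ rs, r ∈ IsLocalRing.maximalIdeal R)
    (hreg : RingTheory.Sequence.IsWeaklyRegular M rs) :
    Module.Free (MvPowerSeries (Fin 3) k) M := by
  have := Module.Finite.trans (R := MvPowerSeries (Fin 3) k) R M
  refine free_of_gens 3 _ _ rfl (maximalIdeal_mvPowerSeries k) M ?_
  rw [← RingTheory.Sequence.isWeaklyRegular_map_algebraMap_iff R]
  refine weaklyRegular_of_sop _ rs ?_ ?_ (by simpa using hlen) hmem M hreg
  · rw [← Ideal.map_ofList, maximalIdeal_mvPowerSeries, Ideal.map_le_iff_le_comap]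
    exact (eq_maximalIdeal (Ideal.isMaximal_comap_of_isIntegral_of_isMaximal _)).ge
  · rw [← Ideal.map_ofList, maximalIdeal_mvPowerSeries, Ideal.radical_eq_sInf]
    refine le_sInf fun P ⟨hP, hP'⟩ => ?_
    rw [Ideal.map_le_iff_le_comap] at hP
    have : (P.comap (algebraMap (MvPowerSeries (Fin 3) k) R)).IsMaximal := by
      rw [← (maximalIdeal.isMaximal _).eq_of_le (Ideal.comap_ne_top _ hP'.ne_top) hP]
      infer_instance
    exact (eq_maximalIdeal (Ideal.isMaximal_of_isIntegral_of_isMaximal_comap P this)).ge

end Vale.Agent.P190
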