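import Mathlib

/-!
Elementary depth lemmas: in a module of depth `n`, a system of `n` elements generating an ideal
primary to the maximal ideal is a regular sequence.
-/

noncomputable section

namespace Vale.Agent.P190

open RingTheory.Sequence IsLocalRing Pointwise

universe u

variable {R : Type} [CommRing R]

/-- There is a weakly regular sequence of length `n` in `J`. -/
def Dep (J : Ideal R) (n : ℕ) (M : Type u) [AddCommGroup M] [Module R M] : Prop :=
  ∃ rs : List R, rs.length = n ∧ (∀ r ∈ rs, r ∈ J) ∧ IsWeaklyRegular M rs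

/-- No nonzero element is killed by `J`. -/
def NoSoc (J : Ideal R) (M : Type u) [AddCommGroup M] [Module R M] : Prop :=
  ∀ v : M, (∀ j ∈ J, j • v = 0) → v = 0

theorem NoSoc.of_reg {J : Ideal R} {M : Type u} [AddCommGroup M] [Module R M] {r : R}
    (hr : r ∈ J) (h : IsSMulRegular M r) : NoSoc J M :=
  fun v hv => h (by simpa using hv r hr)

theorem NoSoc.exists_reg [IsNoetherianRing R] {J : Ideal R} {M : Type u} [AddCommGroup M]
    [Module R M] [Module.Finite R M] (h : NoSoc J M) : ∃ r ∈ J, IsSMulRegular M r := by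
  have : Subsingleton ((R ⧸ J) →ₗ[R] M) := by
    refine subsingleton_of_forall_eq 0 fun f => ?_
    have h1 : f 1 = 0 := h _ fun j hj => by
      rw [← map_smul, ← Algebra.algebraMap_eq_smul_one, Ideal.Quotient.algebraMap_eq,
        Ideal.Quotient.eq_zero_iff_mem.2 hj, map_zero]
    ext
    simpa using h1
  simpa [Ideal.annihilator_quotient] using IsSMulRegular.subsingleton_linearMap_iff.1 this

theorem quot_eq_zero {M : Type u} [AddCommGroup M] [Module R M] {r : R} {v : M} :
    (Submodule.Quotient.mk v : QuotSMulTop r M) = 0 ↔ ∃ w, r • w = v := by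
  rw [Submodule.Quotient.mk_eq_zero, Submodule.mem_smul_pointwise_iff_exists]
  simp

theorem noSoc_quot {J : Ideal R} {M : Type u} [AddCommGroup M] [Module R M] {r : R} :
    NoSoc J (QuotSMulTop r M) ↔ ∀ v : M, (∀ j ∈ J, ∃ w, r • w = j • v) → ∃ w, r • w = v := by
  constructor
  · intro h v hv
    exact quot_eq_zero.1 (h _ fun j hj => quot_eq_zero.2 (hv j hj))
  · intro h v hv
    obtain ⟨v, rfl⟩ := Submodule.Quotient.mk_surjective _ v
    exact quot_eq_zero.2 (h v fun j hj => quot_eq_zero.1 (hv j hj))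

theorem NoSoc.swap {J : Ideal R} {M : Type u} [AddCommGroup M] [Module R M] {y z : R}
    (hz : z ∈ J) (ry : IsSMulRegular M y) (rz : IsSMulRegular M z)
    (h : NoSoc J (QuotSMulTop z M)) : NoSoc J (QuotSMulTop y M) := by
  rw [noSoc_quot] at h ⊢
  intro u hu
  obtain ⟨v, hv⟩ := hu z hz
  obtain ⟨w, hw⟩ := h v fun j hj => by
    obtain ⟨m, hm⟩ := hu j hj
    refine ⟨m, ry ?_⟩
    change y • z • m = y • j • v
    rw [smul_comm y z, hm, smul_comm y j, hv, smul_comm]
  refine ⟨w, rz ?_⟩
  change z • y • w = z • u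
  rw [smul_comm, hw, hv]

variable [IsNoetherianRing R] [IsLocalRing R]

theorem exchange {J : Ideal R} (hJ : J ≤ maximalIdeal R) (n : ℕ) :
    ∀ (M : Type u) [AddCommGroup M] [Module R M] [Module.Finite R M], Dep J (n + 1) M →
      ∀ y ∈ J, IsSMulRegular M y → Dep J n (QuotSMulTop y M) := by
  induction n with
  | zero => intro M _ _ _ _ y _ _; exact ⟨[], rfl, by simp, .nil R _⟩
  | succ n ih =>
    rintro M _ _ _ ⟨rs, hlen, hmem, hreg⟩ y hy ry
    match rs, hlen, hmem, hreg with
    | z :: r :: rs, hlen, hmem, hreg =>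
      have hz : z ∈ J := hmem z (by simp)
      obtain ⟨rz, h2⟩ := (isWeaklyRegular_cons_iff _ _ _).1 hreg
      have n1 : NoSoc J (QuotSMulTop z M) :=
        .of_reg (hmem r (by simp)) ((isWeaklyRegular_cons_iff _ _ _).1 h2).1
      have n2 := n1.swap hz ry rz
      have n3 : NoSoc J (QuotSMulTop z M × QuotSMulTop y M) := fun v hv =>
        Prod.ext (n1 _ fun j hj => congrArg Prod.fst (hv j hj))
          (n2 _ fun j hj => congrArg Prod.snd (hv j hj))
      obtain ⟨w, hw, rw⟩ := n3.exists_reg
      have w1 : IsSMulRegular (QuotSMulTop z M) w := fun a b e =>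
        congrArg Prod.fst (rw (a₁ := (a, 0)) (a₂ := (b, 0)) (Prod.ext e rfl))
      have w2 : IsSMulRegular (QuotSMulTop y M) w := fun a b e =>
        congrArg Prod.snd (rw (a₁ := (0, a)) (a₂ := (0, b)) (Prod.ext rfl e))
      obtain ⟨rs1, l1, m1, g1⟩ := ih (QuotSMulTop z M)
        ⟨r :: rs, by simpa using hlen, fun a ha => hmem a (List.mem_cons_of_mem _ ha), h2⟩ w hw w1
      have g2 : IsWeaklyRegular M (w :: z :: rs1) :=
        isWeaklyRegular_of_perm_of_subset_maximalIdeal (.cons rz (.cons w1 g1)) (.swap _ _ _)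
          (by simpa only [List.forall_mem_cons] using ⟨hJ hz, hJ hw, fun a ha => hJ (m1 a ha)⟩)
      have g3 : IsWeaklyRegular M [w, y] :=
        isWeaklyRegular_of_perm_of_subset_maximalIdeal (.cons ry (.cons w2 (.nil R _)))
          (.swap _ _ _) (by simpa only [List.forall_mem_cons] using ⟨hJ hy, hJ hw, by simp⟩)
      obtain ⟨rw', g4⟩ := (isWeaklyRegular_cons_iff _ _ _).1 g2
      have y2 := (isWeaklyRegular_singleton_iff _ _).1 ((isWeaklyRegular_cons_iff _ _ _).1 g3).2
      obtain ⟨rs2, l2, m2, g5⟩ := ih (QuotSMulTop w M)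
        ⟨z :: rs1, by simp [l1], by simpa [hz] using m1, g4⟩ y hy y2
      have g6 : IsWeaklyRegular M (y :: w :: rs2) :=
        isWeaklyRegular_of_perm_of_subset_maximalIdeal (.cons rw' (.cons y2 g5)) (.swap _ _ _)
          (by simpa only [List.forall_mem_cons] using ⟨hJ hw, hJ hy, fun a ha => hJ (m2 a ha)⟩)
      exact ⟨w :: rs2, by simp [l2], by simpa [hw] using m2,
        ((isWeaklyRegular_cons_iff _ _ _).1 g6).2⟩

omit [IsNoetherianRing R] [IsLocalRing R] in
theorem Dep.cons {J : Ideal R} {n : ℕ} {M : Type u} [AddCommGroup M] [Module R M] {y : R}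
    (hy : y ∈ J) (ry : IsSMulRegular M y) (h : Dep J n (QuotSMulTop y M)) : Dep J (n + 1) M := by
  obtain ⟨rs, l, m, g⟩ := h
  exact ⟨y :: rs, by simp [l], by simpa [hy] using m, .cons ry g⟩

omit [IsNoetherianRing R] [IsLocalRing R] in
theorem Dep.exists_reg {J : Ideal R} {n : ℕ} {M : Type u} [AddCommGroup M] [Module R M]
    (h : Dep J (n + 1) M) : ∃ z ∈ J, IsSMulRegular M z ∧ Dep J n (QuotSMulTop z M) := by
  obtain ⟨rs, l, m, g⟩ := h
  match rs, l, m, g with
  | z :: rs, l, m, g =>
    obtain ⟨rz, h2⟩ := (isWeaklyRegular_cons_iff _ _ _).1 g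
    exact ⟨z, m z (by simp), rz, rs, by simpa using l,
      fun a ha => m a (List.mem_cons_of_mem _ ha), h2⟩

theorem dep_of_radical {I J : Ideal R} (hJ : J ≤ maximalIdeal R) (hI : J ≤ I.radical) (n : ℕ) :
    ∀ (M : Type u) [AddCommGroup M] [Module R M] [Module.Finite R M], Dep J n M → Dep I n M := by
  induction n with
  | zero => intro M _ _ _ _; exact ⟨[], rfl, by simp, .nil R _⟩
  | succ n ih =>
    intro M _ _ _ h
    obtain ⟨z, hz, rz, -⟩ := h.exists_reg
    obtain ⟨N, hN⟩ := hI hz
    exact .cons (I.mul_mem_left z hN) (by rw [← pow_succ']; exact rz.pow _) (ih _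
      (exchange hJ n M h _ (J.mul_mem_right _ hz) (by rw [← pow_succ']; exact rz.pow _)))

theorem nak {M : Type u} [AddCommGroup M] [Module R M] [Module.Finite R M] {x : R}
    (hx : x ∈ maximalIdeal R) (T : Submodule R M) (h : ∀ v ∈ T, ∃ w ∈ T, x • w = v) : T = ⊥ := by
  refine Submodule.eq_bot_of_le_smul_of_le_jacobson_bot (Ideal.span {x}) T
    (IsNoetherian.noetherian T) (fun v hv => ?_) ?_
  · obtain ⟨w, hw, rfl⟩ := h v hv
    exact Submodule.smul_mem_smul (Ideal.mem_span_singleton_self x) hw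
  · rw [Ideal.span_singleton_le_iff_mem]
    exact maximalIdeal_le_jacobson _ hx

theorem dep_drop {I : Ideal R} {x : R} (hJ : Ideal.span {x} ⊔ I ≤ maximalIdeal R) (n : ℕ) :
    ∀ (M : Type u) [AddCommGroup M] [Module R M] [Module.Finite R M],
      Dep (Ideal.span {x} ⊔ I) (n + 1) M → Dep I n M := by
  induction n with
  | zero => intro M _ _ _ _; exact ⟨[], rfl, by simp, .nil R _⟩
  | succ n ih =>
    intro M _ _ _ h
    obtain ⟨z, hz, rz, h2⟩ := h.exists_reg
    obtain ⟨z', hz', rz', -⟩ := h2.exists_reg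
    have n1 := noSoc_quot.1 (NoSoc.of_reg hz' rz')
    have hx : x ∈ maximalIdeal R := hJ (Ideal.mem_sup_left (Ideal.mem_span_singleton_self x))
    have n2 : NoSoc I M := by
      obtain ⟨c, hc, a, ha, rfl⟩ := Submodule.mem_sup.1 hz
      obtain ⟨b, rfl⟩ := Ideal.mem_span_singleton'.1 hc
      let T : Submodule R M := Submodule.torsionBySet R M I
      have hT : ∀ v, v ∈ T ↔ ∀ j ∈ I, j • v = 0 := fun v => by
        simp [T, Submodule.mem_torsionBySet_iff]
      have key : T.map (LinearMap.lsmul R M b) = ⊥ := by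
        refine nak hx _ ?_
        rintro _ ⟨t, ht, rfl⟩
        have ht' := (hT t).1 ht
        obtain ⟨w, hw⟩ := n1 (b • t) fun j hj => by
          obtain ⟨c', hc', a', ha', rfl⟩ := Submodule.mem_sup.1 hj
          obtain ⟨b', rfl⟩ := Ideal.mem_span_singleton'.1 hc'
          refine ⟨b' • t, ?_⟩
          rw [add_smul, add_smul, smul_comm a, smul_comm a', ht' a ha, ht' a' ha']
          simp only [smul_zero, add_zero, smul_smul]
          congr 1; ring
        have hwT : ∀ j ∈ I, j • w = 0 := fun j hj => rz (by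
          change _ • j • w = _ • (0 : M)
          rw [smul_comm, hw, smul_comm, ht' j hj]; simp)
        refine ⟨b • w, ⟨w, (hT w).2 hwT, rfl⟩, ?_⟩
        change _ = b • t
        rw [← hw, add_smul, hwT a ha, add_zero, smul_smul, mul_comm]
      intro v hv
      have h1 : b • v = 0 :=
        (Submodule.eq_bot_iff _).1 key _ ⟨v, (hT v).2 hv, rfl⟩
      apply rz
      change _ • v = _ • (0 : M)
      rw [add_smul, hv a ha, mul_comm, mul_smul, h1]; simp
    obtain ⟨y, hy, ry⟩ := n2.exists_reg
    exact .cons hy ry (ih _ (exchange hJ _ M h y (Ideal.mem_sup_right hy) ry))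

theorem dep_drop_list (xs : List R) : ∀ {I : Ideal R} (_ : Ideal.ofList xs ⊔ I ≤ maximalIdeal R)
    (n : ℕ) (M : Type u) [AddCommGroup M] [Module R M] [Module.Finite R M],
      Dep (Ideal.ofList xs ⊔ I) (n + xs.length) M → Dep I n M := by
  induction xs with
  | nil => intro I _ n M _ _ _ h; simpa using h
  | cons x xs ih =>
    intro I hJ n M _ _ _ h
    rw [Ideal.ofList_cons, sup_assoc] at hJ h
    exact ih (le_sup_right.trans hJ) n M (dep_drop hJ _ M h)

theorem weaklyRegular_of_dep (xs : List R) : ∀ {I : Ideal R}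
    (_ : Ideal.ofList xs ⊔ I ≤ maximalIdeal R)
    (M : Type u) [AddCommGroup M] [Module R M] [Module.Finite R M],
      (∀ j ∈ I, ∀ v : M, j • v = 0) → Dep (Ideal.ofList xs ⊔ I) xs.length M →
      IsWeaklyRegular M xs := by
  induction xs with
  | nil => intros; exact .nil R _
  | cons x xs ih =>
    intro I hJ M _ _ _ hI h
    have e : Ideal.ofList (x :: xs) ⊔ I = Ideal.ofList xs ⊔ (Ideal.span {x} ⊔ I) := by
      rw [Ideal.ofList_cons, sup_comm (Ideal.span {x}), sup_assoc]
    rw [e] at hJ h
    obtain ⟨z, hz, rz, -⟩ := (dep_drop_list xs hJ (0 + 1) M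
      (by simpa [add_comm] using h)).exists_reg
    obtain ⟨c, hc, a, ha, rfl⟩ := Submodule.mem_sup.1 hz
    obtain ⟨b, rfl⟩ := Ideal.mem_span_singleton'.1 hc
    have rx : IsSMulRegular M x := fun v w e => rz (by
      change _ • v = _ • w
      have e' : x • v = x • w := e
      rw [add_smul, add_smul, hI a ha, hI a ha, mul_smul, mul_smul, e'])
    refine .cons rx (ih hJ _ ?_ (exchange hJ _ M h x ?_ rx))
    · intro j hj v
      obtain ⟨v, rfl⟩ := Submodule.Quotient.mk_surjective _ v
      obtain ⟨c, hc, a, ha, rfl⟩ := Submodule.mem_sup.1 hj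
      obtain ⟨b, rfl⟩ := Ideal.mem_span_singleton'.1 hc
      refine quot_eq_zero.2 ⟨b • v, ?_⟩
      change _ = (b * x + a) • v
      rw [add_smul, hI a ha, add_zero, smul_smul, mul_comm]
    · exact Ideal.mem_sup_right (Ideal.mem_sup_left (Ideal.mem_span_singleton_self x))

/-- A system of parameters is regular on a module of maximal depth. -/
theorem weaklyRegular_of_sop (xs rs : List R) (hxs : Ideal.ofList xs ≤ maximalIdeal R)
    (hrad : maximalIdeal R ≤ (Ideal.ofList xs).radical) (hlen : rs.length = xs.length)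
    (hmem : ∀ r ∈ rs, r ∈ maximalIdeal R)
    (M : Type u) [AddCommGroup M] [Module R M] [Module.Finite R M]
    (hreg : IsWeaklyRegular M rs) : IsWeaklyRegular M xs :=
  weaklyRegular_of_dep xs (I := ⊥) (by simpa using hxs) M (by simp)
    (by simpa using dep_of_radical le_rfl hrad _ M ⟨rs, hlen, hmem, hreg⟩)

theorem free_of_gens (n : ℕ) : ∀ (R : Type) [CommRing R] [IsNoetherianRing R] [IsLocalRing R]
    (xs : List R), xs.length = n → Ideal.ofList xs = maximalIdeal R →
    ∀ (M : Type u) [AddCommGroup M] [Module R M] [Module.Finite R M],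
      IsWeaklyRegular M xs → Module.Free R M := by
  induction n with
  | zero =>
    intro R _ _ _ xs hl hm M _ _ _ _
    rw [List.length_eq_zero_iff.1 hl, Ideal.ofList_nil] at hm
    let := (isField_iff_maximalIdeal_eq.2 hm.symm).toField
    infer_instance
  | succ n ih =>
    intro R _ _ _ xs hl hm M _ _ _ h
    match xs, hl, hm, h with
    | x :: xs, hl, hm, h =>
      obtain ⟨rx, h2⟩ := (isWeaklyRegular_cons_iff' _ _ _).1 h
      have hx : x ∈ maximalIdeal R := hm ▸ Ideal.subset_span (by simp)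
      have := Module.finitePresentation_of_finite R M
      have hne : Ideal.span {x} ≠ ⊤ := by
        rw [Ne, Ideal.span_singleton_eq_top]; exact hx
      have : Nontrivial (R ⧸ Ideal.span {x}) := Ideal.Quotient.nontrivial_iff.2 hne
      have : IsLocalRing (R ⧸ Ideal.span {x}) :=
        .of_surjective' (Ideal.Quotient.mk _) Ideal.Quotient.mk_surjective
      have := Module.Finite.of_restrictScalars_finite R (R ⧸ Ideal.span {x}) (QuotSMulTop x M)
      refine (Module.free_quotSMulTop_iff_free R M (maximalIdeal_le_jacobson _ hx) rx).1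
        (ih _ _ (by simpa using hl) ?_ _ h2)
      rw [← map_maximalIdeal_of_surjective (Ideal.Quotient.mk (Ideal.span {x}))
        Ideal.Quotient.mk_surjective, ← hm, Ideal.ofList_cons, Ideal.map_sup, Ideal.map_quotient_self,
        bot_sup_eq, Ideal.map_ofList]

theorem maximalIdeal_mvPowerSeries (k : Type) [Field k] :
    Ideal.ofList [MvPowerSeries.X 0, MvPowerSeries.X 1, MvPowerSeries.X 2]
      = maximalIdeal (MvPowerSeries (Fin 3) k) := by
  apply le_antisymm
  · rw [Ideal.ofList, Ideal.span_le]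
    intro f hf
    simp only [List.mem_cons, List.not_mem_nil, or_false, Set.mem_setOf_eq] at hf
    rcases hf with rfl | rfl | rfl <;> simp [MvPowerSeries.isUnit_iff_constantCoeff]
  · intro f hf
    have h0 : MvPowerSeries.coeff 0 f = 0 := by
      simpa [MvPowerSeries.isUnit_iff_constantCoeff] using hf
    let f0 : MvPowerSeries (Fin 3) k := fun m => if m 0 = 0 then 0 else f m
    let f1 : MvPowerSeries (Fin 3) k := fun m => if m 0 = 0 ∧ m 1 ≠ 0 then f m else 0
    let f2 : MvPowerSeries (Fin 3) k := fun m => if m 0 = 0 ∧ m 1 = 0 then f m else 0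
    have e : f = f0 + f1 + f2 := by
      funext m
      change f m = f0 m + f1 m + f2 m
      by_cases a : m 0 = 0 <;> by_cases b : m 1 = 0 <;> simp [f0, f1, f2, a, b]
    have key : ∀ (i : Fin 3) (g : MvPowerSeries (Fin 3) k), (∀ m, m i = 0 → g m = 0) →
        g ∈ Ideal.ofList [MvPowerSeries.X 0, MvPowerSeries.X 1, MvPowerSeries.X 2] := by
      intro i g hg
      obtain ⟨c, rfl⟩ := MvPowerSeries.X_dvd_iff.2 hg
      exact Ideal.mul_mem_right _ _ (Ideal.subset_span (by fin_cases i <;> simp))
    rw [e]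
    refine add_mem (add_mem (key 0 _ fun m hm => ?_) (key 1 _ fun m hm => ?_))
      (key 2 _ fun m hm => ?_)
    · simp [f0, hm]
    · simp [f1, hm]
    · simp only [f2]
      split_ifs with h
      · have : m = 0 := by
          ext i; fin_cases i
          exacts [h.1, h.2, hm]
        rw [this]; exact h0
      · rfl

end Vale.Agent.P190
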