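import Vale.Agent.P190.Euler

/-!
The charts along lines, double points and triple points, and the elements killing the quotients.
-/

noncomputable section

namespace Vale.Agent.P190

open Module Finset

variable {k : Type} [Field k]
variable {V : Type} [AddCommGroup V] [Module k V] [Module (Kf k) V] [IsScalarTower k (Kf k) V]
variable {C : Type} [CommRing C] [Algebra (Kf k) C]

/-- The element `x` acts on `F` raising the degree by `d`. -/
def St (r : C →ₐ[Kf k] Module.End (Kf k) V) (F : ℤ → Submodule k V) (x : C) (d : ℤ) : Prop :=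
  ∀ n v, v ∈ F n → r x v ∈ F (n + d)

/-- Constants in `C`. -/
def kc (C : Type) [CommRing C] [Algebra (Kf k) C] : k →+* C :=
  (algebraMap (Kf k) C).comp (algebraMap k (Kf k))

section St

variable {r : C →ₐ[Kf k] Module.End (Kf k) V} {F : ℤ → Submodule k V} {x y : C} {d e : ℤ}

section

omit [IsScalarTower k (Kf k) V]

theorem St.cast (h : St r F x d) (e1 : x = y) (e2 : d = e) : St r F y e := e1 ▸ e2 ▸ h

theorem St.mul (h : St r F x d) (h' : St r F y e) : St r F (x * y) (d + e) := fun n v hv => by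
  rw [map_mul, Module.End.mul_apply, add_comm d e, ← add_assoc]
  exact h _ _ (h' n v hv)

theorem St.add (h : St r F x d) (h' : St r F y d) : St r F (x + y) d := fun n v hv => by
  rw [map_add]; exact add_mem (h n v hv) (h' n v hv)

theorem St.sub (h : St r F x d) (h' : St r F y d) : St r F (x - y) d := fun n v hv => by
  rw [map_sub]; exact sub_mem (h n v hv) (h' n v hv)

theorem St.pow (h : St r F x d) (i : ℕ) : St r F (x ^ i) (i * d) := by
  induction i with
  | zero => intro n v hv; simpa using hv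
  | succ i ih => exact (ih.mul h).cast (pow_succ x i).symm (by push_cast; ring)

omit [Module k V] in
theorem r_sc (r : C →ₐ[Kf k] Module.End (Kf k) V) (c : Kf k) (v : V) :
    r (algebraMap (Kf k) C c) v = c • v := by
  rw [AlgHom.commutes, Module.algebraMap_end_apply]

theorem st_sc {c : Kf k} : St r F (algebraMap (Kf k) C c) d ↔ ∀ n v, v ∈ F n → c • v ∈ F (n + d) := by
  simp only [St, r_sc]

theorem st_mem (G : Fam k V) {c : Kf k} (hc : c ∈ A k d) : St r G (algebraMap (Kf k) C c) d :=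
  st_sc.2 fun _ _ hv => G.smul_mem' hc hv

omit [Module k V] in
theorem r_comm (r : C →ₐ[Kf k] Module.End (Kf k) V) (x y : C) (v : V) :
    r x (r y v) = r y (r x v) := by
  rw [← Module.End.mul_apply, ← map_mul, mul_comm, map_mul, Module.End.mul_apply]

end

theorem St.kmul (h : St r F x d) (c : k) : St r F (kc C c * x) d := fun n v hv => by
  rw [map_mul, Module.End.mul_apply, kc, RingHom.comp_apply, r_sc, algebraMap_smul]
  exact Submodule.smul_mem _ _ (h n v hv)

theorem St.of_kmul {c : k} (hc : c ≠ 0) (h : St r F (kc C c * x) d) : St r F x d :=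
  (h.kmul c⁻¹).cast (by rw [← mul_assoc, ← map_mul, inv_mul_cancel₀ hc, map_one, one_mul]) rfl

theorem St.adj {G : Fam k V} (h : St r G x d) (y : C) (e : ℤ) : St r (G.adj (r y) e) x d :=
  Fam.adj_stab h (r_comm r x y)

theorem St.adj_self {G : Fam k V} (h : St r G (y * y) (e + e)) : St r (G.adj (r y) e) y e :=
  Fam.adj_self_stab fun n v hv => by
    have := h n v hv
    rwa [map_mul, Module.End.mul_apply] at this

theorem adj_comm_le (G : Fam k V) (x y : C) (d e : ℤ) :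
    (G.adj (r x) d).adj (r y) e ≤ (G.adj (r y) e).adj (r x) d := by
  have h0 : G ≤ (G.adj (r y) e).adj (r x) d := (G.le_adj _ _).trans (Fam.le_adj _ _ _)
  refine Fam.adj_le (Fam.adj_le h0 ((Fam.maps_adj _ _ _).mono (G.le_adj _ _) le_rfl le_rfl)) ?_
  refine Maps.adj (θ := (r y).toAddMonoidHom)
    ((Fam.maps_adj G _ _).mono le_rfl (Fam.le_adj _ _ _) le_rfl) fun n v hv => ?_
  change r y (r x v) ∈ _
  rw [r_comm, add_comm d e, ← add_assoc]
  exact Fam.maps_adj _ _ _ _ _ (Fam.maps_adj G _ _ n v hv)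

/-- Adjoining `x` is killed by a power of `f`. -/
theorem nil_adj {G : Fam k V} {f : Kf k} (hf : f ∈ A k d) (N : ℕ)
    (h : St r G (algebraMap (Kf k) C f ^ N * x) (e + N * d)) : Nil (G.adj (r x) e) G f d := by
  refine ⟨N, Maps.adj (θ := DistribSMul.toAddMonoidHom V (f ^ N)) (maps_smul G (A_pow hf N))
    fun n v hv => ?_⟩
  have := h n v hv
  rwa [map_mul, Module.End.mul_apply, ← map_pow, r_sc] at this

end St

omit [Module (Kf k) V] [IsScalarTower k (Kf k) V] in
theorem mono4 {F : ℤ → Submodule k V} (hF : ∀ n, F n ≤ F (n + 1)) (n : ℤ) : F n ≤ F (n + 4) := by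
  have h := (hF n).trans ((hF _).trans ((hF _).trans (hF _)))
  rwa [show n + 1 + 1 + 1 + 1 = n + 4 by ring] at h

theorem comb3 {F : ℤ → Submodule k V} (hF : ∀ n, F n ≤ F (n + 1)) {f g x : Kf k}
    (hf : ∀ n v, v ∈ F n → f • v ∈ F (n + 4)) (hg : ∀ n v, v ∈ F n → g • v ∈ F (n + 4))
    (hx : ∃ α β γ : k, x = α • (1 : Kf k) + β • f + γ • g) :
    ∀ n v, v ∈ F n → x • v ∈ F (n + 4) := by
  obtain ⟨α, β, γ, rfl⟩ := hx
  intro n v hv
  rw [add_smul, add_smul, smul_assoc, smul_assoc, smul_assoc, one_smul]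
  exact add_mem (add_mem (Submodule.smul_mem _ _ (mono4 hF n hv))
    (Submodule.smul_mem _ _ (hf n v hv))) (Submodule.smul_mem _ _ (hg n v hv))

/-- The data of the Frobenius pullback with its operators. -/
structure FD (p q : ℕ) (φ : V →+ V) (r : C →ₐ[Kf k] Module.End (Kf k) V) (g : Gen → C)
    (μ : Tr → Fin 3 → k) (op : Gen → Module.End (Kf k) V) : Prop where
  hk : BigChar k
  hμ : ∀ T j, μ T j ≠ 0
  odd : p = 2 * q + 1
  frob : IsFrob k p φ
  rel : Rel (fun i => algebraMap (Kf k) C (ellK k i)) (fun T j => kc C (μ T j)) g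
  pow : ∀ j v, r (g j ^ p) (φ v) = φ (op j v)

variable {p q : ℕ} {φ : V →+ V} {r : C →ₐ[Kf k] Module.End (Kf k) V} {g : Gen → C}
  {μ : Tr → Fin 3 → k} {op : Gen → Module.End (Kf k) V}

namespace FD

omit [IsScalarTower k (Kf k) V] in
theorem ell_of_u (h : FD p q φ r g μ op) {F : ℤ → Submodule k V} {a : Ln}
    (hu : St r F (g (.u a)) 2) : ∀ n v, v ∈ F n → ellK k a • v ∈ F (n + 4) :=
  st_sc.1 ((hu.mul hu).cast (h.rel.uu a) (by norm_num))

omit [IsScalarTower k (Kf k) V] in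
theorem uu (h : FD p q φ r g μ op) (G : Fam k V) (a : Ln) :
    St r G (g (.u a) * g (.u a)) (2 + 2) :=
  (st_mem G (ellK_mem a)).cast (h.rel.uu a).symm (by norm_num)

theorem ua_of_st (h : FD p q φ r g μ op) {F : ℤ → Submodule k V} {T : Tr}
    (hs : St r F (g (.s T)) 1) (ht : St r F (g (.t T)) 1) : St r F (g (.u (ta T))) 2 :=
  St.of_kmul (h.hμ T 0) (((hs.mul hs).add (ht.mul ht)).cast (h.rel.add T) (by norm_num))

theorem ub_of_st (h : FD p q φ r g μ op) {F : ℤ → Submodule k V} {T : Tr}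
    (hs : St r F (g (.s T)) 1) (ht : St r F (g (.t T)) 1) : St r F (g (.u (tb T))) 2 :=
  St.of_kmul (h.hμ T 1) (((hs.mul hs).sub (ht.mul ht)).cast (h.rel.sub T) (by norm_num))

theorem uc_of_st (h : FD p q φ r g μ op) {F : ℤ → Submodule k V} {T : Tr}
    (hs : St r F (g (.s T)) 1) (ht : St r F (g (.t T)) 1) : St r F (g (.u (tc T))) 2 :=
  St.of_kmul (h.hμ T 2) (((hs.mul ht).add (hs.mul ht)).cast (by rw [← h.rel.st T]; ring)
    (by norm_num))

theorem ss_of_u (h : FD p q φ r g μ op) {F : ℤ → Submodule k V} {T : Tr}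
    (ha : St r F (g (.u (ta T))) 2) (hb : St r F (g (.u (tb T))) 2) :
    St r F (g (.s T) * g (.s T)) 2 :=
  St.of_kmul h.hk.two_ne (((ha.kmul (μ T 0)).add (hb.kmul (μ T 1))).cast
    (by rw [← h.rel.add T, ← h.rel.sub T, map_ofNat]; ring) rfl)

theorem tt_of_u (h : FD p q φ r g μ op) {F : ℤ → Submodule k V} {T : Tr}
    (ha : St r F (g (.u (ta T))) 2) (hb : St r F (g (.u (tb T))) 2) :
    St r F (g (.t T) * g (.t T)) 2 :=
  St.of_kmul h.hk.two_ne (((ha.kmul (μ T 0)).sub (hb.kmul (μ T 1))).cast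
    (by rw [← h.rel.add T, ← h.rel.sub T, map_ofNat]; ring) rfl)

theorem st_of_u (h : FD p q φ r g μ op) {F : ℤ → Submodule k V} {T : Tr}
    (hc : St r F (g (.u (tc T))) 2) : St r F (g (.s T) * g (.t T)) 2 :=
  St.of_kmul h.hk.two_ne ((hc.kmul (μ T 2)).cast (by rw [← h.rel.st T, map_ofNat]) rfl)

theorem chartL (h : FD p q φ r g μ op) (a : Ln) :
    Chart p φ (r (g (.u a))) (sc (zK k)) (op (.u a)) (sc (zK k)) 2 4 where
  comm := (Algebra.commutes _ _).symm
  hs v := by rw [← map_pow, h.pow]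
  ht := (chart0 h.frob).ht
  hyz _ hF h1 h2 := ⟨comb3 hF (h.ell_of_u h1) h2 (y_line h.hk a), h2⟩

theorem chartD (h : FD p q φ r g μ op) {a b : Ln} (hab : a ≠ b) :
    Chart p φ (r (g (.u a))) (r (g (.u b))) (op (.u a)) (op (.u b)) 2 2 where
  comm := (Commute.all _ _).map r
  hs v := by rw [← map_pow, h.pow]
  ht v := by rw [← map_pow, h.pow]
  hyz _ hF h1 h2 := ⟨comb3 hF (h.ell_of_u h1) (h.ell_of_u h2) (y_pair h.hk hab),
    comb3 hF (h.ell_of_u h1) (h.ell_of_u h2) (z_pair h.hk hab)⟩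

theorem chartT (h : FD p q φ r g μ op) (T : Tr) :
    Chart p φ (r (g (.s T))) (r (g (.t T))) (op (.s T)) (op (.t T)) 1 1 where
  comm := (Commute.all _ _).map r
  hs v := by rw [← map_pow, h.pow]
  ht v := by rw [← map_pow, h.pow]
  hyz _ hF h1 h2 :=
    ⟨comb3 hF (h.ell_of_u (h.ua_of_st h1 h2)) (h.ell_of_u (h.ub_of_st h1 h2))
      (y_pair h.hk (ta_ne_tb T)),
    comb3 hF (h.ell_of_u (h.ua_of_st h1 h2)) (h.ell_of_u (h.ub_of_st h1 h2))
      (z_pair h.hk (ta_ne_tb T))⟩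

end FD

/-- The pullback along a line. -/
def WL (p : ℕ) (φ : V →+ V) (r : C →ₐ[Kf k] Module.End (Kf k) V) (g : Gen → C) (E : Fam k V)
    (a : Ln) : Fam k V := Wf p φ E (r (g (.u a))) (sc (zK k)) 2 4

/-- The pullback at a point. -/
def WP (p : ℕ) (φ : V →+ V) (r : C →ₐ[Kf k] Module.End (Kf k) V) (g : Gen → C) (E : Fam k V) :
    Pt → Fam k V
  | .inl Q => Wf p φ E (r (g (.u Q.1.1))) (r (g (.u Q.1.2))) 2 2
  | .inr T => Wf p φ E (r (g (.s T))) (r (g (.t T))) 1 1

variable {E : Fam k V}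

omit [IsScalarTower k (Kf k) V] in
theorem W0_le_WL (a : Ln) : W0 p φ E ≤ WL p φ r g E a := W0_le fun _ _ hv => Wf_phi E hv

omit [IsScalarTower k (Kf k) V] in
theorem W0_le_WP (P : Pt) : W0 p φ E ≤ WP p φ r g E P := by
  rcases P with Q | T <;> exact W0_le fun _ _ hv => Wf_phi E hv

theorem adj_le_WL (a : Ln) : (W0 p φ E).adj (r (g (.u a))) 2 ≤ WL p φ r g E a :=
  Fam.adj_le (W0_le_WL a) ((Wf_fst E).mono (W0_le_WL a) le_rfl le_rfl)

omit [IsScalarTower k (Kf k) V] in
theorem WL_le {G : Fam k V} {a : Ln} (h0 : W0 p φ E ≤ G) (hu : St r G (g (.u a)) 2) :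
    WL p φ r g E a ≤ G :=
  Wf_le (fun _ _ hv => h0 _ (Wf_phi E hv)) hu (maps_sc G zK_mem)

namespace FD

theorem WL_le_adj (h : FD p q φ r g μ op) (a : Ln) :
    WL p φ r g E a ≤ (W0 p φ E).adj (r (g (.u a))) 2 :=
  WL_le (Fam.le_adj _ _ _) (h.uu _ a).adj_self

theorem WP_u (h : FD p q φ r g μ op) {P : Pt} {d : Ln} (hd : d ∈ plines P) :
    St r (WP p φ r g E P) (g (.u d)) 2 := by
  rcases P with Q | T
  · simp only [plines, Finset.mem_insert, Finset.mem_singleton] at hd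
    rcases hd with rfl | rfl
    · exact Wf_fst E
    · exact Wf_snd E
  · simp only [plines, tlines, Finset.mem_insert, Finset.mem_singleton] at hd
    rcases hd with rfl | rfl | rfl
    · exact h.ua_of_st (Wf_fst E) (Wf_snd E)
    · exact h.ub_of_st (Wf_fst E) (Wf_snd E)
    · exact h.uc_of_st (Wf_fst E) (Wf_snd E)

theorem pow_st (h : FD p q φ r g μ op) (hE : ∀ j, Maps E E (op j) (wt j)) (j : Gen) :
    St r (W0 p φ E) (g j ^ p) (p * wt j) := by
  have : W0 p φ E ≤ ((W0 p φ E).comap (r (g j ^ p))).shift (-(p * wt j)) := by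
    refine W0_le fun m v hv => ?_
    rw [Fam.mem_shift, Fam.mem_comap, h.pow, sub_neg_eq_add, ← mul_add]
    exact Wf_phi E (hE j m v hv)
  intro n v hv
  have h2 := this n hv
  rwa [Fam.mem_shift, Fam.mem_comap, sub_neg_eq_add] at h2

theorem nil_u (h : FD p q φ r g μ op) {G : Fam k V} {a : Ln}
    (hG : St r G (g (.u a) ^ p) (p * wt (.u a))) : Nil (G.adj (r (g (.u a))) 2) G (ellK k a) 4 := by
  refine nil_adj (ellK_mem a) q (hG.cast ?_ ?_)
  · rw [← h.rel.uu a, h.odd]; ring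
  · rw [h.odd, wt]; push_cast; ring

theorem nil_WL (h : FD p q φ r g μ op) (hE : ∀ j, Maps E E (op j) (wt j)) (a : Ln) :
    Nil (WL p φ r g E a) (W0 p φ E) (ellK k a) 4 :=
  (h.nil_u (h.pow_st hE _)).mono (h.WL_le_adj a) le_rfl

theorem nil_two (h : FD p q φ r g μ op) (hE : ∀ j, Maps E E (op j) (wt j)) (a b : Ln) :
    Nil (((W0 p φ E).adj (r (g (.u b))) 2).adj (r (g (.u a))) 2) (WL p φ r g E b) (ellK k a) 4 :=
  (h.nil_u ((h.pow_st hE _).adj _ _)).mono le_rfl (adj_le_WL b)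

theorem nil_three (h : FD p q φ r g μ op) (hE : ∀ j, Maps E E (op j) (wt j)) {a b c : Ln}
    (hs : cf a + cf b + cf c = 0) (hbc : b ≠ c) {X : Fam k V} (hb : WL p φ r g E b ≤ X)
    (hc : WL p φ r g E c ≤ X) :
    Nil ((((W0 p φ E).adj (r (g (.u b))) 2).adj (r (g (.u c))) 2).adj (r (g (.u a))) 2) X
      (ellK k a) 4 := by
  refine (h.nil_u (((h.pow_st hE _).adj _ _).adj _ _)).trans ?_
  obtain ⟨β, γ, e⟩ := ell_triple h.hk hs hbc
  rw [e]
  exact Nil.add (Submodule.smul_mem _ _ (ellK_mem b)) (Submodule.smul_mem _ _ (ellK_mem c))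
    (((h.nil_two hE b c).mono (adj_comm_le _ _ _ _ _) hc).ksmul β)
    (((h.nil_two hE c b).mono le_rfl hb).ksmul γ)

variable [Fact p.Prime] [CharP C p]

/-- The key estimate at a triple point. -/
theorem nil_T (h : FD p q φ r g μ op) (T : Tr) {H : Fam k V} (h0 : W0 p φ E ≤ H)
    (hp : ∀ j, St r H (g j ^ p) (p * wt j)) (ha : St r H (g (.u (ta T))) 2)
    (hb : St r H (g (.u (tb T))) 2) (hc : St r H (g (.u (tc T))) 2) :
    Nil (WP p φ r g E (.inr T)) H (ellK k (ta T)) 4 ∧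
      Nil (WP p φ r g E (.inr T)) H (ellK k (tb T)) 4 := by
  have hss := h.ss_of_u ha hb
  have htt := h.tt_of_u ha hb
  have hst := h.st_of_u hc
  have hle : WP p φ r g E (.inr T) ≤ (H.adj (r (g (.s T))) 1).sup (H.adj (r (g (.t T))) 1) := by
    have aux : ∀ {x y : C}, St r H (x * y) 2 → ∀ G : Fam k V, H ≤ G → Maps H G (r x) 1 →
        Maps (H.adj (r y) 1) G (r x).toAddMonoidHom 1 := by
      intro x y hxy G h1 h2
      refine Maps.adj h2 fun n v hv => h1 _ ?_
      have := hxy n v hv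
      rwa [map_mul, Module.End.mul_apply] at this
    have h1 : H ≤ (H.adj (r (g (.s T))) 1).sup (H.adj (r (g (.t T))) 1) :=
      (H.le_adj _ _).trans (Fam.le_sup_left _ _)
    have h2 := (Fam.maps_adj H (r (g (.s T))) 1).mono le_rfl
      (Fam.le_sup_left _ (H.adj (r (g (.t T))) 1)) le_rfl
    have h3 := (Fam.maps_adj H (r (g (.t T))) 1).mono le_rfl
      (Fam.le_sup_right (H.adj (r (g (.s T))) 1) _) le_rfl
    exact Wf_le (fun _ _ hv => h1 _ (h0 _ (Wf_phi E hv)))
      (Maps.sup (aux hss _ h1 h2) (aux hst _ h1 h2))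
      (Maps.sup (aux (hst.cast (mul_comm _ _) rfl) _ h1 h3) (aux htt _ h1 h3))
  have e1 : St r H ((g (.s T) * g (.s T)) ^ p * g (.s T)) (2 * p + 1) :=
    ((hp (.s T)).mul (hss.pow (q + 1))).cast (by rw [h.odd]; ring)
      (by rw [h.odd, wt]; push_cast; ring)
  have e2 : St r H ((g (.t T) * g (.t T)) ^ p * g (.t T)) (2 * p + 1) :=
    ((hp (.t T)).mul (htt.pow (q + 1))).cast (by rw [h.odd]; ring)
      (by rw [h.odd, wt]; push_cast; ring)
  have e3 : St r H ((g (.s T) * g (.s T)) ^ p * g (.t T)) (2 * p + 1) :=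
    (((hp (.s T)).mul (hss.pow q)).mul hst).cast (by rw [h.odd]; ring)
      (by rw [h.odd, wt]; push_cast; ring)
  have e4 : St r H ((g (.t T) * g (.t T)) ^ p * g (.s T)) (2 * p + 1) :=
    (((hp (.t T)).mul (htt.pow q)).mul hst).cast (by rw [h.odd]; ring)
      (by rw [h.odd, wt]; push_cast; ring)
  have fin : ∀ (d : Ln) (c : k) (x : C), c ≠ 0 → St r H (g (.u d)) 2 →
      St r H ((kc C c * g (.u d)) ^ p * x) (2 * p + 1) →
      Nil (H.adj (r x) 1) H (ellK k d) 4 := by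
    intro d c x hc0 hd hx
    have h1 : St r H (g (.u d) ^ p * x) (2 * p + 1) :=
      St.of_kmul (pow_ne_zero p hc0) (hx.cast (by rw [map_pow]; ring) rfl)
    refine nil_adj (ellK_mem d) (q + 1) ((hd.mul h1).cast ?_ ?_)
    · rw [← h.rel.uu d, h.odd]; ring
    · rw [h.odd]; push_cast; ring
  constructor
  · refine Nil.mono (Nil.sup (ellK_mem _) (fin _ _ _ (h.hμ T 0) ha ?_)
      (fin _ _ _ (h.hμ T 0) ha ?_)) hle le_rfl
    · exact (e1.add e4).cast (by rw [← h.rel.add T, add_pow_char, add_mul]) rfl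
    · exact (e3.add e2).cast (by rw [← h.rel.add T, add_pow_char, add_mul]) rfl
  · refine Nil.mono (Nil.sup (ellK_mem _) (fin _ _ _ (h.hμ T 1) hb ?_)
      (fin _ _ _ (h.hμ T 1) hb ?_)) hle le_rfl
    · exact (e1.sub e4).cast (by rw [← h.rel.sub T, sub_pow_char, sub_mul]) rfl
    · exact (e3.sub e2).cast (by rw [← h.rel.sub T, sub_pow_char, sub_mul]) rfl

theorem nil_WP (h : FD p q φ r g μ op) (hE : ∀ j, Maps E E (op j) (wt j)) (P : Pt) {d : Ln}
    (hd : d ∈ plines P) :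
    Nil (WP p φ r g E P) (Fam.bsup (plines P) (WL p φ r g E)) (ellK k d) 4 := by
  rcases P with Q | T
  · have hle : ∀ a b : Ln, Wf p φ E (r (g (.u a))) (r (g (.u b))) 2 2 ≤
        ((W0 p φ E).adj (r (g (.u b))) 2).adj (r (g (.u a))) 2 := fun a b =>
      Wf_le (fun _ _ hv => Fam.le_adj _ _ _ _ (Fam.le_adj _ _ _ _ (Wf_phi E hv)))
        (h.uu _ a).adj_self ((h.uu _ b).adj_self.adj _ _)
    simp only [plines, Finset.mem_insert, Finset.mem_singleton] at hd
    rcases hd with rfl | rfl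
    · exact (h.nil_two hE _ _).mono (hle _ _) (Fam.le_bsup _ (by simp [plines]))
    · exact (h.nil_two hE _ _).mono ((hle _ _).trans (adj_comm_le _ _ _ _ _))
        (Fam.le_bsup _ (by simp [plines]))
  · have hs := cf_sum T
    have hX : ∀ a ∈ tlines T, WL p φ r g E a ≤ Fam.bsup (plines (.inr T)) (WL p φ r g E) :=
      fun a ha => Fam.le_bsup _ ha
    have ma : ta T ∈ tlines T := by simp [tlines]
    have mb : tb T ∈ tlines T := by simp [tlines]
    have mc : tc T ∈ tlines T := by simp [tlines]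
    have ha : Nil (WP p φ r g E (.inr T)) (Fam.bsup (plines (.inr T)) (WL p φ r g E))
        (ellK k (ta T)) 4 :=
      (h.nil_T T ((Fam.le_adj _ _ _).trans ((Fam.le_adj _ _ _).trans (Fam.le_adj _ _ _)))
        (fun j => (((h.pow_st hE j).adj _ _).adj _ _).adj _ _) (h.uu _ _).adj_self
        (((h.uu _ _).adj_self.adj _ _).adj _ _) ((h.uu _ _).adj_self.adj _ _)).1.trans
        (h.nil_three hE hs (tb_ne_tc T) (hX _ mb) (hX _ mc))
    have hb : Nil (WP p φ r g E (.inr T)) (Fam.bsup (plines (.inr T)) (WL p φ r g E))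
        (ellK k (tb T)) 4 :=
      (h.nil_T T ((Fam.le_adj _ _ _).trans ((Fam.le_adj _ _ _).trans (Fam.le_adj _ _ _)))
        (fun j => (((h.pow_st hE j).adj _ _).adj _ _).adj _ _)
        (((h.uu _ _).adj_self.adj _ _).adj _ _) (h.uu _ _).adj_self
        ((h.uu _ _).adj_self.adj _ _)).2.trans
        (h.nil_three hE (by omega) (ta_ne_tc T) (hX _ ma) (hX _ mc))
    simp only [plines, tlines, Finset.mem_insert, Finset.mem_singleton] at hd
    rcases hd with rfl | rfl | rfl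
    · exact ha
    · exact hb
    · obtain ⟨β, γ, e⟩ := ell_triple h.hk (a := tc T) (by omega) (ta_ne_tb T)
      rw [e]
      exact Nil.add (Submodule.smul_mem _ _ (ellK_mem _)) (Submodule.smul_mem _ _ (ellK_mem _))
        (ha.ksmul β) (hb.ksmul γ)

end FD

end Vale.Agent.P190
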