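import Vale.Agent.P190.FrobA

/-!
The saturated pullback: stability under the operators and the connection, and its moments.
-/

noncomputable section

namespace Vale.Agent.P190

open Module Finset Filter

variable {k : Type} [Field k]
variable {V : Type} [AddCommGroup V] [Module k V] [Module (Kf k) V] [IsScalarTower k (Kf k) V]
variable {C : Type} [CommRing C] [Algebra (Kf k) C]

/-- The sum of the pullbacks along lines. -/
def W2 (p : ℕ) (φ : V →+ V) (r : C →ₐ[Kf k] Module.End (Kf k) V) (g : Gen → C) (E : Fam k V) :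
    Fam k V := Fam.bsup univ (WL p φ r g E)

/-- The saturated pullback. -/
def WW (hk : BigChar k) (p : ℕ) (φ : V →+ V) (r : C →ₐ[Kf k] Module.End (Kf k) V) (g : Gen → C)
    (E : Fam k V) : Fam k V := (W2 p φ r g E).sat (cop_arr hk)

variable {p q : ℕ} {φ : V →+ V} {r : C →ₐ[Kf k] Module.End (Kf k) V} {g : Gen → C}
  {μ : Tr → Fin 3 → k} {op : Gen → Module.End (Kf k) V} {E : Fam k V}

omit [IsScalarTower k (Kf k) V] in
theorem WL_le_W2 (a : Ln) : WL p φ r g E a ≤ W2 p φ r g E := Fam.le_bsup _ (mem_univ a)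

omit [IsScalarTower k (Kf k) V] in
theorem W0_le_W2 : W0 p φ E ≤ W2 p φ r g E := (W0_le_WL (ta (0, 0))).trans (WL_le_W2 _)

theorem W2_le_WW (hk : BigChar k) : W2 p φ r g E ≤ WW hk p φ r g E := Fam.le_sat _ _

omit [IsScalarTower k (Kf k) V] in
theorem Nil.prod_of_mem {G H : Fam k V} {d : Ln} (h : Nil G H (ellK k d) 4) {s : Finset Ln}
    (hd : d ∈ s) : Nil G H (∏ i ∈ s, ellK k i) (4 * s.card) := by
  have := h.mul (prod_ellK_mem (s.erase d))
  rw [Finset.prod_erase_mul _ _ hd, Finset.card_erase_of_mem hd,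
    Nat.cast_sub (Finset.card_pos.2 ⟨d, hd⟩)] at this
  convert this using 1
  push_cast; ring

omit [IsScalarTower k (Kf k) V] in
theorem leib_pow {θ : V →ₗ[k] V} {a b : Kf k} (h : ∀ v, θ (a • v) = a • θ v + b • v) (N : ℕ)
    (v : V) : θ (a ^ (N + 1) • v) = a ^ (N + 1) • θ v + (((N : Kf k) + 1) * a ^ N * b) • v := by
  induction N with
  | zero => simpa using h v
  | succ N ih =>
    rw [pow_succ' a (N + 1), mul_smul, h, ih, smul_add, smul_smul, smul_smul, smul_smul, add_assoc,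
      ← add_smul]
    congr 2
    push_cast; ring

theorem conn_aux {K W : Type} [Field K] [AddCommGroup W] [Module K W] {a b c N : K} (hc : c ≠ 0)
    {x y z : W} (h : a • c • x + b • c • y = (a * c) • z + ((N + 1) * c * b) • y) :
    a • z = a • x - (N * b) • y := by
  refine smul_right_injective W hc ?_
  simp only
  linear_combination (norm := module) -h

omit [IsScalarTower k (Kf k) V] in
theorem conn_u {θ : V →ₗ[k] V} {a b : Kf k} (ha : a ≠ 0) (h : ∀ v, θ (a • v) = a • θ v + b • v)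
    {u : V →ₗ[Kf k] V} {N : ℕ} (hc : ∀ w, θ (a ^ N • u w) = a ^ N • u (θ w)) (v : V) :
    a • θ (u v) = u (a • θ v - ((N : Kf k) * b) • v) := by
  have e2 := leib_pow h N (u v)
  rw [pow_succ', mul_smul, h, hc] at e2
  rw [map_sub, map_smul, map_smul]
  exact conn_aux (pow_ne_zero N ha) e2

namespace FD

theorem nil_W2 (h : FD p q φ r g μ op) (hE : ∀ j, Maps E E (op j) (wt j)) (c : Ln) :
    Nil (W2 p φ r g E) (WL p φ r g E c) (piK k c) 120 := by
  refine Nil.bsup (piK_mem c) fun a _ => ?_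
  by_cases hac : a = c
  · subst hac; exact nil_of_le le_rfl _ _
  · exact ((h.nil_WL hE a).pi_of_ell hac).mono le_rfl (W0_le_WL c)

section

variable [Fact p.Prime] [CharP C p]

theorem WP_le_WW (h : FD p q φ r g μ op) (hE : ∀ j, Maps E E (op j) (wt j)) (P : Pt) :
    WP p φ r g E P ≤ WW h.hk p φ r g E :=
  le_sat_of_two h.hk (pa_ne_pb P)
    ((h.nil_WP hE P (pa_mem P)).mono le_rfl (Fam.bsup_le fun a _ => WL_le_W2 a))
    ((h.nil_WP hE P (pb_mem P)).mono le_rfl (Fam.bsup_le fun a _ => WL_le_W2 a))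

theorem WW_u (h : FD p q φ r g μ op) (hE : ∀ j, Maps E E (op j) (wt j)) (b : Ln) :
    St r (WW h.hk p φ r g E) (g (.u b)) 2 := by
  refine sat_stab _ (Maps.bsup (θ := (r (g (.u b))).toAddMonoidHom) fun a _ => ?_)
  by_cases hab : a = b
  · subst hab
    exact (Wf_fst E).mono le_rfl ((WL_le_W2 a).trans (W2_le_WW h.hk)) le_rfl
  · obtain ⟨P, ha, hb⟩ : ∃ P : Pt, a ∈ plines P ∧ b ∈ plines P := by
      rcases lt_or_gt_of_ne hab with h1 | h1
      · exact exists_double h1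
      · obtain ⟨P, h2, h3⟩ := exists_double h1
        exact ⟨P, h3, h2⟩
    exact Maps.mono (h.WP_u hb) (WL_le (W0_le_WP P) (h.WP_u ha)) (h.WP_le_WW hE P) le_rfl

theorem WW_of_W0 (h : FD p q φ r g μ op) (hE : ∀ j, Maps E E (op j) (wt j)) {x : C} {d : ℤ}
    (hx : Maps (W0 p φ E) (WW h.hk p φ r g E) (r x) d) : St r (WW h.hk p φ r g E) x d := by
  refine sat_stab _ (Maps.bsup (θ := (r x).toAddMonoidHom) fun a _ => ?_)
  refine Maps.mono (Maps.adj hx fun n v hv => ?_) (h.WL_le_adj a) le_rfl le_rfl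
  change r x (r (g (.u a)) v) ∈ _
  rw [r_comm, add_comm 2 d, ← add_assoc]
  exact h.WW_u hE a _ _ (hx n v hv)

theorem WW_st (h : FD p q φ r g μ op) (hE : ∀ j, Maps E E (op j) (wt j)) (j : Gen) :
    St r (WW h.hk p φ r g E) (g j) (wt j) := by
  rcases j with b | T | T
  · exact h.WW_u hE b
  · exact h.WW_of_W0 hE ((Wf_fst E).mono (W0_le_WP (.inr T)) (h.WP_le_WW hE (.inr T)) le_rfl)
  · exact h.WW_of_W0 hE ((Wf_snd E).mono (W0_le_WP (.inr T)) (h.WP_le_WW hE (.inr T)) le_rfl)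

end

variable [Fact p.Prime] [CharP k p] [PerfectRing k p]

theorem W0_conn (h : FD p q φ r g μ op) {θ : V →ₗ[k] V} (h0 : ∀ v, θ (φ v) = 0)
    (hA : ∀ m, ∀ a ∈ A k m, ∃ b ∈ A k m, ∀ v, θ (a • v) = a • θ v + b • v) :
    Maps (W0 p φ E) (W0 p φ E) θ 0 := by
  intro n w hw
  have hw' := hw
  rw [Wf_eq h.frob (chart0 h.frob) (maps_sc E yK_mem) (maps_sc E zK_mem)] at hw'
  obtain ⟨f, hf, rfl⟩ := hw'
  rw [Psi0_apply, map_sum]
  refine Submodule.sum_mem _ fun ij _ => ?_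
  obtain ⟨b, hb, e⟩ := hA _ _ (monomial_mem_A (i := ij.1.val) (j := ij.2.val) le_rfl)
  rw [e, h0, smul_zero, zero_add]
  refine Fam.smul_mem _ hb (Wf_phi E (hf ij)) ?_
  have := Int.mul_ediv_self_le (x := n - (4 : ℕ) * ij.1.val - (4 : ℕ) * ij.2.val)
    (show (p : ℤ) ≠ 0 by have := (Fact.out : p.Prime).pos; omega)
  push_cast at this ⊢
  linarith

omit [IsScalarTower k (Kf k) V] [Fact p.Prime] [CharP k p] [PerfectRing k p] in
theorem conn_comm (h : FD p q φ r g μ op) {θ : V →ₗ[k] V} (h0 : ∀ v, θ (φ v) = 0)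
    (hA : ∀ m, ∀ a ∈ A k m, ∃ b ∈ A k m, ∀ v, θ (a • v) = a • θ v + b • v) (j : Gen) (w : V) :
    θ (r (g j ^ p) w) = r (g j ^ p) (θ w) := by
  obtain ⟨f, rfl⟩ := h.frob.bij0.2 w
  rw [Psi0_apply, map_sum, map_sum, map_sum, map_sum]
  refine Finset.sum_congr rfl fun ij _ => ?_
  obtain ⟨b, -, e⟩ := hA _ _ (monomial_mem_A (i := ij.1.val) (j := ij.2.val) le_rfl)
  rw [map_smul, h.pow, e, e, h0, h0, smul_zero, zero_add, zero_add, map_smul, h.pow]

omit [Module k V] [IsScalarTower k (Kf k) V] [Fact p.Prime] [CharP k p] [PerfectRing k p] in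
theorem u_pow (h : FD p q φ r g μ op) (a : Ln) (w : V) :
    r (g (.u a) ^ p) w = ellK k a ^ q • r (g (.u a)) w := by
  rw [← r_sc r, ← Module.End.mul_apply, ← map_mul, map_pow (algebraMap (Kf k) C), ← h.rel.uu a,
    h.odd]
  congr 2; ring

theorem WW_conn (h : FD p q φ r g μ op) {θ : V →ₗ[k] V} (h0 : ∀ v, θ (φ v) = 0)
    (hA : ∀ m, ∀ a ∈ A k m, ∃ b ∈ A k m, ∀ v, θ (a • v) = a • θ v + b • v) :
    Maps (WW h.hk p φ r g E) (WW h.hk p φ r g E) (fun v => Lam k • θ v) 124 := by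
  have hL := (cop_arr h.hk).fmem
  have hW0 := h.W0_conn (E := E) h0 hA
  refine sat_stab_leibniz _ (Maps.bsup (θ := (DistribSMul.toAddMonoidHom V (Lam k)).comp
    θ.toAddMonoidHom) fun a _ => ?_) fun m c hc => ?_
  · refine Maps.mono (Maps.adj (H := (W0 p φ E).adj (r (g (.u a))) 2) (fun n v hv => ?_)
      fun n v hv => ?_) (h.WL_le_adj a) ((adj_le_WL a).trans (WL_le_W2 a)) le_rfl
    · exact Fam.le_adj _ _ _ _ (Fam.smul_mem _ hL (hW0 n v hv) (by omega))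
    · obtain ⟨b, hb, e⟩ := hA _ _ (ellK_mem a)
      have e4 := conn_u (ellK_ne_zero a) e (u := r (g (.u a))) (N := q)
        (fun w => by rw [← h.u_pow, ← h.u_pow, h.conn_comm h0 hA]) v
      change Lam k • θ (r (g (.u a)) v) ∈ _
      rw [Lam_eq a, mul_comm, mul_smul, e4]
      refine Fam.smul_mem _ (piK_mem a) (Fam.maps_adj _ _ _ (n + 4) _ (sub_mem ?_ ?_)) (by omega)
      · exact Fam.smul_mem _ (ellK_mem a) (hW0 n v hv) (by omega)
      · exact Fam.smul_mem _ (A_mul (A_natCast q le_rfl) hb) hv (by omega)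
  · obtain ⟨b, hb, e⟩ := hA m c hc
    refine ⟨Lam k * b, A_mul' hL hb (by omega), fun v => ?_⟩
    rw [e, smul_add, smul_comm, mul_smul]

variable [FiniteDimensional (Kf k) V]

theorem W0_bdd (h : FD p q φ r g μ op) (hb : E.Bdd) : (W0 p φ E).Bdd :=
  Wf_bdd h.frob (chart0 h.frob) hb (maps_sc E yK_mem) (maps_sc E zK_mem)

theorem WL_bdd (h : FD p q φ r g μ op) (hb : E.Bdd) (hE : ∀ j, Maps E E (op j) (wt j)) (a : Ln) :
    (WL p φ r g E a).Bdd :=
  Wf_bdd h.frob (h.chartL a) hb (hE (.u a)) (maps_sc E zK_mem)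

theorem WP_bdd (h : FD p q φ r g μ op) (hb : E.Bdd) (hE : ∀ j, Maps E E (op j) (wt j)) (P : Pt) :
    (WP p φ r g E P).Bdd := by
  rcases P with Q | T
  · exact Wf_bdd h.frob (h.chartD Q.2.1.ne) hb (hE (.u _)) (hE (.u _))
  · exact Wf_bdd h.frob (h.chartT T) hb (hE (.s T)) (hE (.t T))

theorem W2_bdd (h : FD p q φ r g μ op) (hb : E.Bdd) (hE : ∀ j, Maps E E (op j) (wt j)) :
    (W2 p φ r g E).Bdd := Fam.Bdd.bsup fun a _ => h.WL_bdd hb hE a

theorem WW_bdd (h : FD p q φ r g μ op) (hb : E.Bdd) (hE : ∀ j, Maps E E (op j) (wt j)) :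
    (WW h.hk p φ r g E).Bdd := (h.W2_bdd hb hE).sat _

theorem W0_mom (h : FD p q φ r g μ op) (hb : E.Bdd) :
    (W0 p φ E).m 0 = E.m 0 ∧ (W0 p φ E).m 1 = p * E.m 1 ∧ (W0 p φ E).m 2 = p ^ 2 * E.m 2 :=
  frob_44 hb.good (h.W0_bdd hb).good (Fact.out : p.Prime).pos
    (Wf_h h.frob (chart0 h.frob) hb (maps_sc E yK_mem) (maps_sc E zK_mem))

theorem WL_mom (h : FD p q φ r g μ op) (hb : E.Bdd) (hE : ∀ j, Maps E E (op j) (wt j)) (a : Ln) :
    (WL p φ r g E a).m 0 = E.m 0 ∧ (WL p φ r g E a).m 1 = p * E.m 1 - (p - 1) * E.m 0 ∧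
      (WL p φ r g E a).m 2 = p ^ 2 * E.m 2 - 2 * p * (p - 1) * E.m 1 - 2 * (p - 1) * E.m 0 :=
  frob_24 hb.good (h.WL_bdd hb hE a).good (Fact.out : p.Prime).pos
    (Wf_h h.frob (h.chartL a) hb (hE (.u a)) (maps_sc E zK_mem))

theorem WD_mom (h : FD p q φ r g μ op) (hb : E.Bdd) (hE : ∀ j, Maps E E (op j) (wt j)) (Q : Db) :
    (WP p φ r g E (.inl Q)).m 0 = E.m 0 ∧
      (WP p φ r g E (.inl Q)).m 1 = p * E.m 1 - 2 * (p - 1) * E.m 0 ∧
      (WP p φ r g E (.inl Q)).m 2 = p ^ 2 * E.m 2 - 4 * p * (p - 1) * E.m 1 +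
        (2 * p ^ 2 - 8 * p + 6) * E.m 0 :=
  frob_22 hb.good (h.WP_bdd hb hE (.inl Q)).good (Fact.out : p.Prime).pos
    (Wf_h h.frob (h.chartD Q.2.1.ne) hb (hE (.u _)) (hE (.u _)))

theorem WT_mom (h : FD p q φ r g μ op) (hb : E.Bdd) (hE : ∀ j, Maps E E (op j) (wt j)) (T : Tr) :
    (WP p φ r g E (.inr T)).m 0 = E.m 0 ∧
      (WP p φ r g E (.inr T)).m 1 = p * E.m 1 - 3 * (p - 1) * E.m 0 ∧
      2 * (WP p φ r g E (.inr T)).m 2 = 2 * p ^ 2 * E.m 2 - 12 * p * (p - 1) * E.m 1 +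
        (13 * p ^ 2 - 36 * p + 23) * E.m 0 :=
  frob_11 hb.good (h.WP_bdd hb hE (.inr T)).good (Fact.out : p.Prime).pos
    (Wf_h h.frob (h.chartT T) hb (hE (.s T)) (hE (.t T)))

/-- The comparison function built from the lines in `s`. -/
theorem mom_lines (h : FD p q φ r g μ op) (hb : E.Bdd) (hE : ∀ j, Maps E E (op j) (wt j))
    (s : Finset Ln) :
    Good (fun n => (W0 p φ E).h n + ∑ a ∈ s, ((WL p φ r g E a).h n - (W0 p φ E).h n)) ∧
    mom 0 (fun n => (W0 p φ E).h n + ∑ a ∈ s, ((WL p φ r g E a).h n - (W0 p φ E).h n)) = E.m 0 ∧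
    mom 1 (fun n => (W0 p φ E).h n + ∑ a ∈ s, ((WL p φ r g E a).h n - (W0 p φ E).h n)) =
      p * E.m 1 - s.card * ((p - 1) * E.m 0) ∧
    mom 2 (fun n => (W0 p φ E).h n + ∑ a ∈ s, ((WL p φ r g E a).h n - (W0 p φ E).h n)) =
      p ^ 2 * E.m 2 - s.card * (2 * p * (p - 1) * E.m 1 + 2 * (p - 1) * E.m 0) := by
  have g0 := (h.W0_bdd hb).good
  have g1 := fun a => (h.WL_bdd hb hE a).good
  have g2 : ∀ a ∈ s, Good fun n => (WL p φ r g E a).h n - (W0 p φ E).h n :=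
    fun a _ => (g1 a).sub g0
  have e : ∀ j, mom j (fun n => (W0 p φ E).h n +
      ∑ a ∈ s, ((WL p φ r g E a).h n - (W0 p φ E).h n)) =
      (W0 p φ E).m j + ∑ a ∈ s, ((WL p φ r g E a).m j - (W0 p φ E).m j) := by
    intro j
    rw [mom_add j g0 (Good.sum s g2), mom_sum j s g2]
    congr 1
    exact Finset.sum_congr rfl fun a _ => mom_sub j (g1 a) g0
  obtain ⟨a0, a1, a2⟩ := h.W0_mom hb
  refine ⟨g0.add (Good.sum s g2), ?_, ?_, ?_⟩
  · simp only [e, a0, (h.WL_mom hb hE _).1]; simp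
  · simp only [e, a1, (h.WL_mom hb hE _).2.1, Finset.sum_const, nsmul_eq_mul]; ring
  · simp only [e, a2, (h.WL_mom hb hE _).2.2, Finset.sum_const, nsmul_eq_mul]; ring

theorem deg_bound (h : FD p q φ r g μ op) (hb : E.Bdd) (hf : E.Full)
    (hE : ∀ j, Maps E E (op j) (wt j)) {U U' : Submodule (Kf k) V} (hU : Stab op U)
    (h1 : ∀ v ∈ U, φ v ∈ U')
    (h2 : ∀ f, Psi p φ (sc (yK k)) (sc (zK k)) f ∈ U' → ∀ ij, f ij ∈ U) :
    finrank (Kf k) U' = finrank (Kf k) U ∧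
      p * E.deg U - 31 * ((p - 1) * (finrank (Kf k) U : ℤ)) ≤ (WW h.hk p φ r g E).deg U' := by
  have hbU := hb.inf U
  have hEU : ∀ j, Maps (E.inf U) (E.inf U) (op j) (wt j) :=
    fun j n v hv => ⟨hE j n v hv.1, hU j v hv.2⟩
  have hWb := (h.WW_bdd hb hE).inf U'
  have hWf : (WW h.hk p φ r g E).Full :=
    (W0_full h.frob hf).mono (W0_le_W2.trans (W2_le_WW h.hk))
  have hle : (WW h.hk p φ r g E).inf U' ≤ WW h.hk p φ r g (E.inf U) := by
    rw [WW, Fam.sat_inf]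
    refine le_trans (Fam.sat_mono ?_ _) ((Fam.sat_closed _ _).sat_le _)
    refine le_sat_of_nil_pi h.hk fun c => ((h.nil_W2 hE c).inf U').mono le_rfl ?_
    exact le_trans (Wf_inf h.frob (h.chartL c) (hE (.u c)) (maps_sc E zK_mem) (hU (.u c))
      (fun v hv => U.smul_mem _ hv) h2) (WL_le_W2 c)
  have hle0 : W0 p φ (E.inf U) ≤ (WW h.hk p φ r g E).inf U' :=
    W0_le fun m v hv => ⟨W2_le_WW h.hk _ (W0_le_W2 _ (Wf_phi E hv.1)), h1 v hv.2⟩
  obtain ⟨g0, a0, a1, -⟩ := h.mom_lines hbU hEU univ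
  have hh := Eventually.of_forall (f := atTop)
    (h_bsup_le univ (h.W0_bdd hbU) (h.WL_bdd hbU hEU) W0_le_WL)
  have b0 := Fam.m0_inf hb hf U
  have b1 := Fam.m0_inf (h.WW_bdd hb hE) hWf U'
  have b2 := Fam.m0_le_of_le hWb hle0
  have b3 := Fam.m0_le_of_le (h.WW_bdd hbU hEU) hle
  have b4 : (WW h.hk p φ r g (E.inf U)).m 0 = (W2 p φ r g (E.inf U)).m 0 :=
    Fam.m0_sat (h.W2_bdd hbU hEU) _
  have b5 : (WW h.hk p φ r g (E.inf U)).m 1 = (W2 p φ r g (E.inf U)).m 1 :=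
    Fam.m1_sat (h.W2_bdd hbU hEU) _
  have b6 : (W2 p φ r g (E.inf U)).m 0 ≤ _ := mom0_le (h.W2_bdd hbU hEU).good g0 hh
  have b7 := (h.W0_mom hbU).1
  have b8 : _ ≤ (W2 p φ r g (E.inf U)).m 1 := mom1_le (h.W2_bdd hbU hEU).good g0 hh
    (by change (W2 p φ r g (E.inf U)).m 0 = _; omega)
  have b9 := Fam.m1_le_of_le (h.WW_bdd hbU hEU) hle (by omega)
  refine ⟨by omega, ?_⟩
  rw [a1, b0, Finset.card_univ, card_Ln] at b8
  unfold Fam.deg
  push_cast at b8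
  linarith

end FD

end Vale.Agent.P190
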