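import Vale.Agent.P190.Defs

/-!
Leading monomials: bounded families are finitely generated, have good Hilbert functions, and the
Hilbert function can only grow under reduction along a filter.
-/

noncomputable section

namespace Vale.Agent.P190

open Module Filter

variable {k : Type} [Field k]
variable {V : Type} [AddCommGroup V] [Module k V] [Module (Kf k) V] [IsScalarTower k (Kf k) V]

/-- Exponent vectors. -/
abbrev Mon := Fin 2 →₀ ℕ

/-- Total degree of an exponent vector. -/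
def lmDeg (m : Mon) : ℤ := (m 0 : ℤ) + (m 1 : ℤ)

theorem lm_ext {m m' : Mon} (h0 : m 0 = m' 0) (h1 : m 1 = m' 1) : m = m' := by
  ext i
  fin_cases i
  · exact h0
  · exact h1

theorem lm_le {m m' : Mon} : m ≤ m' ↔ m 0 ≤ m' 0 ∧ m 1 ≤ m' 1 := by
  rw [Finsupp.le_def, Fin.forall_fin_two]

theorem lm_card_tri (t : ℕ) :
    2 * ((Finset.range (t + 1)).sigma fun j => Finset.HasAntidiagonal.antidiagonal j).card = (t + 1) * (t + 2) := by
  rw [Finset.card_sigma]
  simp only [Finset.Nat.card_antidiagonal]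
  induction t with
  | zero => simp
  | succ t ih => rw [Finset.sum_range_succ, mul_add, ih]; ring

theorem lm_count (n : ℤ) : {m : Mon | 4 * lmDeg m ≤ n}.Finite ∧
    (({m : Mon | 4 * lmDeg m ≤ n}.ncard : ℕ) : ℤ) = aa n := by
  by_cases hn : n < 0
  · have : {m : Mon | 4 * lmDeg m ≤ n} = ∅ := by
      ext m
      simp only [Set.mem_ofPred_eq, Set.mem_empty_iff_false, iff_false, lmDeg]
      omega
    rw [this, aa_neg hn]
    simp
  · obtain ⟨t, ht⟩ : ∃ t : ℕ, n / 4 = t := ⟨(n / 4).toNat, by omega⟩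
    let ψ : Mon → (Σ _ : ℕ, ℕ × ℕ) := fun m => ⟨m 0 + m 1, (m 0, m 1)⟩
    have hψ : Function.Injective ψ := by
      intro m m' h
      have h1 : (ψ m).2 = (ψ m').2 := by rw [h]
      exact lm_ext (congrArg Prod.fst h1) (congrArg Prod.snd h1)
    have him : ψ '' {m : Mon | 4 * lmDeg m ≤ n} =
        ↑((Finset.range (t + 1)).sigma fun j => Finset.HasAntidiagonal.antidiagonal j) := by
      ext ⟨j, a, b⟩
      simp only [Set.mem_image, Set.mem_ofPred_eq, Finset.mem_coe, Finset.mem_sigma,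
        Finset.mem_range, Finset.HasAntidiagonal.mem_antidiagonal, lmDeg]
      constructor
      · rintro ⟨m, hm, h⟩
        have h1 : m 0 + m 1 = j := congrArg Sigma.fst h
        have h2 : (ψ m).2 = (a, b) := by rw [h]
        have h3 : m 0 = a := congrArg Prod.fst h2
        have h4 : m 1 = b := congrArg Prod.snd h2
        omega
      · rintro ⟨h1, rfl⟩
        refine ⟨Finsupp.single 0 a + Finsupp.single 1 b, ?_, ?_⟩
        · simp; omega
        · simp [ψ]
    refine ⟨Set.Finite.of_finite_image (him ▸ Finset.finite_toSet _) hψ.injOn, ?_⟩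
    rw [← Set.ncard_image_of_injective _ hψ, him, Set.ncard_coe_finset]
    have h1 := lm_card_tri t
    have h2 := two_aa (n := n) (by omega)
    rw [ht] at h2
    have h3 : (2 : ℤ) * ((Finset.range (t + 1)).sigma fun j => Finset.HasAntidiagonal.antidiagonal j).card =
        (t + 1) * (t + 2) := by exact_mod_cast h1
    linarith

instance finite_A (n : ℤ) : Module.Finite k (A k n) := by
  have : Finite {m : Mon | 4 * ((m 0 : ℤ) + (m 1 : ℤ)) ≤ n} := (lm_count n).1
  have : Module.Finite k (Adeg k n) :=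
    Module.Finite.of_basis (MvPolynomial.basisRestrictSupport k _)
  exact Module.Finite.map _ _

theorem finrank_A (n : ℤ) : (finrank k (A k n) : ℤ) = aa n := by
  have h1 : finrank k (Adeg k n) = finrank k (A k n) :=
    (Submodule.equivMapOfInjective (toK k).toLinearMap toK_injective (Adeg k n)).finrank_eq
  have h2 : finrank k (Adeg k n) = Nat.card {m : Mon | 4 * lmDeg m ≤ n} :=
    finrank_eq_nat_card_basis (MvPolynomial.basisRestrictSupport k _)
  rw [← h1, h2, Nat.card_coe_set_eq]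
  exact (lm_count n).2

theorem Fam.Bdd.finite {G : Fam k V} (hb : G.Bdd) (n : ℤ) : Module.Finite k (G n) := by
  obtain ⟨N, v, d, h⟩ := hb
  have h1 : ((Fam.free k d) n).FG :=
    Submodule.fg_pi fun j => Module.Finite.iff_fg.1 (finite_A (n - d j))
  have h2 : Module.Finite k ((Fam.gen v d : Fam k V) n) := Module.Finite.iff_fg.2 (h1.map _)
  exact Submodule.finiteDimensional_of_le (h n)

/-! ### Cones -/

section Cone

variable {σ : Type}

/-- The indices in degree `n` of the cone with vertex `t`. -/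
def lmCone (t : ℤ × σ × Mon) (n : ℤ) : Set (σ × Mon) :=
  {q | q.1 = t.2.1 ∧ t.2.2 ≤ q.2 ∧ t.1 + 4 * (lmDeg q.2 - lmDeg t.2.2) ≤ n}

theorem lmCone_eq (t : ℤ × σ × Mon) (n : ℤ) :
    lmCone t n = (fun m => (t.2.1, t.2.2 + m)) '' {m : Mon | 4 * lmDeg m ≤ n - t.1} := by
  ext ⟨s, m⟩
  simp only [lmCone, Set.mem_ofPred_eq, Set.mem_image, Prod.mk.injEq]
  constructor
  · rintro ⟨h1, h2, h3⟩
    obtain ⟨c, rfl⟩ := exists_add_of_le h2
    refine ⟨c, ?_, h1.symm, rfl⟩
    simp only [lmDeg, Finsupp.add_apply] at *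
    omega
  · rintro ⟨c, hc, rfl, rfl⟩
    refine ⟨rfl, le_self_add, ?_⟩
    simp only [lmDeg, Finsupp.add_apply] at *
    omega

theorem lmCone_count (t : ℤ × σ × Mon) (n : ℤ) :
    (lmCone t n).Finite ∧ (((lmCone t n).ncard : ℕ) : ℤ) = aa (n - t.1) := by
  rw [lmCone_eq, Set.ncard_image_of_injective]
  · exact ⟨(lm_count _).1.image _, (lm_count _).2⟩
  · intro m m' h
    exact add_left_cancel (congrArg Prod.snd h)

/-- A cone or the empty family. -/
def LmIsCone (C : ℤ → Set (σ × Mon)) : Prop := C = (fun _ => ∅) ∨ ∃ t, C = lmCone t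

theorem LmIsCone.inter {C C' : ℤ → Set (σ × Mon)} (h : LmIsCone C) (h' : LmIsCone C') :
    LmIsCone fun n => C n ∩ C' n := by
  rcases h with rfl | ⟨⟨d, s, m⟩, rfl⟩
  · left; simp
  rcases h' with rfl | ⟨⟨d', s', m'⟩, rfl⟩
  · left; simp
  by_cases hs : s = s'
  · subst hs
    right
    refine ⟨(max (d + 4 * (lmDeg (m ⊔ m') - lmDeg m)) (d' + 4 * (lmDeg (m ⊔ m') - lmDeg m')),
      s, m ⊔ m'), ?_⟩
    ext n q
    simp only [lmCone, Set.mem_inter_iff, Set.mem_ofPred_eq, sup_le_iff]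
    constructor
    · rintro ⟨⟨h1, h2, h3⟩, -, h4, h5⟩
      exact ⟨h1, ⟨h2, h4⟩, by omega⟩
    · rintro ⟨h1, ⟨h2, h4⟩, h3⟩
      exact ⟨⟨h1, h2, by omega⟩, h1, h4, by omega⟩
  · left
    ext n q
    simp only [lmCone, Set.mem_inter_iff, Set.mem_ofPred_eq, Set.mem_empty_iff_false, iff_false]
    rintro ⟨⟨h1, -⟩, h2, -⟩
    exact hs (h1.symm.trans h2)

theorem LmIsCone.good {C : ℤ → Set (σ × Mon)} (h : LmIsCone C) :
    (∀ n, (C n).Finite) ∧ Good fun n => (((C n).ncard : ℕ) : ℤ) := by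
  rcases h with rfl | ⟨t, rfl⟩
  · simpa using Good.zero
  · refine ⟨fun n => (lmCone_count t n).1, ?_⟩
    simp only [(lmCone_count t _).2]
    exact good_aa.shift _

theorem lm_good_union {α : Type} (T : Finset α) : ∀ C : α → ℤ → Set (σ × Mon),
    (∀ a, LmIsCone (C a)) →
      (∀ n, (⋃ a ∈ T, C a n).Finite) ∧ Good fun n => (((⋃ a ∈ T, C a n).ncard : ℕ) : ℤ) := by
  classical
  induction T using Finset.induction_on with
  | empty => intro C _; simpa using Good.zero
  | insert a T _ ih =>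
    intro C hC
    obtain ⟨f1, g1⟩ := (hC a).good
    obtain ⟨f2, g2⟩ := ih C hC
    obtain ⟨-, g3⟩ := ih (fun b n => C a n ∩ C b n) fun b => (hC a).inter (hC b)
    simp only [Finset.set_biUnion_insert]
    refine ⟨fun n => (f1 n).union (f2 n), ?_⟩
    convert (g1.add g2).sub g3 using 2 with n
    have := Set.ncard_union_add_ncard_inter (C a n) (⋃ b ∈ T, C b n) (f1 n) (f2 n)
    rw [Set.inter_iUnion₂] at this
    omega

end Cone

/-! ### Leading indices -/

section Lead

variable {σ : Type} [Fintype σ]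

/-- The sorting key of an index. -/
def lmKey (p : σ × Mon) : ℕ ×ₗ ℕ ×ₗ ℕ :=
  toLex ((Fintype.equivFin σ p.1 : ℕ), toLex (p.2 0, p.2 1))

theorem lmKey_inj : Function.Injective (lmKey (σ := σ)) := by
  rintro ⟨s, m⟩ ⟨s', m'⟩ h
  simp only [lmKey, toLex_inj, Prod.mk.injEq] at h
  exact Prod.ext ((Fintype.equivFin σ).injective (Fin.ext h.1)) (lm_ext h.2.1 h.2.2)

theorem lmKey_add {s s' : σ} {a a' : Mon} (m : Mon) (h : lmKey (s, a) ≤ lmKey (s', a')) :
    lmKey (s, a + m) ≤ lmKey (s', a' + m) := by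
  simp only [lmKey, Prod.Lex.toLex_le_toLex, Finsupp.add_apply] at *
  omega

/-- `p` is the leading index of `w`. -/
def LmLead {R : Type} [CommRing R] (w : σ → Bp R) (p : σ × Mon) : Prop :=
  (w p.1).coeff p.2 ≠ 0 ∧ ∀ q : σ × Mon, (w q.1).coeff q.2 ≠ 0 → lmKey q ≤ lmKey p

theorem lm_exists_lead {w : σ → Bp k} (hw : w ≠ 0) : ∃ p, LmLead w p := by
  classical
  let S : Finset (σ × Mon) := Finset.univ.biUnion fun s => (w s).support.image fun m => (s, m)
  have hS : ∀ q : σ × Mon, q ∈ S ↔ (w q.1).coeff q.2 ≠ 0 := by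
    rintro ⟨s, m⟩
    simp [S]
  have hne : S.Nonempty := by
    obtain ⟨s, hs⟩ := Function.ne_iff.1 hw
    obtain ⟨m, hm⟩ := MvPolynomial.ne_zero_iff.1 hs
    exact ⟨(s, m), (hS _).2 hm⟩
  obtain ⟨p, hp, h⟩ := S.exists_max_image lmKey hne
  exact ⟨p, (hS p).1 hp, fun q hq => h q ((hS q).2 hq)⟩

theorem LmLead.mul {w : σ → Bp k} {p : σ × Mon} (h : LmLead w p) (m : Mon) :
    LmLead ((MvPolynomial.monomial m (1 : k) : Bp k) • w) (p.1, p.2 + m) := by
  classical
  constructor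
  · simp only [Pi.smul_apply, smul_eq_mul]
    rw [add_comm, MvPolynomial.coeff_monomial_mul, one_mul]
    exact h.1
  · rintro ⟨s, a⟩ hq
    simp only [Pi.smul_apply, smul_eq_mul] at hq
    rw [MvPolynomial.coeff_monomial_mul'] at hq
    split_ifs at hq with hle
    · rw [one_mul] at hq
      have := lmKey_add m (h.2 (s, a - m) hq)
      rwa [tsub_add_cancel_of_le hle] at this
    · exact absurd rfl hq

omit [Module (Kf k) V] [IsScalarTower k (Kf k) V] in
theorem lm_lower (θ : (σ → Bp k) →ₗ[k] V) (hθ : Function.Injective θ) (W : Submodule k V)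
    [Module.Finite k W] (L : Set (σ × Mon)) (hL : ∀ p ∈ L, ∃ w, θ w ∈ W ∧ LmLead w p) :
    L.Finite ∧ L.ncard ≤ finrank k W := by
  classical
  choose w hw hl using hL
  have hli : LinearIndependent k fun p : L => (⟨θ (w p p.2), hw p p.2⟩ : W) := by
    rw [linearIndependent_iff']
    intro s g hsum
    by_contra hne
    push Not at hne
    obtain ⟨p, hp, hmax⟩ := (s.filter fun p => g p ≠ 0).exists_max_image (fun p => lmKey p.1)
      (by obtain ⟨i, hi, hg⟩ := hne; exact ⟨i, Finset.mem_filter.2 ⟨hi, hg⟩⟩)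
    obtain ⟨hps, hgp⟩ := Finset.mem_filter.1 hp
    have h1 : ∑ i ∈ s, g i • w i i.2 = 0 := by
      apply hθ
      have := congrArg Subtype.val hsum
      simpa using this
    have h2 := congrArg (fun u : σ → Bp k => (u p.1.1).coeff p.1.2) h1
    simp only [Finset.sum_apply, Pi.smul_apply, MvPolynomial.coeff_sum, MvPolynomial.coeff_smul,
      Pi.zero_apply, MvPolynomial.coeff_zero, smul_eq_mul] at h2
    rw [Finset.sum_eq_single p] at h2
    · exact mul_ne_zero hgp (hl p p.2).1 h2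
    · intro q hq hqp
      by_contra hne'
      obtain ⟨h3, h4⟩ := mul_ne_zero_iff.1 hne'
      exact hqp (Subtype.ext (lmKey_inj (le_antisymm
        (hmax q (Finset.mem_filter.2 ⟨hq, h3⟩)) ((hl q q.2).2 _ h4))))
    · intro h; exact absurd hps h
  have hfin : Finite L := hli.finite
  have := Fintype.ofFinite L
  refine ⟨Set.toFinite L, ?_⟩
  rw [← Nat.card_coe_set_eq, Nat.card_eq_fintype_card]
  exact hli.fintype_card_le_finrank

omit [Module (Kf k) V] [IsScalarTower k (Kf k) V] in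
theorem lm_upper (θ : (σ → Bp k) →ₗ[k] V) (W : Submodule k V) (hW : ∀ v ∈ W, ∃ w, θ w = v)
    (L : Set (σ × Mon)) (hfin : L.Finite) (hL : ∀ w p, θ w ∈ W → LmLead w p → p ∈ L) :
    finrank k W ≤ L.ncard := by
  classical
  have := hfin.fintype
  let φ : W.comap θ →ₗ[k] (L → k) :=
    LinearMap.pi fun p => (MvPolynomial.lcoeff k p.1.2) ∘ₗ (LinearMap.proj p.1.1) ∘ₗ
      (W.comap θ).subtype
  have hφ : Function.Injective φ := by
    rw [injective_iff_map_eq_zero]
    intro w hw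
    by_contra hne
    obtain ⟨p, hp⟩ := lm_exists_lead (w := w.1) fun h => hne (Subtype.ext h)
    exact hp.1 (congrFun hw ⟨p, hL _ p w.2 hp⟩)
  have hf : Module.Finite k (W.comap θ) := Module.Finite.of_injective φ hφ
  have h1 : W = (W.comap θ).map θ :=
    (Submodule.map_comap_eq_of_le fun v hv => hW v hv).symm
  calc finrank k W = finrank k ((W.comap θ).map θ) := by rw [← h1]
    _ ≤ finrank k (W.comap θ) := Submodule.finrank_map_le _ _
    _ ≤ finrank k (L → k) := LinearMap.finrank_le_finrank_of_injective hφ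
    _ = L.ncard := by
      rw [finrank_fintype_fun_eq_card, ← Nat.card_coe_set_eq, Nat.card_eq_fintype_card]

theorem lm_dickson {α β : Type} {r : β → β → Prop} (hr : WellQuasiOrdered r) (φ : α → β)
    (S : Set α) : ∃ T : Finset α, (∀ t ∈ T, t ∈ S) ∧ ∀ x ∈ S, ∃ t ∈ T, r (φ t) (φ x) := by
  by_contra h
  push Not at h
  obtain ⟨f, -, hf⟩ := exists_seq_of_forall_finset_exists (fun x => x ∈ S)
    (fun x y => ¬ r (φ x) (φ y)) h
  obtain ⟨m, n, hmn, h1⟩ := hr (φ ∘ f)
  exact hf m n hmn h1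

omit [IsScalarTower k (Kf k) V] in
/-- Lower bound from vectors with known leading indices. -/
theorem lm_lower_cones (G : Fam k V) (θ : (σ → Bp k) →ₗ[k] V) (hθ : Function.Injective θ)
    (hs : ∀ (c : Bp k) w, θ (c • w) = toK k c • θ w) (T : Finset (ℤ × σ × Mon))
    (hT : ∀ t ∈ T, ∃ w, θ w ∈ G t.1 ∧ LmLead w t.2) (n : ℤ) [Module.Finite k (G n)] :
    (⋃ t ∈ T, lmCone t n).ncard ≤ finrank k (G n) := by
  refine (lm_lower θ hθ (G n) _ fun p hp => ?_).2
  simp only [Set.mem_iUnion] at hp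
  obtain ⟨t, ht, hp⟩ := hp
  rw [lmCone_eq] at hp
  obtain ⟨m, hm, rfl⟩ := hp
  obtain ⟨w, hw, hl⟩ := hT t ht
  refine ⟨_, ?_, hl.mul m⟩
  rw [hs]
  exact G.smul_mem (toK_mem_A.2 (Adeg_monomial m 1 hm)) hw (by omega)

omit [IsScalarTower k (Kf k) V] in
/-- Finitely many cones contain all leading indices. -/
theorem lm_structure (G : Fam k V) (θ : (σ → Bp k) →ₗ[k] V) (hθ : Function.Injective θ) (b : ℤ)
    (hb : ∀ n, ∀ v ∈ G n, ∃ w : σ → Bp k, (∀ s, w s ∈ Adeg k (n - b)) ∧ θ w = v) :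
    ∃ T : Finset (ℤ × σ × Mon), (∀ t ∈ T, ∃ w, θ w ∈ G t.1 ∧ LmLead w t.2) ∧
      ∀ n, finrank k (G n) ≤ (⋃ t ∈ T, lmCone t n).ncard := by
  have hr := (wellQuasiOrdered_le (α := ℕ × ℕ × ℕ)).prod (Finite.wellQuasiOrdered (α := σ) Eq)
  obtain ⟨T, hT, hT'⟩ := lm_dickson hr
    (fun t : ℤ × σ × Mon => (((t.1 - b - 4 * lmDeg t.2.2).toNat, t.2.2 0, t.2.2 1), t.2.1))
    {t | ∃ w, θ w ∈ G t.1 ∧ LmLead w t.2}
  have hdeg : ∀ n w p, θ w ∈ G n → LmLead w p → 4 * lmDeg p.2 ≤ n - b := by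
    intro n w p hw hl
    obtain ⟨w', hw', e⟩ := hb n _ hw
    rw [hθ e] at hw'
    exact mem_Adeg.1 (hw' p.1) p.2 (MvPolynomial.mem_support_iff.2 hl.1)
  refine ⟨T, hT, fun n => ?_⟩
  refine lm_upper θ (G n) (fun v hv => ?_) _
    ((lm_good_union T lmCone fun t => Or.inr ⟨t, rfl⟩).1 n) fun w p hw hl => ?_
  · obtain ⟨w, -, e⟩ := hb n v hv
    exact ⟨w, e⟩
  · obtain ⟨t, ht, ⟨h1, h2, h3⟩, h4⟩ := hT' (n, p) ⟨w, hw, hl⟩
    obtain ⟨w', hw', hl'⟩ := hT t ht
    have h5 := hdeg _ _ _ hw hl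
    have h6 := hdeg _ _ _ hw' hl'
    simp only [Set.mem_iUnion]
    refine ⟨t, ht, h4.symm, lm_le.2 ⟨h2, h3⟩, ?_⟩
    simp only at h1
    omega

end Lead

/-- Coordinates with polynomial entries for a bounded family. -/
theorem lm_chart [FiniteDimensional (Kf k) V] {G : Fam k V} (hb : G.Bdd) :
    ∃ (θ : (Fin (finrank (Kf k) V) → Bp k) →ₗ[k] V) (b : ℤ), Function.Injective θ ∧
      (∀ (c : Bp k) w, θ (c • w) = toK k c • θ w) ∧
      ∀ n, ∀ v ∈ G n, ∃ w, (∀ s, w s ∈ Adeg k (n - b)) ∧ θ w = v := by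
  obtain ⟨N, v, d, h⟩ := hb
  let B := Module.finBasis (Kf k) V
  obtain ⟨g, e, hg, -, -, hge⟩ :=
    exists_common_den fun p : Fin N × Fin (finrank (Kf k) V) => B.equivFun (v p.1) p.2
  let θ : (Fin (finrank (Kf k) V) → Bp k) →ₗ[k] V :=
    ((g⁻¹ • B.equivFun.symm.toLinearMap).restrictScalars k) ∘ₗ
      ((toK k).toLinearMap.compLeft _)
  have hθ : ∀ w, θ w = g⁻¹ • B.equivFun.symm fun s => toK k (w s) := fun w => rfl
  refine ⟨θ, -(∑ j, |d j|) - e, ?_, ?_, ?_⟩
  · intro w w' hw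
    rw [hθ, hθ] at hw
    have h1 := B.equivFun.symm.injective (smul_right_injective V (inv_ne_zero hg) hw)
    exact funext fun s => toK_injective (congrFun h1 s)
  · intro c w
    have : (fun s => toK k ((c • w) s)) = toK k c • fun s => toK k (w s) := by
      ext s
      simp
    rw [hθ, hθ, this, map_smul, smul_comm]
  · intro n u hu
    obtain ⟨c, hc, rfl⟩ := Fam.mem_gen.1 (h n hu)
    have h1 : ∀ s, g * B.equivFun (∑ j, c j • v j) s ∈ A k (n - (-(∑ j, |d j|) - e)) := by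
      intro s
      rw [map_sum, Finset.sum_apply, Finset.mul_sum]
      refine Submodule.sum_mem _ fun j _ => ?_
      rw [map_smul, Pi.smul_apply, smul_eq_mul, mul_left_comm]
      refine A_mul' (hc j) (hge (j, s)) ?_
      have h2 : |d j| ≤ ∑ j, |d j| :=
        Finset.single_le_sum (f := fun j => |d j|) (fun _ _ => abs_nonneg _) (Finset.mem_univ j)
      have := neg_abs_le (d j)
      omega
    choose w hw hw' using h1
    refine ⟨w, hw, ?_⟩
    have h2 : (fun s => toK k (w s)) = g • B.equivFun (∑ j, c j • v j) := funext hw'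
    rw [hθ, h2, map_smul, LinearEquiv.symm_apply_apply, inv_smul_smul₀ hg]

theorem Fam.Bdd.good [FiniteDimensional (Kf k) V] {G : Fam k V} (hb : G.Bdd) : Good G.h := by
  obtain ⟨θ, b, hθ, hs, hb'⟩ := lm_chart hb
  obtain ⟨T, hT, hT'⟩ := lm_structure G θ hθ b hb'
  convert (lm_good_union T lmCone fun t => Or.inr ⟨t, rfl⟩).2 using 2 with n
  have := hb.finite n
  exact congrArg Nat.cast (le_antisymm (hT' n) (lm_lower_cones G θ hθ hs T hT n))

theorem lm_bdd_gen {ι : Type} [Fintype ι] (v : ι → V) (d : ι → ℤ) :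
    (Fam.gen v d : Fam k V) = Fam.gen (v ∘ (Fintype.equivFin ι).symm)
      (d ∘ (Fintype.equivFin ι).symm) := by
  apply le_antisymm
  · refine Fam.gen_le fun j => ?_
    simpa using Fam.self_mem_gen (k := k) (v ∘ (Fintype.equivFin ι).symm)
      (d ∘ (Fintype.equivFin ι).symm) (Fintype.equivFin ι j)
  · exact Fam.gen_le fun j => Fam.self_mem_gen v d _

theorem Fam.Bdd.fg [FiniteDimensional (Kf k) V] {G : Fam k V} (hb : G.Bdd) :
    ∃ (N : ℕ) (v : Fin N → V) (d : Fin N → ℤ), G = Fam.gen v d := by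
  obtain ⟨θ, b, hθ, hs, hb'⟩ := lm_chart hb
  obtain ⟨T, hT, hT'⟩ := lm_structure G θ hθ b hb'
  choose w hw hl using hT
  have hle : (Fam.gen (fun t : T => θ (w t t.2)) fun t => t.1.1) ≤ G :=
    Fam.gen_le fun t => hw t t.2
  refine ⟨_, _, _, Eq.trans ?_ (lm_bdd_gen (fun t : T => θ (w t t.2)) fun t => t.1.1)⟩
  refine Fam.ext fun n => ?_
  have := hb.finite n
  have h1 := Submodule.finiteDimensional_of_le (hle n)
  refine (Submodule.eq_of_le_of_finrank_le (hle n) ((hT' n).trans ?_)).symm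
  refine lm_lower_cones _ θ hθ hs T (fun t ht => ⟨w t ht, ?_, hl t ht⟩) n
  exact Fam.self_mem_gen (fun t : T => θ (w t t.2)) (fun t => t.1.1) ⟨t, ht⟩

/-- Reduction of a polynomial along a ring homomorphism to a field. -/
def red {R0 : Type} [CommRing R0] {k : Type} [Field k] (f : R0 →+* k) (b : Bp R0) : Kf k :=
  toK k (MvPolynomial.map f b)

theorem lm_lift {R0 : Type} [CommRing R0] (f : R0 →+* k) (hsurj : Function.Surjective f) {n : ℤ}
    {c : Kf k} (hc : c ∈ A k n) : ∃ c' ∈ Adeg R0 n, red f c' = c := by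
  obtain ⟨b, hb, rfl⟩ := mem_A.1 hc
  choose g hg using hsurj
  refine ⟨∑ m ∈ b.support, MvPolynomial.monomial m (g (b.coeff m)),
    Submodule.sum_mem _ fun m hm => Adeg_monomial m _ (mem_Adeg.1 hb m hm), ?_⟩
  unfold red
  congr 1
  rw [map_sum]
  conv_rhs => rw [b.as_sum]
  simp [hg]

theorem lm_eventually_lead {R0 : Type} [CommRing R0] {I : Type} (F : Filter I) {kk : I → Type}
    [∀ i, Field (kk i)] (f : R0 →+* k) (fp : ∀ i, R0 →+* kk i)
    (h0 : ∀ r, f r = 0 → ∀ᶠ i in F, fp i r = 0) (h1 : ∀ r, f r ≠ 0 → ∀ᶠ i in F, fp i r ≠ 0)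
    {σ : Type} [Fintype σ] (u : σ → Bp R0) (p : σ × Mon)
    (hp : LmLead (fun s => MvPolynomial.map f (u s)) p) :
    ∀ᶠ i in F, LmLead (fun s => MvPolynomial.map (fp i) (u s)) p := by
  have e : ∀ᶠ i in F, ∀ s, ∀ m ∈ (u s).support,
      (fp i ((u s).coeff m) = 0 ↔ f ((u s).coeff m) = 0) := by
    refine eventually_all.2 fun s => (Finset.eventually_all _).2 fun m _ => ?_
    by_cases h : f ((u s).coeff m) = 0
    · exact (h0 _ h).mono fun i hi => iff_of_true hi h
    · exact (h1 _ h).mono fun i hi => iff_of_false hi h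
  filter_upwards [e] with i hi
  have e' : ∀ s m, fp i ((u s).coeff m) = 0 ↔ f ((u s).coeff m) = 0 := by
    intro s m
    by_cases hm : m ∈ (u s).support
    · exact hi s m hm
    · rw [MvPolynomial.notMem_support_iff.1 hm]; simp
  simp only [LmLead, MvPolynomial.coeff_map, ne_eq, e'] at hp ⊢
  exact hp

theorem HT_ge {R0 : Type} [CommRing R0] {I : Type} (F : Filter I) {kk : I → Type}
    [∀ i, Field (kk i)] (f : R0 →+* k) (fp : ∀ i, R0 →+* kk i) (hsurj : Function.Surjective f)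
    (h0 : ∀ r, f r = 0 → ∀ᶠ i in F, fp i r = 0) (h1 : ∀ r, f r ≠ 0 → ∀ᶠ i in F, fp i r ≠ 0)
    {σ ι : Type} [Fintype σ] [Fintype ι] (v : ι → σ → Bp R0) (d : ι → ℤ) :
    ∀ᶠ i in F, ∀ n, (Fam.gen (fun j s => red f (v j s)) d : Fam k (σ → Kf k)).h n ≤
      (Fam.gen (fun j s => red (fp i) (v j s)) d : Fam (kk i) (σ → Kf (kk i))).h n := by
  let θ : ∀ (K : Type) [Field K], (σ → Bp K) →ₗ[K] (σ → Kf K) := fun K _ =>
    (toK K).toLinearMap.compLeft σ
  have hθa : ∀ (K : Type) [Field K] w s, θ K w s = toK K (w s) := fun _ _ _ _ => rfl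
  have hθ : ∀ (K : Type) [Field K], Function.Injective (θ K) := fun K _ w w' h =>
    funext fun s => toK_injective (congrFun h s)
  have hs : ∀ (K : Type) [Field K] (c : Bp K) w, θ K (c • w) = toK K c • θ K w := by
    intro K _ c w
    ext s
    simp [hθa]
  obtain ⟨b, hb⟩ : ∃ b : ℤ, ∀ j s, b ≤ d j - 4 * (v j s).totalDegree := by
    obtain ⟨b, hb⟩ := (Set.finite_range fun p : ι × σ =>
      d p.1 - 4 * ((v p.1 p.2).totalDegree : ℤ)).bddBelow
    exact ⟨b, fun j s => hb ⟨(j, s), rfl⟩⟩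
  obtain ⟨T, hT, hT'⟩ := lm_structure
    (Fam.gen (fun j s => red f (v j s)) d : Fam k (σ → Kf k)) (θ k) (hθ k) b (by
      intro n u hu
      obtain ⟨c, hc, rfl⟩ := Fam.mem_gen.1 hu
      have h2 : ∀ s, (∑ j, c j • fun s => red f (v j s)) s ∈ A k (n - b) := by
        intro s
        rw [Finset.sum_apply]
        refine Submodule.sum_mem _ fun j _ => ?_
        refine A_mul' (hc j) (toK_mem_A.2 (Adeg_map f (self_mem_Adeg (v j s)))) ?_
        have := hb j s
        omega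
      choose w hw hw' using h2
      exact ⟨w, hw, funext hw'⟩)
  have key : ∀ t ∈ T, ∀ᶠ i in F, ∃ w, θ (kk i) w ∈
      (Fam.gen (fun j s => red (fp i) (v j s)) d : Fam (kk i) (σ → Kf (kk i))) t.1 ∧
        LmLead w t.2 := by
    intro t ht
    obtain ⟨w, hw, hl⟩ := hT t ht
    obtain ⟨c, hc, e⟩ := Fam.mem_gen.1 hw
    choose c' hc' ec using fun j => lm_lift f hsurj (hc j)
    have hred : ∀ (K : Type) [Field K] (φ : R0 →+* K),
        θ K (fun s => MvPolynomial.map φ (∑ j, c' j * v j s)) =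
          ∑ j, red φ (c' j) • fun s => red φ (v j s) := by
      intro K _ φ
      ext s
      simp [hθa, red]
    have hw' : (fun s => MvPolynomial.map f (∑ j, c' j * v j s)) = w := by
      apply hθ k
      rw [hred, ← e]
      simp only [ec]
    filter_upwards [lm_eventually_lead F f fp h0 h1 (fun s => ∑ j, c' j * v j s) t.2
      (hw' ▸ hl)] with i hi
    refine ⟨_, ?_, hi⟩
    rw [hred]
    exact Fam.mem_gen.2 ⟨_, fun j => toK_mem_A.2 (Adeg_map _ (hc' j)), rfl⟩
  filter_upwards [(Finset.eventually_all T).2 key] with i hi n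
  have : Module.Finite (kk i) ((Fam.gen (fun j s => red (fp i) (v j s)) d :
      Fam (kk i) (σ → Kf (kk i))) n) :=
    Fam.Bdd.finite ⟨_, _, _, (lm_bdd_gen _ _).le⟩ n
  exact Int.ofNat_le.2 ((hT' n).trans (lm_lower_cones _ _ (hθ _) (hs _) T hi n))

end Vale.Agent.P190
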