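import Vale.Agent.P190.LatticeAbs

/-!
Lattices over the discrete valuation ring at infinity.
-/

noncomputable section

namespace Vale.Agent.P190

open Module

/-- Laurent series that come from the weighted power series ring. -/
def IsA {k : Type} [Field k] (f : LaurentSeries (Kf k)) : Prop := ∀ n : ℤ, f.coeff n ∈ A k n

section Laurent

variable {k : Type} [Field k] {ρ : ℕ}

theorem IsA.mul {f g : LaurentSeries (Kf k)} (hf : IsA f) (hg : IsA g) : IsA (f * g) := by
  intro n
  rw [HahnSeries.coeff_mul]
  refine Submodule.sum_mem _ fun x hx => A_mul' (hf _) (hg _) (le_of_eq ?_)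
  exact (Finset.mem_antidiagonal.mp hx).2.2

theorem IsA.mul_coeff {f g : LaurentSeries (Kf k)} (hf : IsA f) {N : ℤ}
    (hg : ∀ n < N, g.coeff n = 0) : ∀ n < N, (f * g).coeff n = 0 := by
  intro n hn
  rw [HahnSeries.coeff_mul]
  refine Finset.sum_eq_zero fun x hx => ?_
  have h1 := (Finset.mem_antidiagonal.mp hx).2.2
  by_cases h : x.1 < 0
  · rw [A_neg h (hf _), zero_mul]
  · rw [hg _ (by omega), mul_zero]

theorem isA_single {n : ℤ} {c : Kf k} (hc : c ∈ A k n) :
    IsA (HahnSeries.single n c : LaurentSeries (Kf k)) := by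
  intro m
  rw [HahnSeries.coeff_single]
  split_ifs with h
  · rwa [h]
  · exact Submodule.zero_mem _

theorem isA_sum {ι : Type} (s : Finset ι) {f : ι → LaurentSeries (Kf k)} (hf : ∀ i, IsA (f i)) :
    IsA (∑ i ∈ s, f i) := by
  intro n
  rw [HahnSeries.coeff_sum]
  exact Submodule.sum_mem _ fun i _ => hf i n

theorem laurent_smul (c : Kf k) (v : Fin ρ → LaurentSeries (Kf k)) :
    c • v = (HahnSeries.single 0 c : LaurentSeries (Kf k)) • v :=
  funext fun _ => HahnSeries.single_zero_mul_eq_smul.symm

/-- Matrices over Laurent series as operators over the coefficient field. -/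
def matOp (k : Type) [Field k] (ρ : ℕ) : Matrix (Fin ρ) (Fin ρ) (LaurentSeries (Kf k)) →+*
    Module.End (Kf k) (Fin ρ → LaurentSeries (Kf k)) where
  toFun T :=
    { toFun := T.mulVec
      map_add' := T.mulVec_add
      map_smul' := fun c v => by
        rw [laurent_smul, Matrix.mulVec_smul, RingHom.id_apply, laurent_smul] }
  map_one' := LinearMap.ext Matrix.one_mulVec
  map_mul' := fun S T => LinearMap.ext fun v => (Matrix.mulVec_mulVec v S T).symm
  map_zero' := LinearMap.ext Matrix.zero_mulVec
  map_add' := fun S T => LinearMap.ext (Matrix.add_mulVec S T)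

theorem matOp_apply (T : Matrix (Fin ρ) (Fin ρ) (LaurentSeries (Kf k)))
    (v : Fin ρ → LaurentSeries (Kf k)) : matOp k ρ T v = T.mulVec v := rfl

theorem matOp_algebraMap (f : LaurentSeries (Kf k)) (v : Fin ρ → LaurentSeries (Kf k)) :
    matOp k ρ (algebraMap _ _ f) v = f • v := by
  rw [matOp_apply, Algebra.algebraMap_eq_smul_one, Matrix.smul_mulVec, Matrix.one_mulVec]

theorem matOp_const (c : Kf k) :
    matOp k ρ (algebraMap (LaurentSeries (Kf k)) _ (HahnSeries.single 0 c)) =
      algebraMap (Kf k) _ c :=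
  LinearMap.ext fun v => by rw [matOp_algebraMap, ← laurent_smul, Module.algebraMap_end_apply]

theorem coeff_shift (a n : ℤ) (v : Fin ρ → LaurentSeries (Kf k)) (i : Fin ρ) :
    (matOp k ρ (algebraMap (LaurentSeries (Kf k)) _ (HahnSeries.single a 1)) v i).coeff n =
      (v i).coeff (n - a) := by
  rw [matOp_algebraMap, Pi.smul_apply, smul_eq_mul, HahnSeries.coeff_single_mul, one_mul]

/-- The space of Laurent vectors. -/
def lauAmb (k : Type) [Field k] (ρ : ℕ) : Amb k (Fin ρ → LaurentSeries (Kf k)) (Fin ρ) where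
  sh a := matOp k ρ (algebraMap (LaurentSeries (Kf k)) _ (HahnSeries.single a 1))
  sh_zero v := by
    ext i n
    rw [coeff_shift, sub_zero]
  sh_add a b v := by
    ext i n
    rw [coeff_shift, coeff_shift, coeff_shift, sub_sub]
  M :=
    { carrier := {v | ∀ i, IsA (v i)}
      add_mem' := fun ha hb i n => add_mem (ha i n) (hb i n)
      zero_mem' := fun _ _ => zero_mem _
      smul_mem' := fun c _ ha i n => Submodule.smul_mem _ c (ha i n) }
  M_smul m c v hc hv i n := by
    rw [coeff_shift]
    exact A_mul' hc (hv i _) (by omega)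
  O :=
    { carrier := {v | ∀ i, ∀ n < 0, (v i).coeff n = 0}
      add_mem' := fun ha hb i n hn => by
        rw [Pi.add_apply, HahnSeries.coeff_add, ha i n hn, hb i n hn, add_zero]
      zero_mem' := fun _ _ _ => rfl
      smul_mem' := fun c _ ha i n hn => by
        rw [Pi.smul_apply, HahnSeries.coeff_smul, ha i n hn, smul_zero] }
  O_sh v hv i n hn := by
    rw [coeff_shift]
    exact hv i _ (by omega)
  ι :=
    { toFun := fun c i => HahnSeries.single 0 (c i)
      map_add' := fun a b => funext fun i => HahnSeries.single_add _ _ _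
      map_smul' := fun a b => funext fun i => by
        rw [RingHom.id_apply, Pi.smul_apply, Pi.smul_apply, ← HahnSeries.single_zero_mul_eq_smul,
          HahnSeries.single_mul_single, add_zero, smul_eq_mul] }
  ι_mem c i n hn := HahnSeries.coeff_single_of_ne hn.ne
  ι_inj c h := by
    funext i
    have := h i (-1) (by omega)
    rw [coeff_shift, sub_self] at this
    exact (HahnSeries.coeff_single_same _ _).symm.trans this
  ι_surj v hv := by
    refine ⟨fun i => (v i).coeff 0, fun i n hn => ?_, fun n hn i => ?_⟩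
    · rw [coeff_shift]
      change (v i).coeff _ - (HahnSeries.single 0 ((v i).coeff 0)).coeff _ = 0
      rw [HahnSeries.coeff_single]
      split_ifs with h
      · rw [h, sub_self]
      · rw [hv i _ (by omega), sub_zero]
    · have := hn i n
      rwa [coeff_shift, sub_self] at this
  ι_M n c hc i := by
    rw [matOp_algebraMap, Pi.smul_apply, smul_eq_mul]
    change IsA (HahnSeries.single n 1 * HahnSeries.single 0 (c i))
    rw [HahnSeries.single_mul_single, add_zero, one_mul]
    exact isA_single (hc i)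

theorem mem_lauP {j : ℤ} {v : Fin ρ → LaurentSeries (Kf k)} :
    v ∈ (lauAmb k ρ).P j ↔ ∀ i, ∀ n < j, (v i).coeff n = 0 := by
  refine forall_congr' fun i => ⟨fun h n hn => ?_, fun h n hn => ?_⟩
  · have := (coeff_shift _ _ _ _).symm.trans (h (n - j) (by omega))
    rwa [sub_neg_eq_add, sub_add_cancel] at this
  · exact (coeff_shift _ _ _ _).trans (h _ (by omega))

theorem lau_sh (a : ℤ) (v : Fin ρ → LaurentSeries (Kf k)) :
    (lauAmb k ρ).sh a v = (HahnSeries.single a 1 : LaurentSeries (Kf k)) • v :=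
  matOp_algebraMap _ _

end Laurent

theorem no_matrices {k : Type} [Field k] [CharZero k] {μ : Tr → Fin 3 → k} (hB : Bog k μ) {ρ : ℕ}
    (hρ : 0 < ρ) (op : Gen → Matrix (Fin ρ) (Fin ρ) (LaurentSeries (Kf k)))
    (hent : ∀ j a b, IsA (op j a b))
    (hrel : Rel
      (fun i => algebraMap (LaurentSeries (Kf k)) (Matrix (Fin ρ) (Fin ρ) (LaurentSeries (Kf k)))
        (HahnSeries.single 4 (ellK k i)))
      (fun T r => algebraMap (LaurentSeries (Kf k)) (Matrix (Fin ρ) (Fin ρ) (LaurentSeries (Kf k)))
        (HahnSeries.single 0 (algebraMap k (Kf k) (μ T r)))) op) : False := by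
  have : Nonempty (Fin ρ) := ⟨⟨0, hρ⟩⟩
  have h1 := (hrel.scale (HahnSeries.single (-1) 1 : LaurentSeries (Kf k))).map
    (E' := Module.End (Kf k) (Fin ρ → LaurentSeries (Kf k))) (matOp k ρ)
  have h2 : ∀ i, (HahnSeries.single (-1) 1 : LaurentSeries (Kf k)) ^ 4 •
      algebraMap (LaurentSeries (Kf k)) (Matrix (Fin ρ) (Fin ρ) (LaurentSeries (Kf k)))
        (HahnSeries.single 4 (ellK k i)) =
      algebraMap (LaurentSeries (Kf k)) _ (HahnSeries.single 0 (ellK k i)) := by
    intro i
    rw [Algebra.algebraMap_eq_smul_one, Algebra.algebraMap_eq_smul_one, smul_smul,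
      HahnSeries.single_pow, HahnSeries.single_mul_single]
    simp
  simp only [h2, matOp_const] at h1
  have h3 : ∀ j v, matOp k ρ ((HahnSeries.single (-1) 1 : LaurentSeries (Kf k)) ^ wt j • op j) v =
      (lauAmb k ρ).sh (-wt j) ((op j).mulVec v) := by
    intro j v
    rw [matOp_apply, Matrix.smul_mulVec, lau_sh, HahnSeries.single_pow, one_pow, smul_neg,
      nsmul_one]
  refine Amb.no_ops (B := lauAmb k ρ) hB h1 (fun j a v => ?_) (fun j N => ⟨N + -wt j, fun v hv => ?_⟩)
    fun j v hv => ?_
  · rw [h3, h3, lau_sh a v, Matrix.mulVec_smul, ← lau_sh, Amb.sh_add, Amb.sh_add, add_comm]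
  · rw [h3]
    refine Amb.sh_mem_P (mem_lauP.mpr fun i n hn => ?_) _
    rw [Matrix.mulVec, dotProduct, HahnSeries.coeff_sum]
    exact Finset.sum_eq_zero fun l _ => (hent j i l).mul_coeff (mem_lauP.mp hv l) n hn
  · rw [h3, Amb.sh_sh_neg]
    exact fun i => isA_sum _ fun l => (hent j i l).mul (hv l)

end Vale.Agent.P190
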