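import Vale.Agent.P190.LatticeMod

/-!
Lattices in an abstract space of Laurent vectors and their graded families.
-/

noncomputable section

namespace Vale.Agent.P190

open Module

/-- An abstract space of Laurent vectors: `sh n` is multiplication by `x ^ n`, `O` the standard
lattice, `ι` the constant vectors and `M` the module of weighted power series. -/
structure Amb (k W σ : Type) [Field k] [AddCommGroup W] [Module k W] [Module (Kf k) W] where
  sh : ℤ → W →ₗ[Kf k] W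
  sh_zero : ∀ v, sh 0 v = v
  sh_add : ∀ a b v, sh a (sh b v) = sh (a + b) v
  M : Submodule k W
  M_smul : ∀ (m : ℤ) (c : Kf k) (v : W), c ∈ A k m → v ∈ M → sh m (c • v) ∈ M
  O : Submodule (Kf k) W
  O_sh : ∀ v ∈ O, sh 1 v ∈ O
  ι : (σ → Kf k) →ₗ[Kf k] W
  ι_mem : ∀ c, ι c ∈ O
  ι_inj : ∀ c, sh (-1) (ι c) ∈ O → c = 0
  ι_surj : ∀ v ∈ O, ∃ c, sh (-1) (v - ι c) ∈ O ∧ ∀ n, sh n v ∈ M → ∀ s, c s ∈ A k n
  ι_M : ∀ n c, (∀ s, c s ∈ A k n) → sh n (ι c) ∈ M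

namespace Amb

variable {k W σ : Type} [Field k] [AddCommGroup W] [Module k W] [Module (Kf k) W]
  [IsScalarTower k (Kf k) W] (B : Amb k W σ)

/-- The lattice `x ^ j O`. -/
def P (j : ℤ) : Submodule (Kf k) W := B.O.comap (B.sh (-j))

/-- `x Λ` inside `Λ`. -/
def rad (Λ : Submodule (Kf k) W) : Submodule (Kf k) Λ := (Λ.comap (B.sh (-1))).comap Λ.subtype

/-- The special fibre of a lattice. -/
abbrev Qt (Λ : Submodule (Kf k) W) : Type := Λ ⧸ B.rad Λ

/-- The graded family attached to a lattice. -/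
def fam (Λ : Submodule (Kf k) W) : Fam k (B.Qt Λ) where
  toFun n := ((B.M.comap ((B.sh n).restrictScalars k)).comap (Λ.subtype.restrictScalars k)).map
    ((B.rad Λ).mkQ.restrictScalars k)
  smul_mem' := by
    rintro m n c _ hc ⟨v, hv, rfl⟩
    refine ⟨c • v, ?_, rfl⟩
    have := B.M_smul m c _ hc hv
    change B.sh m (c • B.sh n v) ∈ B.M at this
    change B.sh (n + m) (c • (v : W)) ∈ B.M
    rwa [← map_smul, B.sh_add, add_comm] at this

variable {B} {Λ Λ' : Submodule (Kf k) W}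

theorem mem_fam {n : ℤ} {w : B.Qt Λ} :
    w ∈ B.fam Λ n ↔ ∃ v : Λ, B.sh n v ∈ B.M ∧ Submodule.Quotient.mk v = w := Iff.rfl

omit [IsScalarTower k (Kf k) W] in
theorem mk_eq_zero {v : Λ} : (Submodule.Quotient.mk v : B.Qt Λ) = 0 ↔ B.sh (-1) v ∈ Λ :=
  Submodule.Quotient.mk_eq_zero _

omit [IsScalarTower k (Kf k) W] in
theorem sh_neg_sh (a : ℤ) (v : W) : B.sh (-a) (B.sh a v) = v := by
  rw [B.sh_add, neg_add_cancel, B.sh_zero]

omit [IsScalarTower k (Kf k) W] in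
theorem sh_sh_neg (a : ℤ) (v : W) : B.sh a (B.sh (-a) v) = v := by
  rw [B.sh_add, add_neg_cancel, B.sh_zero]

omit [IsScalarTower k (Kf k) W] in
theorem mem_P {j : ℤ} {v : W} : v ∈ B.P j ↔ B.sh (-j) v ∈ B.O := Iff.rfl

omit [IsScalarTower k (Kf k) W] in
theorem sh_mem_P {j : ℤ} {v : W} (h : v ∈ B.P j) (a : ℤ) : B.sh a v ∈ B.P (j + a) := by
  rw [mem_P, B.sh_add]
  convert mem_P.mp h using 2
  ring_nf

omit [IsScalarTower k (Kf k) W] in
theorem P_anti {i j : ℤ} (h : i ≤ j) : B.P j ≤ B.P i := by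
  induction j, h using Int.leInduction with
  | base => exact le_rfl
  | succ j _ ih =>
    refine le_trans (fun v hv => ?_) ih
    have := B.O_sh _ hv
    rw [B.sh_add] at this
    convert mem_P.mpr (by convert this using 2; ring_nf)

/-- The map induced by an inclusion of lattices. -/
def inc (h : Λ' ≤ Λ) : B.Qt Λ' →ₗ[Kf k] B.Qt Λ :=
  Submodule.mapQ _ _ (Submodule.inclusion h) fun _ hv => h hv

/-- The map induced by multiplication by `x`. -/
def mulx (h : ∀ v ∈ Λ, B.sh 1 v ∈ Λ') : B.Qt Λ →ₗ[Kf k] B.Qt Λ' :=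
  Submodule.mapQ _ _ ((B.sh 1).restrict h) fun v hv => by
    have := h _ hv
    change B.sh 1 (B.sh (-1) v) ∈ Λ' at this
    change B.sh (-1) (B.sh 1 v) ∈ Λ'
    rwa [sh_sh_neg, ← sh_neg_sh (B := B) 1 v] at this

omit [IsScalarTower k (Kf k) W] in
theorem mulx_eq_zero (h : ∀ v ∈ Λ, B.sh 1 v ∈ Λ') (v : Λ) :
    mulx h (Submodule.Quotient.mk v) = 0 ↔ (v : W) ∈ Λ' := by
  refine (mk_eq_zero (v := ⟨B.sh 1 v, h _ v.2⟩)).trans ?_
  rw [sh_neg_sh]

theorem modif (h : Λ' ≤ Λ) (h' : ∀ v ∈ Λ, B.sh 1 v ∈ Λ') :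
    Modif (B.fam Λ) (B.fam Λ') (inc h) (mulx h') where
  ker1 := by
    ext w
    obtain ⟨v, rfl⟩ := Submodule.Quotient.mk_surjective _ w
    constructor
    · intro hv
      have h1 : B.sh (-1) v ∈ Λ := (mk_eq_zero (v := Submodule.inclusion h v)).mp hv
      exact ⟨Submodule.Quotient.mk ⟨_, h1⟩, congrArg _ (Subtype.ext (sh_sh_neg 1 _))⟩
    · rintro ⟨u, hu⟩
      obtain ⟨u, rfl⟩ := Submodule.Quotient.mk_surjective _ u
      rw [← hu]
      refine (mk_eq_zero (v := ⟨B.sh 1 u, h (h' _ u.2)⟩)).mpr ?_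
      rw [sh_neg_sh]
      exact u.2
  ker2 := by
    rintro _ ⟨w, rfl⟩
    obtain ⟨v, rfl⟩ := Submodule.Quotient.mk_surjective _ w
    exact (mulx_eq_zero h' (Submodule.inclusion h v)).mpr v.2
  map1 := by
    ext n w
    constructor
    · rintro ⟨_, ⟨v, hv, rfl⟩, rfl⟩
      exact ⟨⟨Submodule.inclusion h v, hv, rfl⟩,
        (mulx_eq_zero h' (Submodule.inclusion h v)).mpr v.2⟩
    · rintro ⟨⟨v, hv, rfl⟩, h1⟩
      exact ⟨_, ⟨⟨v, (mulx_eq_zero h' v).mp h1⟩, hv, rfl⟩, rfl⟩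
  map2 := by
    ext n w
    constructor
    · rintro ⟨⟨v, hv, rfl⟩, h1⟩
      have h2 : B.sh (-1) v ∈ Λ := (mk_eq_zero (v := Submodule.inclusion h v)).mp h1
      refine ⟨_, ⟨⟨_, h2⟩, ?_, rfl⟩, congrArg _ (Subtype.ext (sh_sh_neg 1 _))⟩
      change B.sh (n - -1) (B.sh (-1) v) ∈ B.M
      rwa [B.sh_add, sub_add_cancel]
    · rintro ⟨_, ⟨u, hu, rfl⟩, rfl⟩
      refine ⟨⟨⟨_, h' _ u.2⟩, ?_, rfl⟩, (mk_eq_zero (v := ⟨B.sh 1 u, h (h' _ u.2)⟩)).mpr ?_⟩
      · change B.sh n (B.sh 1 u) ∈ B.M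
        rw [B.sh_add, ← sub_neg_eq_add]
        exact hu
      · rw [sh_neg_sh]
        exact u.2

/-- Constant vectors in degree `-j`. -/
def cst (j : ℤ) (h : B.P j ≤ Λ) : (σ → Kf k) →ₗ[Kf k] B.Qt Λ :=
  (B.rad Λ).mkQ ∘ₗ (B.sh j ∘ₗ B.ι).codRestrict Λ fun c => h (by
    change B.sh (-j) (B.sh j (B.ι c)) ∈ B.O
    rw [sh_neg_sh]
    exact B.ι_mem c)

theorem cst_mem {j n : ℤ} (h : B.P j ≤ Λ) {c : σ → Kf k} (hc : ∀ s, c s ∈ A k (n + j)) :
    cst j h c ∈ B.fam Λ n := by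
  refine ⟨_, ?_, rfl⟩
  change B.sh n (B.sh j (B.ι c)) ∈ B.M
  rw [B.sh_add]
  exact B.ι_M _ _ hc

omit [IsScalarTower k (Kf k) W] in
theorem exists_cst {j : ℤ} {v : W} (hv : v ∈ B.P j) : ∃ c, v - B.sh j (B.ι c) ∈ B.P (j + 1) ∧
    ∀ n, B.sh n v ∈ B.M → ∀ s, c s ∈ A k (n + j) := by
  obtain ⟨c, h1, h2⟩ := B.ι_surj _ hv
  refine ⟨c, ?_, fun n hn => h2 _ ?_⟩
  · rw [map_sub, B.sh_add] at h1
    rw [mem_P, map_sub, B.sh_add]
    convert h1 using 3 <;> ring_nf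
  · rwa [B.sh_add, add_neg_cancel_right]

variable [Fintype σ]

/-- Good lattices. -/
structure Gd (B : Amb k W σ) (Λ : Submodule (Kf k) W) : Prop where
  fin : FiniteDimensional (Kf k) (B.Qt Λ)
  rk : finrank (Kf k) (B.Qt Λ) = Fintype.card σ
  bdd : (B.fam Λ).Bdd
  full : (B.fam Λ).Full

/-- The discriminant of a lattice. -/
def disc (B : Amb k W σ) (Λ : Submodule (Kf k) W) : ℤ :=
  Fintype.card σ * (B.fam Λ).m 2 - (B.fam Λ).m 1 ^ 2

theorem gd_P (j : ℤ) : B.Gd (B.P j) ∧ ∀ i, (B.fam (B.P j)).m i = Fintype.card σ * (-j) ^ i := by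
  have h0 : ∀ v : B.P j, ∃ c, cst j le_rfl c = Submodule.Quotient.mk v ∧
      ∀ n, B.sh n v ∈ B.M → ∀ s, c s ∈ A k (n + j) := by
    intro v
    obtain ⟨c, h1, h2⟩ := exists_cst v.2
    refine ⟨c, ((Submodule.Quotient.eq _).mpr ?_).symm, h2⟩
    have := sh_mem_P h1 (-1)
    rwa [add_neg_cancel_right] at this
  have h1 : Function.Surjective (cst (B := B) j le_rfl) := by
    intro w
    obtain ⟨v, rfl⟩ := Submodule.Quotient.mk_surjective _ w
    exact (h0 v).imp fun _ h => h.1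
  have h2 : Function.Injective (cst (B := B) j le_rfl) := by
    rw [injective_iff_map_eq_zero]
    intro c hc
    have h3 : B.sh (-j) (B.sh (-1) (B.sh j (B.ι c))) ∈ B.O := mk_eq_zero.mp hc
    rw [B.sh_add, B.sh_add] at h3
    exact B.ι_inj c (by convert h3 using 2; ring_nf)
  have h3 : B.fam (B.P j) = (Fam.free k fun _ => -j).map (cst j le_rfl) := by
    ext n w
    constructor
    · rintro ⟨v, hv, rfl⟩
      obtain ⟨c, h4, h5⟩ := h0 v
      exact ⟨c, Fam.mem_free.mpr (by simpa using h5 n hv), h4⟩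
    · rintro ⟨c, hc, rfl⟩
      exact cst_mem le_rfl (by simpa using Fam.mem_free.mp hc)
  refine ⟨⟨Module.Finite.of_surjective _ h1, ?_, h3 ▸ (Fam.bdd_free _).map _,
    h3 ▸ (Fam.full_free _).map _ h1⟩, fun i => ?_⟩
  · rw [← (LinearEquiv.ofBijective _ ⟨h2, h1⟩).finrank_eq, finrank_fintype_fun_eq_card]
  · rw [h3, Fam.m_map_of_injective _ _ h2, Fam.m_free]
    simp

theorem Gd.modif (hg : B.Gd Λ) (h : Λ' ≤ Λ) (h' : ∀ v ∈ Λ, B.sh 1 v ∈ Λ') : B.Gd Λ' := by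
  have := hg.fin
  have hm := Amb.modif h h'
  have := hm.finite
  exact ⟨this, (hm.rank hg.bdd hg.full).trans hg.rk, hm.bdd hg.bdd, hm.full hg.full⟩

theorem Gd.disc_modif (hg : B.Gd Λ) (h : Λ' ≤ Λ) (h' : ∀ v ∈ Λ, B.sh 1 v ∈ Λ') {q mQ : ℤ}
    (hq : q = ((B.fam Λ).map (mulx h')).m 0) (hQ : mQ = ((B.fam Λ).map (mulx h')).m 1) :
    B.disc Λ' = B.disc Λ + (Fintype.card σ * (q - 2 * mQ) + 2 * q * (B.fam Λ).m 1 - q ^ 2) := by
  have := hg.fin
  have hm := Amb.modif h h'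
  have := hm.finite
  rw [disc, disc, hm.m1 hg.bdd, hm.m2 hg.bdd, hq, hQ]
  ring

/-- Lattices. -/
structure Lat (B : Amb k W σ) (Λ : Submodule (Kf k) W) : Prop where
  x : ∀ v ∈ Λ, B.sh 1 v ∈ Λ
  low : ∃ N, B.P N ≤ Λ
  up : ∃ N, Λ ≤ B.P N

theorem Lat.gd (hΛ : B.Lat Λ) : B.Gd Λ ∧ 0 ≤ B.disc Λ := by
  classical
  obtain ⟨N, hN⟩ := hΛ.low
  obtain ⟨c, hc⟩ := hΛ.up
  have key : ∀ j, c ≤ j → B.Gd (Λ ⊔ B.P j) ∧ 0 ≤ B.disc (Λ ⊔ B.P j) ∧
      Fintype.card σ * (-j) ≤ (B.fam (Λ ⊔ B.P j)).m 1 := by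
    intro j hj
    induction j, hj using Int.leInduction with
    | base =>
      rw [sup_eq_right.mpr hc, disc, (gd_P c).2, (gd_P c).2]
      exact ⟨(gd_P c).1, le_of_eq (by ring), by simp⟩
    | succ j _ ih =>
      obtain ⟨h1, h2, h3⟩ := ih
      have h4 : Λ ⊔ B.P (j + 1) ≤ Λ ⊔ B.P j := sup_le_sup_left (P_anti (by omega)) _
      have h5 : ∀ v ∈ Λ ⊔ B.P j, B.sh 1 v ∈ Λ ⊔ B.P (j + 1) := by
        intro v hv
        obtain ⟨a, ha, b, hb, rfl⟩ := Submodule.mem_sup.mp hv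
        rw [map_add]
        exact Submodule.add_mem_sup (hΛ.x a ha) (sh_mem_P hb 1)
      have := h1.fin
      have h6 := h1.modif h4 h5
      have := h6.fin
      have h7 := Modif.q_eq (mulx h5) h1.bdd h1.full
      have h8 := Fam.m1_le_of_span (h1.bdd.map (mulx h5)) (-j) (by
        rintro n _ ⟨w, -, rfl⟩
        obtain ⟨v, rfl⟩ := Submodule.Quotient.mk_surjective _ w
        obtain ⟨a, ha, b, hb, hab⟩ := Submodule.mem_sup.mp v.2
        obtain ⟨e, h9, -⟩ := exists_cst hb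
        have h10 : mulx h5 (Submodule.Quotient.mk v) = mulx h5 (cst j le_sup_right e) := by
          rw [← sub_eq_zero, ← map_sub]
          refine (mulx_eq_zero h5 (v - _)).mpr ?_
          change (v : W) - B.sh j (B.ι e) ∈ _
          rw [← hab, add_sub_assoc]
          exact Submodule.add_mem_sup ha h9
        change mulx h5 (Submodule.Quotient.mk v) ∈ _
        rw [h10, LinearMap.pi_apply_eq_sum_univ, map_sum]
        refine Submodule.sum_mem _ fun s _ => ?_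
        rw [map_smul]
        refine Submodule.smul_mem _ _ (Submodule.subset_span ⟨_, cst_mem _ fun t => ?_, rfl⟩)
        split_ifs
        · exact A_one (by omega)
        · exact Submodule.zero_mem _)
      have h9 := Submodule.finrank_le (LinearMap.ker (mulx h5))
      rw [h1.rk] at h7 h9
      refine ⟨h6, ?_, ?_⟩
      · rw [h1.disc_modif h4 h5 rfl rfl]
        set q := ((B.fam (Λ ⊔ B.P j)).map (mulx h5)).m 0
        have q0 : 0 ≤ q := by omega
        have q1 : q ≤ Fintype.card σ := by omega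
        have h10 := mul_le_mul_of_nonneg_left h8 (Int.natCast_nonneg (Fintype.card σ))
        have h11 := mul_le_mul_of_nonneg_left h3 q0
        have h12 := mul_le_mul_of_nonneg_left q1 q0
        nlinarith
      · rw [(Amb.modif h4 h5).m1 h1.bdd, h7]
        have := Int.natCast_nonneg (finrank (Kf k) (LinearMap.ker (mulx h5)))
        linarith
  have := key (max N c) (le_max_right _ _)
  rw [sup_eq_left.mpr ((P_anti (le_max_left _ _)).trans hN)] at this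
  exact ⟨this.1, this.2.1⟩

/-- Operators commuting with `x` and preserving `Λ`. -/
def stabRing (B : Amb k W σ) (Λ : Submodule (Kf k) W) : Subring (Module.End (Kf k) W) where
  carrier := {T | (∀ v ∈ Λ, T v ∈ Λ) ∧ ∀ v, T (B.sh (-1) v) = B.sh (-1) (T v)}
  mul_mem' := fun ha hb => ⟨fun v hv => ha.1 _ (hb.1 v hv), fun v => by
    rw [Module.End.mul_apply, Module.End.mul_apply, hb.2, ha.2]⟩
  one_mem' := ⟨fun _ hv => hv, fun _ => rfl⟩
  add_mem' := fun ha hb => ⟨fun v hv => add_mem (ha.1 v hv) (hb.1 v hv), fun v => by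
    rw [LinearMap.add_apply, LinearMap.add_apply, hb.2, ha.2, map_add]⟩
  zero_mem' := ⟨fun _ _ => zero_mem _, fun _ => (map_zero _).symm⟩
  neg_mem' := fun ha => ⟨fun v hv => neg_mem (ha.1 v hv), fun v => by
    rw [LinearMap.neg_apply, LinearMap.neg_apply, ha.2, map_neg]⟩

/-- Reduction of an operator to the special fibre. -/
def redOp (B : Amb k W σ) (Λ : Submodule (Kf k) W) :
    B.stabRing Λ →+* Module.End (Kf k) (B.Qt Λ) where
  toFun T := Submodule.mapQ _ _ (T.1.restrict T.2.1) fun v hv => by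
    change B.sh (-1) (T.1 v) ∈ Λ
    rw [← T.2.2]
    exact T.2.1 _ hv
  map_one' := Submodule.linearMap_qext _ (LinearMap.ext fun _ => rfl)
  map_mul' := fun _ _ => Submodule.linearMap_qext _ (LinearMap.ext fun _ => rfl)
  map_zero' := Submodule.linearMap_qext _ (LinearMap.ext fun _ => rfl)
  map_add' := fun _ _ => Submodule.linearMap_qext _ (LinearMap.ext fun _ => rfl)

omit [IsScalarTower k (Kf k) W] [Fintype σ] in
theorem algebraMap_mem (c : Kf k) : algebraMap (Kf k) (Module.End (Kf k) W) c ∈ B.stabRing Λ :=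
  ⟨fun _ hv => Λ.smul_mem c hv, fun v => (map_smul (B.sh (-1)) c v).symm⟩

omit [IsScalarTower k (Kf k) W] [Fintype σ] in
theorem exists_stable {ι : Type} {θ : ι → Module.End (Kf k) W}
    (hc : ∀ i j, Commute (θ i) (θ j)) (hx : ∀ j v, θ j (B.sh 1 v) = B.sh 1 (θ j v))
    (hP : ∀ j N, ∃ N', ∀ v ∈ B.P N, θ j v ∈ B.P N') (S : Set ι) (F : Finset ι)
    (hS : ∀ j ∈ F, ∀ Λ : Submodule (Kf k) W, (∀ i ∈ S, ∀ v ∈ Λ, θ i v ∈ Λ) →
      ∀ v ∈ Λ, θ j (θ j v) ∈ Λ)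
    (h0 : ∃ Λ, B.Lat Λ ∧ ∀ i ∈ S, ∀ v ∈ Λ, θ i v ∈ Λ) :
    ∃ Λ, B.Lat Λ ∧ ∀ i, i ∈ S ∨ i ∈ F → ∀ v ∈ Λ, θ i v ∈ Λ := by
  classical
  induction F using Finset.induction with
  | empty => simpa using h0
  | insert j F _ ih =>
    obtain ⟨Λ, hΛ, h1⟩ := ih fun i hi => hS i (Finset.mem_insert_of_mem hi)
    refine ⟨Λ ⊔ Λ.map (θ j), ⟨fun v hv => ?_, hΛ.low.imp fun N h => h.trans le_sup_left, ?_⟩,
      fun i hi v hv => ?_⟩
    · obtain ⟨a, ha, _, ⟨b, hb, rfl⟩, rfl⟩ := Submodule.mem_sup.mp hv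
      rw [map_add, ← hx]
      exact Submodule.add_mem_sup (hΛ.x a ha) ⟨_, hΛ.x b hb, rfl⟩
    · obtain ⟨N, hN⟩ := hΛ.up
      obtain ⟨N', hN'⟩ := hP j N
      refine ⟨min N N', sup_le (hN.trans (P_anti (min_le_left _ _))) ?_⟩
      rintro _ ⟨v, hv, rfl⟩
      exact P_anti (min_le_right _ _) (hN' v (hN hv))
    · obtain ⟨a, ha, _, ⟨b, hb, rfl⟩, rfl⟩ := Submodule.mem_sup.mp hv
      rw [map_add]
      by_cases hij : i = j
      · rw [hij, add_comm]
        exact Submodule.add_mem_sup (hS j (Finset.mem_insert_self _ _) Λ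
          (fun i hi => h1 i (.inl hi)) b hb) ⟨a, ha, rfl⟩
      · have h2 := h1 i (hi.imp id fun h => (Finset.mem_insert.mp h).resolve_left hij)
        refine Submodule.add_mem_sup (h2 a ha) ⟨_, h2 b hb, ?_⟩
        rw [← Module.End.mul_apply, ← Module.End.mul_apply, (hc i j).eq]

theorem no_ops [CharZero k] [Nonempty σ] {μ : Tr → Fin 3 → k} (hB : Bog k μ)
    {θ : Gen → Module.End (Kf k) W}
    (hrel : Rel (fun i => algebraMap (Kf k) (Module.End (Kf k) W) (ellK k i))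
      (fun T r => algebraMap (Kf k) (Module.End (Kf k) W) (algebraMap k (Kf k) (μ T r))) θ)
    (hx : ∀ j a v, θ j (B.sh a v) = B.sh a (θ j v))
    (hP : ∀ j N, ∃ N', ∀ v ∈ B.P N, θ j v ∈ B.P N')
    (hM : ∀ j, ∀ v ∈ B.M, B.sh (wt j) (θ j v) ∈ B.M) : False := by
  classical
  have hu : ∀ (Λ : Submodule (Kf k) W) i, ∀ v ∈ Λ, θ (.u i) (θ (.u i) v) ∈ Λ := by
    intro Λ i v hv
    rw [← Module.End.mul_apply, hrel.uu]
    exact Λ.smul_mem _ hv
  have h2 : (2 : Kf k) ≠ 0 := by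
    rw [← map_ofNat (algebraMap k (Kf k)) 2]
    exact (map_ne_zero _).mpr two_ne_zero
  have h1 := exists_stable hrel.comm (fun j => hx j 1) hP ∅ (Finset.univ.image Gen.u)
    (fun j hj Λ _ => by
      obtain ⟨i, -, rfl⟩ := Finset.mem_image.mp hj
      exact hu Λ i)
    ⟨B.P 0, ⟨fun v hv => P_anti (by omega) (sh_mem_P hv 1), ⟨0, le_rfl⟩, ⟨0, le_rfl⟩⟩, by simp⟩
  have h3 := exists_stable hrel.comm (fun j => hx j 1) hP (Set.range Gen.u) Finset.univ
    (fun j _ Λ hΛ v hv => by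
      have ha : ∀ T, θ (.s T) (θ (.s T) v) + θ (.t T) (θ (.t T) v) ∈ Λ := fun T => by
        rw [← Module.End.mul_apply, ← Module.End.mul_apply, ← LinearMap.add_apply, hrel.add]
        exact Λ.smul_mem _ (hΛ _ ⟨_, rfl⟩ v hv)
      have hb : ∀ T, θ (.s T) (θ (.s T) v) - θ (.t T) (θ (.t T) v) ∈ Λ := fun T => by
        rw [← Module.End.mul_apply, ← Module.End.mul_apply, ← LinearMap.sub_apply, hrel.sub]
        exact Λ.smul_mem _ (hΛ _ ⟨_, rfl⟩ v hv)
      rcases j with i | T | T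
      · exact hu Λ i v hv
      · rw [← Λ.smul_mem_iff h2, two_smul]
        convert add_mem (ha T) (hb T) using 1
        abel
      · rw [← Λ.smul_mem_iff h2, two_smul]
        convert sub_mem (ha T) (hb T) using 1
        abel)
    (by simpa using h1)
  obtain ⟨Λ, ⟨hΛ, hst⟩, hmin⟩ := exists_minimalFor_of_wellFoundedLT
    (fun Λ => B.Lat Λ ∧ ∀ j, ∀ v ∈ Λ, θ j v ∈ Λ) (fun Λ => (B.disc Λ).toNat) (by simpa using h3)
  obtain ⟨hg, hd⟩ := hΛ.gd
  have := hg.fin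
  let op : Gen → B.stabRing Λ := fun j => ⟨θ j, hst j, hx j _⟩
  have hr : Rel (fun i => (⟨_, algebraMap_mem (ellK k i)⟩ : B.stabRing Λ))
      (fun T r => ⟨_, algebraMap_mem (algebraMap k (Kf k) (μ T r))⟩) op :=
    Rel.of_injective (B.stabRing Λ).subtype Subtype.val_injective hrel
  have hc : ∀ c, B.redOp Λ ⟨_, algebraMap_mem c⟩ = algebraMap (Kf k) _ c := fun c =>
    Submodule.linearMap_qext _ (LinearMap.ext fun _ => rfl)
  have hD : Dat μ (fun j => B.redOp Λ (op j)) (B.fam Λ) := by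
    refine ⟨by simpa only [hc] using hr.map (B.redOp Λ), hg.bdd, hg.full, ?_⟩
    rintro j n _ ⟨v, hv, rfl⟩
    refine ⟨⟨θ j v, hst j v v.2⟩, ?_, rfl⟩
    have h4 := hM j _ hv
    change B.sh (wt j) (θ j (B.sh n v)) ∈ B.M at h4
    rw [hx, B.sh_add, add_comm] at h4
    exact h4
  have h4 := hn hB hD (by rw [hg.rk]; exact Fintype.card_pos) (fun U hU q mQ hq hQ => by
    have h5 : (U.comap (B.rad Λ).mkQ).map Λ.subtype ≤ Λ := Submodule.map_subtype_le _ _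
    have h6 : ∀ v ∈ Λ, B.sh 1 v ∈ (U.comap (B.rad Λ).mkQ).map Λ.subtype := by
      intro v hv
      refine ⟨⟨_, hΛ.x v hv⟩, ?_, rfl⟩
      change Submodule.Quotient.mk _ ∈ U
      rw [mk_eq_zero.mpr (by rwa [sh_neg_sh])]
      exact zero_mem _
    have h7 : LinearMap.ker (mulx h6) = U := by
      ext w
      obtain ⟨v, rfl⟩ := Submodule.Quotient.mk_surjective _ w
      rw [LinearMap.mem_ker, mulx_eq_zero]
      exact ⟨fun ⟨u, hu, e⟩ => Subtype.ext e ▸ hu, fun h => ⟨v, h, rfl⟩⟩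
    have h8 : B.Lat ((U.comap (B.rad Λ).mkQ).map Λ.subtype) := by
      refine ⟨fun v hv => h6 v (h5 hv), ?_, hΛ.up.imp fun N h => h5.trans h⟩
      obtain ⟨N, hN⟩ := hΛ.low
      refine ⟨N + 1, fun v hv => ?_⟩
      have h9 := sh_mem_P hv (-1)
      rw [add_neg_cancel_right] at h9
      simpa only [sh_sh_neg] using h6 _ (hN h9)
    have h9 : ∀ j, ∀ v ∈ (U.comap (B.rad Λ).mkQ).map Λ.subtype,
        θ j v ∈ (U.comap (B.rad Λ).mkQ).map Λ.subtype := by
      rintro j _ ⟨v, hv, rfl⟩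
      exact ⟨⟨_, hst j v v.2⟩, hU j _ hv, rfl⟩
    have h10 := hmin ⟨h8, h9⟩
    have h11 := h8.gd.2
    have := h8.gd.1.fin
    have h12 := hg.disc_modif h5 h6 (q := q) (mQ := mQ)
      (by rw [Modif.q_eq _ hg.bdd hg.full, h7, hq])
      (by rw [hQ, Fam.m_inf_ker_add hg.bdd (mulx h6), h7, Fam.deg]; ring)
    rw [hg.rk]
    simp only at h10
    omega)
  rw [hg.rk] at h4
  exact absurd hd (not_le.mpr h4)

end Amb

end Vale.Agent.P190
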