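import Vale.Agent.P190.Slope

/-!
Elementary modifications of families.
-/

noncomputable section

namespace Vale.Agent.P190

open Module

variable {k : Type} [Field k]
variable {V : Type} [AddCommGroup V] [Module k V] [Module (Kf k) V] [IsScalarTower k (Kf k) V]
variable {V' : Type} [AddCommGroup V'] [Module k V'] [Module (Kf k) V'] [IsScalarTower k (Kf k) V']

omit [IsScalarTower k (Kf k) V] in
theorem Fam.Full.exists_poly {G : Fam k V} (hf : G.Full) (v : V) :
    ∃ (c : Kf k) (d n : ℤ), c ≠ 0 ∧ c ∈ A k d ∧ c • v ∈ G n := by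
  obtain ⟨c, hc, n, h⟩ := hf v
  obtain ⟨g, d, m, hg, hd, hm⟩ := exists_den c
  exact ⟨g * c, m, n + d, mul_ne_zero hg hc, hm, by rw [mul_smul]; exact G.smul_mem' hd h⟩

theorem Fam.m_map_of_injective (G : Fam k V) (π : V →ₗ[Kf k] V') (hπ : Function.Injective π)
    (j : ℕ) : (G.map π).m j = G.m j := by
  rw [Fam.m, Fam.h_map_of_injective G π hπ, Fam.m]

/-- A family whose degree `b` part spans has first moment at most `b` times the rank. -/
theorem Fam.m1_le_of_span [FiniteDimensional (Kf k) V] {G : Fam k V} (hb : G.Bdd) (b : ℤ)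
    (hle : ∀ n, ∀ v ∈ G n, v ∈ Submodule.span (Kf k) (G b : Set V)) : G.m 1 ≤ b * G.m 0 := by
  obtain ⟨f, h1, h2, h3⟩ := Submodule.exists_fun_fin_finrank_span_eq (Kf k) (G b : Set V)
  have hinj : Function.Injective (Fintype.linearCombination (Kf k) f) :=
    linearIndependent_iff_injective_fintypeLinearCombination.mp h3
  have hg : (Fam.gen f fun _ => b : Fam k V) ≤ G := Fam.gen_le h1
  have h0 : G.m 0 = finrank (Kf k) (Submodule.span (Kf k) (G b : Set V)) := by
    refine Fam.m0_eq hb _ hle fun v hv => ?_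
    rw [← h2] at hv
    obtain ⟨c, rfl⟩ := (Submodule.mem_span_range_iff_exists_fun _).mp hv
    obtain ⟨g, hg0, n, hn⟩ := Fam.full_free (k := k) (fun _ => b) c
    refine ⟨g, hg0, n, hg n ⟨_, hn, ?_⟩⟩
    simp [Fintype.linearCombination_apply, Finset.smul_sum]
  have h4 : ∀ j, (Fam.gen f fun _ => b : Fam k V).m j =
      finrank (Kf k) (Submodule.span (Kf k) (G b : Set V)) * b ^ j := by
    intro j
    rw [Fam.gen, Fam.m_map_of_injective _ _ hinj, Fam.m_free]
    simp
  have h5 := Fam.m1_le_of_le hb hg (by rw [h4, h0]; simp)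
  rw [h4] at h5
  rw [h0]
  linarith

/-- `E'` is an elementary modification of `E`. -/
structure Modif (E : Fam k V) (E' : Fam k V') (π : V' →ₗ[Kf k] V) (π' : V →ₗ[Kf k] V') : Prop where
  ker1 : LinearMap.ker π = LinearMap.range π'
  map1 : E'.map π = E.inf (LinearMap.ker π')
  map2 : E'.inf (LinearMap.ker π) = (E.map π').shift (-1)
  ker2 : LinearMap.range π ≤ LinearMap.ker π'

namespace Modif

variable {E : Fam k V} {E' : Fam k V'} {π : V' →ₗ[Kf k] V} {π' : V →ₗ[Kf k] V'}

theorem finite (h : Modif E E' π π') [FiniteDimensional (Kf k) V] :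
    FiniteDimensional (Kf k) V' := by
  refine ⟨Submodule.fg_of_fg_map_of_fg_inf_ker π (IsNoetherian.noetherian _) ?_⟩
  rw [top_inf_eq, h.ker1, LinearMap.range_eq_map]
  exact Module.Finite.fg_top.map _

theorem bdd (h : Modif E E' π π') [FiniteDimensional (Kf k) V] (hb : E.Bdd) : E'.Bdd :=
  Fam.Bdd.of_ext π (h.map2 ▸ (hb.map π').shift _) (h.map1 ▸ hb.inf _)

theorem full (h : Modif E E' π π') (hf : E.Full) : E'.Full := by
  intro v
  obtain ⟨c, hc, n, h1⟩ := hf (π v)
  have h2 : c • π v ∈ E'.map π n := by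
    rw [h.map1]
    exact ⟨h1, Submodule.smul_mem _ _ (h.ker2 ⟨v, rfl⟩)⟩
  obtain ⟨w, hw, h3⟩ := Fam.mem_map.mp h2
  have h4 : c • v - w ∈ LinearMap.range π' := by
    rw [← h.ker1, LinearMap.mem_ker, map_sub, map_smul, h3, sub_self]
  obtain ⟨u, hu⟩ := h4
  obtain ⟨c', d, m, hc', hd, h5⟩ := hf.exists_poly u
  have h6 : c' • π' u ∈ E'.inf (LinearMap.ker π) (m - 1) := by
    rw [h.map2]
    exact ⟨c' • u, by simpa using h5, by simp⟩
  refine ⟨c' * c, mul_ne_zero hc' hc, max (m - 1) (n + d), ?_⟩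
  rw [mul_smul, ← sub_add_cancel (c • v) w, ← hu, smul_add]
  exact add_mem (E'.mono (le_max_left _ _) h6.1) (E'.smul_mem hd hw (le_max_right _ _))

variable [FiniteDimensional (Kf k) V] [FiniteDimensional (Kf k) V']

theorem m0 (h : Modif E E' π π') (hb : E.Bdd) : E'.m 0 = E.m 0 := by
  rw [Fam.m_inf_ker_add (h.bdd hb) π, Fam.m_inf_ker_add hb π', h.map1, h.map2, Fam.m0_shift,
    add_comm]

theorem m1 (h : Modif E E' π π') (hb : E.Bdd) : E'.m 1 = E.m 1 - (E.map π').m 0 := by
  rw [Fam.m_inf_ker_add (h.bdd hb) π, Fam.m_inf_ker_add hb π', h.map1, h.map2,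
    Fam.m1_shift (hb.map π')]
  ring

theorem m2 (h : Modif E E' π π') (hb : E.Bdd) :
    E'.m 2 = E.m 2 - 2 * (E.map π').m 1 + (E.map π').m 0 := by
  rw [Fam.m_inf_ker_add (h.bdd hb) π, Fam.m_inf_ker_add hb π', h.map1, h.map2,
    Fam.m2_shift (hb.map π')]
  ring

theorem rank (h : Modif E E' π π') (hb : E.Bdd) (hf : E.Full) :
    finrank (Kf k) V' = finrank (Kf k) V := by
  have := h.m0 hb
  rw [Fam.m0_full (h.bdd hb) (h.full hf), Fam.m0_full hb hf] at this
  exact_mod_cast this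

omit [FiniteDimensional (Kf k) V'] in
theorem q_eq (π' : V →ₗ[Kf k] V') [FiniteDimensional (Kf k) V'] (hb : E.Bdd) (hf : E.Full) :
    (E.map π').m 0 = finrank (Kf k) V - finrank (Kf k) (LinearMap.ker π') := by
  have := Fam.m_inf_ker_add hb π' 0
  rw [Fam.m0_full hb hf, Fam.m0_inf hb hf] at this
  linarith

end Modif

end Vale.Agent.P190
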