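import Vale.Agent.P190.ArrField

/-!
Calculus of operators between families, radicals of colon ideals, dimension counts.
-/

noncomputable section

namespace Vale.Agent.P190

open Module Filter

variable {k : Type} [Field k]
variable {V : Type} [AddCommGroup V] [Module k V] [Module (Kf k) V] [IsScalarTower k (Kf k) V]

section Maps

omit [IsScalarTower k (Kf k) V]

theorem Maps.mono {G G' H H' : Fam k V} {θ : V → V} {d d' : ℤ} (h : Maps G H θ d) (hG : G' ≤ G)
    (hH : H ≤ H') (hd : d ≤ d') : Maps G' H' θ d' := fun n v hv =>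
  H'.mono (by omega) (hH _ (h n v (hG n hv)))

theorem Maps.comp {G H I : Fam k V} {θ θ' : V → V} {d d' : ℤ} (h' : Maps H I θ' d')
    (h : Maps G H θ d) : Maps G I (fun v => θ' (θ v)) (d + d') := fun n v hv => by
  have := h' _ _ (h n v hv)
  rwa [add_assoc] at this

theorem maps_smul (G : Fam k V) {c : Kf k} {d : ℤ} (hc : c ∈ A k d) : Maps G G (c • ·) d :=
  fun _ _ hv => G.smul_mem' hc hv

theorem Maps.sup {G G' H : Fam k V} {θ : V →+ V} {d : ℤ} (h : Maps G H θ d) (h' : Maps G' H θ d) :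
    Maps (G.sup G') H θ d := fun n v hv => by
  obtain ⟨a, ha, b, hb, rfl⟩ := Fam.mem_sup.1 hv
  rw [map_add]; exact add_mem (h n a ha) (h' n b hb)

theorem Maps.bsup {ι : Type} {s : Finset ι} {G : ι → Fam k V} {H : Fam k V} {θ : V →+ V} {d : ℤ}
    (h : ∀ i ∈ s, Maps (G i) H θ d) : Maps (Fam.bsup s G) H θ d := fun n v hv => by
  obtain ⟨x, hx, rfl⟩ := Fam.mem_bsup.1 hv
  rw [map_sum]; exact Submodule.sum_mem _ fun i hi => h i hi n _ (hx i hi)

end Maps

theorem Maps.adj {G H : Fam k V} {θ : V →+ V} {ψ : V →ₗ[Kf k] V} {d e : ℤ} (h : Maps G H θ d)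
    (h' : Maps G H (fun v => θ (ψ v)) (e + d)) : Maps (G.adj ψ e) H θ d := fun n v hv => by
  obtain ⟨a, ha, b, hb, rfl⟩ := Fam.mem_adj.1 hv
  rw [map_add]
  exact add_mem (h n a ha) (H.mono (by omega) (h' _ b hb))

namespace Fam

theorem le_adj (G : Fam k V) (ψ : V →ₗ[Kf k] V) (e : ℤ) : G ≤ G.adj ψ e := le_sup_left _ _

theorem maps_adj (G : Fam k V) (ψ : V →ₗ[Kf k] V) (e : ℤ) : Maps G (G.adj ψ e) ψ e :=
  fun n v hv => mem_adj.2 ⟨0, zero_mem _, v, by simpa using hv, by simp⟩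

theorem adj_le {G H : Fam k V} {ψ : V →ₗ[Kf k] V} {e : ℤ} (h : G ≤ H) (h' : Maps G H ψ e) :
    G.adj ψ e ≤ H := fun n v hv => by
  obtain ⟨a, ha, b, hb, rfl⟩ := mem_adj.1 hv
  exact add_mem (h n ha) (H.mono (by omega) (h' _ b hb))

/-- An operator commuting with `ψ` and preserving `G` preserves `G.adj ψ e`. -/
theorem adj_stab {G : Fam k V} {θ ψ : V →ₗ[Kf k] V} {d e : ℤ} (h : Maps G G θ d)
    (hc : ∀ v, θ (ψ v) = ψ (θ v)) : Maps (G.adj ψ e) (G.adj ψ e) θ d := by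
  refine Maps.adj (θ := θ.toAddMonoidHom) (h.mono le_rfl (le_adj _ _ _) le_rfl) ?_
  intro n v hv
  change θ (ψ v) ∈ _
  rw [hc]
  exact (G.adj ψ e).mono (by omega) (maps_adj G ψ e _ _ (h n v hv))

theorem adj_self_stab {G : Fam k V} {ψ : V →ₗ[Kf k] V} {e : ℤ}
    (h : Maps G G (fun v => ψ (ψ v)) (e + e)) : Maps (G.adj ψ e) (G.adj ψ e) ψ e :=
  Maps.adj (θ := ψ.toAddMonoidHom) (maps_adj G ψ e) (h.mono le_rfl (le_adj _ _ _) le_rfl)

/-- Intersection of two families. -/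
def meet (G G' : Fam k V) : Fam k V where
  toFun n := G n ⊓ G' n
  smul_mem' := fun hc hv => ⟨G.smul_mem' hc hv.1, G'.smul_mem' hc hv.2⟩

omit [IsScalarTower k (Kf k) V] in
theorem meet_le_left (G G' : Fam k V) : G.meet G' ≤ G := fun _ _ hv => hv.1

omit [IsScalarTower k (Kf k) V] in
theorem meet_le_right (G G' : Fam k V) : G.meet G' ≤ G' := fun _ _ hv => hv.2

omit [IsScalarTower k (Kf k) V] in
theorem Full.exists_common {G : Fam k V} (hf : G.Full) {ι : Type} [Fintype ι] (v : ι → V) :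
    ∃ c : Kf k, c ≠ 0 ∧ ∃ n, ∀ i, c • v i ∈ G n := by
  classical
  choose c hc n hn using fun i => hf (v i)
  obtain ⟨g, d, hg, -, -, hgc⟩ := exists_common_den fun i => (c i)⁻¹
  obtain ⟨b, hb⟩ := exists_common_degree G (fun i => g • v i) (fun i => n i + d) fun i => by
    have := G.smul_mem' (hgc i) (hn i)
    rwa [← mul_smul, mul_assoc, inv_mul_cancel₀ (hc i), mul_one] at this
  exact ⟨g, hg, b, hb⟩

end Fam

/-- A power of `f` maps `G` into `H`. -/
def Nil (G H : Fam k V) (f : Kf k) (d : ℤ) : Prop := ∃ N : ℕ, Maps G H (f ^ N • ·) (N * d)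

section Nil

omit [IsScalarTower k (Kf k) V]

theorem Nil.mono {G G' H H' : Fam k V} {f : Kf k} {d : ℤ} (h : Nil G H f d) (hG : G' ≤ G)
    (hH : H ≤ H') : Nil G' H' f d := by
  obtain ⟨N, hN⟩ := h
  exact ⟨N, hN.mono hG hH le_rfl⟩

theorem nil_of_le {G H : Fam k V} (h : G ≤ H) (f : Kf k) (d : ℤ) : Nil G H f d :=
  ⟨0, fun n v hv => by simpa using h n hv⟩

theorem maps_pow_le {G H : Fam k V} {f : Kf k} {d : ℤ} (hf : f ∈ A k d) {N M : ℕ}
    (h : Maps G H (f ^ N • ·) (N * d)) (hle : N ≤ M) : Maps G H (f ^ M • ·) (M * d) := by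
  obtain ⟨r, rfl⟩ := Nat.exists_eq_add_of_le hle
  intro n v hv
  simp only [pow_add, mul_comm (f ^ N), mul_smul]
  exact H.smul_mem (A_pow hf r) (h n v hv) (by push_cast; linarith)

theorem Nil.mul {G H : Fam k V} {f g : Kf k} {d e : ℤ} (h : Nil G H f d) (hg : g ∈ A k e) :
    Nil G H (g * f) (e + d) := by
  obtain ⟨N, hN⟩ := h
  refine ⟨N, fun n v hv => ?_⟩
  simp only [mul_pow, mul_smul]
  exact H.smul_mem (A_pow hg N) (hN n v hv) (by linarith)

theorem Nil.trans {G H I : Fam k V} {f : Kf k} {d : ℤ} (h : Nil G H f d) (h' : Nil H I f d) :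
    Nil G I f d := by
  obtain ⟨N, hN⟩ := h
  obtain ⟨M, hM⟩ := h'
  refine ⟨M + N, fun n v hv => ?_⟩
  simp only [pow_add, mul_smul]
  exact I.mono (by push_cast; linarith) (hM _ _ (hN n v hv))

theorem Nil.add {G H : Fam k V} {f g : Kf k} {d : ℤ} (hf : f ∈ A k d) (hg : g ∈ A k d)
    (h : Nil G H f d) (h' : Nil G H g d) : Nil G H (f + g) d := by
  obtain ⟨N, hN⟩ := h
  obtain ⟨M, hM⟩ := h'
  refine ⟨N + M, fun n v hv => ?_⟩
  simp only [add_pow, Finset.sum_smul]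
  refine Submodule.sum_mem _ fun i hi => ?_
  rw [Finset.mem_range] at hi
  by_cases hiN : N ≤ i
  · rw [mul_assoc, mul_comm (f ^ i), mul_smul]
    refine H.smul_mem (A_mul (A_pow hg _) (A_natCast _ le_rfl)) (maps_pow_le hf hN hiN n v hv) ?_
    rw [Nat.cast_sub (by omega)]; push_cast; linarith
  · rw [mul_right_comm, mul_smul]
    refine H.smul_mem (A_mul (A_pow hf _) (A_natCast _ le_rfl))
      (maps_pow_le hg hM (show M ≤ N + M - i by omega) n v hv) ?_
    rw [Nat.cast_sub (by omega)]; push_cast; linarith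

theorem Nil.sum {ι : Type} {G H : Fam k V} {f : ι → Kf k} {d : ℤ} (s : Finset ι)
    (hf : ∀ i ∈ s, f i ∈ A k d) (h : ∀ i ∈ s, Nil G H (f i) d) : Nil G H (∑ i ∈ s, f i) d := by
  classical
  induction s using Finset.induction_on with
  | empty => exact ⟨1, fun n v _ => by simp⟩
  | insert a s ha ih =>
    rw [Finset.sum_insert ha]
    exact Nil.add (hf a (by simp)) (Submodule.sum_mem _ fun i hi => hf i (by simp [hi]))
      (h a (by simp)) (ih (fun i hi => hf i (by simp [hi])) fun i hi => h i (by simp [hi]))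

theorem Nil.sup {G G' H : Fam k V} {f : Kf k} {d : ℤ} (hf : f ∈ A k d) (h : Nil G H f d)
    (h' : Nil G' H f d) : Nil (G.sup G') H f d := by
  obtain ⟨N, hN⟩ := h
  obtain ⟨M, hM⟩ := h'
  exact ⟨N + M, Maps.sup (θ := DistribSMul.toAddMonoidHom V (f ^ (N + M)))
    (maps_pow_le hf hN (by omega)) (maps_pow_le hf hM (by omega))⟩

theorem Nil.bsup {ι : Type} {s : Finset ι} {G : ι → Fam k V} {H : Fam k V} {f : Kf k} {d : ℤ}
    (hf : f ∈ A k d) (h : ∀ i ∈ s, Nil (G i) H f d) : Nil (Fam.bsup s G) H f d := by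
  classical
  choose! N hN using h
  exact ⟨∑ i ∈ s, N i, Maps.bsup (θ := DistribSMul.toAddMonoidHom V (f ^ (∑ i ∈ s, N i)))
    fun i hi => maps_pow_le hf (hN i hi)
      (Finset.single_le_sum (f := N) (fun _ _ => Nat.zero_le _) hi)⟩

end Nil

omit [IsScalarTower k (Kf k) V] in
theorem Nil.ksmul {G H : Fam k V} {f : Kf k} {d : ℤ} (h : Nil G H f d) (r : k) :
    Nil G H (r • f) d := by
  have := h.mul (A_algebraMap r le_rfl)
  rwa [zero_add, ← Algebra.smul_def] at this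

theorem Nil.inf {G H : Fam k V} {f : Kf k} {d : ℤ} (h : Nil G H f d) (U : Submodule (Kf k) V) :
    Nil (G.inf U) (H.inf U) f d := by
  obtain ⟨N, hN⟩ := h
  exact ⟨N, fun n v hv => ⟨hN n v hv.1, U.smul_mem _ hv.2⟩⟩

theorem le_sat_of_nil {G H : Fam k V} {f g : Kf k} {d e : ℤ} (hc : Cop f d g e)
    (h1 : Nil G H f d) (h2 : Nil G H g e) : G ≤ H.sat hc := by
  obtain ⟨N, hN⟩ := h1
  obtain ⟨M, hM⟩ := h2
  exact fun n v hv => Fam.mem_sat_of hc N M (hN n v hv) (hM n v hv)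

theorem le_sat_of_nil_pi (hk : BigChar k) {G H : Fam k V} (h : ∀ c, Nil G H (piK k c) 120) :
    G ≤ H.sat (cop_arr hk) := by
  refine le_sat_of_nil _ ?_ (Nil.sum _ (fun c _ => piK_mem c) fun c _ => h c)
  rw [Lam_eq (ta (0, 0))]
  exact (h _).mul (ellK_mem _)

omit [IsScalarTower k (Kf k) V] in
theorem Nil.pi_of_ell {G H : Fam k V} {a c : Ln} (h : Nil G H (ellK k a) 4) (hac : a ≠ c) :
    Nil G H (piK k c) 120 := by
  obtain ⟨g, hg, e⟩ := piK_eq (k := k) hac
  rw [e]; exact h.mul hg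

theorem le_sat_of_two (hk : BigChar k) {G H : Fam k V} {a b : Ln} (hab : a ≠ b)
    (ha : Nil G H (ellK k a) 4) (hb : Nil G H (ellK k b) 4) : G ≤ H.sat (cop_arr hk) := by
  refine le_sat_of_nil_pi hk fun c => ?_
  by_cases h : a = c
  · exact hb.pi_of_ell (fun e => hab (h.trans e.symm))
  · exact ha.pi_of_ell h

theorem sat_stab {G : Fam k V} {f g : Kf k} {d e : ℤ} (hc : Cop f d g e) {θ : V →ₗ[Kf k] V}
    {c : ℤ} (h : Maps G (G.sat hc) θ c) : Maps (G.sat hc) (G.sat hc) θ c := by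
  rintro n v ⟨M, h1, h2⟩
  refine (Fam.sat_closed G hc).pow hc.fmem hc.gmem M M _ _ ?_ ?_
  · rw [← map_smul]; exact (G.sat hc).mono (by omega) (h _ _ h1)
  · rw [← map_smul]; exact (G.sat hc).mono (by omega) (h _ _ h2)

theorem sat_stab_leibniz {G : Fam k V} {f g : Kf k} {d e : ℤ} (hc : Cop f d g e) {D : V → V}
    {c : ℤ} (h : Maps G G D c)
    (hL : ∀ m, ∀ a ∈ A k m, ∃ b ∈ A k (m + c), ∀ v, D (a • v) = a • D v + b • v) :
    Maps (G.sat hc) (G.sat hc) D c := by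
  have aux : ∀ {f : Kf k} {d : ℤ}, f ∈ A k d → ∀ (M : ℕ) n v, f ^ M • v ∈ G (n + M * d) →
      f ^ (M + M) • D v ∈ G (n + c + (M + M : ℕ) * d) := by
    intro f d hf M n v hv
    obtain ⟨b, hb, e⟩ := hL _ _ (A_pow hf M)
    have e2 : f ^ (M + M) • D v = f ^ M • D (f ^ M • v) - b • f ^ M • v := by
      rw [e, smul_add, pow_add, mul_smul, smul_comm b]; abel
    rw [e2]
    refine sub_mem (G.smul_mem (A_pow hf M) (h _ _ hv) ?_) (G.smul_mem hb hv ?_)
    · push_cast; linarith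
    · push_cast; linarith
  rintro n v ⟨M, h1, h2⟩
  exact ⟨M + M, aux hc.fmem M n v h1, aux hc.gmem M n v h2⟩

/-- A finitely generated quotient killed by powers of `x`, `Y`, `Z` vanishes in large degree. -/
theorem eventually_le_of_nil [FiniteDimensional (Kf k) V] {G H : Fam k V} (hb : G.Bdd)
    (hx : Nil G H 1 1) (hy : Nil G H (yK k) 4) (hz : Nil G H (zK k) 4) :
    ∀ᶠ n in atTop, G n ≤ H n := by
  obtain ⟨N, v, d, hv⟩ := hb.fg
  have hvm : ∀ j, v j ∈ G (d j) := fun j => hv ▸ Fam.self_mem_gen v d j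
  obtain ⟨M, hM⟩ := hx
  obtain ⟨My, hMy⟩ := hy
  obtain ⟨Mz, hMz⟩ := hz
  filter_upwards [eventually_ge_atTop (∑ j, |d j| + M + 4 * My + 4 * Mz)] with n hn w hw
  rw [hv] at hw
  obtain ⟨c, hc, rfl⟩ := Fam.mem_gen.1 hw
  refine Submodule.sum_mem _ fun l _ => ?_
  have h2 : |d l| ≤ ∑ j, |d j| :=
    Finset.single_le_sum (f := fun j => |d j|) (fun _ _ => abs_nonneg _) (Finset.mem_univ l)
  have h3 := le_abs_self (d l)
  refine A_induction (P := fun c => c • v l ∈ H n) ?_ (by simp) ?_ ?_ (hc l)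
  · intro i j hij
    by_cases hi : My ≤ i
    · rw [mul_comm, mul_smul]
      exact H.smul_mem (A_pow zK_mem j) (maps_pow_le yK_mem hMy hi _ _ (hvm l)) (by omega)
    by_cases hj : Mz ≤ j
    · rw [mul_smul]
      exact H.smul_mem (A_pow yK_mem i) (maps_pow_le zK_mem hMz hj _ _ (hvm l)) (by omega)
    · have := hM _ _ (hvm l)
      simp only [one_pow, one_smul] at this
      exact H.smul_mem (monomial_mem_A le_rfl) this (by omega)
  · intro a b ha hb; rw [add_smul]; exact add_mem ha hb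
  · intro r a ha; rw [smul_assoc]; exact Submodule.smul_mem _ _ ha

theorem nil_one_of_forall [FiniteDimensional (Kf k) V] {G H : Fam k V} (hb : G.Bdd)
    (h : ∀ n, ∀ v ∈ G n, ∃ M : ℤ, v ∈ H (n + M)) : Nil G H 1 1 := by
  obtain ⟨N, v, d, hv⟩ := hb.fg
  have hvm : ∀ j, v j ∈ G (d j) := fun j => hv ▸ Fam.self_mem_gen v d j
  choose M hM using fun j => h _ _ (hvm j)
  refine ⟨∑ j, (M j).natAbs, fun n w hw => ?_⟩
  rw [hv] at hw
  obtain ⟨c, hc, rfl⟩ := Fam.mem_gen.1 hw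
  simp only [one_pow, one_smul]
  refine Submodule.sum_mem _ fun l _ => H.smul_mem (hc l) (hM l) ?_
  have h2 : (M l).natAbs ≤ ∑ j, (M j).natAbs :=
    Finset.single_le_sum (f := fun j => (M j).natAbs) (fun _ _ => Nat.zero_le _) (Finset.mem_univ l)
  omega

/-- Localisation at a point of the arrangement. -/
theorem eventually_le_of_point (hk : BigChar k) [FiniteDimensional (Kf k) V] {G H : Fam k V}
    (hb : G.Bdd) (P : Pt) (ha : Nil G H (ellK k (pa P)) 4) (hb' : Nil G H (ellK k (pb P)) 4)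
    {e : ℤ} (hg : Nil G H (∏ d ∈ (plines P)ᶜ, ellK k d) e) : ∀ᶠ n in atTop, G n ≤ H n := by
  have h1 : Nil G H 1 1 := by
    refine nil_one_of_forall hb fun n v hv => ?_
    let J : Ideal (Bp k) :=
      { carrier := {c | ∃ M : ℤ, toK k c • v ∈ H (n + M)}
        zero_mem' := ⟨0, by simp⟩
        add_mem' := by
          rintro a b ⟨M, hM⟩ ⟨N, hN⟩
          refine ⟨max M N, ?_⟩
          rw [map_add, add_smul]
          exact add_mem (H.mono (by omega) hM) (H.mono (by omega) hN)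
        smul_mem' := by
          rintro a b ⟨M, hM⟩
          refine ⟨M + 4 * a.totalDegree, ?_⟩
          rw [smul_eq_mul, map_mul, mul_smul]
          exact H.smul_mem (toK_mem_A.2 (self_mem_Adeg a)) hM (by omega) }
    obtain ⟨N1, h1⟩ := ha
    obtain ⟨N2, h2⟩ := hb'
    obtain ⟨N3, h3⟩ := hg
    have hJ : J = ⊤ := by
      refine ideal_eq_top hk P J (N1 := N1) (N2 := N2) (N3 := N3) ⟨N1 * 4, ?_⟩ ⟨N2 * 4, ?_⟩
        ⟨N3 * e, ?_⟩
      · rw [map_pow]; exact h1 n v hv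
      · rw [map_pow]; exact h2 n v hv
      · rw [map_pow, map_prod]; exact h3 n v hv
    obtain ⟨M, hM⟩ : (1 : Bp k) ∈ J := hJ ▸ Submodule.mem_top
    exact ⟨M, by simpa using hM⟩
  have h4 : Nil G H 1 4 := by
    have := h1.mul (A_one (show (0 : ℤ) ≤ 3 by norm_num))
    simpa using this
  have aux : ∀ α β γ : k, Nil G H (α • (1 : Kf k) + β • ellK k (pa P) + γ • ellK k (pb P)) 4 := by
    intro α β γ
    have m1 : α • (1 : Kf k) ∈ A k 4 := Submodule.smul_mem _ _ (A_one (by norm_num))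
    have m2 : β • ellK k (pa P) ∈ A k 4 := Submodule.smul_mem _ _ (ellK_mem _)
    have m3 : γ • ellK k (pb P) ∈ A k 4 := Submodule.smul_mem _ _ (ellK_mem _)
    exact Nil.add (add_mem m1 m2) m3 (Nil.add m1 m2 (h4.ksmul α) (ha.ksmul β)) (hb'.ksmul γ)
  obtain ⟨α, β, γ, ey⟩ := y_pair hk (pa_ne_pb P)
  obtain ⟨α', β', γ', ez⟩ := z_pair hk (pa_ne_pb P)
  exact eventually_le_of_nil hb h1 (ey ▸ aux α β γ) (ez ▸ aux α' β' γ')

section Dim

variable {W : Type} [AddCommGroup W] [Module k W]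

theorem finrank_dirsum {ι : Type} [Fintype ι] (X X' : ι → Submodule k W) (Y Z : Submodule k W)
    [Module.Finite k Z] [∀ i, Module.Finite k (X' i)] (hY : Y ≤ Z) (hX : ∀ i, X i ≤ Z)
    (hind : ∀ x : ι → W, (∀ i, x i ∈ X i) → ∑ i, x i ∈ Y → ∀ i, x i ∈ X' i) :
    finrank k Y + ∑ i, finrank k (X i) ≤ finrank k Z + ∑ i, finrank k (X' i) := by
  have hXf : ∀ i, Module.Finite k (X i) := fun i => Submodule.finiteDimensional_of_le (hX i)
  let s : (ι → W) →ₗ[k] W := ∑ i, LinearMap.proj i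
  have hs : ∀ x, s x = ∑ i, x i := fun x => by simp [s, LinearMap.sum_apply]
  let π : (ι → W) →ₗ[k] W ⧸ Y := Y.mkQ ∘ₗ s
  have hfin : ∀ (X : ι → Submodule k W) [∀ i, Module.Finite k (X i)],
      Module.Finite k (Submodule.pi Set.univ X) := by
    intro X _
    rw [Module.Finite.iff_fg]
    exact Submodule.fg_pi fun i => Module.Finite.iff_fg.1 inferInstance
  have := hfin X
  have := hfin X'
  have e1 := Fam.finrank_inf_ker_add (Submodule.pi Set.univ X) π
  have e2 := Fam.finrank_inf_ker_add Z Y.mkQ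
  have e4 : Z ⊓ LinearMap.ker Y.mkQ = Y := by
    rw [Submodule.ker_mkQ]; exact inf_eq_right.2 hY
  have e5 : Submodule.pi Set.univ X ⊓ LinearMap.ker π ≤ Submodule.pi Set.univ X' := by
    rintro x ⟨h1, h2⟩ i _
    refine hind x (fun i => h1 i trivial) ?_ i
    have : Y.mkQ (s x) = 0 := h2
    rwa [Submodule.mkQ_apply, Submodule.Quotient.mk_eq_zero, hs] at this
  have e6 : (Submodule.pi Set.univ X).map π ≤ Z.map Y.mkQ := by
    rintro _ ⟨x, hx, rfl⟩
    refine ⟨s x, ?_, rfl⟩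
    rw [hs]; exact Submodule.sum_mem _ fun i _ => hX i (hx i trivial)
  have e7 := Submodule.finrank_mono e5
  have e8 := Submodule.finrank_mono e6
  rw [Fam.finrank_pi_submodule] at e1 e7
  rw [e4] at e2
  omega

theorem finite_biSup {ι : Type} (s : Finset ι) (X : ι → Submodule k W)
    [∀ i, Module.Finite k (X i)] : Module.Finite k (⨆ i ∈ s, X i : Submodule k W) := by
  rw [Module.Finite.iff_fg]
  exact Submodule.fg_biSup s _ fun i _ => Module.Finite.iff_fg.1 inferInstance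

theorem finrank_iSup_le {ι : Type} (s : Finset ι) (X : ι → Submodule k W) (X0 : Submodule k W)
    [Module.Finite k X0] [∀ i, Module.Finite k (X i)] (h : ∀ i, X0 ≤ X i) :
    finrank k (X0 ⊔ ⨆ i ∈ s, X i : Submodule k W) + s.card * finrank k X0 ≤
      finrank k X0 + ∑ i ∈ s, finrank k (X i) := by
  classical
  induction s using Finset.induction_on with
  | empty =>
    have : (⨆ i ∈ (∅ : Finset ι), X i) = ⊥ := by simp
    rw [this, sup_bot_eq]; simp
  | insert a s ha ih =>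
    have := finite_biSup s X
    rw [Finset.iSup_insert, Finset.card_insert_of_notMem ha, Finset.sum_insert ha,
      sup_left_comm]
    have e := Submodule.finrank_sup_add_finrank_inf_eq (X a) (X0 ⊔ ⨆ i ∈ s, X i)
    have e2 : finrank k X0 ≤ finrank k (X a ⊓ (X0 ⊔ ⨆ i ∈ s, X i) : Submodule k W) :=
      Submodule.finrank_mono (le_inf (h a) le_sup_left)
    rw [add_mul]
    omega

end Dim

theorem h_bsup_le {ι : Type} (s : Finset ι) {G : ι → Fam k V} {G0 : Fam k V} (hb0 : G0.Bdd)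
    (hb : ∀ i, (G i).Bdd) (h : ∀ i, G0 ≤ G i) (n : ℤ) :
    (Fam.bsup s G).h n ≤ G0.h n + ∑ i ∈ s, ((G i).h n - G0.h n) := by
  have := hb0.finite n
  have := fun i => (hb i).finite n
  have e := finrank_iSup_le s (fun i => G i n) (G0 n) fun i => h i n
  have := finite_biSup s fun i => G i n
  have e2 : finrank k (Fam.bsup s G n) ≤ finrank k (G0 n ⊔ ⨆ i ∈ s, G i n : Submodule k V) :=
    Submodule.finrank_mono le_sup_right
  rw [Finset.sum_sub_distrib, Finset.sum_const]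
  unfold Fam.h
  zify at e e2
  simp only [nsmul_eq_mul]
  linarith

theorem h_dirsum {ι : Type} [Fintype ι] {X X' : ι → Fam k V} {Y Z : Fam k V} (hZ : Z.Bdd)
    (hX' : ∀ i, (X' i).Bdd) (hY : Y ≤ Z) (hX : ∀ i, X i ≤ Z) {n : ℤ}
    (hind : ∀ x : ι → V, (∀ i, x i ∈ X i n) → ∑ i, x i ∈ Y n → ∀ i, x i ∈ X' i n) :
    Y.h n + ∑ i, ((X i).h n - (X' i).h n) ≤ Z.h n := by
  have := hZ.finite n
  have := fun i => (hX' i).finite n
  have e := finrank_dirsum (fun i => X i n) (fun i => X' i n) (Y n) (Z n) (hY n)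
    (fun i => hX i n) hind
  rw [Finset.sum_sub_distrib]
  unfold Fam.h
  zify at e
  linarith

end Vale.Agent.P190
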