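import Mathlib

/-!
Numerical part: Hilbert functions of graded modules over a polynomial ring with weights 1, 4, 4.
`DQ h` is the numerator of the Hilbert series, `mom j h` its moments.
-/

namespace Vale.Agent.P190

open Finset Filter

/-- The numerator `(1 - S) (1 - S ^ 4) ^ 2 h`, with `S` the shift. -/
def DQ (h : ℤ → ℤ) (n : ℤ) : ℤ :=
  h n - h (n - 1) - 2 * h (n - 4) + 2 * h (n - 5) + h (n - 8) - h (n - 9)

/-- `h` vanishes far to the left and its numerator vanishes far to the right. -/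
structure Good (h : ℤ → ℤ) : Prop where
  left : ∃ n0 : ℤ, ∀ n < n0, h n = 0
  right : ∃ n1 : ℤ, ∀ n > n1, DQ h n = 0

/-- Pairing of a weight function with a finitely supported function. -/
noncomputable def fs (w Q : ℤ → ℤ) : ℤ := ∑ᶠ n, w n * Q n

/-- Pairing of a weight function with the numerator. -/
noncomputable def pair (w h : ℤ → ℤ) : ℤ := fs w (DQ h)

/-- Moments of the numerator. -/
noncomputable def mom (j : ℕ) (h : ℤ → ℤ) : ℤ := pair (fun n => n ^ j) h

/-- Smoothed function. -/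
def sm (h : ℤ → ℤ) (n : ℤ) : ℤ := ∑ i ∈ range 4, ∑ j ∈ range 4, h (n - i - j)

/-- Twice the polynomial that eventually agrees with `sm h`. -/
noncomputable def PP (h : ℤ → ℤ) (n : ℤ) : ℤ :=
  mom 0 h * (n ^ 2 + 3 * n + 2) - mom 1 h * (2 * n + 3) + mom 2 h

/-- Hilbert function of the weighted polynomial ring. -/
def aa (n : ℤ) : ℤ := if n < 0 then 0 else (n / 4 + 1) * (n / 4 + 2) / 2

theorem Good.finite {h : ℤ → ℤ} (hh : Good h) : (Function.support (DQ h)).Finite := by
  obtain ⟨n0, h0⟩ := hh.left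
  obtain ⟨n1, h1⟩ := hh.right
  refine (Set.finite_Icc n0 n1).subset ?_
  intro n hn
  rw [Function.mem_support] at hn
  constructor
  · by_contra hlt
    push Not at hlt
    apply hn
    unfold DQ
    rw [h0 n hlt, h0 (n - 1) (by omega), h0 (n - 4) (by omega), h0 (n - 5) (by omega),
      h0 (n - 8) (by omega), h0 (n - 9) (by omega)]
    ring
  · by_contra hlt
    push Not at hlt
    exact hn (h1 n hlt)

theorem fs_finite (w : ℤ → ℤ) {Q : ℤ → ℤ} (hQ : (Function.support Q).Finite) :
    (Function.support fun n => w n * Q n).Finite :=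
  hQ.subset fun n hn => by
    rw [Function.mem_support] at hn ⊢
    intro h0; apply hn; simp [h0]

theorem fs_add (w : ℤ → ℤ) {Q Q' : ℤ → ℤ} (hQ : (Function.support Q).Finite)
    (hQ' : (Function.support Q').Finite) :
    fs w (fun n => Q n + Q' n) = fs w Q + fs w Q' := by
  unfold fs
  rw [← finsum_add_distrib (fs_finite w hQ) (fs_finite w hQ')]
  congr 1; ext n; ring

theorem fs_cmul (w : ℤ → ℤ) (c : ℤ) {Q : ℤ → ℤ} (hQ : (Function.support Q).Finite) :
    fs w (fun n => c * Q n) = c * fs w Q := by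
  unfold fs
  rw [mul_finsum' _ _ (fs_finite w hQ)]
  congr 1; ext n; ring

theorem fs_add_left (w w' : ℤ → ℤ) {Q : ℤ → ℤ} (hQ : (Function.support Q).Finite) :
    fs (fun n => w n + w' n) Q = fs w Q + fs w' Q := by
  unfold fs
  rw [← finsum_add_distrib (fs_finite w hQ) (fs_finite w' hQ)]
  congr 1; ext n; ring

theorem fs_cmul_left (w : ℤ → ℤ) (c : ℤ) {Q : ℤ → ℤ} (hQ : (Function.support Q).Finite) :
    fs (fun n => c * w n) Q = c * fs w Q := by
  unfold fs
  rw [mul_finsum' _ _ (fs_finite w hQ)]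
  congr 1; ext n; ring

theorem fs_shift (w Q : ℤ → ℤ) (d : ℤ) :
    fs w (fun n => Q (n - d)) = fs (fun n => w (n + d)) Q := by
  unfold fs
  rw [← finsum_comp_equiv (Equiv.addRight d)]
  simp

theorem fs_eq_sum (w : ℤ → ℤ) {Q : ℤ → ℤ} {s : Finset ℤ} (hs : Function.support Q ⊆ s) :
    fs w Q = ∑ n ∈ s, w n * Q n := by
  unfold fs
  apply finsum_eq_sum_of_support_subset
  intro n hn
  apply hs
  rw [Function.mem_support] at hn ⊢
  intro h0; apply hn; simp [h0]

theorem fs_congr {w w' Q : ℤ → ℤ} (h : ∀ n, Q n ≠ 0 → w n = w' n) : fs w Q = fs w' Q := by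
  unfold fs
  congr 1; ext n
  by_cases hq : Q n = 0
  · simp [hq]
  · rw [h n hq]

theorem fs_single (Q : ℤ → ℤ) (a c : ℤ) :
    fs (fun n => if n = a then c else 0) Q = c * Q a := by
  unfold fs
  rw [finsum_eq_single _ a]
  · simp
  · intro x hx; simp [hx]

theorem fs_delta (w : ℤ → ℤ) (a : ℤ) : fs w (fun n => if n = a then 1 else 0) = w a := by
  unfold fs
  rw [finsum_eq_single _ a]
  · simp
  · intro x hx; simp [hx]

theorem Good.zero : Good (fun _ => 0) :=
  ⟨⟨0, fun _ _ => rfl⟩, ⟨0, fun _ _ => by simp [DQ]⟩⟩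

theorem Good.add {h h' : ℤ → ℤ} (hh : Good h) (hh' : Good h') : Good (fun n => h n + h' n) := by
  obtain ⟨a, ha⟩ := hh.left
  obtain ⟨b, hb⟩ := hh'.left
  obtain ⟨c, hc⟩ := hh.right
  obtain ⟨d, hd⟩ := hh'.right
  refine ⟨⟨min a b, fun n hn => ?_⟩, ⟨max c d, fun n hn => ?_⟩⟩
  · rw [ha n (by omega), hb n (by omega)]; rfl
  · have h1 := hc n (by omega)
    have h2 := hd n (by omega)
    unfold DQ at *; linarith

theorem Good.cmul {h : ℤ → ℤ} (hh : Good h) (c : ℤ) : Good (fun n => c * h n) := by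
  obtain ⟨a, ha⟩ := hh.left
  obtain ⟨b, hb⟩ := hh.right
  refine ⟨⟨a, fun n hn => by rw [ha n hn]; ring⟩, ⟨b, fun n hn => ?_⟩⟩
  have h1 := hb n hn
  unfold DQ at *
  linear_combination c * h1

theorem Good.sub {h h' : ℤ → ℤ} (hh : Good h) (hh' : Good h') : Good (fun n => h n - h' n) := by
  have := hh.add (hh'.cmul (-1))
  convert this using 2; ring

theorem Good.shift {h : ℤ → ℤ} (hh : Good h) (d : ℤ) : Good (fun n => h (n - d)) := by
  obtain ⟨a, ha⟩ := hh.left
  obtain ⟨b, hb⟩ := hh.right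
  refine ⟨⟨a + d, fun n hn => ha _ (by omega)⟩, ⟨b + d, fun n hn => ?_⟩⟩
  have h1 := hb (n - d) (by omega)
  unfold DQ at *
  simp only [sub_right_comm _ _ d]
  exact h1

theorem Good.sum {ι : Type*} (s : Finset ι) {h : ι → ℤ → ℤ} (hh : ∀ i ∈ s, Good (h i)) :
    Good (fun n => ∑ i ∈ s, h i n) := by
  classical
  induction s using Finset.induction_on with
  | empty => simpa using Good.zero
  | insert a s ha ih =>
    simp only [Finset.sum_insert ha]
    exact (hh a (by simp)).add (ih fun i hi => hh i (by simp [hi]))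

theorem DQ_add (h h' : ℤ → ℤ) : DQ (fun n => h n + h' n) = fun n => DQ h n + DQ h' n := by
  ext n; unfold DQ; ring

theorem DQ_cmul (c : ℤ) (h : ℤ → ℤ) : DQ (fun n => c * h n) = fun n => c * DQ h n := by
  ext n; unfold DQ; ring

theorem DQ_shift (h : ℤ → ℤ) (d : ℤ) : DQ (fun n => h (n - d)) = fun n => DQ h (n - d) := by
  ext n; unfold DQ; simp only [sub_right_comm _ _ d]

theorem pair_zero (w : ℤ → ℤ) : pair w (fun _ => 0) = 0 := by
  simp [pair, fs, DQ]

theorem pair_add (w : ℤ → ℤ) {h h' : ℤ → ℤ} (hh : Good h) (hh' : Good h') :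
    pair w (fun n => h n + h' n) = pair w h + pair w h' := by
  unfold pair; rw [DQ_add, fs_add w hh.finite hh'.finite]

theorem pair_cmul (w : ℤ → ℤ) (c : ℤ) {h : ℤ → ℤ} (hh : Good h) :
    pair w (fun n => c * h n) = c * pair w h := by
  unfold pair; rw [DQ_cmul, fs_cmul w c hh.finite]

theorem pair_sub (w : ℤ → ℤ) {h h' : ℤ → ℤ} (hh : Good h) (hh' : Good h') :
    pair w (fun n => h n - h' n) = pair w h - pair w h' := by
  have := pair_add w hh (hh'.cmul (-1))
  rw [pair_cmul w (-1) hh'] at this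
  have e : (fun n => h n - h' n) = fun n => h n + -1 * h' n := by ext n; ring
  rw [e, this]; ring

theorem pair_sum (w : ℤ → ℤ) {ι : Type*} (s : Finset ι) {h : ι → ℤ → ℤ}
    (hh : ∀ i ∈ s, Good (h i)) :
    pair w (fun n => ∑ i ∈ s, h i n) = ∑ i ∈ s, pair w (h i) := by
  classical
  induction s using Finset.induction_on with
  | empty => simpa using pair_zero w
  | insert a s ha ih =>
    simp only [Finset.sum_insert ha]
    rw [pair_add w (hh a (by simp)) (Good.sum s fun i hi => hh i (by simp [hi])),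
      ih fun i hi => hh i (by simp [hi])]

theorem pair_shift (w h : ℤ → ℤ) (d : ℤ) :
    pair w (fun n => h (n - d)) = pair (fun n => w (n + d)) h := by
  unfold pair; rw [DQ_shift, fs_shift]

theorem pair_add_left (w w' : ℤ → ℤ) {h : ℤ → ℤ} (hh : Good h) :
    pair (fun n => w n + w' n) h = pair w h + pair w' h := fs_add_left w w' hh.finite

theorem pair_cmul_left (w : ℤ → ℤ) (c : ℤ) {h : ℤ → ℤ} (hh : Good h) :
    pair (fun n => c * w n) h = c * pair w h := fs_cmul_left w c hh.finite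

/-- Pairing with a quadratic polynomial. -/
theorem pair_quad (a b c : ℤ) {h : ℤ → ℤ} (hh : Good h) :
    pair (fun n => a * n ^ 2 + b * n + c) h = a * mom 2 h + b * mom 1 h + c * mom 0 h := by
  unfold mom
  rw [← pair_cmul_left _ a hh, ← pair_cmul_left _ b hh, ← pair_cmul_left _ c hh,
    ← pair_add_left _ _ hh, ← pair_add_left _ _ hh]
  congr 1; ext n; ring

theorem mom_add (j : ℕ) {h h' : ℤ → ℤ} (hh : Good h) (hh' : Good h') :
    mom j (fun n => h n + h' n) = mom j h + mom j h' := pair_add _ hh hh'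

theorem mom_sub (j : ℕ) {h h' : ℤ → ℤ} (hh : Good h) (hh' : Good h') :
    mom j (fun n => h n - h' n) = mom j h - mom j h' := pair_sub _ hh hh'

theorem mom_cmul (j : ℕ) (c : ℤ) {h : ℤ → ℤ} (hh : Good h) :
    mom j (fun n => c * h n) = c * mom j h := pair_cmul _ c hh

theorem mom_sum (j : ℕ) {ι : Type*} (s : Finset ι) {h : ι → ℤ → ℤ} (hh : ∀ i ∈ s, Good (h i)) :
    mom j (fun n => ∑ i ∈ s, h i n) = ∑ i ∈ s, mom j (h i) := pair_sum _ s hh

theorem mom_zero (j : ℕ) : mom j (fun _ => 0) = 0 := pair_zero _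

theorem mom0_shift (h : ℤ → ℤ) (d : ℤ) : mom 0 (fun n => h (n - d)) = mom 0 h := by
  unfold mom; rw [pair_shift]; simp

theorem mom1_shift {h : ℤ → ℤ} (hh : Good h) (d : ℤ) :
    mom 1 (fun n => h (n - d)) = mom 1 h + d * mom 0 h := by
  have := pair_quad 0 1 d hh
  unfold mom at *; rw [pair_shift]
  simp only [zero_mul, zero_add, one_mul, pow_one] at *
  exact this

theorem mom2_shift {h : ℤ → ℤ} (hh : Good h) (d : ℤ) :
    mom 2 (fun n => h (n - d)) = mom 2 h + 2 * d * mom 1 h + d ^ 2 * mom 0 h := by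
  have := pair_quad 1 (2 * d) (d ^ 2) hh
  rw [one_mul] at this
  rw [← this]
  unfold mom; rw [pair_shift]
  congr 1; ext n; ring

/-- Uniqueness for the third difference. -/
theorem eq_zero_of_diff3 {f : ℤ → ℤ} (n0 : ℤ) (h0 : ∀ n < n0, f n = 0)
    (hd : ∀ n, f n - 3 * f (n - 1) + 3 * f (n - 2) - f (n - 3) = 0) : ∀ n, f n = 0 := by
  have key : ∀ m : ℕ, ∀ n < n0 + m, f n = 0 := by
    intro m
    induction m with
    | zero => intro n hn; exact h0 n (by simpa using hn)
    | succ m ih =>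
      intro n hn
      have h1 := ih (n - 1) (by push_cast at hn; omega)
      have h2 := ih (n - 2) (by push_cast at hn; omega)
      have h3 := ih (n - 3) (by push_cast at hn; omega)
      have := hd n
      omega
  intro n
  exact key (n - n0 + 1).toNat n (by omega)

theorem sm_diff3 (h : ℤ → ℤ) (n : ℤ) :
    sm h n - 3 * sm h (n - 1) + 3 * sm h (n - 2) - sm h (n - 3) = DQ h n := by
  unfold sm DQ
  simp only [Finset.sum_range_succ, Finset.sum_range_zero, Nat.cast_zero, Nat.cast_one,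
    Nat.cast_ofNat, sub_sub]
  norm_num
  ring

/-- The triangular weight. -/
def tri (t : ℤ) : ℤ := if 0 ≤ t then (t + 1) * (t + 2) else 0

theorem tri_diff3 (t : ℤ) :
    tri t - 3 * tri (t - 1) + 3 * tri (t - 2) - tri (t - 3) = if t = 0 then 2 else 0 := by
  unfold tri
  rcases lt_trichotomy t 0 with h | h | h
  · rw [if_neg (by omega), if_neg (by omega), if_neg (by omega), if_neg (by omega),
      if_neg (by omega)]; ring
  · subst h; norm_num
  · rw [if_neg (show ¬ t = 0 by omega)]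
    obtain h1 | h1 | h1 : t = 1 ∨ t = 2 ∨ 3 ≤ t := by omega
    · subst h1; norm_num
    · subst h1; norm_num
    · rw [if_pos (by omega), if_pos (by omega), if_pos (by omega), if_pos (by omega)]; ring

theorem Good.two_sm {h : ℤ → ℤ} (hh : Good h) (n : ℤ) :
    2 * sm h n = pair (fun j => tri (n - j)) h := by
  obtain ⟨n0, h0⟩ := hh.left
  have key := eq_zero_of_diff3 (f := fun n => 2 * sm h n - pair (fun j => tri (n - j)) h) n0 ?_ ?_ n
  · linarith
  · intro n hn
    have e1 : sm h n = 0 := by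
      unfold sm
      refine Finset.sum_eq_zero fun i _ => Finset.sum_eq_zero fun j _ => h0 _ (by omega)
    have e2 : pair (fun j => tri (n - j)) h = pair (fun _ => 0) h := by
      apply fs_congr
      intro j hj
      have : n0 ≤ j := by
        by_contra hlt
        apply hj
        unfold DQ
        rw [h0 j (by omega), h0 (j - 1) (by omega), h0 (j - 4) (by omega), h0 (j - 5) (by omega),
          h0 (j - 8) (by omega), h0 (j - 9) (by omega)]
        ring
      unfold tri; rw [if_neg (by omega)]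
    rw [e1, e2]; simp [pair, fs]
  · intro n
    have e1 := sm_diff3 h n
    have e2 : pair (fun j => tri (n - j)) h - 3 * pair (fun j => tri (n - 1 - j)) h
        + 3 * pair (fun j => tri (n - 2 - j)) h - pair (fun j => tri (n - 3 - j)) h
        = 2 * DQ h n := by
      have e3 : pair (fun j => tri (n - j) + (-3 * tri (n - 1 - j) + (3 * tri (n - 2 - j)
          + -1 * tri (n - 3 - j)))) h = 2 * DQ h n := by
        rw [← fs_single (DQ h) n 2]
        unfold pair
        congr 1; ext j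
        have := tri_diff3 (n - j)
        have e4 : (n - j = 0) ↔ (j = n) := by omega
        simp only [e4] at this
        rw [← this]
        simp only [sub_right_comm _ _ j]; ring
      rw [pair_add_left _ _ hh, pair_add_left _ _ hh, pair_add_left _ _ hh,
        pair_cmul_left _ _ hh, pair_cmul_left _ _ hh, pair_cmul_left _ _ hh] at e3
      linarith
    linarith

theorem PP_eq_pair {h : ℤ → ℤ} (hh : Good h) (n : ℤ) :
    PP h n = pair (fun j => (n - j + 1) * (n - j + 2)) h := by
  have := pair_quad 1 (-(2 * n + 3)) (n ^ 2 + 3 * n + 2) hh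
  unfold PP
  rw [show (fun j => (n - j + 1) * (n - j + 2)) =
    fun j : ℤ => 1 * j ^ 2 + (-(2 * n + 3)) * j + (n ^ 2 + 3 * n + 2) by ext j; ring, this]
  ring

theorem Good.sm_eventually {h : ℤ → ℤ} (hh : Good h) :
    ∀ᶠ n in atTop, 2 * sm h n = PP h n := by
  obtain ⟨n1, h1⟩ := hh.right
  filter_upwards [eventually_ge_atTop n1] with n hn
  rw [hh.two_sm, PP_eq_pair hh]
  apply fs_congr
  intro j hj
  have : j ≤ n1 := by
    by_contra hlt
    exact hj (h1 j (by omega))
  unfold tri; rw [if_pos (by omega)]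

theorem Good.PP_nonneg {h : ℤ → ℤ} (hh : Good h) (h0 : ∀ᶠ n in atTop, 0 ≤ h n) :
    ∀ᶠ n in atTop, 0 ≤ PP h n := by
  obtain ⟨N, hN⟩ := eventually_atTop.1 h0
  filter_upwards [hh.sm_eventually, eventually_ge_atTop (N + 6)] with n e hn
  rw [← e]
  have : 0 ≤ sm h n := by
    unfold sm
    refine Finset.sum_nonneg fun i hi => Finset.sum_nonneg fun j hj => hN _ ?_
    rw [Finset.mem_range] at hi hj
    omega
  linarith

theorem Good.cmp0 {h : ℤ → ℤ} (hh : Good h) (h0 : ∀ᶠ n in atTop, 0 ≤ h n) : 0 ≤ mom 0 h := by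
  by_contra hneg
  push Not at hneg
  obtain ⟨N, hN⟩ := eventually_atTop.1 (hh.PP_nonneg h0)
  set n : ℤ := |N| + 2 * |mom 1 h| + |mom 2 h| + 3 with hn
  have := hN n (by have := le_abs_self N; have := abs_nonneg (mom 1 h)
                   have := abs_nonneg (mom 2 h); omega)
  unfold PP at this
  have a1 := neg_abs_le (mom 1 h)
  have a2 := le_abs_self (mom 2 h)
  have a3 := abs_nonneg N
  have a4 := abs_nonneg (mom 1 h)
  have a5 := abs_nonneg (mom 2 h)
  have b1 : mom 0 h * (n ^ 2 + 3 * n + 2) ≤ -(n ^ 2 + 3 * n + 2) := by nlinarith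
  have b2 : -(mom 1 h * (2 * n + 3)) ≤ |mom 1 h| * (2 * n + 3) := by nlinarith
  nlinarith

theorem Good.cmp1 {h : ℤ → ℤ} (hh : Good h) (h0 : ∀ᶠ n in atTop, 0 ≤ h n) (e0 : mom 0 h = 0) :
    mom 1 h ≤ 0 := by
  by_contra hneg
  push Not at hneg
  obtain ⟨N, hN⟩ := eventually_atTop.1 (hh.PP_nonneg h0)
  set n : ℤ := |N| + |mom 2 h| with hn
  have := hN n (by have := le_abs_self N; have := abs_nonneg (mom 2 h); omega)
  unfold PP at this
  have a2 := le_abs_self (mom 2 h)
  have a3 := abs_nonneg N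
  have a5 := abs_nonneg (mom 2 h)
  rw [e0] at this
  nlinarith

theorem Good.cmp2 {h : ℤ → ℤ} (hh : Good h) (h0 : ∀ᶠ n in atTop, 0 ≤ h n) (e0 : mom 0 h = 0)
    (e1 : mom 1 h = 0) : 0 ≤ mom 2 h := by
  obtain ⟨N, hN⟩ := eventually_atTop.1 (hh.PP_nonneg h0)
  have := hN N le_rfl
  unfold PP at this
  rw [e0, e1] at this
  linarith

theorem mom0_le {h h' : ℤ → ℤ} (hh : Good h) (hh' : Good h') (hle : ∀ᶠ n in atTop, h n ≤ h' n) :
    mom 0 h ≤ mom 0 h' := by
  have := (hh'.sub hh).cmp0 (hle.mono fun n hn => by linarith)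
  rw [mom_sub 0 hh' hh] at this; linarith

theorem mom1_le {h h' : ℤ → ℤ} (hh : Good h) (hh' : Good h') (hle : ∀ᶠ n in atTop, h n ≤ h' n)
    (e0 : mom 0 h = mom 0 h') : mom 1 h' ≤ mom 1 h := by
  have := (hh'.sub hh).cmp1 (hle.mono fun n hn => by linarith) (by rw [mom_sub 0 hh' hh]; linarith)
  rw [mom_sub 1 hh' hh] at this; linarith

theorem mom2_le {h h' : ℤ → ℤ} (hh : Good h) (hh' : Good h') (hle : ∀ᶠ n in atTop, h n ≤ h' n)
    (e0 : mom 0 h = mom 0 h') (e1 : mom 1 h = mom 1 h') : mom 2 h ≤ mom 2 h' := by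
  have := (hh'.sub hh).cmp2 (hle.mono fun n hn => by linarith)
    (by rw [mom_sub 0 hh' hh]; linarith) (by rw [mom_sub 1 hh' hh]; linarith)
  rw [mom_sub 2 hh' hh] at this; linarith

theorem two_aa {n : ℤ} (hn : -8 ≤ n) : 2 * aa n = (n / 4 + 1) * (n / 4 + 2) := by
  unfold aa
  split_ifs with h
  · obtain h1 | h1 : n / 4 = -1 ∨ n / 4 = -2 := by omega
    · rw [h1]; norm_num
    · rw [h1]; norm_num
  · have : (2 : ℤ) ∣ (n / 4 + 1) * (n / 4 + 2) := by
      have := Int.even_mul_succ_self (n / 4 + 1)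
      rw [add_assoc] at this
      exact even_iff_two_dvd.1 (by simpa [one_add_one_eq_two] using this)
    rw [Int.mul_ediv_cancel' this]

theorem aa_neg {n : ℤ} (hn : n < 0) : aa n = 0 := by unfold aa; rw [if_pos hn]

theorem aa_nonneg (n : ℤ) : 0 ≤ aa n := by
  by_cases h : n < 0
  · rw [aa_neg h]
  · have := two_aa (n := n) (by omega)
    have h1 : 0 ≤ n / 4 := by omega
    nlinarith

theorem aa_mono {m n : ℤ} (h : m ≤ n) : aa m ≤ aa n := by
  by_cases hm : m < 0
  · rw [aa_neg hm]; exact aa_nonneg n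
  · have e1 := two_aa (n := m) (by omega)
    have e2 := two_aa (n := n) (by omega)
    have h1 : 0 ≤ m / 4 := by omega
    have h2 : m / 4 ≤ n / 4 := by omega
    nlinarith

theorem DQ_aa : DQ aa = fun n => if n = 0 then 1 else 0 := by
  ext n
  rcases lt_trichotomy n 0 with h | h | h
  · rw [if_neg (by omega)]
    unfold DQ
    rw [aa_neg h, aa_neg (by omega), aa_neg (by omega), aa_neg (by omega), aa_neg (by omega),
      aa_neg (by omega)]
    ring
  · subst h; decide
  · rw [if_neg (by omega)]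
    have e0 := two_aa (n := n) (by omega)
    have e1 := two_aa (n := n - 1) (by omega)
    have e4 := two_aa (n := n - 4) (by omega)
    have e5 := two_aa (n := n - 5) (by omega)
    have e8 := two_aa (n := n - 8) (by omega)
    have e9 := two_aa (n := n - 9) (by omega)
    rw [show (n - 4) / 4 = n / 4 - 1 by omega] at e4
    rw [show (n - 8) / 4 = n / 4 - 2 by omega] at e8
    rw [show (n - 5) / 4 = (n - 1) / 4 - 1 by omega] at e5
    rw [show (n - 9) / 4 = (n - 1) / 4 - 2 by omega] at e9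
    unfold DQ
    nlinarith

theorem good_aa : Good aa :=
  ⟨⟨0, fun _ hn => aa_neg hn⟩, ⟨0, fun n hn => by rw [DQ_aa]; simp; omega⟩⟩

theorem pair_aa (w : ℤ → ℤ) : pair w aa = w 0 := by
  unfold pair; rw [DQ_aa, fs_delta]

theorem pair_aa_shift (w : ℤ → ℤ) (d : ℤ) : pair w (fun n => aa (n - d)) = w d := by
  rw [pair_shift, pair_aa, zero_add]

theorem mom_aa_shift (j : ℕ) (d : ℤ) : mom j (fun n => aa (n - d)) = d ^ j := pair_aa_shift _ d

theorem two_sm_aa (t : ℤ) : 2 * sm aa t = tri t := by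
  rw [good_aa.two_sm, pair_aa, sub_zero]

/-- Duality formula: the polynomial minus the smoothed function. -/
theorem PP_dual {h : ℤ → ℤ} (hh : Good h) (a : ℤ) :
    PP h a = 2 * sm h a +
      2 * ∑ i ∈ range 4, ∑ j ∈ range 4, pair (fun n => aa (n + (-a - 3 - i - j))) h := by
  have e1 : ∀ (s : Finset (ℕ × ℕ)) (w : ℕ × ℕ → ℤ → ℤ),
      ∑ x ∈ s, pair (w x) h = pair (fun n => ∑ x ∈ s, w x n) h := by
    intro s w
    induction s using Finset.induction_on with
    | empty => simp [pair, fs]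
    | insert x s hx ih =>
      simp only [Finset.sum_insert hx]
      rw [pair_add_left _ _ hh, ih]
  rw [← Finset.sum_product' (f := fun (i j : ℕ) => pair (fun n => aa (n + (-a - 3 - i - j))) h),
    e1, ← pair_cmul_left _ 2 hh, hh.two_sm, ← pair_add_left _ _ hh, PP_eq_pair hh]
  congr 1; ext n
  have e2 := two_sm_aa (n - a - 3)
  unfold sm at e2
  rw [Finset.sum_product' (f := fun (i j : ℕ) => aa (n + (-a - 3 - i - j)))]
  have e3 : ∀ i j : ℕ, n + (-a - 3 - i - j) = n - a - 3 - i - j := by intro i j; ring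
  simp only [e3]
  rw [e2]
  unfold tri
  split_ifs with h1 h2 h2
  · omega
  · ring
  · ring
  · obtain h3 | h3 : n = a + 1 ∨ n = a + 2 := by omega
    · subst h3; ring
    · subst h3; ring

end Vale.Agent.P190
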