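import Vale.Agent.P190.FreeA

/-!
General facts on finite extensions of complete local rings.
-/

noncomputable section

namespace Vale.Agent.P190

open IsLocalRing

theorem precomplete_of_finite {A M : Type} [CommRing A] [AddCommGroup M] [Module A M]
    [Module.Finite A M] (I : Ideal A) [IsPrecomplete I A] : IsPrecomplete I M := by
  rw [← AdicCompletion.of_surjective_iff]
  intro x
  obtain ⟨t, rfl⟩ := AdicCompletion.ofTensorProduct_surjective_of_finite I M x
  induction t using TensorProduct.induction_on with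
  | zero => exact ⟨0, by simp⟩
  | add a b ha hb =>
    obtain ⟨a', ha'⟩ := ha
    obtain ⟨b', hb'⟩ := hb
    exact ⟨a' + b', by rw [map_add, map_add, ha', hb']⟩
  | tmul a m =>
    obtain ⟨a, rfl⟩ := AdicCompletion.of_surjective I A a
    refine ⟨a • m, ?_⟩
    rw [AdicCompletion.ofTensorProduct_tmul, map_smul]
    exact (algebraMap_smul (AdicCompletion I A) a _).symm

theorem precomplete_of_le {R : Type} [CommRing R] {I J : Ideal R} (h1 : I ≤ J) {N : ℕ}
    (h2 : J ^ N ≤ I) [h : IsPrecomplete I R] : IsPrecomplete J R := by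
  refine ⟨fun f hf => ?_⟩
  have h3 : J ^ (N + 1) ≤ I := (Ideal.pow_le_pow_right (by omega)).trans h2
  obtain ⟨L, hL⟩ := h.prec (f := fun n => f ((N + 1) * n)) fun {m n} hmn =>
    (hf (Nat.mul_le_mul_left (N + 1) hmn)).mono (Submodule.smul_mono_left (by
      rw [pow_mul]; exact Ideal.pow_right_mono h3 _))
  refine ⟨L, fun n => (hf (Nat.le_mul_of_pos_left n (Nat.succ_pos N))).trans
    ((hL n).mono (Submodule.smul_mono_left (Ideal.pow_right_mono h1 _)))⟩

theorem le_dim_mvPowerSeries (k : Type) [Field k] (n : ℕ) :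
    (n : WithBot ℕ∞) ≤ ringKrullDim (MvPowerSeries (Fin n) k) := by
  induction n with
  | zero => exact_mod_cast ringKrullDim_nonneg_of_nontrivial
  | succ n ih =>
    rw [ringKrullDim_eq_of_ringEquiv (MvPowerSeries.finSuccEquiv k n).toRingEquiv]
    refine le_trans ?_ ringKrullDim_succ_le_ringKrullDim_powerseries
    push_cast
    gcongr

theorem dim_le_of_integral {A R : Type} [CommRing A] [CommRing R] [Algebra A R]
    [Algebra.IsIntegral A R] [FaithfulSMul A R] : ringKrullDim A ≤ ringKrullDim R := by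
  refine iSup_le fun l => ?_
  obtain ⟨P, hP, hP'⟩ : ∃ P : Ideal R, P.IsPrime ∧ P.LiesOver l.head.asIdeal := by
    obtain ⟨P, hP⟩ := (inferInstance : Nonempty (l.head.asIdeal.primesOver R))
    exact ⟨P, hP⟩
  obtain ⟨L, hL, -⟩ := Ideal.exists_ltSeries_of_hasGoingUp l P
  rw [← hL]
  exact Order.LTSeries.length_le_krullDim L

variable {A R : Type} [CommRing A] [IsLocalRing A] [CommRing R] [Algebra A R] [Module.Finite A R]

theorem map_max_le {P : Ideal R} (hP : P.IsMaximal) :
    (maximalIdeal A).map (algebraMap A R) ≤ P := by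
  rw [Ideal.map_le_iff_le_comap]
  exact (eq_maximalIdeal (Ideal.isMaximal_comap_of_isIntegral_of_isMaximal _)).ge

theorem local_of_gens [Nontrivial R] {S : Set R} (hS : Algebra.adjoin A S = ⊤)
    (h : ∀ P : Ideal R, P.IsMaximal → S ⊆ P) : IsLocalRing R := by
  obtain ⟨P, hP⟩ := Ideal.exists_maximal R
  refine .of_unique_max_ideal ⟨P, hP, fun Q hQ => hQ.eq_of_le hP.ne_top fun r hr => ?_⟩
  have key : ∀ r : R, ∃ a : A, r - algebraMap A R a ∈ P ⊓ Q := by
    intro r
    have hr : r ∈ Algebra.adjoin A S := hS ▸ Algebra.mem_top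
    induction hr using Algebra.adjoin_induction with
    | mem x hx => exact ⟨0, by simpa using ⟨h P hP hx, h Q hQ hx⟩⟩
    | algebraMap a => exact ⟨a, by simp⟩
    | add x y _ _ hx hy =>
      obtain ⟨a, ha⟩ := hx
      obtain ⟨b, hb⟩ := hy
      exact ⟨a + b, by convert add_mem ha hb using 1; rw [map_add]; ring⟩
    | mul x y _ _ hx hy =>
      obtain ⟨a, ha⟩ := hx
      obtain ⟨b, hb⟩ := hy
      refine ⟨a * b, ?_⟩
      convert add_mem (Ideal.mul_mem_right y _ ha) (Ideal.mul_mem_left _ (algebraMap A R a) hb)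
        using 1
      rw [map_mul]; ring
  obtain ⟨a, ha1, ha2⟩ := key r
  have h1 : algebraMap A R a ∈ Q := by simpa using sub_mem hr ha2
  have h2 : a ∈ maximalIdeal A := by
    rw [← eq_maximalIdeal (Ideal.isMaximal_comap_of_isIntegral_of_isMaximal (R := A) Q)]
    exact h1
  simpa using add_mem ha1 (map_max_le hP (Ideal.mem_map_of_mem _ h2))

theorem max_le_radical [IsLocalRing R] :
    maximalIdeal R ≤ ((maximalIdeal A).map (algebraMap A R)).radical := by
  rw [Ideal.radical_eq_sInf]
  refine le_sInf fun P ⟨hP, hP'⟩ => ?_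
  rw [Ideal.map_le_iff_le_comap] at hP
  have : (P.comap (algebraMap A R)).IsMaximal := by
    rw [← (maximalIdeal.isMaximal _).eq_of_le (Ideal.comap_ne_top _ hP'.ne_top) hP]
    infer_instance
  exact (eq_maximalIdeal (Ideal.isMaximal_of_isIntegral_of_isMaximal_comap P this)).ge

theorem complete_of_finite [IsLocalRing R] [IsNoetherianRing R]
    [IsPrecomplete (maximalIdeal A) A] : IsAdicComplete (maximalIdeal R) R := by
  have h1 : IsPrecomplete ((maximalIdeal A).map (algebraMap A R)) R :=
    IsPrecomplete.map_algebraMap_iff.2 (precomplete_of_finite _)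
  obtain ⟨N, hN⟩ := Ideal.exists_pow_le_of_le_radical_of_fg (max_le_radical (A := A) (R := R))
    (IsNoetherian.noetherian _)
  have := precomplete_of_le (map_max_le (maximalIdeal.isMaximal R)) hN
  exact {}

theorem dim_le_of_gens [IsLocalRing R] [IsNoetherianRing R] {x y z : A}
    (h : Ideal.ofList [x, y, z] = maximalIdeal A) : ringKrullDim R ≤ 3 := by
  classical
  rw [← maximalIdeal_height_eq_ringKrullDim]
  have e : (maximalIdeal A).map (algebraMap A R) = Ideal.span
      (({algebraMap A R x, algebraMap A R y, algebraMap A R z} : Finset R) : Set R) := by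
    rw [← h, Ideal.map_ofList, Ideal.ofList]
    congr 1
    ext r; simp
  have hm : maximalIdeal R ∈ ((maximalIdeal A).map (algebraMap A R)).minimalPrimes := by
    refine ⟨⟨inferInstance, map_max_le inferInstance⟩, fun P hP _ => ?_⟩
    exact max_le_radical.trans (hP.1.radical_le_iff.2 hP.2)
  rw [e] at hm
  have := (Ideal.height_le_card_of_mem_minimalPrimes_span_finset hm).trans
    (Nat.cast_le.2 Finset.card_le_three)
  exact WithBot.coe_le_coe.2 this

end Vale.Agent.P190
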