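import Vale.Agent.P190.Arr
import Vale.Agent.P190.RingA

/-!
Construction of the complete local domain.
-/

noncomputable section

namespace Vale.Agent.P190

/-- The homogenised equation of a line, in the power series ring. -/
def ellP (k : Type) [Field k] (i : Ln) : MvPowerSeries (Fin 3) k :=
  MvPowerSeries.X 0 ^ 4 + MvPowerSeries.C (cf i : k) * MvPowerSeries.X 1 +
    MvPowerSeries.C ((cf i : k) ^ 3) * MvPowerSeries.X 2

theorem exists_iota (k : Type) [Field k] :
    ∃ ι : MvPowerSeries (Fin 3) k →+* LaurentSeries (Kf k),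
      (∀ f (n : ℤ), (ι f).coeff n ∈ A k n) ∧
      (∀ i, ι (ellP k i) = HahnSeries.single 4 (ellK k i)) ∧
      ∀ c : k, ι (MvPowerSeries.C c) = HahnSeries.single 0 (algebraMap k (Kf k) c) := by
  let a : Fin 3 → PowerSeries (Kf k) := ![PowerSeries.X,
    PowerSeries.C (yK k) * PowerSeries.X ^ 4, PowerSeries.C (zK k) * PowerSeries.X ^ 4]
  have ha : MvPowerSeries.HasSubst a := MvPowerSeries.hasSubst_of_constantCoeff_zero fun s => by
    change PowerSeries.constantCoeff (a s) = 0
    fin_cases s <;> simp [a]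
  let φ : MvPowerSeries (Fin 3) k →ₐ[k] PowerSeries (Kf k) := MvPowerSeries.substAlgHom ha
  have hX : ∀ s, φ (MvPowerSeries.X s) = a s := MvPowerSeries.substAlgHom_X ha
  have hC : ∀ c : k, φ (MvPowerSeries.C c) = PowerSeries.C (algebraMap k (Kf k) c) := fun c => by
    have := φ.commutes c
    rwa [MvPowerSeries.algebraMap_apply, PowerSeries.algebraMap_apply] at this
  refine ⟨(HahnSeries.ofPowerSeries ℤ (Kf k)).comp φ.toRingHom, fun f n => ?_, fun i => ?_,
    fun c => ?_⟩
  · change (HahnSeries.ofPowerSeries ℤ (Kf k) (φ f)).coeff n ∈ _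
    rw [PowerSeries.coeff_coe]
    split_ifs with hn
    · exact zero_mem _
    obtain ⟨m, rfl⟩ := Int.eq_ofNat_of_zero_le (not_lt.1 hn)
    rw [Int.natAbs_natCast]
    change MvPowerSeries.coeff (Finsupp.single () m) (MvPowerSeries.substAlgHom ha f) ∈ _
    rw [MvPowerSeries.substAlgHom_apply, MvPowerSeries.coeff_subst ha]
    refine finsum_induction (· ∈ A k m) (zero_mem _) (fun _ _ => add_mem) fun d => ?_
    refine Submodule.smul_mem _ _ ?_
    change PowerSeries.coeff m (d.prod fun s e => a s ^ e) ∈ _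
    have : (d.prod fun s e => a s ^ e) = PowerSeries.C (yK k ^ d 1 * zK k ^ d 2) *
        PowerSeries.X ^ (d 0 + 4 * d 1 + 4 * d 2) := by
      rw [Finsupp.prod_fintype _ _ (by simp), Fin.prod_univ_three]
      simp only [a, Matrix.cons_val_zero, Matrix.cons_val_one, Matrix.cons_val, map_mul, map_pow]
      ring
    rw [this, PowerSeries.coeff_C_mul, PowerSeries.coeff_X_pow]
    split_ifs with h
    · rw [mul_one]; exact monomial_mem_A (by omega)
    · simp
  · have : φ (ellP k i) = PowerSeries.C (ellK k i) * PowerSeries.X ^ 4 := by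
      simp only [ellP, map_add, map_mul, map_pow, hX, hC, ellK, ell, map_one, map_intCast]
      simp only [a, Matrix.cons_val_zero, Matrix.cons_val_one, Matrix.cons_val, yK, zK]
      ring
    change HahnSeries.ofPowerSeries ℤ (Kf k) (φ _) = _
    rw [this, map_mul, HahnSeries.ofPowerSeries_C, HahnSeries.ofPowerSeries_X_pow,
      HahnSeries.C_apply, HahnSeries.single_mul_single]
    simp
  · change HahnSeries.ofPowerSeries ℤ (Kf k) (φ _) = _
    rw [hC, HahnSeries.ofPowerSeries_C, HahnSeries.C_apply]

theorem ellP_rel (k : Type) [Field k] (T : Tr) :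
    ((musq T 0 : ℤ) : MvPowerSeries (Fin 3) k) * ellP k (ta T) - (musq T 1 : ℤ) * ellP k (tb T)
      = (musq T 2 : ℤ) * ellP k (tc T) := by
  have h : cf (tc T) = - cf (ta T) - cf (tb T) := by have := cf_sum T; omega
  simp only [musq, ellP, Matrix.cons_val_zero, Matrix.cons_val_one, Matrix.cons_val, h, map_pow,
    map_intCast]
  push_cast
  ring

theorem exists_op {L : Type} [Field L] [IsAlgClosed L] [CharZero L] (l : Ln → L)
    (μ : Tr → Fin 3 → L)
    (h : ∀ T, μ T 0 ^ 2 * l (ta T) - μ T 1 ^ 2 * l (tb T) = μ T 2 ^ 2 * l (tc T)) :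
    ∃ op : Gen → L, Rel l μ op := by
  choose u hu using fun i => IsAlgClosed.exists_eq_mul_self (l i)
  choose s hs using fun T => IsAlgClosed.exists_eq_mul_self
    ((μ T 0 * u (ta T) + μ T 1 * u (tb T)) / 2)
  have : ∀ T, ∃ t, (μ T 0 * u (ta T) - μ T 1 * u (tb T)) / 2 = t * t ∧
      2 * (s T * t) = μ T 2 * u (tc T) := by
    intro T
    obtain ⟨t, ht⟩ := IsAlgClosed.exists_eq_mul_self ((μ T 0 * u (ta T) - μ T 1 * u (tb T)) / 2)
    have e : (2 * (s T * t)) ^ 2 = (μ T 2 * u (tc T)) ^ 2 := by
      have h1 := h T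
      rw [hu (ta T), hu (tb T), hu (tc T)] at h1
      have h2 := hs T
      linear_combination h1 - 4 * (t * t) * h2 - 2 * (μ T 0 * u (ta T) + μ T 1 * u (tb T)) * ht
    rcases sq_eq_sq_iff_eq_or_eq_neg.1 e with e | e
    · exact ⟨t, ht, e⟩
    · exact ⟨-t, by rw [ht]; ring, by linear_combination -e⟩
  choose t ht1 ht2 using this
  refine ⟨fun j => match j with | .u i => u i | .s T => s T | .t T => t T,
    fun _ _ => Commute.all _ _, fun i => (hu i).symm, fun T => ?_, fun T => ?_, ht2⟩
  · simp only [← hs, ← ht1]; ring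
  · simp only [← hs, ← ht1]; ring

theorem Rel.ss {E : Type} [CommRing E] {L : Ln → E} {μ : Tr → Fin 3 → E} {op : Gen → E}
    (h : Rel L μ op) {c : E} (hc : 2 * c = 1) (T : Tr) :
    op (.s T) ^ 2 = c * (μ T 0 * op (.u (ta T)) + μ T 1 * op (.u (tb T))) ∧
    op (.t T) ^ 2 = c * (μ T 0 * op (.u (ta T)) - μ T 1 * op (.u (tb T))) := by
  have h1 := h.add T
  have h2 := h.sub T
  constructor
  · linear_combination c * h1 + c * h2 - op (.s T) ^ 2 * hc
  · linear_combination c * h1 - c * h2 - op (.t T) ^ 2 * hc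

theorem exists_ring (k : Type) [Field k] [CharZero k] (μ : Tr → Fin 3 → k)
    (hμ : ∀ T r, μ T r ^ 2 = (musq T r : k)) :
    ∃ (R : Type) (_ : CommRing R) (_ : IsDomain R) (_ : IsNoetherianRing R) (_ : IsLocalRing R)
      (_ : Algebra (MvPowerSeries (Fin 3) k) R),
      Module.Finite (MvPowerSeries (Fin 3) k) R ∧ IsAdicComplete (IsLocalRing.maximalIdeal R) R ∧
      ringKrullDim R = 3 ∧
      ∃ op : Gen → R, Rel (fun i => algebraMap (MvPowerSeries (Fin 3) k) R (ellP k i))
        (fun T r => algebraMap (MvPowerSeries (Fin 3) k) R (MvPowerSeries.C (μ T r))) op := by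
  have : IsDomain (MvPowerSeries (Fin 3) k) := NoZeroDivisors.to_isDomain _
  let L := AlgebraicClosure (FractionRing (MvPowerSeries (Fin 3) k))
  have hinj : Function.Injective (algebraMap (MvPowerSeries (Fin 3) k) L) := by
    rw [IsScalarTower.algebraMap_eq _ (FractionRing (MvPowerSeries (Fin 3) k)) L]
    exact (algebraMap (FractionRing (MvPowerSeries (Fin 3) k)) L).injective.comp
      (IsFractionRing.injective _ _)
  have : CharZero (MvPowerSeries (Fin 3) k) := algebraRat.charZero _
  have : CharZero L := charZero_of_injective_algebraMap hinj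
  obtain ⟨op, hop⟩ := exists_op (fun i => algebraMap _ L (ellP k i))
    (fun T r => algebraMap _ L (MvPowerSeries.C (σ := Fin 3) (μ T r))) fun T => by
      simp only [← map_pow, hμ, ← map_mul, ← map_sub]
      congr 1
      simp only [map_intCast]
      exact ellP_rel k T
  have h2 : (2 : MvPowerSeries (Fin 3) k) * MvPowerSeries.C (2⁻¹ : k) = 1 := by
    rw [← map_ofNat (MvPowerSeries.C (σ := Fin 3) (R := k)) 2, ← map_mul,
      mul_inv_cancel₀ two_ne_zero, map_one]
  have hu : ∀ i, IsIntegral (MvPowerSeries (Fin 3) k) (op (.u i)) := fun i =>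
    .of_pow two_pos (by rw [sq, hop.uu]; exact isIntegral_algebraMap)
  have hint : ∀ j, IsIntegral (MvPowerSeries (Fin 3) k) (op j) := by
    have hc : 2 * algebraMap _ L (MvPowerSeries.C (σ := Fin 3) (2⁻¹ : k)) = 1 := by
      simpa only [map_mul, map_ofNat, map_one] using congrArg (algebraMap _ L) h2
    rintro (i | T | T)
    · exact hu i
    · exact .of_pow two_pos (by
        rw [(hop.ss hc T).1]
        exact isIntegral_algebraMap.mul ((isIntegral_algebraMap.mul (hu _)).add
          (isIntegral_algebraMap.mul (hu _))))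
    · exact .of_pow two_pos (by
        rw [(hop.ss hc T).2]
        exact isIntegral_algebraMap.mul ((isIntegral_algebraMap.mul (hu _)).sub
          (isIntegral_algebraMap.mul (hu _))))
  let R := Algebra.adjoin (MvPowerSeries (Fin 3) k) (Set.range op)
  have hfin : Module.Finite (MvPowerSeries (Fin 3) k) R :=
    Algebra.finite_adjoin_of_finite_of_isIntegral (Set.finite_range op)
      (by rintro _ ⟨j, rfl⟩; exact hint j)
  have : IsNoetherianRing R := Algebra.FiniteType.isNoetherianRing (MvPowerSeries (Fin 3) k) R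
  let op' : Gen → R := fun j => ⟨op j, Algebra.subset_adjoin ⟨j, rfl⟩⟩
  have hop' : Rel (fun i => algebraMap (MvPowerSeries (Fin 3) k) R (ellP k i))
      (fun T r => algebraMap (MvPowerSeries (Fin 3) k) R (MvPowerSeries.C (μ T r))) op' :=
    Rel.of_injective R.val.toRingHom Subtype.val_injective hop
  have hloc : IsLocalRing R := by
    refine local_of_gens (Algebra.adjoin_adjoin_coe_preimage (s := Set.range op)) fun P hP => ?_
    have hu' : ∀ i, op' (.u i) ∈ P := fun i => hP.isPrime.mem_of_pow_mem 2 (by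
      rw [sq, hop'.uu]
      refine map_max_le hP (Ideal.mem_map_of_mem _ ?_)
      simp [ellP, MvPowerSeries.isUnit_iff_constantCoeff])
    have hc : 2 * algebraMap _ R (MvPowerSeries.C (σ := Fin 3) (2⁻¹ : k)) = 1 := by
      simpa only [map_mul, map_ofNat, map_one] using congrArg (algebraMap _ R) h2
    rintro x ⟨j, hj⟩
    rw [show x = op' j from Subtype.ext hj.symm]
    rcases j with i | T | T
    · exact hu' i
    · exact hP.isPrime.mem_of_pow_mem 2 (by
        rw [(hop'.ss hc T).1]
        exact P.mul_mem_left _ (add_mem (P.mul_mem_left _ (hu' _)) (P.mul_mem_left _ (hu' _))))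
    · exact hP.isPrime.mem_of_pow_mem 2 (by
        rw [(hop'.ss hc T).2]
        exact P.mul_mem_left _ (sub_mem (P.mul_mem_left _ (hu' _)) (P.mul_mem_left _ (hu' _))))
  have : IsPrecomplete (IsLocalRing.maximalIdeal (MvPowerSeries (Fin 3) k))
      (MvPowerSeries (Fin 3) k) := by
    have e : Ideal.span (Set.range MvPowerSeries.X) =
        IsLocalRing.maximalIdeal (MvPowerSeries (Fin 3) k) := by
      rw [← maximalIdeal_mvPowerSeries, Ideal.ofList]
      congr 1
      ext f
      simp [Fin.exists_fin_succ, eq_comm]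
    rw [← e]; infer_instance
  have : FaithfulSMul (MvPowerSeries (Fin 3) k) R :=
    (faithfulSMul_iff_algebraMap_injective _ _).2 fun a b e => hinj (congrArg Subtype.val e)
  exact ⟨R, inferInstance, inferInstance, inferInstance, hloc, inferInstance, hfin,
    complete_of_finite (A := MvPowerSeries (Fin 3) k),
    le_antisymm (dim_le_of_gens (maximalIdeal_mvPowerSeries k))
      ((le_dim_mvPowerSeries k 3).trans dim_le_of_integral), op', hop'⟩

end Vale.Agent.P190
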