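import Vale.Agent.P190.TransferA

/-!
Transfer, part B: an abstract ring of approximations and the transfer of the inequality.
-/

set_option linter.unusedSectionVars false

noncomputable section

namespace Vale.Agent.P190

open Module Filter

/-- A ring `S` of fractions over `k` together with approximations over the fields `kk i`. -/
structure Approx {I : Type} (F : Filter I) (k : Type) [Field k] (kk : I → Type)
    [∀ i, Field (kk i)] (S : Type) [CommRing S] (π0 : S →+* Kf k) (π : ∀ i, S →+* Kf (kk i)) :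
    Prop where
  surj : Function.Surjective π0
  ker : ∀ s, π0 s = 0 ↔ ∀ᶠ i in F, π i s = 0
  memA : ∀ s n, π0 s ∈ A k n → ∀ᶠ i in F, π i s ∈ A (kk i) n
  lift : ∀ (n : ℤ) (xs : ∀ i, Kf (kk i)), (∀ᶠ i in F, xs i ∈ A (kk i) n) →
    ∃ s, ∀ᶠ i in F, π i s = xs i
  ht : ∀ (σ ι : Type) [Fintype σ] [Fintype ι] (v : ι → σ → S) (d : ι → ℤ),
    ∀ᶠ i in F, ∀ n, (Fam.gen (fun j s => π0 (v j s)) d : Fam k (σ → Kf k)).h n ≤
      (Fam.gen (fun j s => π i (v j s)) d : Fam (kk i) (σ → Kf (kk i))).h n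

variable {I : Type} {k : Type} [Field k] {kk : I → Type} [∀ i, Field (kk i)]
  {S : Type} [CommRing S] {π0 : S →+* Kf k} {π : ∀ i, S →+* Kf (kk i)}

section General

variable {F : Filter I}

theorem Approx.eq_iff (H : Approx F k kk S π0 π) (s t : S) :
    π0 s = π0 t ↔ ∀ᶠ i in F, π i s = π i t := by
  rw [← sub_eq_zero, ← map_sub, H.ker]
  simp only [map_sub, sub_eq_zero]

theorem Approx.mem_gen (H : Approx F k kk S π0 π) {σ ι : Type} [Fintype σ] [Fintype ι]
    (v : ι → σ → S) (d : ι → ℤ) (w : σ → S) {n : ℤ}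
    (hw : (fun s => π0 (w s)) ∈ (Fam.gen (fun j s => π0 (v j s)) d : Fam k (σ → Kf k)) n) :
    ∀ᶠ i in F, (fun s => π i (w s)) ∈
      (Fam.gen (fun j s => π i (v j s)) d : Fam (kk i) (σ → Kf (kk i))) n := by
  obtain ⟨c, hc, hcw⟩ := Fam.mem_gen.1 hw
  choose c' hc' using fun j => H.surj (c j)
  have h1 : ∀ᶠ i in F, ∀ j, π i (c' j) ∈ A (kk i) (n - d j) :=
    eventually_all.2 fun j => H.memA _ _ (hc' j ▸ hc j)
  have h2 : ∀ᶠ i in F, ∀ s, π i (∑ j, c' j * v j s) = π i (w s) :=
    eventually_all.2 fun s => (H.eq_iff _ _).1 (by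
      have := congrFun hcw s
      simpa [map_sum, hc', Finset.sum_apply] using this)
  filter_upwards [h1, h2] with i k1 k2
  refine Fam.mem_gen.2 ⟨fun j => π i (c' j), k1, ?_⟩
  funext s
  simpa [map_sum, Finset.sum_apply] using k2 s

/-- Hilbert functions of finitely generated families are eventually constant. -/
theorem Approx.h_eq (H : Approx F k kk S π0 π) {σ ι : Type} [Fintype σ] [Fintype ι]
    (v : ι → σ → S) (d : ι → ℤ) :
    ∀ᶠ i in F, (Fam.gen (fun j s => π i (v j s)) d : Fam (kk i) (σ → Kf (kk i))).h =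
      (Fam.gen (fun j s => π0 (v j s)) d : Fam k (σ → Kf k)).h := by
  set lc := Fintype.linearCombination (Kf k) (fun j s => π0 (v j s) : ι → σ → Kf k) with hlc
  obtain ⟨N, z, e, hz⟩ := ((Fam.bdd_free (k := k) d).inf (LinearMap.ker lc)).fg
  choose z' hz' using fun l j => H.surj (z l j)
  have hzz : (fun l j => π0 (z' l j)) = z := by
    funext l j
    exact hz' l j
  have hmem : ∀ l, z l ∈ ((Fam.free k d).inf (LinearMap.ker lc)) (e l) := fun l =>
    hz ▸ Fam.self_mem_gen z e l
  have h1 : ∀ᶠ i in F, ∀ l j, π i (z' l j) ∈ A (kk i) (e l - d j) :=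
    eventually_all.2 fun l => eventually_all.2 fun j =>
      H.memA _ _ (hz' l j ▸ Fam.mem_free.1 (hmem l).1 j)
  have h2 : ∀ᶠ i in F, ∀ l s, π i (∑ j, z' l j * v j s) = 0 :=
    eventually_all.2 fun l => eventually_all.2 fun s => (H.ker _).1 (by
      have h : lc (z l) = 0 := (hmem l).2
      have := congrFun h s
      simpa [hlc, map_sum, hz', Fintype.linearCombination_apply, Finset.sum_apply] using this)
  filter_upwards [h1, h2, H.ht σ ι v d, H.ht ι (Fin N) z' e] with i k1 k2 k3 k4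
  funext n
  refine le_antisymm ?_ (k3 n)
  set lci := Fintype.linearCombination (Kf (kk i))
    (fun j s => π i (v j s) : ι → σ → Kf (kk i)) with hlci
  have hle : (Fam.gen (fun l j => π i (z' l j)) e : Fam (kk i) (ι → Kf (kk i))) ≤
      (Fam.free (kk i) d).inf (LinearMap.ker lci) := by
    refine Fam.gen_le fun l => ⟨Fam.mem_free.2 (k1 l), ?_⟩
    change lci _ = 0
    funext s
    simpa [hlci, map_sum, Fintype.linearCombination_apply, Finset.sum_apply] using k2 l s
  have a1 := Fam.h_le ((Fam.bdd_free (k := kk i) d).inf (LinearMap.ker lci)) (hle n)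
  have a2 := Fam.h_inf_ker_add (Fam.bdd_free (k := kk i) d) lci n
  have a3 := Fam.h_inf_ker_add (Fam.bdd_free (k := k) d) lc n
  have a4 := k4 n
  rw [hzz, ← hz] at a4
  rw [Fam.h_free] at a2 a3
  change ((Fam.free (kk i) d).map lci).h n ≤ ((Fam.free k d).map lc).h n
  omega

/-- The endomorphism given by the image of a matrix over `S`. -/
def matEnd {K : Type} [Field K] (p : S →+* K) (σ : Type) [Fintype σ] [DecidableEq σ] :
    Matrix σ σ S →+* Module.End K (σ → K) :=
  (Matrix.toLinAlgEquiv' (R := K) (n := σ)).toRingEquiv.toRingHom.comp p.mapMatrix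

theorem matEnd_apply {K : Type} [Field K] (p : S →+* K) {σ : Type} [Fintype σ] [DecidableEq σ]
    (M : Matrix σ σ S) (w : σ → S) :
    matEnd p σ M (fun s => p (w s)) = fun s => p (M.mulVec w s) := by
  funext s
  change ((M.map p).mulVec fun s => p (w s)) s = _
  simp [Matrix.mulVec, dotProduct, map_sum]

theorem matEnd_entry {K : Type} [Field K] (p : S →+* K) {σ : Type} [Fintype σ] [DecidableEq σ]
    (M : Matrix σ σ S) (s t : σ) : matEnd p σ M (Pi.single t 1) s = p (M s t) := by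
  change ((M.map p).mulVec (Pi.single t 1)) s = _
  simp

theorem end_ext {K : Type} [Field K] {σ : Type} [Fintype σ] [DecidableEq σ]
    {P Q : Module.End K (σ → K)} (h : ∀ s t, P (Pi.single t 1) s = Q (Pi.single t 1) s) :
    P = Q :=
  (Pi.basisFun K σ).ext fun t => by
    funext s
    simpa using h s t

theorem matEnd_scalar {K : Type} [Field K] (p : S →+* K) (σ : Type) [Fintype σ] [DecidableEq σ]
    (c : S) : matEnd p σ (Matrix.scalar σ c) = algebraMap K (Module.End K (σ → K)) (p c) := by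
  refine end_ext fun s t => ?_
  rw [matEnd_entry]
  by_cases h : s = t
  · subst h
    simp
  · simp [h]

theorem Approx.matEnd_surj (H : Approx F k kk S π0 π) (σ : Type) [Fintype σ] [DecidableEq σ] :
    Function.Surjective (matEnd π0 σ) := by
  intro P
  choose M hM using fun s t => H.surj (P (Pi.single t 1) s)
  exact ⟨Matrix.of M, end_ext fun s t => by rw [matEnd_entry, Matrix.of_apply, hM]⟩

theorem Approx.matEnd_eq_iff (H : Approx F k kk S π0 π) {σ : Type} [Fintype σ] [DecidableEq σ]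
    (M N : Matrix σ σ S) :
    matEnd π0 σ M = matEnd π0 σ N ↔ ∀ᶠ i in F, matEnd (π i) σ M = matEnd (π i) σ N := by
  constructor
  · intro h
    have h1 : ∀ᶠ i in F, ∀ s t, π i (M s t) = π i (N s t) :=
      eventually_all.2 fun s => eventually_all.2 fun t => (H.eq_iff _ _).1 (by
        rw [← matEnd_entry, ← matEnd_entry, h])
    filter_upwards [h1] with i hi
    exact end_ext fun s t => by rw [matEnd_entry, matEnd_entry, hi]
  · intro h
    refine end_ext fun s t => ?_
    rw [matEnd_entry, matEnd_entry, H.eq_iff]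
    filter_upwards [h] with i hi
    rw [← matEnd_entry, ← matEnd_entry, hi]

theorem Rel.eventually {E E0 : Type} [Ring E] [Ring E0] {Ei : I → Type} [∀ i, Ring (Ei i)]
    (ψ0 : E →+* E0) (ψ : ∀ i, E →+* Ei i)
    (hψ : ∀ X Y, ψ0 X = ψ0 Y → ∀ᶠ i in F, ψ i X = ψ i Y)
    {L : Ln → E} {μ : Tr → Fin 3 → E} {op : Gen → E}
    (h : Rel (fun a => ψ0 (L a)) (fun T r => ψ0 (μ T r)) (fun j => ψ0 (op j))) :
    ∀ᶠ i in F, Rel (fun a => ψ i (L a)) (fun T r => ψ i (μ T r)) (fun j => ψ i (op j)) := by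
  have h1 : ∀ᶠ i in F, ∀ j j', ψ i (op j * op j') = ψ i (op j' * op j) :=
    eventually_all.2 fun j => eventually_all.2 fun j' => hψ _ _ (by
      rw [map_mul, map_mul]; exact (h.comm j j').eq)
  have h2 : ∀ᶠ i in F, ∀ a, ψ i (op (.u a) * op (.u a)) = ψ i (L a) :=
    eventually_all.2 fun a => hψ _ _ (by rw [map_mul]; exact h.uu a)
  have h3 : ∀ᶠ i in F, ∀ T, ψ i (op (.s T) * op (.s T) + op (.t T) * op (.t T)) =
      ψ i (μ T 0 * op (.u (ta T))) :=
    eventually_all.2 fun T => hψ _ _ (by rw [map_add, map_mul, map_mul, map_mul]; exact h.add T)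
  have h4 : ∀ᶠ i in F, ∀ T, ψ i (op (.s T) * op (.s T) - op (.t T) * op (.t T)) =
      ψ i (μ T 1 * op (.u (tb T))) :=
    eventually_all.2 fun T => hψ _ _ (by rw [map_sub, map_mul, map_mul, map_mul]; exact h.sub T)
  have h5 : ∀ᶠ i in F, ∀ T, ψ i (2 * (op (.s T) * op (.t T))) = ψ i (μ T 2 * op (.u (tc T))) :=
    eventually_all.2 fun T => hψ _ _ (by
      rw [map_mul, map_mul, map_mul, map_ofNat]; exact h.st T)
  filter_upwards [h1, h2, h3, h4, h5] with i k1 k2 k3 k4 k5
  refine ⟨fun j j' => ?_, fun a => ?_, fun T => ?_, fun T => ?_, fun T => ?_⟩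
  · have := k1 j j'
    rwa [map_mul, map_mul] at this
  · have := k2 a
    rwa [map_mul] at this
  · have := k3 T
    rwa [map_add, map_mul, map_mul, map_mul] at this
  · have := k4 T
    rwa [map_sub, map_mul, map_mul, map_mul] at this
  · have := k5 T
    rwa [map_mul, map_mul, map_mul, map_ofNat] at this

end General

theorem stab_iff_proj {K : Type} [Field K] {W : Type} [AddCommGroup W] [Module K W]
    {P : Module.End K W} (hP : P * P = P) (T : Module.End K W) :
    (∀ v ∈ LinearMap.ker P, T v ∈ LinearMap.ker P) ↔ P * T * (1 - P) = 0 := by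
  constructor
  · intro h
    refine LinearMap.ext fun v => ?_
    have h1 : (1 - P) v ∈ LinearMap.ker P := by
      change (P * (1 - P)) v = 0
      rw [mul_sub, mul_one, hP, sub_self, LinearMap.zero_apply]
    exact h _ h1
  · intro h v hv
    have h1 := LinearMap.congr_fun h v
    have hv' : P v = 0 := hv
    simpa [hv'] using h1

/-- Semistability passes to the approximations. -/
theorem Approx.ss {F : Ultrafilter I} (H : Approx (F : Filter I) k kk S π0 π)
    [∀ i, Infinite (kk i)] {σ ι : Type} [Fintype σ] [DecidableEq σ] [Fintype ι]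
    (hσ : 0 < Fintype.card σ) (v : ι → σ → S) (d : ι → ℤ) (M : Gen → Matrix σ σ S) {b : ℤ}
    (hF : Fam.free k (fun _ : σ => b) ≤ Fam.gen (fun j s => π0 (v j s)) d)
    (hS : SS (fun j => matEnd π0 σ (M j))
      (Fam.gen (fun j s => π0 (v j s)) d : Fam k (σ → Kf k))) :
    ∀ᶠ i in (F : Filter I), Fam.free (kk i) (fun _ : σ => b) ≤ Fam.gen (fun j s => π i (v j s)) d ∧
      SS (fun j => matEnd (π i) σ (M j))
      (Fam.gen (fun j s => π i (v j s)) d : Fam (kk i) (σ → Kf (kk i))) := by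
  set E : Fam k (σ → Kf k) := Fam.gen (fun j s => π0 (v j s)) d with hE
  set Ei : ∀ i, Fam (kk i) (σ → Kf (kk i)) := fun i => Fam.gen (fun j s => π i (v j s)) d with hEi
  have hsingle : ∀ {K : Type} [Field K] (p : S →+* K) (t : σ),
      (fun s => p ((Pi.single t 1 : σ → S) s)) = Pi.single t 1 := by
    intro K _ p t
    funext s
    by_cases h : s = t
    · subst h; simp
    · simp [h]
  have hFi : ∀ᶠ i in (F : Filter I), Fam.free (kk i) (fun _ : σ => b) ≤ Ei i := by
    have h1 : ∀ᶠ i in (F : Filter I), ∀ t : σ,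
        (fun s => π i ((Pi.single t 1 : σ → S) s)) ∈ Ei i b :=
      eventually_all.2 fun t => H.mem_gen v d _ (by
        rw [hsingle]; exact hF b (tr_single_mem_free b t))
    filter_upwards [h1] with i hi
    exact tr_free_le fun t => hsingle (π i) t ▸ hi t
  have hh : ∀ᶠ i in (F : Filter I), (Ei i).h = E.h := H.h_eq v d
  refine hFi.and ?_
  by_contra hcon
  have hns := Ultrafilter.eventually_not.2 hcon
  set B : ℤ := |(Fintype.card σ : ℤ) * b - E.m 1| with hB
  have hex : ∀ᶠ i in (F : Filter I), ∃ (P : Module.End (Kf (kk i)) (σ → Kf (kk i)))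
      (g : Kf (kk i)), g ≠ 0 ∧ g ∈ A (kk i) B ∧
      (∀ s t, g * P (Pi.single t 1) s ∈ A (kk i) B) ∧ P * P = P ∧
      (∀ j, P * matEnd (π i) σ (M j) * (1 - P) = 0) ∧
      (Fintype.card σ : ℤ) * (Ei i).deg (LinearMap.ker P) <
        (finrank (Kf (kk i)) (LinearMap.ker P) : ℤ) * (Ei i).m 1 := by
    filter_upwards [hns, hFi, hh] with i k1 k2 k3
    unfold SS at k1
    push Not at k1
    obtain ⟨U, hU1, hU2⟩ := k1
    rw [Module.finrank_fintype_fun_eq_card] at hU2
    obtain ⟨P, g, a1, a2, a3, a4, a5⟩ := tr_destab hσ (Fam.bdd_gen _ _) k2 U hU2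
    rw [tr_m_congr k3] at a2 a3
    subst a4
    exact ⟨P, g, a1, a2, a3, a5, fun j => (stab_iff_proj a5 _).1 (hU1 j), hU2⟩
  obtain ⟨P, hP⟩ := Filter.skolem.1 hex
  obtain ⟨g, hg⟩ := Filter.skolem.1 hP
  obtain ⟨g', hg'⟩ := H.lift B g (hg.mono fun i hi => hi.2.1)
  choose N hN using fun s t => H.lift B (fun i => g i * P i (Pi.single t 1) s)
    (hg.mono fun i hi => hi.2.2.1 s t)
  have hg0 : π0 g' ≠ 0 := by
    intro h
    obtain ⟨i, k1, k2, k3⟩ := (((H.ker _).1 h).and (hg'.and hg)).exists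
    exact k3.1 (k2 ▸ k1)
  obtain ⟨u, hu⟩ := H.surj (π0 g')⁻¹
  have hu' : ∀ᶠ i in (F : Filter I), π i (u * g') = π i 1 :=
    (H.eq_iff _ _).1 (by rw [map_mul, hu, map_one, inv_mul_cancel₀ hg0])
  set Q : Matrix σ σ S := Matrix.of fun s t => u * N s t with hQ
  have hQi : ∀ᶠ i in (F : Filter I), matEnd (π i) σ Q = P i := by
    have h1 : ∀ᶠ i in (F : Filter I), ∀ s t, π i (N s t) = g i * P i (Pi.single t 1) s :=
      eventually_all.2 fun s => eventually_all.2 fun t => hN s t
    filter_upwards [h1, hu', hg'] with i k1 k2 k3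
    refine end_ext fun s t => ?_
    rw [map_mul, k3, map_one] at k2
    rw [matEnd_entry, hQ, Matrix.of_apply, map_mul, k1, ← mul_assoc, k2, one_mul]
  set P0 := matEnd π0 σ Q with hP0
  have hidem : P0 * P0 = P0 := by
    rw [hP0, ← map_mul, H.matEnd_eq_iff]
    filter_upwards [hQi, hg] with i k1 k2
    rw [map_mul, k1, k2.2.2.2.1]
  have hstab : Stab (fun j => matEnd π0 σ (M j)) (LinearMap.ker P0) := by
    intro j
    rw [stab_iff_proj hidem]
    have : matEnd π0 σ (Q * M j * (1 - Q)) = matEnd π0 σ 0 := by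
      rw [H.matEnd_eq_iff]
      filter_upwards [hQi, hg] with i k1 k2
      rw [map_mul, map_mul, map_sub, map_one, k1, map_zero, k2.2.2.2.2.1 j]
    rwa [map_mul, map_mul, map_sub, map_one, map_zero] at this
  have hss := hS _ hstab
  rw [Module.finrank_fintype_fun_eq_card] at hss
  have hq := H.h_eq (fun j => Q.mulVec (v j)) d
  obtain ⟨i, k1, k2, k3, k4, k5⟩ := (hq.and (hQi.and (hg.and (hh.and hFi)))).exists
  have e0 : E.map P0 = Fam.gen (fun j s => π0 (Q.mulVec (v j) s)) d := by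
    rw [hE, tr_map_gen]
    congr 1
    funext j
    exact matEnd_apply π0 Q (v j)
  have ei : (Ei i).map (P i) = Fam.gen (fun j s => π i (Q.mulVec (v j) s)) d := by
    rw [← k2]
    simp only [hEi]
    rw [tr_map_gen]
    congr 1
    funext j
    exact matEnd_apply (π i) Q (v j)
  rw [← e0, ← ei] at k1
  have hm : ∀ j, ((Ei i).inf (LinearMap.ker (P i))).m j = (E.inf (LinearMap.ker P0)).m j := by
    intro j
    have a1 := Fam.m_inf_ker_add (G := Ei i) (Fam.bdd_gen _ _) (P i) j
    have a2 := Fam.m_inf_ker_add (G := E) (Fam.bdd_gen _ _) P0 j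
    rw [tr_m_congr k1, tr_m_congr k4] at a1
    omega
  have r1 := Fam.m0_inf (G := Ei i) (Fam.bdd_gen _ _) ((Fam.full_free _).mono k5)
    (LinearMap.ker (P i))
  have r2 := Fam.m0_inf (G := E) (Fam.bdd_gen _ _) ((Fam.full_free _).mono hF) (LinearMap.ker P0)
  have hlt := k3.2.2.2.2.2
  unfold Fam.deg at hlt hss
  rw [← r1, hm, hm, r2, tr_m_congr k4] at hlt
  exact absurd hss (not_le.2 hlt)

/-- Transfer of the inequality. -/
theorem Approx.bogRk {F : Ultrafilter I} (H : Approx (F : Filter I) k kk S π0 π)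
    [∀ i, Infinite (kk i)] {μ : Tr → Fin 3 → k} {μs : ∀ i, Tr → Fin 3 → kk i}
    (hL : ∀ a, ∃ s, π0 s = ellK k a ∧ ∀ i, π i s = ellK (kk i) a)
    (hμ : ∀ T r, ∃ s, π0 s = algebraMap k (Kf k) (μ T r) ∧
      ∀ i, π i s = algebraMap (kk i) (Kf (kk i)) (μs i T r))
    {ρ : ℕ} (hρ : 0 < ρ) (hB : ∀ᶠ i in (F : Filter I), BogRk (kk i) (μs i) ρ) : BogRk k μ ρ := by
  refine tr_coord fun op E b hF hD hS => ?_
  obtain ⟨N, v, d, rfl⟩ := hD.bdd.fg
  choose v' hv' using fun j s => H.surj (v j s)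
  obtain rfl : v = fun j s => π0 (v' j s) := by
    funext j s
    exact (hv' j s).symm
  choose M hM using fun j => H.matEnd_surj (Fin ρ) (op j)
  obtain rfl : op = fun j => matEnd π0 (Fin ρ) (M j) := by
    funext j
    exact (hM j).symm
  choose L hL0 hLi using hL
  choose m hm0 hmi using hμ
  have hrel := Rel.eventually (F := (F : Filter I)) (matEnd π0 (Fin ρ))
    (fun i => matEnd (π i) (Fin ρ)) (fun X Y h => (H.matEnd_eq_iff X Y).1 h)
    (L := fun a => Matrix.scalar (Fin ρ) (L a)) (μ := fun T r => Matrix.scalar (Fin ρ) (m T r))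
    (op := M) (by simpa only [matEnd_scalar, hL0, hm0] using hD.rel)
  have hstab : ∀ᶠ i in (F : Filter I), ∀ j l, (fun s => π i ((M j).mulVec (v' l) s)) ∈
      (Fam.gen (fun j s => π i (v' j s)) d : Fam (kk i) (Fin ρ → Kf (kk i))) (d l + wt j) :=
    eventually_all.2 fun j => eventually_all.2 fun l => H.mem_gen v' d _ (by
      rw [← matEnd_apply]
      exact hD.stab j _ _ (Fam.self_mem_gen _ d l))
  obtain ⟨i, k1, k2, k3, ⟨k4, k5⟩, k6⟩ := (hB.and (hrel.and (hstab.and
    ((H.ss (by simpa using hρ) v' d M hF hS).and (H.h_eq v' d))))).exists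
  have key := k1 (Fin ρ → Kf (kk i)) (fun j => matEnd (π i) (Fin ρ) (M j)) _ (by simp)
    ⟨by simpa only [matEnd_scalar, hLi, hmi] using k2, Fam.bdd_gen _ _,
      (Fam.full_free _).mono k4,
      fun j => tr_maps_gen _ fun l => by rw [matEnd_apply]; exact k3 j l⟩ k5
  unfold BogIneq at key ⊢
  rw [tr_m_congr k6, tr_m_congr k6, Module.finrank_fintype_fun_eq_card] at key
  rwa [Module.finrank_fintype_fun_eq_card]

end Vale.Agent.P190
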