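import Vale.Agent.P190.Denom
import Vale.Agent.P190.Arr
import Vale.Agent.P190.TransferB

/-!
Transfer from large characteristic to an ultraproduct.
-/

set_option linter.unusedSectionVars false

noncomputable section

namespace Vale.Agent.P190

open Module Filter

/-- Reduction of polynomials as a ring homomorphism. -/
def redH {R0 : Type} [CommRing R0] {k : Type} [Field k] (f : R0 →+* k) : Bp R0 →+* Kf k :=
  (toK k).toRingHom.comp (MvPolynomial.map f)

theorem redH_apply {R0 : Type} [CommRing R0] {k : Type} [Field k] (f : R0 →+* k) (b : Bp R0) :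
    redH f b = red f b := rfl

theorem redH_eq_zero {R0 : Type} [CommRing R0] {k : Type} [Field k] (f : R0 →+* k) (b : Bp R0) :
    redH f b = 0 ↔ ∀ m, f (b.coeff m) = 0 := by
  rw [redH_apply, red, ← map_zero (toK k), toK_injective.eq_iff, MvPolynomial.ext_iff]
  simp [MvPolynomial.coeff_map]

theorem redH_mem_A {R0 : Type} [CommRing R0] {k : Type} [Field k] (f : R0 →+* k) {n : ℤ}
    {b : Bp R0} (hb : b ∈ Adeg R0 n) : redH f b ∈ A k n :=
  toK_mem_A.2 (Adeg_map f hb)

theorem exists_redH_eq {R0 : Type} [CommRing R0] {k : Type} [Field k] {f : R0 →+* k}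
    (hf : Function.Surjective f) (c : Bp k) :
    ∃ b : Bp R0, b.support ⊆ c.support ∧ redH f b = toK k c := by
  classical
  choose g hg using hf
  refine ⟨∑ m ∈ c.support, MvPolynomial.monomial m (g (c.coeff m)), ?_, ?_⟩
  · intro m hm
    by_contra h
    refine MvPolynomial.mem_support_iff.1 hm ?_
    rw [MvPolynomial.coeff_sum]
    refine Finset.sum_eq_zero fun x hx => ?_
    rw [MvPolynomial.coeff_monomial, if_neg (fun e : x = m => h (e ▸ hx))]
  · rw [redH_apply, red, map_sum]
    congr 1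
    simp only [MvPolynomial.map_monomial, hg]
    exact c.as_sum.symm

theorem finite_deg (n : ℤ) : {m : Fin 2 →₀ ℕ | 4 * ((m 0 : ℤ) + (m 1 : ℤ)) ≤ n}.Finite := by
  refine (Finsupp.finite_of_degree_le (σ := Fin 2) n.toNat).subset fun m hm => ?_
  have h : 4 * ((m 0 : ℤ) + (m 1 : ℤ)) ≤ n := hm
  change Finsupp.degree m ≤ n.toNat
  rw [Finsupp.degree_eq_sum, Fin.sum_univ_two]
  omega

section Ultra

variable {I : Type} {kk : I → Type} [∀ i, Field (kk i)] {k : Type} [Field k]

theorem exists_redH_family (n : ℤ) (c : ∀ i, Bp (kk i)) :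
    ∃ b : Bp (∀ i, kk i), ∀ i, c i ∈ Adeg (kk i) n →
      redH (Pi.evalRingHom kk i) b = toK (kk i) (c i) := by
  classical
  refine ⟨∑ m ∈ (finite_deg n).toFinset, MvPolynomial.monomial m (fun i => (c i).coeff m),
    fun i hi => ?_⟩
  rw [redH_apply, red, map_sum]
  congr 1
  simp only [MvPolynomial.map_monomial, Pi.evalRingHom_apply]
  ext m
  rw [MvPolynomial.coeff_sum]
  simp only [MvPolynomial.coeff_monomial, Finset.sum_ite_eq', Set.Finite.mem_toFinset]
  split_ifs with h
  · rfl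
  · by_contra h0
    exact h (mem_Adeg.1 hi m (MvPolynomial.mem_support_iff.2 (Ne.symm h0)))

variable {F : Ultrafilter I} {f : (∀ i, kk i) →+* k}

theorem redH_ker (hker : ∀ r, f r = 0 ↔ ∀ᶠ i in (F : Filter I), r i = 0) (b : Bp (∀ i, kk i)) :
    redH f b = 0 ↔ ∀ᶠ i in (F : Filter I), redH (Pi.evalRingHom kk i) b = 0 := by
  simp only [redH_eq_zero, hker, Pi.evalRingHom_apply]
  constructor
  · intro h
    have h1 : ∀ᶠ i in (F : Filter I), ∀ m ∈ b.support, b.coeff m i = 0 :=
      (eventually_all_finset _).2 fun m _ => h m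
    filter_upwards [h1] with i hi m
    by_cases hm : m ∈ b.support
    · exact hi m hm
    · rw [MvPolynomial.notMem_support_iff.1 hm]; rfl
  · intro h m
    exact h.mono fun i hi => hi m

/-- Fractions over `k` with approximating fractions over the `kk i`. -/
def apx (F : Ultrafilter I) (f : (∀ i, kk i) →+* k) : Subring (Kf k × ∀ i, Kf (kk i)) where
  carrier := {x | ∃ a b : Bp (∀ i, kk i), redH f b ≠ 0 ∧ redH f b * x.1 = redH f a ∧
    ∀ᶠ i in (F : Filter I), redH (Pi.evalRingHom kk i) b * x.2 i = redH (Pi.evalRingHom kk i) a}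
  zero_mem' := ⟨0, 1, by simp, by simp, by simp⟩
  one_mem' := ⟨1, 1, by simp, by simp, by simp⟩
  add_mem' := by
    rintro x y ⟨a, b, h1, h2, h3⟩ ⟨a', b', h1', h2', h3'⟩
    refine ⟨a * b' + a' * b, b * b', by rw [map_mul]; exact mul_ne_zero h1 h1', ?_, ?_⟩
    · simp only [map_mul, map_add, Prod.fst_add]
      rw [← h2, ← h2']; ring
    · filter_upwards [h3, h3'] with i k1 k2
      simp only [map_mul, map_add, Prod.snd_add, Pi.add_apply]
      rw [← k1, ← k2]; ring
  mul_mem' := by
    rintro x y ⟨a, b, h1, h2, h3⟩ ⟨a', b', h1', h2', h3'⟩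
    refine ⟨a * a', b * b', by rw [map_mul]; exact mul_ne_zero h1 h1', ?_, ?_⟩
    · simp only [map_mul, Prod.fst_mul]
      rw [← h2, ← h2']; ring
    · filter_upwards [h3, h3'] with i k1 k2
      simp only [map_mul, Prod.snd_mul, Pi.mul_apply]
      rw [← k1, ← k2]; ring
  neg_mem' := by
    rintro x ⟨a, b, h1, h2, h3⟩
    refine ⟨-a, b, h1, ?_, ?_⟩
    · simp only [map_neg, Prod.fst_neg]
      rw [← h2]; ring
    · filter_upwards [h3] with i k1
      simp only [map_neg, Prod.snd_neg, Pi.neg_apply]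
      rw [← k1]; ring

/-- First projection. -/
def apx0 (F : Ultrafilter I) (f : (∀ i, kk i) →+* k) : apx F f →+* Kf k :=
  (RingHom.fst _ _).comp (apx F f).subtype

/-- The other projections. -/
def apxi (F : Ultrafilter I) (f : (∀ i, kk i) →+* k) (i : I) : apx F f →+* Kf (kk i) :=
  (Pi.evalRingHom (fun i => Kf (kk i)) i).comp ((RingHom.snd _ _).comp (apx F f).subtype)

theorem exists_apx_poly (F : Ultrafilter I) (f : (∀ i, kk i) →+* k) (a : Bp (∀ i, kk i)) :
    ∃ s : apx F f, apx0 F f s = redH f a ∧ ∀ i, apxi F f i s = redH (Pi.evalRingHom kk i) a :=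
  ⟨⟨(redH f a, fun i => redH (Pi.evalRingHom kk i) a), a, 1, by simp, by simp, by simp⟩,
    rfl, fun _ => rfl⟩

theorem approx_apx (hsurj : Function.Surjective f)
    (hker : ∀ r, f r = 0 ↔ ∀ᶠ i in (F : Filter I), r i = 0) :
    Approx (F : Filter I) k kk (apx F f) (apx0 F f) (apxi F f) := by
  have hne : ∀ b : Bp (∀ i, kk i), redH f b ≠ 0 →
      ∀ᶠ i in (F : Filter I), redH (Pi.evalRingHom kk i) b ≠ 0 := fun b hb =>
    Ultrafilter.eventually_not.2 fun h => hb ((redH_ker hker b).2 h)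
  have hk : ∀ s : apx F f, apx0 F f s = 0 ↔ ∀ᶠ i in (F : Filter I), apxi F f i s = 0 := by
    rintro ⟨x, a, b, h1, h2, h3⟩
    change x.1 = 0 ↔ ∀ᶠ i in (F : Filter I), x.2 i = 0
    constructor
    · intro h
      rw [h, mul_zero] at h2
      filter_upwards [(redH_ker hker a).1 h2.symm, h3, hne b h1] with i k1 k2 k3
      rw [k1] at k2
      exact (mul_eq_zero.1 k2).resolve_left k3
    · intro h
      have : redH f a = 0 := (redH_ker hker a).2 (by
        filter_upwards [h, h3] with i k1 k2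
        rw [← k2, k1, mul_zero])
      rw [this] at h2
      exact (mul_eq_zero.1 h2).resolve_left h1
  have heq : ∀ s t : apx F f, apx0 F f s = apx0 F f t →
      ∀ᶠ i in (F : Filter I), apxi F f i s = apxi F f i t := by
    intro s t h
    have := (hk (s - t)).1 (by rw [map_sub, h, sub_self])
    simpa only [map_sub, sub_eq_zero] using this
  refine ⟨fun c => ?_, hk, fun s n hs => ?_, fun n xs hxs => ?_, fun σ ι _ _ v d => ?_⟩
  · obtain ⟨g, e, n, hg0, ⟨g', -, rfl⟩, ⟨a', -, ha'⟩⟩ := exists_den c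
    obtain ⟨b, -, hb⟩ := exists_redH_eq hsurj g'
    obtain ⟨a, -, ha⟩ := exists_redH_eq hsurj a'
    have hb0 : redH f b ≠ 0 := hb ▸ hg0
    refine ⟨⟨(c, fun i => redH (Pi.evalRingHom kk i) a / redH (Pi.evalRingHom kk i) b),
      a, b, hb0, by rw [hb, ha]; exact ha'.symm, ?_⟩, rfl⟩
    filter_upwards [hne b hb0] with i hi
    exact mul_div_cancel₀ _ hi
  · obtain ⟨c, hc, hcs⟩ := mem_A.1 hs
    obtain ⟨b, hb1, hb2⟩ := exists_redH_eq hsurj c
    obtain ⟨t, ht0, hti⟩ := exists_apx_poly F f b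
    filter_upwards [heq s t (by rw [ht0, hb2, hcs])] with i hi
    rw [hi, hti]
    exact redH_mem_A _ (mem_Adeg.2 fun m hm => mem_Adeg.1 hc m (hb1 hm))
  · obtain ⟨c, hc⟩ := Filter.skolem.1 (hxs.mono fun i hi => mem_A.1 hi)
    obtain ⟨b, hb⟩ := exists_redH_family n c
    obtain ⟨t, -, hti⟩ := exists_apx_poly F f b
    exact ⟨t, hc.mono fun i hi => by rw [hti, hb i hi.1, hi.2]⟩
  · obtain ⟨g, e, hg0, -, ⟨g', -, rfl⟩, hv⟩ :=
      exists_common_den (fun p : ι × σ => apx0 F f (v p.1 p.2))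
    obtain ⟨b, -, hb⟩ := exists_redH_eq hsurj g'
    have hb0 : redH f b ≠ 0 := hb ▸ hg0
    have ha : ∀ j s, ∃ a : Bp (∀ i, kk i), redH f a = redH f b * apx0 F f (v j s) := by
      intro j s
      obtain ⟨c, -, hc⟩ := mem_A.1 (hv (j, s))
      obtain ⟨a, -, ha⟩ := exists_redH_eq hsurj c
      exact ⟨a, by rw [ha, hc, hb]; rfl⟩
    choose a ha using ha
    have h1 : ∀ᶠ i in (F : Filter I), ∀ j s, redH (Pi.evalRingHom kk i) (a j s) =
        redH (Pi.evalRingHom kk i) b * apxi F f i (v j s) := by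
      refine eventually_all.2 fun j => eventually_all.2 fun s => ?_
      obtain ⟨t, ht0, hti⟩ := exists_apx_poly F f (a j s)
      obtain ⟨u, hu0, hui⟩ := exists_apx_poly F f b
      filter_upwards [heq t (u * v j s) (by rw [map_mul, ht0, hu0, ha])] with i hi
      rw [← hti, hi, map_mul, hui]
    have h2 := HT_ge (F : Filter I) f (fun i => Pi.evalRingHom kk i) hsurj
      (fun r hr => (hker r).1 hr)
      (fun r hr => Ultrafilter.eventually_not.2 fun h => hr ((hker r).2 h)) a d
    filter_upwards [h1, h2, hne b hb0] with i k1 k2 k3 n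
    have e0 : (fun j s => red f (a j s)) = fun j => redH f b • fun s => apx0 F f (v j s) := by
      funext j s
      exact ha j s
    have ei : (fun j s => red (Pi.evalRingHom kk i) (a j s)) =
        fun j => redH (Pi.evalRingHom kk i) b • fun s => apxi F f i (v j s) := by
      funext j s
      exact k1 j s
    have := k2 n
    rwa [e0, ei, tr_h_gen_smul _ _ hb0, tr_h_gen_smul _ _ k3] at this

theorem redH_ell {R0 : Type} [CommRing R0] {K : Type} [Field K] (p : R0 →+* K) (a : Ln) :
    redH p (ell R0 a) = ellK K a := by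
  rw [redH_apply, red, ellK]
  congr 1
  simp [ell]

theorem redH_C {R0 : Type} [CommRing R0] {K : Type} [Field K] (p : R0 →+* K) (r : R0) :
    redH p (MvPolynomial.C r) = algebraMap K (Kf K) (p r) := by
  rw [redH_apply, red, MvPolynomial.map_C, ← (toK K).commutes]
  rfl

/-- Families vanishing along an ultrafilter. -/
def nullIdeal (F : Ultrafilter I) (kk : I → Type) [∀ i, Field (kk i)] : Ideal (∀ i, kk i) where
  carrier := {r | ∀ᶠ i in (F : Filter I), r i = 0}
  zero_mem' := Eventually.of_forall fun _ => rfl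
  add_mem' := by
    intro a b ha hb
    filter_upwards [ha, hb] with i k1 k2
    rw [Pi.add_apply, k1, k2, add_zero]
  smul_mem' := by
    intro c a ha
    filter_upwards [ha] with i k1
    rw [smul_eq_mul, Pi.mul_apply, k1, mul_zero]

theorem nullIdeal_isMaximal (F : Ultrafilter I) (kk : I → Type) [∀ i, Field (kk i)] :
    (nullIdeal F kk).IsMaximal := by
  rw [Ideal.isMaximal_iff]
  constructor
  · intro h
    obtain ⟨i, hi⟩ := Eventually.exists (show ∀ᶠ i in (F : Filter I), (1 : ∀ i, kk i) i = 0 from h)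
    exact one_ne_zero hi
  · intro J x hJ hx hxJ
    have h1 : ∀ᶠ i in (F : Filter I), x i ≠ 0 := Ultrafilter.eventually_not.2 hx
    have h2 : 1 - (fun i => (x i)⁻¹) * x ∈ nullIdeal F kk := by
      filter_upwards [h1] with i hi
      simp [hi]
    have := J.add_mem (hJ h2) (J.mul_mem_left (fun i => (x i)⁻¹) hxJ)
    rwa [sub_add_cancel] at this

end Ultra

/-- The algebraic closure of the prime field. -/
def kp (p : Nat.Primes) : Type :=
  haveI : Fact p.1.Prime := ⟨p.2⟩
  AlgebraicClosure (ZMod p.1)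

instance (p : Nat.Primes) : Field (kp p) :=
  haveI : Fact p.1.Prime := ⟨p.2⟩
  inferInstanceAs (Field (AlgebraicClosure (ZMod p.1)))

instance (p : Nat.Primes) : IsAlgClosed (kp p) :=
  haveI : Fact p.1.Prime := ⟨p.2⟩
  inferInstanceAs (IsAlgClosed (AlgebraicClosure (ZMod p.1)))

instance (p : Nat.Primes) : CharP (kp p) p.1 :=
  haveI : Fact p.1.Prime := ⟨p.2⟩
  inferInstanceAs (CharP (AlgebraicClosure (ZMod p.1)) p.1)

theorem eventually_le_prime (N : ℕ) :
    ∀ᶠ p : Nat.Primes in (hyperfilter Nat.Primes : Filter Nat.Primes), N ≤ p.1 := by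
  refine hyperfilter_le_cofinite ?_
  rw [mem_cofinite]
  refine Set.Finite.of_finite_image (f := Subtype.val) ((Set.finite_lt_nat N).subset ?_)
    Subtype.val_injective.injOn
  rintro _ ⟨p, hp, rfl⟩
  simpa using hp

theorem exists_bog_field
    (hp : ∀ ρ : ℕ, 0 < ρ → ∃ p0 : ℕ, ∀ p : ℕ, p0 ≤ p → p.Prime →
      ∀ (k : Type) [Field k] [CharP k p] [IsAlgClosed k] (μ : Tr → Fin 3 → k),
        (∀ T r, μ T r ^ 2 = (musq T r : k)) → BogRk k μ ρ) :
    ∃ (k : Type) (_ : Field k) (_ : CharZero k) (μ : Tr → Fin 3 → k),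
      (∀ T r, μ T r ^ 2 = (musq T r : k)) ∧ Bog k μ := by
  let F : Ultrafilter Nat.Primes := hyperfilter Nat.Primes
  have hmax := nullIdeal_isMaximal F kp
  let k : Type := (∀ p, kp p) ⧸ nullIdeal F kp
  let _ : Field k := Ideal.Quotient.field _
  let f : (∀ p, kp p) →+* k := Ideal.Quotient.mk _
  have hsurj : Function.Surjective f := Ideal.Quotient.mk_surjective
  have hker : ∀ r, f r = 0 ↔ ∀ᶠ p in (F : Filter Nat.Primes), r p = 0 := fun r =>
    Ideal.Quotient.eq_zero_iff_mem
  choose μs hμs using fun (p : Nat.Primes) (T : Tr) (r : Fin 3) =>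
    IsAlgClosed.exists_pow_nat_eq (musq T r : kp p) (n := 2) (by norm_num)
  have hchar : CharZero k := by
    refine charZero_of_inj_zero fun n hn => ?_
    rw [← map_natCast f, hker] at hn
    obtain ⟨p, k1, k2⟩ := (hn.and (eventually_le_prime (n + 1))).exists
    have k3 : (n : kp p) = 0 := by simpa using k1
    rw [CharP.cast_eq_zero_iff (kp p) p.1] at k3
    exact Nat.eq_zero_of_dvd_of_lt k3 (by omega)
  refine ⟨k, inferInstance, hchar, fun T r => f fun p => μs p T r, fun T r => ?_, fun ρ hρ => ?_⟩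
  · rw [← map_pow, ← map_intCast f]
    congr 1
    funext p
    simpa using hμs p T r
  · obtain ⟨p0, hp0⟩ := hp ρ hρ
    refine (approx_apx hsurj hker).bogRk (μs := μs) (fun a => ?_) (fun T r => ?_) hρ ?_
    · obtain ⟨s, h0, hi⟩ := exists_apx_poly F f (ell _ a)
      exact ⟨s, by rw [h0, redH_ell], fun i => by rw [hi, redH_ell]⟩
    · obtain ⟨s, h0, hi⟩ := exists_apx_poly F f (MvPolynomial.C fun p => μs p T r)
      exact ⟨s, by rw [h0, redH_C], fun i => by rw [hi, redH_C]; rfl⟩
    · filter_upwards [eventually_le_prime p0] with p hp'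
      exact hp0 p.1 hp' p.2 (kp p) (μs p) (hμs p)

end Vale.Agent.P190
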