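import Vale.Agent.P190.Denom
import Vale.Agent.P190.Arr

/-!
Transfer, part A: lemmas over a single field (coordinates, destabilising projections).
-/

set_option linter.unusedSectionVars false

noncomputable section

namespace Vale.Agent.P190

open Module

variable {k : Type} [Field k]
variable {V : Type} [AddCommGroup V] [Module k V] [Module (Kf k) V] [IsScalarTower k (Kf k) V]
variable {V' : Type} [AddCommGroup V'] [Module k V'] [Module (Kf k) V'] [IsScalarTower k (Kf k) V']

theorem tr_m_congr {k' : Type} [Field k'] {W : Type} [AddCommGroup W] [Module k' W]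
    [Module (Kf k') W] {G : Fam k V} {G' : Fam k' W} (h : G.h = G'.h) (j : ℕ) :
    G.m j = G'.m j := by
  unfold Fam.m
  rw [h]

theorem tr_map_gen {ι : Type} [Fintype ι] (v : ι → V) (d : ι → ℤ) (π : V →ₗ[Kf k] V') :
    (Fam.gen v d : Fam k V).map π = Fam.gen (fun j => π (v j)) d := by
  ext n w
  rw [Fam.mem_map, Fam.mem_gen]
  constructor
  · rintro ⟨u, hu, rfl⟩
    obtain ⟨c, hc, rfl⟩ := Fam.mem_gen.1 hu
    exact ⟨c, hc, by simp [map_sum]⟩
  · rintro ⟨c, hc, rfl⟩
    exact ⟨∑ j, c j • v j, Fam.mem_gen.2 ⟨c, hc, rfl⟩, by simp [map_sum]⟩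

theorem tr_h_gen_smul {ι : Type} [Fintype ι] (v : ι → V) (d : ι → ℤ) {c : Kf k} (hc : c ≠ 0) :
    (Fam.gen (fun j => c • v j) d : Fam k V).h = (Fam.gen v d : Fam k V).h := by
  have h := tr_map_gen (k := k) v d (c • LinearMap.id)
  simp only [LinearMap.smul_apply, LinearMap.id_apply] at h
  rw [← h]
  exact Fam.h_map_of_injective _ _ (fun x y hxy => smul_right_injective V hc hxy)

theorem tr_maps_gen {ι : Type} [Fintype ι] {v : ι → V} {d : ι → ℤ} {G : Fam k V'}
    (θ : V →ₗ[Kf k] V') {c : ℤ} (h : ∀ j, θ (v j) ∈ G (d j + c)) :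
    Maps (Fam.gen v d) G θ c := by
  intro n w hw
  obtain ⟨a, ha, rfl⟩ := Fam.mem_gen.1 hw
  rw [map_sum]
  refine Submodule.sum_mem _ fun j _ => ?_
  rw [map_smul]
  exact G.smul_mem (ha j) (h j) (by omega)

theorem tr_free_le {σ : Type} [Fintype σ] [DecidableEq σ] {G : Fam k (σ → Kf k)} {b : ℤ}
    (h : ∀ s, Pi.single s 1 ∈ G b) : Fam.free k (fun _ : σ => b) ≤ G := by
  intro n x hx
  have e : x = ∑ s, x s • (Pi.single s 1 : σ → Kf k) := by
    funext t
    simp [Finset.sum_apply, Pi.single_apply]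
  rw [e]
  exact Submodule.sum_mem _ fun s _ => G.smul_mem (Fam.mem_free.1 hx s) (h s) (by omega)

theorem tr_single_mem_free {σ : Type} [DecidableEq σ] (b : ℤ) (s : σ) :
    (Pi.single s 1 : σ → Kf k) ∈ Fam.free k (fun _ : σ => b) b := by
  refine Fam.mem_free.2 fun t => ?_
  by_cases h : t = s
  · subst h
    simpa using A_one (k := k) le_rfl
  · simp [h]

/-- Reduction to coordinates. -/
theorem tr_coord {μ : Tr → Fin 3 → k} {ρ : ℕ}
    (H : ∀ (op : Gen → Module.End (Kf k) (Fin ρ → Kf k)) (E : Fam k (Fin ρ → Kf k)) (b : ℤ),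
      Fam.free k (fun _ : Fin ρ => b) ≤ E → Dat μ op E → SS op E → BogIneq E) :
    BogRk k μ ρ := by
  intro V _ _ _ _ _ op E hρ hD hS
  subst hρ
  obtain ⟨B, b, hB⟩ := hD.full.exists_basis
  set φ : V ≃ₗ[Kf k] (Fin (finrank (Kf k) V) → Kf k) := B.equivFun with hφ
  have hh : (E.map φ.toLinearMap).h = E.h := Fam.h_map_of_injective E _ φ.injective
  have hrk : finrank (Kf k) (Fin (finrank (Kf k) V) → Kf k) = finrank (Kf k) V := by simp
  have key := H (fun j => φ.conjAlgEquiv (Kf k) (op j)) (E.map φ.toLinearMap) b ?_ ?_ ?_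
  · unfold BogIneq at key ⊢
    rwa [hrk, tr_m_congr hh, tr_m_congr hh] at key
  · refine tr_free_le fun s => ⟨B s, hB s, ?_⟩
    funext t
    simp [hφ, Pi.single_apply, eq_comm]
  · refine ⟨?_, hD.bdd.map _, hD.full.map _ φ.surjective, ?_⟩
    · have := hD.rel.map (φ.conjAlgEquiv (Kf k)).toRingEquiv.toRingHom
      simpa using this
    · rintro j n _ ⟨v, hv, rfl⟩
      exact ⟨op j v, hD.stab j n v hv, by simp [LinearEquiv.conjAlgEquiv_apply]⟩
  · intro U hU
    have hst : Stab op (U.comap φ.toLinearMap) := by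
      intro j v hv
      have := hU j _ hv
      simpa [LinearEquiv.conjAlgEquiv_apply] using this
    have h1 := hS _ hst
    have h2 : finrank (Kf k) (U.comap φ.toLinearMap) = finrank (Kf k) U :=
      (φ.ofSubmodule' U).finrank_eq
    have h3 : (E.map φ.toLinearMap).inf U = (E.inf (U.comap φ.toLinearMap)).map φ.toLinearMap := by
      ext n w
      constructor
      · rintro ⟨⟨v, hv, rfl⟩, hw⟩
        exact ⟨v, ⟨hv, hw⟩, rfl⟩
      · rintro ⟨v, ⟨hv, hw⟩, rfl⟩
        exact ⟨⟨v, hv, rfl⟩, hw⟩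
    have h4 : (E.map φ.toLinearMap).deg U = E.deg (U.comap φ.toLinearMap) := by
      unfold Fam.deg
      rw [h3]
      exact tr_m_congr (Fam.h_map_of_injective _ _ φ.injective) 1
    rw [hrk, tr_m_congr hh, h4, ← h2]
    exact h1

/-- A destabilising subspace is the kernel of a projection of bounded degree. -/
theorem tr_destab [Infinite k] {σ : Type} [Fintype σ] [DecidableEq σ] (hσ : 0 < Fintype.card σ)
    {E : Fam k (σ → Kf k)} (hb : E.Bdd) {b : ℤ} (hF : Fam.free k (fun _ : σ => b) ≤ E)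
    (U : Submodule (Kf k) (σ → Kf k))
    (hU : (Fintype.card σ : ℤ) * E.deg U < (finrank (Kf k) U : ℤ) * E.m 1) :
    ∃ (P : Module.End (Kf k) (σ → Kf k)) (g : Kf k), g ≠ 0 ∧
      g ∈ A k |(Fintype.card σ : ℤ) * b - E.m 1| ∧
      (∀ s t, g * P (Pi.single t 1) s ∈ A k |(Fintype.card σ : ℤ) * b - E.m 1|) ∧
      LinearMap.ker P = U ∧ P * P = P := by
  classical
  obtain ⟨κ, a, ha, hspan, hli⟩ :=
    exists_linearIndependent' (Kf k) (fun s : σ => U.mkQ (Pi.single s 1))
  have : Finite κ := Finite.of_injective a ha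
  let _ : Fintype κ := Fintype.ofFinite κ
  have htop : ⊤ ≤ Submodule.span (Kf k) (Set.range ((fun s : σ => U.mkQ (Pi.single s 1)) ∘ a)) := by
    rw [hspan]
    intro x _
    obtain ⟨y, rfl⟩ := U.mkQ_surjective x
    have e : y = ∑ s, y s • (Pi.single s 1 : σ → Kf k) := by
      funext t
      simp [Finset.sum_apply, Pi.single_apply]
    rw [e, map_sum]
    refine Submodule.sum_mem _ fun s _ => ?_
    rw [map_smul]
    exact Submodule.smul_mem _ _ (Submodule.subset_span ⟨s, rfl⟩)
  let B : Basis κ (Kf k) ((σ → Kf k) ⧸ U) := Basis.mk hli htop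
  let P' : (σ → Kf k) →ₗ[Kf k] (κ → Kf k) := B.equivFun.toLinearMap ∘ₗ U.mkQ
  have hP'a : ∀ l, P' (Pi.single (a l) 1) = Pi.single l 1 := by
    intro l
    have : U.mkQ (Pi.single (a l) 1) = B l := by simp [B]
    simp only [P', LinearMap.comp_apply, this, LinearEquiv.coe_coe]
    funext t
    simp [Pi.single_apply, eq_comm]
  have hker : LinearMap.ker P' = U := by
    simp [P', LinearMap.ker_comp]
  let J : (κ → Kf k) →ₗ[Kf k] (σ → Kf k) :=
    Fintype.linearCombination (Kf k) (fun l => (Pi.single (a l) 1 : σ → Kf k))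
  have hPJ : ∀ x, P' (J x) = x := by
    intro x
    simp only [J, Fintype.linearCombination_apply, map_sum, map_smul, hP'a]
    funext t
    simp [Finset.sum_apply, Pi.single_apply]
  have hJ : Function.Injective J := Function.LeftInverse.injective hPJ
  have hrank : finrank (Kf k) U + Fintype.card κ = Fintype.card σ := by
    have h1 := U.finrank_quotient_add_finrank
    rw [finrank_eq_card_basis B, Module.finrank_fintype_fun_eq_card] at h1
    omega
  have hcol : ∀ t, P' (Pi.single t 1) ∈ E.map P' b := fun t =>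
    ⟨_, hF b (tr_single_mem_free b t), rfl⟩
  have hFQ : Fam.free k (fun _ : κ => b) ≤ E.map P' :=
    tr_free_le fun l => hP'a l ▸ hcol (a l)
  let N : Submodule k (κ → Kf k) := Submodule.span k (Set.range fun t => P' (Pi.single t 1))
  have : Module.Finite k N := Module.Finite.span_of_finite k (Set.finite_range _)
  obtain ⟨g, D, hg0, hg, hgN, w, hwN, ξ, hw⟩ := denom_lemma N
  have hwQ : w ∈ E.map P' b :=
    (Submodule.span_le.2 (by rintro _ ⟨t, rfl⟩; exact hcol t) : N ≤ E.map P' b) hwN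
  have hm := m1_le_of_denom hg0 hw (hb.map P') hFQ hwQ
  have hsplit := Fam.m_inf_ker_add hb P' 1
  rw [hker] at hsplit
  have hD : 4 * (D : ℤ) ≤ |(Fintype.card σ : ℤ) * b - E.m 1| := by
    unfold Fam.deg at hU
    have hr : (finrank (Kf k) U : ℤ) = Fintype.card σ - Fintype.card κ := by omega
    rw [hr] at hU
    set ρ : ℤ := (Fintype.card σ : ℤ) with hρ
    set q : ℤ := (Fintype.card κ : ℤ) with hq
    have hq0 : 0 ≤ q := by omega
    have hqρ : q ≤ ρ := by omega
    have hρ0 : 0 < ρ := by omega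
    have h1 : ρ * (4 * D) < q * (ρ * b - E.m 1) := by nlinarith
    have h2 : q * (ρ * b - E.m 1) ≤ ρ * |ρ * b - E.m 1| :=
      (mul_le_mul_of_nonneg_left (le_abs_self _) hq0).trans
        (mul_le_mul_of_nonneg_right hqρ (abs_nonneg _))
    exact (lt_of_mul_lt_mul_left (h1.trans_le h2) hρ0.le).le
  refine ⟨J ∘ₗ P', g, hg0, A_mono hD hg, fun s t => ?_, ?_, ?_⟩
  · simp only [LinearMap.comp_apply, J, Fintype.linearCombination_apply, Finset.sum_apply,
      Pi.smul_apply, smul_eq_mul, Finset.mul_sum]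
    refine Submodule.sum_mem _ fun l _ => ?_
    by_cases h : s = a l
    · subst h
      simpa using A_mono hD (hgN _ (Submodule.subset_span ⟨t, rfl⟩) l)
    · simp [h]
  · rw [LinearMap.ker_comp_of_ker_eq_bot _ (LinearMap.ker_eq_bot.2 hJ), hker]
  · refine LinearMap.ext fun x => ?_
    simp [hPJ]

end Vale.Agent.P190
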