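import Vale.Agent.P190.Denom

/-!
Slope bounds give bounds for sections of a family and of its dual.
-/

noncomputable section

namespace Vale.Agent.P190

open Module

variable {k : Type} [Field k]
variable {V : Type} [AddCommGroup V] [Module k V] [Module (Kf k) V] [IsScalarTower k (Kf k) V]

/-- Coordinates and denominators for a finite dimensional subspace. -/
theorem exists_coords [Infinite k] [FiniteDimensional (Kf k) V] (L : Submodule k V)
    [Module.Finite k L] :
    ∃ (q : ℕ) (f : Fin q → V) (g : Kf k) (D : ℕ) (w : Fin q → Kf k) (ξ : Fin q → k),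
      q ≤ finrank (Kf k) V ∧ LinearIndependent (Kf k) f ∧ (∀ i, f i ∈ L) ∧ g ≠ 0 ∧
      ∑ i, w i • f i ∈ L ∧ (finrank k L : ℤ) ≤ q * aa (4 * D) ∧
      ∀ (n : ℤ) (c : Kf k), c ∈ A k n → c * (∑ s, ξ s • w s) ∈ A k n →
        ∃ c' ∈ A k (n - 4 * D), c = g * c' := by
  classical
  obtain ⟨q, hq, f, hfL, hspan, hli⟩ : ∃ q ≤ finrank (Kf k) V, ∃ f : Fin q → V, (∀ i, f i ∈ L) ∧
      Submodule.span (Kf k) (Set.range f) = Submodule.span (Kf k) (L : Set V) ∧
      LinearIndependent (Kf k) f :=
    ⟨_, Submodule.finrank_le _, Submodule.exists_fun_fin_finrank_span_eq (Kf k) (L : Set V)⟩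
  let π : (Fin q → Kf k) →ₗ[k] V := (Fintype.linearCombination (Kf k) f).restrictScalars k
  have hπ : Function.Injective π := linearIndependent_iff_injective_fintypeLinearCombination.1 hli
  have hmap : (L.comap π).map π = L := by
    apply Submodule.map_comap_eq_self
    intro v hv
    have : v ∈ Submodule.span (Kf k) (Set.range f) := hspan ▸ Submodule.subset_span hv
    rw [← Fintype.range_linearCombination] at this
    exact this
  let e := (L.comap π).equivMapOfInjective π hπ
  have hfin : Module.Finite k ((L.comap π).map π) := by rw [hmap]; infer_instance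
  have : Module.Finite k (L.comap π) := e.symm.finiteDimensional
  have hrk : finrank k L = finrank k (L.comap π) := by rw [e.finrank_eq, hmap]
  obtain ⟨g, D, hg0, -, hgN, w, hw, ξ, hξ⟩ := denom_lemma (L.comap π)
  refine ⟨q, f, g, D, w, ξ, hq, hli, hfL, hg0, ?_, ?_, hξ⟩
  · have : π w ∈ L := hw
    simpa [π, Fintype.linearCombination_apply] using this
  · let ψ : (Fin q → Kf k) →ₗ[k] (Fin q → Kf k) :=
      (LinearMap.lsmul (Kf k) (Fin q → Kf k) g).restrictScalars k
    have hmem : ∀ x ∈ L.comap π, ψ x ∈ Fam.free k (fun _ : Fin q => 0) (4 * D) := fun x hx =>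
      Fam.mem_free.2 fun s => by simpa [ψ] using hgN x hx s
    have := (Fam.bdd_free (k := k) (fun _ : Fin q => 0)).finite (4 * D)
    have h1 := LinearMap.finrank_le_finrank_of_injective (f := ψ.restrict hmem) (by
      intro x y hxy
      exact Subtype.ext (smul_right_injective _ hg0 (congrArg Subtype.val hxy)))
    have h2 := Fam.h_free (k := k) (fun _ : Fin q => 0) (4 * D)
    simp only [sub_zero, Finset.sum_const, Finset.card_univ, Fintype.card_fin, nsmul_eq_mul] at h2
    rw [← h2, hrk]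
    unfold Fam.h
    exact_mod_cast h1

theorem aa_bound {ρ c q D : ℕ} (hρ : 0 < ρ) (hq : q ≤ ρ) (h : 4 * (D : ℤ) * ρ ≤ q * (c * ρ)) :
    (q : ℤ) * aa (4 * D) ≤ ρ * aa (ρ * c) := by
  have h1 : 4 * (D : ℤ) ≤ q * c := by
    have : (0 : ℤ) < ρ := by exact_mod_cast hρ
    nlinarith
  have h2 : (q : ℤ) ≤ ρ := by exact_mod_cast hq
  have h3 : (q : ℤ) * c ≤ ρ * c := by
    have : (0 : ℤ) ≤ c := by positivity
    nlinarith
  have h4 := aa_mono (h1.trans h3)
  have h5 := aa_nonneg (4 * D)
  have h6 : (0 : ℤ) ≤ q := by positivity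
  nlinarith

/-- Sections in degrees below the mean are few. -/
theorem h_le_of_slope [Infinite k] [FiniteDimensional (Kf k) V] {G : Fam k V} (hb : G.Bdd)
    {ρ c : ℕ} (hρ : 0 < ρ) (hV : finrank (Kf k) V = ρ)
    (hs : ∀ U : Submodule (Kf k) V,
      (finrank (Kf k) U : ℤ) * (G.m 1 - (c : ℤ) * ρ) ≤ (ρ : ℤ) * G.deg U)
    {n : ℤ} (hn : ρ * n ≤ G.m 1) : G.h n ≤ ρ * aa (ρ * c) := by
  have := hb.finite n
  obtain ⟨q, f, g, D, w, ξ, hq, hli, hfL, hg, hw, hrk, hξ⟩ := exists_coords (G n)
  have hπ : Function.Injective (Fintype.linearCombination (Kf k) f) :=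
    linearIndependent_iff_injective_fintypeLinearCombination.1 hli
  have h1 := m1_le_of_denom hg hξ (hb.comap _ hπ) (b := n) (fun n' x hx => by
    rw [Fam.mem_comap, Fintype.linearCombination_apply]
    exact Submodule.sum_mem _ fun i _ => G.smul_mem (Fam.mem_free.1 hx i) (hfL i) (by omega))
    (by rw [Fam.mem_comap, Fintype.linearCombination_apply]; exact hw)
  have h2 := hs (LinearMap.range (Fintype.linearCombination (Kf k) f))
  rw [LinearMap.finrank_range_of_inj hπ, Module.finrank_fin_fun] at h2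
  have h3 : (G.comap (Fintype.linearCombination (Kf k) f)).m 1 =
      G.deg (LinearMap.range (Fintype.linearCombination (Kf k) f)) := by
    unfold Fam.deg Fam.m
    rw [Fam.h_comap_of_injective _ _ hπ]
  rw [h3, Fintype.card_fin] at h1
  refine le_trans hrk (aa_bound hρ (hV ▸ hq) ?_)
  have h4 : (0 : ℤ) ≤ q := by positivity
  have h5 : (0 : ℤ) ≤ ρ := by positivity
  nlinarith

theorem pi_surjective_of_linearIndependent {K W : Type} [Field K] [AddCommGroup W] [Module K W]
    {q : ℕ} {f : Fin q → Module.Dual K W} (hli : LinearIndependent K f) :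
    Function.Surjective (LinearMap.pi f) := by
  classical
  rw [← LinearMap.range_eq_top]
  by_contra hne
  obtain ⟨φ, hφ0, hφ⟩ := Submodule.exists_le_ker_of_lt_top _ (lt_top_iff_ne_top.2 hne)
  apply hφ0
  have hrep : ∀ x, φ x = ∑ i, x i • φ (Pi.single i 1) := fun x => by
    rw [LinearMap.pi_apply_eq_sum_univ φ x]
    refine Finset.sum_congr rfl fun i _ => ?_
    congr 2
    ext j
    simp [Pi.single_apply, eq_comm]
  have h0 := Fintype.linearIndependent_iff.1 hli (fun i => φ (Pi.single i 1)) (by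
    ext v
    have : φ (LinearMap.pi f v) = 0 := hφ ⟨v, rfl⟩
    rw [hrep] at this
    simpa [mul_comm] using this)
  ext x
  simp [h0]

/-- Sections of the dual in degrees below minus the mean are few. -/
theorem dual_le_of_slope [Infinite k] [FiniteDimensional (Kf k) V] {G : Fam k V} (hb : G.Bdd)
    (hf : G.Full) {ρ c : ℕ} (hρ : 0 < ρ) (hV : finrank (Kf k) V = ρ)
    (hs : ∀ U : Submodule (Kf k) V, (ρ : ℤ) * (G.m 1 - G.deg U) ≤
      ((ρ : ℤ) - finrank (Kf k) U) * (G.m 1 + (c : ℤ) * ρ))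
    {m : ℤ} (hm : G.m 1 ≤ ρ * (-m)) (L : Submodule k (V →ₗ[Kf k] Kf k)) [Module.Finite k L]
    (hL : ∀ l ∈ L, ∀ n, ∀ v ∈ G n, l v ∈ A k (n + m)) : (finrank k L : ℤ) ≤ ρ * aa (ρ * c) := by
  obtain ⟨q, f, g, D, w, ξ, hq, hli, hfL, hg, hw, hrk, hξ⟩ := exists_coords L
  have hsurj := pi_surjective_of_linearIndependent hli
  have h1 := le_m1_of_denom hg hξ (hf.map _ hsurj) (b := -m) (by
    rintro n _ ⟨v, hv, rfl⟩
    exact Fam.mem_free.2 fun s => by simpa using hL _ (hfL s) n v hv) (by
    rintro n _ ⟨v, hv, rfl⟩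
    simpa [mul_comm] using hL _ hw n v hv)
  have h2 := hs (LinearMap.ker (LinearMap.pi f))
  have h3 := Fam.m_inf_ker_add hb (LinearMap.pi f) 1
  have h4 := LinearMap.finrank_range_add_finrank_ker (LinearMap.pi f)
  rw [LinearMap.range_eq_top.2 hsurj, finrank_top, Module.finrank_fin_fun, hV] at h4
  have h5 : (ρ : ℤ) - finrank (Kf k) (LinearMap.ker (LinearMap.pi f)) = q := by omega
  rw [h5] at h2
  unfold Fam.deg at h2
  rw [Fintype.card_fin] at h1
  have hq' : q ≤ ρ := by omega
  refine le_trans hrk (aa_bound hρ hq' ?_)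
  have h6 : (0 : ℤ) ≤ q := by positivity
  have h7 : (0 : ℤ) ≤ ρ := by positivity
  nlinarith

end Vale.Agent.P190
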